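import Vale.Agent.Lib.P064.DisjFam
namespace Vale.Agent.Lib.P064
open Finset

theorem subOf_coe_edgeSet_ncard {W : Type} [Fintype W] [DecidableEq W] (H : SimpleGraph W)
    (U : Finset (Sym2 W)) (hU : ∀ e ∈ U, e ∈ H.edgeSet) :
    (subOf H U hU).coe.edgeSet.ncard = U.card := by
  have h1 : Sym2.map Subtype.val '' (subOf H U hU).coe.edgeSet = (U : Set (Sym2 W)) := by
    rw [SimpleGraph.Subgraph.image_coe_edgeSet_coe]
    ext e
    induction e using Sym2.ind with
    | _ a b =>
      rw [SimpleGraph.Subgraph.mem_edgeSet]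
      rfl
  rw [← Set.ncard_coe_finset U, ← h1]
  exact (Set.ncard_image_of_injective _ (Sym2.map.injective Subtype.val_injective)).symm

section Count

variable {W : Type} [Fintype W] (H : SimpleGraph W) {n : ℕ}
  (A : Finset (Sym2 (Fin n))) (hA : ∀ e ∈ A, e ∈ (⊤ : SimpleGraph (Fin n)).edgeSet)

theorem spreadCount_exists_preimage (φ : W ↪ Fin n) (hφ : A ⊆ eImg H (φ : W → Fin n))
    (v : ↥(subOf (⊤ : SimpleGraph (Fin n)) A hA).verts) : ∃ a : W, φ a = v.1 := by
  obtain ⟨w, hw⟩ := v.2
  obtain ⟨a, b, -, ha, -⟩ := (mem_eImg H (φ : W → Fin n) v.1 w).1 (hφ hw)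
  exact ⟨a, ha⟩

/-- the preimage under `φ` of a vertex spanned by `A` -/
noncomputable def spreadCountPsi (φ : W ↪ Fin n) (hφ : A ⊆ eImg H (φ : W → Fin n))
    (v : ↥(subOf (⊤ : SimpleGraph (Fin n)) A hA).verts) : W :=
  Classical.choose (spreadCount_exists_preimage H A hA φ hφ v)

theorem spreadCountPsi_spec (φ : W ↪ Fin n) (hφ : A ⊆ eImg H (φ : W → Fin n))
    (v : ↥(subOf (⊤ : SimpleGraph (Fin n)) A hA).verts) :
    φ (spreadCountPsi H A hA φ hφ v) = v.1 :=
  Classical.choose_spec (spreadCount_exists_preimage H A hA φ hφ v)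

/-- the copy of the graph spanned by `A` in `H` induced by an embedding whose edge image
contains `A` -/
noncomputable def spreadCountCopy (φ : W ↪ Fin n) (hφ : A ⊆ eImg H (φ : W → Fin n)) :
    SimpleGraph.Copy (subOf (⊤ : SimpleGraph (Fin n)) A hA).coe H where
  toHom :=
    { toFun := spreadCountPsi H A hA φ hφ
      map_rel' := by
        intro x y hxy
        have h1 : s(x.1, y.1) ∈ A := hxy
        obtain ⟨a, b, hab, ha, hb⟩ := (mem_eImg H (φ : W → Fin n) x.1 y.1).1 (hφ h1)
        have e1 : spreadCountPsi H A hA φ hφ x = a :=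
          φ.injective (by rw [spreadCountPsi_spec, ha])
        have e2 : spreadCountPsi H A hA φ hφ y = b :=
          φ.injective (by rw [spreadCountPsi_spec, hb])
        rw [e1, e2]
        exact hab }
  injective' := by
    intro x y hxy
    have hxy' : spreadCountPsi H A hA φ hφ x = spreadCountPsi H A hA φ hφ y := hxy
    apply Subtype.ext
    have h2 := congrArg φ hxy'
    rw [spreadCountPsi_spec, spreadCountPsi_spec] at h2
    exact h2

theorem spreadCountCopy_apply (φ : W ↪ Fin n) (hφ : A ⊆ eImg H (φ : W → Fin n))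
    (v : ↥(subOf (⊤ : SimpleGraph (Fin n)) A hA).verts) :
    spreadCountCopy H A hA φ hφ v = spreadCountPsi H A hA φ hφ v := rfl

/-- the restriction of the embedding to the vertices outside the copy -/
noncomputable def spreadCountRest (φ : W ↪ Fin n) (hφ : A ⊆ eImg H (φ : W → Fin n)) :
    {w : W // w ∉ Set.range (spreadCountCopy H A hA φ hφ)} ↪
      {x : Fin n // x ∉ (subOf (⊤ : SimpleGraph (Fin n)) A hA).verts} where
  toFun w := ⟨φ w.1, by
    intro hv
    apply w.2
    refine ⟨⟨φ w.1, hv⟩, ?_⟩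
    rw [spreadCountCopy_apply]
    apply φ.injective
    exact spreadCountPsi_spec H A hA φ hφ ⟨φ w.1, hv⟩⟩
  inj' := by
    intro w1 w2 h
    apply Subtype.ext
    apply φ.injective
    exact congrArg Subtype.val h

/-- recover the vertex map from a copy and an embedding of the remaining vertices -/
noncomputable def spreadCountRec
    (σ : Σ c : SimpleGraph.Copy (subOf (⊤ : SimpleGraph (Fin n)) A hA).coe H,
      ({w : W // w ∉ Set.range c} ↪ {x : Fin n // x ∉ (subOf (⊤ : SimpleGraph (Fin n)) A hA).verts}))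
    (w : W) : Fin n := by
  classical
  exact if h : w ∈ Set.range σ.1 then (Classical.choose h).1 else (σ.2 ⟨w, h⟩).1

theorem spreadCountRec_spec (φ : W ↪ Fin n) (hφ : A ⊆ eImg H (φ : W → Fin n)) :
    spreadCountRec H A hA ⟨spreadCountCopy H A hA φ hφ, spreadCountRest H A hA φ hφ⟩
      = (φ : W → Fin n) := by
  funext w
  unfold spreadCountRec
  by_cases h : w ∈ Set.range (spreadCountCopy H A hA φ hφ)
  · rw [dif_pos h]
    have hs : spreadCountPsi H A hA φ hφ (Classical.choose h) = w := Classical.choose_spec h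
    have h2 := spreadCountPsi_spec H A hA φ hφ (Classical.choose h)
    rw [hs] at h2
    exact h2.symm
  · rw [dif_neg h]
    rfl

end Count

theorem card_embeddings_containing_le {W : Type} [Fintype W] [DecidableEq W]
    (H : SimpleGraph W) (n : ℕ) (A : Finset (Sym2 (Fin n)))
    (hA : ∀ e ∈ A, e ∈ (⊤ : SimpleGraph (Fin n)).edgeSet)
    [Fintype ↥(subOf (⊤ : SimpleGraph (Fin n)) A hA).verts] :
    (Finset.univ.filter (fun φ : W ↪ Fin n => A ⊆ eImg H (φ : W → Fin n))).card
      ≤ H.labelledCopyCount (subOf (⊤ : SimpleGraph (Fin n)) A hA).coe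
        * (n - Fintype.card ↥(subOf (⊤ : SimpleGraph (Fin n)) A hA).verts).descFactorial
            (Fintype.card W - Fintype.card ↥(subOf (⊤ : SimpleGraph (Fin n)) A hA).verts) := by
  classical
  rw [← Fintype.card_subtype]
  have hinj : Function.Injective
      (fun φ : {φ : W ↪ Fin n // A ⊆ eImg H (φ : W → Fin n)} =>
        (⟨spreadCountCopy H A hA φ.1 φ.2, spreadCountRest H A hA φ.1 φ.2⟩ :
          Σ c : SimpleGraph.Copy (subOf (⊤ : SimpleGraph (Fin n)) A hA).coe H,
            ({w : W // w ∉ Set.range c} ↪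
              {x : Fin n // x ∉ (subOf (⊤ : SimpleGraph (Fin n)) A hA).verts}))) := by
    intro φ1 φ2 h
    apply Subtype.ext
    apply DFunLike.coe_injective
    have h2 := congrArg (spreadCountRec H A hA) h
    simp only [spreadCountRec_spec] at h2
    exact h2
  refine (Fintype.card_le_of_injective _ hinj).trans ?_
  rw [Fintype.card_sigma]
  have hterm : ∀ c : SimpleGraph.Copy (subOf (⊤ : SimpleGraph (Fin n)) A hA).coe H,
      Fintype.card ({w : W // w ∉ Set.range c} ↪
        {x : Fin n // x ∉ (subOf (⊤ : SimpleGraph (Fin n)) A hA).verts})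
      = (n - Fintype.card ↥(subOf (⊤ : SimpleGraph (Fin n)) A hA).verts).descFactorial
          (Fintype.card W - Fintype.card ↥(subOf (⊤ : SimpleGraph (Fin n)) A hA).verts) := by
    intro c
    rw [Fintype.card_embedding_eq]
    congr 1
    · rw [Fintype.card_subtype_compl, Fintype.card_fin]
    · rw [Fintype.card_subtype_compl]
      congr 1
      exact (Fintype.card_congr (Equiv.ofInjective (⇑c) c.injective)).symm
  have hcopy : ∀ i1 : Fintype (SimpleGraph.Copy (subOf (⊤ : SimpleGraph (Fin n)) A hA).coe H),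
      @Fintype.card _ i1 = H.labelledCopyCount (subOf (⊤ : SimpleGraph (Fin n)) A hA).coe := by
    intro i1
    unfold SimpleGraph.labelledCopyCount
    exact congrArg (fun i => @Fintype.card
      (SimpleGraph.Copy (subOf (⊤ : SimpleGraph (Fin n)) A hA).coe H) i) (Subsingleton.elim i1 _)
  rw [Finset.sum_congr rfl (fun c _ => hterm c), Finset.sum_const, Finset.card_univ, smul_eq_mul,
    hcopy]

end Vale.Agent.Lib.P064
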