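import Vale.Agent.Lib.P064.Spread0

/-!
One round of the minimum-fragment argument for a spread weighted family of finite sets (P064).
-/

namespace Vale.Agent.Lib.P064

open Finset

/-- Weight of a subset `W` of `E` under the `p`-random subset measure. -/
noncomputable def srWt {α : Type*} (E : Finset α) (p : ℝ) (W : Finset α) : ℝ :=
  p ^ W.card * (1 - p) ^ (E.card - W.card)

theorem srWt_nonneg {α : Type*} (E : Finset α) (p : ℝ) (hp0 : 0 ≤ p) (hp1 : p ≤ 1)
    (W : Finset α) : 0 ≤ srWt E p W := by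
  unfold srWt
  have h1 : 0 ≤ 1 - p := by linarith
  positivity

theorem srWt_sum {α : Type*} (E : Finset α) (p : ℝ) :
    ∑ W ∈ E.powerset, srWt E p W = 1 := by
  have h := rsExp_const E p 1
  unfold rsExp at h
  simpa [srWt] using h

theorem rsExp_eq_srWt {α : Type*} (E : Finset α) (p : ℝ) (f : Finset α → ℝ) :
    rsExp E p f = ∑ W ∈ E.powerset, srWt E p W * f W := rfl

theorem srWt_union_ge {α : Type*} [DecidableEq α] (E : Finset α) (p : ℝ) (hp0 : 0 ≤ p)
    (hp1 : p ≤ 1) (W Tf : Finset α) (hW : W ⊆ E) (hTf : Tf ⊆ E) (hd : Disjoint Tf W) (t : ℕ)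
    (ht : Tf.card = t) : srWt E p W * p ^ t ≤ srWt E p (W ∪ Tf) := by
  have hcard : (W ∪ Tf).card = W.card + t := by
    rw [Finset.card_union_of_disjoint hd.symm, ht]
  have hle : W.card + t ≤ E.card := by
    rw [← hcard]
    exact Finset.card_le_card (Finset.union_subset hW hTf)
  unfold srWt
  rw [hcard]
  have h1 : 0 ≤ 1 - p := by linarith
  have h2 : (1 - p) ^ (E.card - W.card) = (1 - p) ^ (E.card - (W.card + t)) * (1 - p) ^ t := by
    rw [← pow_add]
    congr 1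
    omega
  have h3 : (1 - p) ^ t ≤ 1 := pow_le_one₀ h1 (by linarith)
  rw [h2, pow_add]
  have h4 : 0 ≤ p ^ W.card * p ^ t * (1 - p) ^ (E.card - (W.card + t)) := by positivity
  nlinarith

theorem spread_round {α ι : Type*} [DecidableEq α] (E : Finset α) (I : Finset ι)
    (T : ι → Finset α) (F : ι → Finset α → Finset α) (μ : ι → ℝ) (q p : ℝ) (ℓ : ℕ)
    (hTE : ∀ i ∈ I, T i ⊆ E) (hTl : ∀ i ∈ I, (T i).card ≤ ℓ) (hμ : ∀ i ∈ I, 0 ≤ μ i)
    (hspread : ∀ A : Finset α, ∑ i ∈ I.filter (fun i => A ⊆ T i), μ i ≤ q ^ A.card)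
    (hq : 0 ≤ q) (hp0 : 0 ≤ p) (hp1 : p ≤ 1)
    (hF1 : ∀ i ∈ I, ∀ W : Finset α, ∃ j ∈ I, T j ⊆ T i ∪ W ∧ F i W = T j \ W)
    (hF2 : ∀ i ∈ I, ∀ W : Finset α, ∀ j ∈ I, T j ⊆ T i ∪ W →
      (F i W).card ≤ (T j \ W).card)
    (t : ℕ) :
    p ^ t * rsExp E p (fun W => ∑ i ∈ I.filter (fun i => (F i W).card = t), μ i)
      ≤ (ℓ.choose t : ℝ) * q ^ t := by
  classical
  have fact1 : ∀ i ∈ I, ∀ W : Finset α, F i W ⊆ T i ∧ Disjoint (F i W) W := by
    intro i hi W
    obtain ⟨j, hj, hsub, hF⟩ := hF1 i hi W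
    rw [hF]
    refine ⟨?_, Finset.sdiff_disjoint⟩
    intro x hx
    rw [Finset.mem_sdiff] at hx
    have hx' := hsub hx.1
    rw [Finset.mem_union] at hx'
    rcases hx' with h | h
    · exact h
    · exact absurd h hx.2
  let cand : Finset α → Finset (Finset α) := fun Z =>
    if h : ∃ j ∈ I, T j ⊆ Z then (T (Classical.choose h)).powersetCard t else ∅
  have cand_card : ∀ Z, (cand Z).card ≤ ℓ.choose t := by
    intro Z
    by_cases h : ∃ j ∈ I, T j ⊆ Z
    · simp only [cand, dif_pos h]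
      rw [Finset.card_powersetCard]
      exact Nat.choose_le_choose t (hTl _ (Classical.choose_spec h).1)
    · simp [cand, dif_neg h]
  have cand_mem : ∀ i ∈ I, ∀ W : Finset α, (F i W).card = t → F i W ∈ cand (W ∪ F i W) := by
    intro i hi W ht
    obtain ⟨j, hj, hsub, hF⟩ := hF1 i hi W
    have hjZ : T j ⊆ W ∪ F i W := by
      intro x hx
      rw [Finset.mem_union, hF, Finset.mem_sdiff]
      by_cases hxW : x ∈ W
      · exact Or.inl hxW
      · exact Or.inr ⟨hx, hxW⟩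
    have h : ∃ j ∈ I, T j ⊆ W ∪ F i W := ⟨j, hj, hjZ⟩
    simp only [cand, dif_pos h]
    have hc := Classical.choose_spec h
    have hcsub : T (Classical.choose h) ⊆ T i ∪ W := by
      intro x hx
      have hx' := hc.2 hx
      rw [Finset.mem_union] at hx' ⊢
      rcases hx' with h' | h'
      · exact Or.inr h'
      · exact Or.inl ((fact1 i hi W).1 h')
    have hle := hF2 i hi W _ hc.1 hcsub
    have hsub2 : T (Classical.choose h) \ W ⊆ F i W := by
      intro x hx
      rw [Finset.mem_sdiff] at hx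
      have hx' := hc.2 hx.1
      rw [Finset.mem_union] at hx'
      rcases hx' with h' | h'
      · exact absurd h' hx.2
      · exact h'
    have heq : T (Classical.choose h) \ W = F i W := Finset.eq_of_subset_of_card_le hsub2 hle
    rw [Finset.mem_powersetCard]
    refine ⟨?_, ht⟩
    intro x hx
    have hx' : x ∈ T (Classical.choose h) \ W := by
      rw [heq]
      exact hx
    exact (Finset.mem_sdiff.1 hx').1
  let S : Finset α → Finset ι := fun W => I.filter (fun i => (F i W).card = t)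
  let C : Finset α → Finset (Finset α) := fun W => (S W).image (fun i => F i W)
  have hC : ∀ W : Finset α, ∀ Tf ∈ C W, ∃ i ∈ I, (F i W).card = t ∧ F i W = Tf := by
    intro W Tf hTf
    simp only [C, S, Finset.mem_image, Finset.mem_filter] at hTf
    obtain ⟨i, ⟨hi, hit⟩, rfl⟩ := hTf
    exact ⟨i, hi, hit, rfl⟩
  have stepA : ∀ W : Finset α, ∑ i ∈ S W, μ i ≤ ((C W).card : ℝ) * q ^ t := by
    intro W
    have h1 : ∑ i ∈ S W, μ i
        = ∑ Tf ∈ C W, ∑ i ∈ (S W).filter (fun i => F i W = Tf), μ i :=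
      (Finset.sum_fiberwise_of_maps_to
        (fun i hi => Finset.mem_image_of_mem (fun i => F i W) hi) μ).symm
    rw [h1]
    have h2 : ∀ Tf ∈ C W, ∑ i ∈ (S W).filter (fun i => F i W = Tf), μ i ≤ q ^ t := by
      intro Tf hTf
      obtain ⟨i0, hi0, hi0t, rfl⟩ := hC W Tf hTf
      have hsub : (S W).filter (fun i => F i W = F i0 W) ⊆ I.filter (fun i => F i0 W ⊆ T i) := by
        intro i hi
        simp only [S, Finset.mem_filter] at hi ⊢
        refine ⟨hi.1.1, ?_⟩
        rw [← hi.2]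
        exact (fact1 i hi.1.1 W).1
      have h3 := Finset.sum_le_sum_of_subset_of_nonneg hsub (f := μ)
        (fun i hi _ => hμ i (Finset.mem_filter.1 hi).1)
      have h4 := hspread (F i0 W)
      rw [hi0t] at h4
      exact le_trans h3 h4
    calc ∑ Tf ∈ C W, ∑ i ∈ (S W).filter (fun i => F i W = Tf), μ i
        ≤ ∑ _Tf ∈ C W, q ^ t := Finset.sum_le_sum h2
      _ = ((C W).card : ℝ) * q ^ t := by rw [Finset.sum_const, nsmul_eq_mul]
  have stepB : ∑ W ∈ E.powerset, srWt E p W * p ^ t * ((C W).card : ℝ) ≤ (ℓ.choose t : ℝ) := by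
    have hB1 : ∑ W ∈ E.powerset, srWt E p W * p ^ t * ((C W).card : ℝ)
        = ∑ W ∈ E.powerset, ∑ _Tf ∈ C W, srWt E p W * p ^ t := by
      refine Finset.sum_congr rfl (fun W _ => ?_)
      rw [Finset.sum_const, nsmul_eq_mul, mul_comm]
    have hB2 : ∑ W ∈ E.powerset, ∑ _Tf ∈ C W, srWt E p W * p ^ t
        ≤ ∑ W ∈ E.powerset, ∑ Tf ∈ C W, srWt E p (W ∪ Tf) := by
      refine Finset.sum_le_sum (fun W hW => Finset.sum_le_sum (fun Tf hTf => ?_))
      obtain ⟨i, hi, hit, rfl⟩ := hC W Tf hTf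
      exact srWt_union_ge E p hp0 hp1 W (F i W) (Finset.mem_powerset.1 hW)
        (((fact1 i hi W).1).trans (hTE i hi)) (fact1 i hi W).2 t hit
    have hB3 : ∑ W ∈ E.powerset, ∑ Tf ∈ C W, srWt E p (W ∪ Tf)
        = ∑ x ∈ E.powerset.sigma C, srWt E p (x.1 ∪ x.2) :=
      Finset.sum_sigma' E.powerset C (fun W Tf => srWt E p (W ∪ Tf))
    let φ : (_ : Finset α) × Finset α → (_ : Finset α) × Finset α := fun x => ⟨x.1 ∪ x.2, x.2⟩
    have hinj : Set.InjOn φ (E.powerset.sigma C : Set ((_ : Finset α) × Finset α)) := by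
      rintro ⟨W, Tf⟩ hx ⟨W', Tf'⟩ hy hxy
      simp only [Finset.coe_sigma, Set.mem_sigma_iff, Finset.mem_coe] at hx hy
      obtain ⟨i, hi, _, hiF⟩ := hC W Tf hx.2
      obtain ⟨i', hi', _, hiF'⟩ := hC W' Tf' hy.2
      have hd : Disjoint Tf W := hiF ▸ (fact1 i hi W).2
      have hd' : Disjoint Tf' W' := hiF' ▸ (fact1 i' hi' W').2
      simp only [φ, Sigma.mk.injEq, heq_eq_eq] at hxy
      obtain ⟨h1, h2⟩ := hxy
      subst h2
      have hW : W = W' := by
        have e1 : (W ∪ Tf) \ Tf = W := Finset.union_sdiff_cancel_right hd.symm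
        have e2 : (W' ∪ Tf) \ Tf = W' := Finset.union_sdiff_cancel_right hd'.symm
        rw [← e1, ← e2, h1]
      subst hW
      rfl
    have hB4 : ∑ x ∈ E.powerset.sigma C, srWt E p (x.1 ∪ x.2)
        = ∑ y ∈ (E.powerset.sigma C).image φ, srWt E p y.1 :=
      (Finset.sum_image (f := fun y : (_ : Finset α) × Finset α => srWt E p y.1) hinj).symm
    have hsubset : (E.powerset.sigma C).image φ ⊆ E.powerset.sigma cand := by
      intro y hy
      rw [Finset.mem_image] at hy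
      obtain ⟨⟨W, Tf⟩, hx, rfl⟩ := hy
      rw [Finset.mem_sigma] at hx
      obtain ⟨i, hi, hit, rfl⟩ := hC W Tf hx.2
      rw [Finset.mem_sigma]
      refine ⟨?_, cand_mem i hi W hit⟩
      rw [Finset.mem_powerset]
      exact Finset.union_subset (Finset.mem_powerset.1 hx.1)
        (((fact1 i hi W).1).trans (hTE i hi))
    have hB5 : ∑ y ∈ (E.powerset.sigma C).image φ, srWt E p y.1
        ≤ ∑ y ∈ E.powerset.sigma cand, srWt E p y.1 :=
      Finset.sum_le_sum_of_subset_of_nonneg hsubset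
        (fun y _ _ => srWt_nonneg E p hp0 hp1 y.1)
    have hB6 : ∑ y ∈ E.powerset.sigma cand, srWt E p y.1
        = ∑ Z ∈ E.powerset, ∑ _Tf ∈ cand Z, srWt E p Z :=
      (Finset.sum_sigma' E.powerset cand (fun Z _ => srWt E p Z)).symm
    have hB7 : ∑ Z ∈ E.powerset, ∑ _Tf ∈ cand Z, srWt E p Z
        ≤ ∑ Z ∈ E.powerset, (ℓ.choose t : ℝ) * srWt E p Z := by
      refine Finset.sum_le_sum (fun Z _ => ?_)
      rw [Finset.sum_const, nsmul_eq_mul]
      exact mul_le_mul_of_nonneg_right (by exact_mod_cast cand_card Z)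
        (srWt_nonneg E p hp0 hp1 Z)
    have hB8 : ∑ Z ∈ E.powerset, (ℓ.choose t : ℝ) * srWt E p Z = (ℓ.choose t : ℝ) := by
      rw [← Finset.mul_sum, srWt_sum, mul_one]
    rw [hB1]
    calc ∑ W ∈ E.powerset, ∑ _Tf ∈ C W, srWt E p W * p ^ t
        ≤ ∑ W ∈ E.powerset, ∑ Tf ∈ C W, srWt E p (W ∪ Tf) := hB2
      _ = ∑ x ∈ E.powerset.sigma C, srWt E p (x.1 ∪ x.2) := hB3
      _ = ∑ y ∈ (E.powerset.sigma C).image φ, srWt E p y.1 := hB4
      _ ≤ ∑ y ∈ E.powerset.sigma cand, srWt E p y.1 := hB5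
      _ = ∑ Z ∈ E.powerset, ∑ _Tf ∈ cand Z, srWt E p Z := hB6
      _ ≤ ∑ Z ∈ E.powerset, (ℓ.choose t : ℝ) * srWt E p Z := hB7
      _ = (ℓ.choose t : ℝ) := hB8
  have hqt : 0 ≤ q ^ t := pow_nonneg hq t
  have hpt : 0 ≤ p ^ t := pow_nonneg hp0 t
  rw [rsExp_eq_srWt, Finset.mul_sum]
  calc ∑ W ∈ E.powerset, p ^ t * (srWt E p W * ∑ i ∈ I.filter (fun i => (F i W).card = t), μ i)
      ≤ ∑ W ∈ E.powerset, (srWt E p W * p ^ t * ((C W).card : ℝ)) * q ^ t := by
        refine Finset.sum_le_sum (fun W _ => ?_)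
        have hA := stepA W
        have hw := srWt_nonneg E p hp0 hp1 W
        have h5 : p ^ t * (srWt E p W * ∑ i ∈ S W, μ i)
            ≤ p ^ t * (srWt E p W * (((C W).card : ℝ) * q ^ t)) :=
          mul_le_mul_of_nonneg_left (mul_le_mul_of_nonneg_left hA hw) hpt
        calc p ^ t * (srWt E p W * ∑ i ∈ I.filter (fun i => (F i W).card = t), μ i)
            ≤ p ^ t * (srWt E p W * (((C W).card : ℝ) * q ^ t)) := h5
          _ = (srWt E p W * p ^ t * ((C W).card : ℝ)) * q ^ t := by ring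
    _ = (∑ W ∈ E.powerset, srWt E p W * p ^ t * ((C W).card : ℝ)) * q ^ t := by
        rw [Finset.sum_mul]
    _ ≤ (ℓ.choose t : ℝ) * q ^ t := mul_le_mul_of_nonneg_right stepB hqt

end Vale.Agent.Lib.P064
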