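import Vale.Agent.Lib.P064.SpreadUnion
import Vale.Agent.Lib.P064.SpreadRound
namespace Vale.Agent.Lib.P064
open Finset

/-- If all sets of the family are empty, the weighted failure probability vanishes. -/
theorem spread_fail_zero {α ι : Type*} [DecidableEq α] (E : Finset α) (μ : ι → ℝ) (ρ : ℝ)
    (I : Finset ι) (T : ι → Finset α) (hT0 : ∀ i ∈ I, (T i).card ≤ 0) :
    (∑ i ∈ I, μ i) * rsExp E ρ (fun W => if ∃ i ∈ I, T i ⊆ W then (0 : ℝ) else 1) = 0 := by
  rcases I.eq_empty_or_nonempty with h | ⟨i, hi⟩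
  · subst h
    simp
  · have hTi : T i = ∅ := Finset.card_eq_zero.mp (Nat.le_zero.mp (hT0 i hi))
    have hfun : (fun W : Finset α => if ∃ i ∈ I, T i ⊆ W then (0 : ℝ) else 1) = fun _ => 0 := by
      funext W
      rw [if_pos]
      exact ⟨i, hi, by rw [hTi]; exact Finset.empty_subset _⟩
    rw [hfun, rsExp_const, mul_zero]

/-- The failure probability lies in `[0, 1]`. -/
theorem spread_fail_range {α ι : Type*} [DecidableEq α] (E : Finset α) (ρ : ℝ)
    (h0 : 0 ≤ ρ) (h1 : ρ ≤ 1) (I : Finset ι) (T : ι → Finset α) :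
    0 ≤ rsExp E ρ (fun W => if ∃ i ∈ I, T i ⊆ W then (0 : ℝ) else 1) ∧
      rsExp E ρ (fun W => if ∃ i ∈ I, T i ⊆ W then (0 : ℝ) else 1) ≤ 1 := by
  constructor
  · have h := rsExp_mono E ρ h0 h1 (fun _ => 0)
      (fun W => if ∃ i ∈ I, T i ⊆ W then (0 : ℝ) else 1)
      (fun W _ => by split_ifs <;> norm_num)
    rwa [rsExp_const] at h
  · have h := rsExp_mono E ρ h0 h1
      (fun W => if ∃ i ∈ I, T i ⊆ W then (0 : ℝ) else 1) (fun _ => 1)
      (fun W _ => by split_ifs <;> norm_num)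
    rwa [rsExp_const] at h

theorem spread_tail_arith (lam : ℝ) (h0 : 0 ≤ lam) (h1 : lam ≤ 1) (ℓ : ℕ) :
    ∑ t ∈ Finset.Ioc (ℓ / 2) ℓ, (ℓ.choose t : ℝ) * lam ^ t ≤ (4 * lam) ^ (ℓ / 2 + 1) := by
  have step1 : ∑ t ∈ Finset.Ioc (ℓ / 2) ℓ, (ℓ.choose t : ℝ) * lam ^ t
      ≤ ∑ t ∈ Finset.Ioc (ℓ / 2) ℓ, (ℓ.choose t : ℝ) * lam ^ (ℓ / 2 + 1) := by
    apply Finset.sum_le_sum
    intro t ht
    rw [Finset.mem_Ioc] at ht
    apply mul_le_mul_of_nonneg_left _ (Nat.cast_nonneg _)
    exact pow_le_pow_of_le_one h0 h1 (by omega)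
  have step2 : ∑ t ∈ Finset.Ioc (ℓ / 2) ℓ, (ℓ.choose t : ℝ) ≤ (2 : ℝ) ^ ℓ := by
    have hsub : Finset.Ioc (ℓ / 2) ℓ ⊆ Finset.range (ℓ + 1) := by
      intro t ht
      rw [Finset.mem_Ioc] at ht
      rw [Finset.mem_range]
      omega
    calc ∑ t ∈ Finset.Ioc (ℓ / 2) ℓ, (ℓ.choose t : ℝ)
        ≤ ∑ t ∈ Finset.range (ℓ + 1), (ℓ.choose t : ℝ) :=
          Finset.sum_le_sum_of_subset_of_nonneg hsub (fun _ _ _ => Nat.cast_nonneg _)
      _ = (2 : ℝ) ^ ℓ := by
          have h := Nat.sum_range_choose ℓ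
          exact_mod_cast h
  have step3 : (2 : ℝ) ^ ℓ ≤ 4 ^ (ℓ / 2 + 1) := by
    have h4 : (4 : ℝ) ^ (ℓ / 2 + 1) = 2 ^ (2 * (ℓ / 2 + 1)) := by
      rw [pow_mul]
      norm_num
    rw [h4]
    exact pow_le_pow_right₀ (by norm_num) (by omega)
  calc ∑ t ∈ Finset.Ioc (ℓ / 2) ℓ, (ℓ.choose t : ℝ) * lam ^ t
      ≤ ∑ t ∈ Finset.Ioc (ℓ / 2) ℓ, (ℓ.choose t : ℝ) * lam ^ (ℓ / 2 + 1) := step1
    _ = (∑ t ∈ Finset.Ioc (ℓ / 2) ℓ, (ℓ.choose t : ℝ)) * lam ^ (ℓ / 2 + 1) := by
        rw [Finset.sum_mul]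
    _ ≤ 2 ^ ℓ * lam ^ (ℓ / 2 + 1) := mul_le_mul_of_nonneg_right step2 (pow_nonneg h0 _)
    _ ≤ 4 ^ (ℓ / 2 + 1) * lam ^ (ℓ / 2 + 1) :=
        mul_le_mul_of_nonneg_right step3 (pow_nonneg h0 _)
    _ = (4 * lam) ^ (ℓ / 2 + 1) := by rw [mul_pow]

theorem spread_geom_half (x : ℝ) (h0 : 0 ≤ x) (h1 : 3 * x ≤ 1) (ℓ : ℕ) :
    ∑ m ∈ Finset.Icc 1 ℓ, x ^ m ≤ (1 - x ^ ℓ) / 2 := by
  induction ℓ with
  | zero => simp
  | succ n ih =>
    rw [Finset.sum_Icc_succ_top (by omega)]
    have hx : 0 ≤ x ^ n := pow_nonneg h0 n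
    have h3 : 3 * x * x ^ n ≤ 1 * x ^ n := mul_le_mul_of_nonneg_right h1 hx
    have hpow : x ^ (n + 1) = x * x ^ n := by ring
    rw [hpow]
    linarith

/-- Main claim: the weighted failure probability after `r` rounds. -/
theorem spread_fail_aux {α ι : Type*} [DecidableEq α] (E : Finset α) (μ : ι → ℝ) (q p : ℝ)
    (hq : 0 ≤ q) (hp0 : 0 < p) (hp1 : p ≤ 1) (hqp : q ≤ p) :
    ∀ (r ℓ : ℕ), ℓ < 2 ^ r → ∀ (I : Finset ι) (T : ι → Finset α),
      (∀ i ∈ I, T i ⊆ E) → (∀ i ∈ I, (T i).card ≤ ℓ) → (∀ i ∈ I, 0 ≤ μ i) →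
      (∀ A : Finset α, ∑ i ∈ I.filter (fun i => A ⊆ T i), μ i ≤ q ^ A.card) →
      (∑ i ∈ I, μ i) * rsExp E (1 - (1 - p) ^ r)
          (fun W => if ∃ i ∈ I, T i ⊆ W then (0 : ℝ) else 1)
        ≤ ∑ m ∈ Finset.Icc 1 ℓ, (4 * (q / p)) ^ m := by
  have hlam0 : 0 ≤ q / p := div_nonneg hq hp0.le
  have hlam1 : q / p ≤ 1 := (div_le_one hp0).mpr hqp
  have hx0 : 0 ≤ 4 * (q / p) := mul_nonneg (by norm_num) hlam0
  have hp1' : 0 ≤ 1 - p := by linarith
  intro r
  induction r with
  | zero =>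
    intro ℓ hℓ I T hTE hTl hμ hspread
    have h0 : ℓ = 0 := by simpa using hℓ
    subst h0
    rw [spread_fail_zero E μ _ I T hTl]
    exact Finset.sum_nonneg (fun m _ => pow_nonneg hx0 m)
  | succ r ih =>
    intro ℓ hℓ I T hTE hTl hμ hspread
    rcases Nat.eq_zero_or_pos ℓ with h0 | hpos
    · subst h0
      rw [spread_fail_zero E μ _ I T hTl]
      exact Finset.sum_nonneg (fun m _ => pow_nonneg hx0 m)
    · have hℓ' : ℓ / 2 < 2 ^ r := by
        rw [pow_succ] at hℓ
        omega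
      obtain ⟨F, hF⟩ := exists_frag I T
      have hF1 : ∀ i ∈ I, ∀ W : Finset α, ∃ j ∈ I, T j ⊆ T i ∪ W ∧ F i W = T j \ W :=
        fun i hi W => (hF i hi W).1
      have hF2 : ∀ i ∈ I, ∀ W : Finset α, ∀ j ∈ I, T j ⊆ T i ∪ W →
          (F i W).card ≤ (T j \ W).card := fun i hi W => (hF i hi W).2
      have hFsub : ∀ i ∈ I, ∀ W : Finset α, F i W ⊆ T i := by
        intro i hi W
        obtain ⟨j, hj, hsub, heq⟩ := hF1 i hi W
        rw [heq]
        intro x hx
        rw [Finset.mem_sdiff] at hx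
        have hx' := hsub hx.1
        rw [Finset.mem_union] at hx'
        rcases hx' with h | h
        · exact h
        · exact absurd h hx.2
      have hpow0 : 0 ≤ (1 - p) ^ r := pow_nonneg hp1' r
      have hpow1 : (1 - p) ^ r ≤ 1 := pow_le_one₀ hp1' (by linarith)
      have hρ0 : 0 ≤ 1 - (1 - p) ^ r := by linarith
      have hρ1 : 1 - (1 - p) ^ r ≤ 1 := by linarith
      have hS : 0 ≤ ∑ i ∈ I, μ i := Finset.sum_nonneg hμ
      have hparam : p + (1 - (1 - p) ^ r) - p * (1 - (1 - p) ^ r) = 1 - (1 - p) ^ (r + 1) := by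
        ring
      have hunion : rsExp E p (fun W => rsExp E (1 - (1 - p) ^ r)
            (fun W' => if ∃ i ∈ I, T i ⊆ W ∪ W' then (0 : ℝ) else 1))
          = rsExp E (1 - (1 - p) ^ (r + 1))
            (fun W => if ∃ i ∈ I, T i ⊆ W then (0 : ℝ) else 1) := by
        have h := rsExp_union E p (1 - (1 - p) ^ r)
          (fun W => if ∃ i ∈ I, T i ⊆ W then (0 : ℝ) else 1)
        rw [hparam] at h
        exact h
      rw [← hunion]
      have hpt : ∀ W ∈ E.powerset,
          (∑ i ∈ I, μ i) * rsExp E (1 - (1 - p) ^ r)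
              (fun W' => if ∃ i ∈ I, T i ⊆ W ∪ W' then (0 : ℝ) else 1)
            ≤ ∑ m ∈ Finset.Icc 1 (ℓ / 2), (4 * (q / p)) ^ m
              + ∑ t ∈ Finset.Ioc (ℓ / 2) ℓ,
                  ∑ i ∈ I.filter (fun i => (F i W).card = t), μ i := by
        intro W _
        have hmono : rsExp E (1 - (1 - p) ^ r)
              (fun W' => if ∃ i ∈ I, T i ⊆ W ∪ W' then (0 : ℝ) else 1)
            ≤ rsExp E (1 - (1 - p) ^ r)
              (fun W' => if ∃ i ∈ I.filter (fun i => (F i W).card ≤ ℓ / 2), F i W ⊆ W'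
                then (0 : ℝ) else 1) := by
          apply rsExp_mono E _ hρ0 hρ1
          intro W' _
          by_cases hex : ∃ i ∈ I.filter (fun i => (F i W).card ≤ ℓ / 2), F i W ⊆ W'
          · obtain ⟨i, hi, hiW⟩ := hex
            rw [Finset.mem_filter] at hi
            obtain ⟨j, hj, -, heq⟩ := hF1 i hi.1 W
            have hex2 : ∃ i ∈ I, T i ⊆ W ∪ W' := by
              refine ⟨j, hj, ?_⟩
              intro x hx
              rw [Finset.mem_union]
              by_cases hxW : x ∈ W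
              · exact Or.inl hxW
              · right
                apply hiW
                rw [heq, Finset.mem_sdiff]
                exact ⟨hx, hxW⟩
            rw [if_pos hex2]
            split_ifs <;> norm_num
          · rw [if_neg hex]
            split_ifs <;> norm_num
        have hIH := ih (ℓ / 2) hℓ' (I.filter (fun i => (F i W).card ≤ ℓ / 2)) (fun i => F i W)
          (by
            intro i hi
            rw [Finset.mem_filter] at hi
            exact (hFsub i hi.1 W).trans (hTE i hi.1))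
          (by
            intro i hi
            rw [Finset.mem_filter] at hi
            exact hi.2)
          (by
            intro i hi
            rw [Finset.mem_filter] at hi
            exact hμ i hi.1)
          (by
            intro A
            calc ∑ i ∈ (I.filter (fun i => (F i W).card ≤ ℓ / 2)).filter (fun i => A ⊆ F i W), μ i
                ≤ ∑ i ∈ I.filter (fun i => A ⊆ T i), μ i := by
                  apply Finset.sum_le_sum_of_subset_of_nonneg
                  · intro i hi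
                    rw [Finset.mem_filter, Finset.mem_filter] at hi
                    rw [Finset.mem_filter]
                    exact ⟨hi.1.1, hi.2.trans (hFsub i hi.1.1 W)⟩
                  · intro i hi _
                    rw [Finset.mem_filter] at hi
                    exact hμ i hi.1
              _ ≤ q ^ A.card := hspread A)
        have hrange := spread_fail_range E (1 - (1 - p) ^ r) hρ0 hρ1
          (I.filter (fun i => (F i W).card ≤ ℓ / 2)) (fun i => F i W)
        have hsplit := Finset.sum_filter_add_sum_filter_not I (fun i => (F i W).card ≤ ℓ / 2) μ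
        have hBnn : 0 ≤ ∑ i ∈ I.filter (fun i => ¬ (F i W).card ≤ ℓ / 2), μ i :=
          Finset.sum_nonneg (fun i hi => hμ i (Finset.mem_filter.mp hi).1)
        have hmaps : ∀ i ∈ I.filter (fun i => ¬ (F i W).card ≤ ℓ / 2),
            (fun i => (F i W).card) i ∈ Finset.Ioc (ℓ / 2) ℓ := by
          intro i hi
          rw [Finset.mem_filter] at hi
          rw [Finset.mem_Ioc]
          show ℓ / 2 < (F i W).card ∧ (F i W).card ≤ ℓ
          have h1 := Finset.card_le_card (hFsub i hi.1 W)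
          have h2 := hTl i hi.1
          have h3 := hi.2
          constructor
          · omega
          · exact h1.trans h2
        have hBeq : ∑ i ∈ I.filter (fun i => ¬ (F i W).card ≤ ℓ / 2), μ i
            = ∑ t ∈ Finset.Ioc (ℓ / 2) ℓ,
                ∑ i ∈ I.filter (fun i => (F i W).card = t), μ i := by
          rw [← Finset.sum_fiberwise_of_maps_to hmaps μ]
          apply Finset.sum_congr rfl
          intro t ht
          rw [Finset.mem_Ioc] at ht
          apply Finset.sum_congr _ (fun _ _ => rfl)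
          ext i
          simp only [Finset.mem_filter]
          constructor
          · rintro ⟨⟨hi, -⟩, hc⟩
            exact ⟨hi, hc⟩
          · rintro ⟨hi, hc⟩
            exact ⟨⟨hi, by omega⟩, hc⟩
        rw [← hBeq]
        have hprod : (∑ i ∈ I.filter (fun i => ¬ (F i W).card ≤ ℓ / 2), μ i)
              * rsExp E (1 - (1 - p) ^ r)
                (fun W' => if ∃ i ∈ I.filter (fun i => (F i W).card ≤ ℓ / 2), F i W ⊆ W'
                  then (0 : ℝ) else 1)
            ≤ ∑ i ∈ I.filter (fun i => ¬ (F i W).card ≤ ℓ / 2), μ i := by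
          have h := mul_le_mul_of_nonneg_left hrange.2 hBnn
          rwa [mul_one] at h
        calc (∑ i ∈ I, μ i) * rsExp E (1 - (1 - p) ^ r)
              (fun W' => if ∃ i ∈ I, T i ⊆ W ∪ W' then (0 : ℝ) else 1)
            ≤ (∑ i ∈ I, μ i) * rsExp E (1 - (1 - p) ^ r)
                (fun W' => if ∃ i ∈ I.filter (fun i => (F i W).card ≤ ℓ / 2), F i W ⊆ W'
                  then (0 : ℝ) else 1) := mul_le_mul_of_nonneg_left hmono hS
          _ = (∑ i ∈ I.filter (fun i => (F i W).card ≤ ℓ / 2), μ i)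
                * rsExp E (1 - (1 - p) ^ r)
                  (fun W' => if ∃ i ∈ I.filter (fun i => (F i W).card ≤ ℓ / 2), F i W ⊆ W'
                    then (0 : ℝ) else 1)
              + (∑ i ∈ I.filter (fun i => ¬ (F i W).card ≤ ℓ / 2), μ i)
                * rsExp E (1 - (1 - p) ^ r)
                  (fun W' => if ∃ i ∈ I.filter (fun i => (F i W).card ≤ ℓ / 2), F i W ⊆ W'
                    then (0 : ℝ) else 1) := by
              rw [← hsplit, add_mul]
          _ ≤ ∑ m ∈ Finset.Icc 1 (ℓ / 2), (4 * (q / p)) ^ m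
                + ∑ i ∈ I.filter (fun i => ¬ (F i W).card ≤ ℓ / 2), μ i :=
              add_le_add hIH hprod
      have hround : ∀ t ∈ Finset.Ioc (ℓ / 2) ℓ,
          rsExp E p (fun W => ∑ i ∈ I.filter (fun i => (F i W).card = t), μ i)
            ≤ (ℓ.choose t : ℝ) * (q / p) ^ t := by
        intro t _
        have hsr := spread_round E I T F μ q p ℓ hTE hTl hμ hspread hq hp0.le hp1 hF1 hF2 t
        have hpt' : 0 < p ^ t := pow_pos hp0 t
        rw [div_pow, ← mul_div_assoc, le_div_iff₀ hpt']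
        calc rsExp E p (fun W => ∑ i ∈ I.filter (fun i => (F i W).card = t), μ i) * p ^ t
            = p ^ t * rsExp E p (fun W => ∑ i ∈ I.filter (fun i => (F i W).card = t), μ i) :=
              mul_comm _ _
          _ ≤ (ℓ.choose t : ℝ) * q ^ t := hsr
      have htail := spread_tail_arith (q / p) hlam0 hlam1 ℓ
      calc (∑ i ∈ I, μ i) * rsExp E p (fun W => rsExp E (1 - (1 - p) ^ r)
              (fun W' => if ∃ i ∈ I, T i ⊆ W ∪ W' then (0 : ℝ) else 1))
          = rsExp E p (fun W => (∑ i ∈ I, μ i) * rsExp E (1 - (1 - p) ^ r)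
              (fun W' => if ∃ i ∈ I, T i ⊆ W ∪ W' then (0 : ℝ) else 1)) :=
            (rsExp_const_mul E p _ _).symm
        _ ≤ rsExp E p (fun W => ∑ m ∈ Finset.Icc 1 (ℓ / 2), (4 * (q / p)) ^ m
              + ∑ t ∈ Finset.Ioc (ℓ / 2) ℓ,
                  ∑ i ∈ I.filter (fun i => (F i W).card = t), μ i) :=
            rsExp_mono E p hp0.le hp1 _ _ hpt
        _ = ∑ m ∈ Finset.Icc 1 (ℓ / 2), (4 * (q / p)) ^ m
              + ∑ t ∈ Finset.Ioc (ℓ / 2) ℓ,
                  rsExp E p (fun W => ∑ i ∈ I.filter (fun i => (F i W).card = t), μ i) := by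
            rw [rsExp_add, rsExp_const, rsExp_finset_sum]
        _ ≤ ∑ m ∈ Finset.Icc 1 (ℓ / 2), (4 * (q / p)) ^ m
              + ∑ t ∈ Finset.Ioc (ℓ / 2) ℓ, (ℓ.choose t : ℝ) * (q / p) ^ t :=
            add_le_add_right (Finset.sum_le_sum hround) _
        _ ≤ ∑ m ∈ Finset.Icc 1 (ℓ / 2), (4 * (q / p)) ^ m + (4 * (q / p)) ^ (ℓ / 2 + 1) :=
            add_le_add_right htail _
        _ = ∑ m ∈ Finset.Icc 1 (ℓ / 2 + 1), (4 * (q / p)) ^ m :=
            (Finset.sum_Icc_succ_top (by omega) _).symm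
        _ ≤ ∑ m ∈ Finset.Icc 1 ℓ, (4 * (q / p)) ^ m := by
            apply Finset.sum_le_sum_of_subset_of_nonneg
            · apply Finset.Icc_subset_Icc le_rfl
              omega
            · intro m _ _
              exact pow_nonneg hx0 m

theorem spread_lemma {α ι : Type*} [DecidableEq α] (E : Finset α) (I : Finset ι)
    (T : ι → Finset α) (μ : ι → ℝ) (q p : ℝ) (ℓ r : ℕ)
    (hTE : ∀ i ∈ I, T i ⊆ E) (hTl : ∀ i ∈ I, (T i).card ≤ ℓ) (hμ : ∀ i ∈ I, 0 ≤ μ i)
    (hμ1 : ∑ i ∈ I, μ i = 1)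
    (hspread : ∀ A : Finset α, ∑ i ∈ I.filter (fun i => A ⊆ T i), μ i ≤ q ^ A.card)
    (hq : 0 ≤ q) (hp0 : 0 < p) (hp1 : p ≤ 1) (hqp : 12 * q ≤ p) (hr : ℓ < 2 ^ r) :
    1 / 2 ≤ rsExp E (1 - (1 - p) ^ r)
      (fun W => if ∃ i ∈ I, T i ⊆ W then (1 : ℝ) else 0) := by
  have hqp' : q ≤ p := by linarith
  have hmain := spread_fail_aux E μ q p hq hp0 hp1 hqp' r ℓ hr I T hTE hTl hμ hspread
  rw [hμ1, one_mul] at hmain
  have hx0 : 0 ≤ 4 * (q / p) := mul_nonneg (by norm_num) (div_nonneg hq hp0.le)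
  have hx1 : 3 * (4 * (q / p)) ≤ 1 := by
    have h12 : 12 * q / p ≤ 1 := (div_le_one hp0).mpr hqp
    calc 3 * (4 * (q / p)) = 12 * q / p := by ring
      _ ≤ 1 := h12
  have hgeo := spread_geom_half (4 * (q / p)) hx0 hx1 ℓ
  have hxl : 0 ≤ (4 * (q / p)) ^ ℓ := pow_nonneg hx0 ℓ
  have hfun : (fun W : Finset α => if ∃ i ∈ I, T i ⊆ W then (1 : ℝ) else 0)
      = fun W => 1 + (-1) * (if ∃ i ∈ I, T i ⊆ W then (0 : ℝ) else 1) := by
    funext W
    split_ifs <;> norm_num
  rw [hfun, rsExp_add, rsExp_const, rsExp_const_mul]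
  linarith

end Vale.Agent.Lib.P064
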