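import Vale.Agent.Lib.P064.Thresh
import Vale.Agent.Lib.P064.SpreadLemma
import Vale.Agent.Lib.P064.SpreadCount

/-!
The containment threshold of hosts of bounded degree.  The uniform measure on the embeddings of
`H` into the complete graph on `Fin n` is `74 D q`-spread when `H` has maximum degree at most `D`
and `q` is admissible for `p_E(n,H)`; the spread lemma then gives
`p_c(n,H) ≤ 888 D (log_2 e(H) + 1) p_E(n,H)`.
-/

namespace Vale.Agent.Lib.P064

open Finset

/-- Spread property of the uniform measure on the embeddings of `H` into the complete graph: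
at most `(n)_{v(H)} (74 D q)^{|A|}` embeddings have an edge image containing `A`. -/
theorem embeddings_spread {W : Type} [Fintype W] [DecidableEq W] (H : SimpleGraph W) (n : ℕ)
    (hn : 0 < n) (hW : Fintype.card W ≤ n) (q : ℝ) (hq0 : 0 ≤ q) (hq1 : q ≤ 1)
    (hq : ∀ F : H.Subgraph, 1 / 2 ≤ gnpExp n q (fun G => (G.copyCount F.coe : ℝ)))
    (D : ℕ) (hD1 : 1 ≤ D) (hD : ∀ w : W, (H.neighborSet w).ncard ≤ D)
    (A : Finset (Sym2 (Fin n))) :
    ((Finset.univ.filter (fun φ : W ↪ Fin n => A ⊆ eImg H (φ : W → Fin n))).card : ℝ)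
      ≤ (n.descFactorial (Fintype.card W) : ℝ) * (74 * D * q) ^ A.card := by
  classical
  have hx : (0 : ℝ) ≤ 74 * D * q := by positivity
  by_cases hA : ∀ e ∈ A, e ∈ (⊤ : SimpleGraph (Fin n)).edgeSet
  · have h1 := card_embeddings_containing_le H n A hA
    have h2 := labelledCopyCount_le_desc H n hn hW q hq0 hq1 hq D hD1 hD
      (subOf (⊤ : SimpleGraph (Fin n)) A hA).coe
    rw [subOf_coe_edgeSet_ncard] at h2
    obtain ⟨a, ha⟩ : ∃ a : ℕ,
        a = Fintype.card ↥(subOf (⊤ : SimpleGraph (Fin n)) A hA).verts := ⟨_, rfl⟩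
    rw [← ha] at h1 h2
    rcases le_or_gt a (Fintype.card W) with hle | hgt
    · have h3 : (n - a).descFactorial (Fintype.card W - a) * n.descFactorial a
          = n.descFactorial (Fintype.card W) := Nat.descFactorial_mul_descFactorial hle
      have h3' : (((n - a).descFactorial (Fintype.card W - a) : ℕ) : ℝ)
          * (n.descFactorial a : ℝ) = (n.descFactorial (Fintype.card W) : ℝ) := by
        exact_mod_cast h3
      calc ((Finset.univ.filter
              (fun φ : W ↪ Fin n => A ⊆ eImg H (φ : W → Fin n))).card : ℝ)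
          ≤ (H.labelledCopyCount (subOf (⊤ : SimpleGraph (Fin n)) A hA).coe : ℝ)
              * (((n - a).descFactorial (Fintype.card W - a) : ℕ) : ℝ) := by
            exact_mod_cast h1
        _ ≤ ((n.descFactorial a : ℝ) * (74 * D * q) ^ A.card)
              * (((n - a).descFactorial (Fintype.card W - a) : ℕ) : ℝ) :=
            mul_le_mul_of_nonneg_right h2 (Nat.cast_nonneg _)
        _ = (n.descFactorial (Fintype.card W) : ℝ) * (74 * D * q) ^ A.card := by
            rw [← h3']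
            ring
    · have h0 : H.labelledCopyCount (subOf (⊤ : SimpleGraph (Fin n)) A hA).coe = 0 := by
        rw [SimpleGraph.labelledCopyCount_eq_zero]
        rintro ⟨c⟩
        have := Fintype.card_le_of_injective c c.injective
        omega
      rw [h0, zero_mul, Nat.le_zero] at h1
      rw [h1, Nat.cast_zero]
      exact mul_nonneg (Nat.cast_nonneg _) (pow_nonneg hx _)
  · have h0 : (Finset.univ.filter
        (fun φ : W ↪ Fin n => A ⊆ eImg H (φ : W → Fin n))) = ∅ := by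
      rw [Finset.filter_eq_empty_iff]
      intro φ _ hsub
      apply hA
      intro e he
      have he' := hsub he
      induction e using Sym2.ind with
      | _ x y =>
        rw [mem_eImg] at he'
        obtain ⟨a, b, hab, rfl, rfl⟩ := he'
        rw [SimpleGraph.mem_edgeSet, SimpleGraph.top_adj]
        exact fun h => H.ne_of_adj hab (φ.injective h)
    rw [h0, Finset.card_empty, Nat.cast_zero]
    exact mul_nonneg (Nat.cast_nonneg _) (pow_nonneg hx _)

/-- With `r` rounds of density `p ≥ 12 * 74 D q`, where `e(H) < 2^r`, the random graph contains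
a copy of `H` with probability at least `1/2`. -/
theorem containsProb_ge_half {W : Type} [Fintype W] (H : SimpleGraph W) (n : ℕ) (hn : 0 < n)
    (hW : Fintype.card W ≤ n) (q : ℝ) (hq0 : 0 ≤ q) (hq1 : q ≤ 1)
    (hq : ∀ F : H.Subgraph, 1 / 2 ≤ gnpExp n q (fun G => (G.copyCount F.coe : ℝ)))
    (D : ℕ) (hD1 : 1 ≤ D) (hD : ∀ w : W, (H.neighborSet w).ncard ≤ D)
    (p : ℝ) (hp0 : 0 < p) (hp1 : p ≤ 1) (hqp : 12 * (74 * D * q) ≤ p) (r : ℕ)
    (hr : H.edgeSet.ncard < 2 ^ r) :
    1 / 2 ≤ containsProb n (1 - (1 - p) ^ r) H := by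
  classical
  obtain ⟨N, hN⟩ : ∃ N : ℕ, N = n.descFactorial (Fintype.card W) := ⟨_, rfl⟩
  have hNpos : 0 < N := by
    rw [hN]
    exact Nat.descFactorial_pos.mpr hW
  have hNcard : (Finset.univ : Finset (W ↪ Fin n)).card = N := by
    rw [Finset.card_univ, Fintype.card_embedding_eq, Fintype.card_fin, hN]
  have hNpos' : (0 : ℝ) < N := by exact_mod_cast hNpos
  have hx : (0 : ℝ) ≤ 74 * D * q := by positivity
  have hTE : ∀ φ ∈ (Finset.univ : Finset (W ↪ Fin n)),
      eImg H (φ : W → Fin n) ⊆ edgesKn n := by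
    intro φ _ e he
    induction e using Sym2.ind with
    | _ x y =>
      rw [mem_eImg] at he
      obtain ⟨a, b, hab, rfl, rfl⟩ := he
      unfold edgesKn
      rw [SimpleGraph.mem_edgeFinset, SimpleGraph.mem_edgeSet, SimpleGraph.top_adj]
      exact fun h => H.ne_of_adj hab (φ.injective h)
  have hTl : ∀ φ ∈ (Finset.univ : Finset (W ↪ Fin n)),
      (eImg H (φ : W → Fin n)).card ≤ H.edgeSet.ncard := by
    intro φ _
    exact (eImg_card H _ φ.injective).le
  have hμ1 : ∑ _φ ∈ (Finset.univ : Finset (W ↪ Fin n)), (1 / (N : ℝ)) = 1 := by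
    rw [Finset.sum_const, hNcard, nsmul_eq_mul]
    field_simp
  have hspread : ∀ A : Finset (Sym2 (Fin n)),
      ∑ _φ ∈ (Finset.univ : Finset (W ↪ Fin n)).filter
        (fun φ : W ↪ Fin n => A ⊆ eImg H (φ : W → Fin n)), (1 / (N : ℝ))
          ≤ (74 * D * q) ^ A.card := by
    intro A
    rw [Finset.sum_const, nsmul_eq_mul]
    have h := embeddings_spread H n hn hW q hq0 hq1 hq D hD1 hD A
    rw [← hN] at h
    rw [mul_one_div, div_le_iff₀ hNpos']
    linarith
  have key := spread_lemma (edgesKn n) (Finset.univ : Finset (W ↪ Fin n))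
    (fun φ : W ↪ Fin n => eImg H (φ : W → Fin n)) (fun _ => 1 / (N : ℝ)) (74 * D * q) p
    H.edgeSet.ncard r
    hTE hTl (fun φ _ => by positivity) hμ1 hspread hx hp0 hp1 hqp hr
  have hρ0 : 0 ≤ 1 - (1 - p) ^ r := by
    have : (1 - p) ^ r ≤ 1 := pow_le_one₀ (by linarith) (by linarith)
    linarith
  have hρ1 : 1 - (1 - p) ^ r ≤ 1 := by
    have : 0 ≤ (1 - p) ^ r := pow_nonneg (by linarith) _
    linarith
  unfold containsProb
  rw [gnpExp_eq_rsExp]
  refine le_trans key (rsExp_mono _ _ hρ0 hρ1 _ _ ?_)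
  intro A _
  by_cases h1 : ∃ φ ∈ (Finset.univ : Finset (W ↪ Fin n)), eImg H (φ : W → Fin n) ⊆ A
  · have h2 : 0 < (graphOf A).copyCount H := by
      obtain ⟨φ, -, hφ⟩ := h1
      rw [SimpleGraph.copyCount_pos]
      refine ⟨⟨⟨φ, ?_⟩, φ.injective⟩⟩
      intro a b hab
      unfold graphOf
      rw [SimpleGraph.fromEdgeSet_adj]
      refine ⟨?_, fun h => H.ne_of_adj hab (φ.injective h)⟩
      exact_mod_cast hφ ((mem_eImg H _ _ _).mpr ⟨a, b, hab, rfl, rfl⟩)
    rw [if_pos h1, if_pos h2]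
  · rw [if_neg h1]
    split_ifs <;> norm_num

/-- At `p = 0` the random graph has no edges. -/
theorem gnpExp_zero (n : ℕ) (f : SimpleGraph (Fin n) → ℝ) :
    gnpExp n 0 f = f (graphOf ∅) := by
  unfold gnpExp
  rw [Finset.sum_eq_single ∅]
  · simp
  · intro A _ hne
    have : A.card ≠ 0 := by rwa [Ne, Finset.card_eq_zero]
    simp [this]
  · intro h
    exact absurd (Finset.empty_mem_powerset _) h

/-- `p_E(n,H) > 0` when `H` has an edge. -/
theorem pE_pos (n : ℕ) {W : Type} [Fintype W] (H : SimpleGraph W) (hW : Fintype.card W ≤ n)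
    (hH : ∃ a b, H.Adj a b) : 0 < pE n H := by
  obtain ⟨h0, -, h⟩ := pE_mem n H hW
  rcases h0.lt_or_eq with hlt | heq
  · exact hlt
  · exfalso
    have h1 := h ⊤
    rw [← heq, gnpExp_zero] at h1
    have h2 : (graphOf (∅ : Finset (Sym2 (Fin n)))).copyCount (⊤ : H.Subgraph).coe = 0 := by
      rw [SimpleGraph.copyCount_eq_zero]
      rintro ⟨c⟩
      obtain ⟨a, b, hab⟩ := hH
      have hadj : (⊤ : H.Subgraph).coe.Adj ⟨a, trivial⟩ ⟨b, trivial⟩ := hab
      have h3 := c.toHom.map_rel hadj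
      unfold graphOf at h3
      rw [SimpleGraph.fromEdgeSet_adj] at h3
      simp at h3
    rw [h2] at h1
    norm_num at h1

/-- `p_c(n,H) ≤ 1` when `H` has at most `n` vertices. -/
theorem pc_le_one' (n : ℕ) {W : Type} [Fintype W] (H : SimpleGraph W)
    (hW : Fintype.card W ≤ n) : pc n H ≤ 1 := by
  apply csInf_le
  · exact ⟨0, fun p hp => hp.1⟩
  · refine ⟨by norm_num, le_refl _, ?_⟩
    unfold containsProb
    rw [gnpExp_one]
    have h : 0 < (⊤ : SimpleGraph (Fin n)).copyCount H :=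
      SimpleGraph.copyCount_pos.mpr (contained_top H hW)
    rw [if_pos h]
    norm_num

/-- Hosts of maximum degree at most `D`:
`p_c(n,H) ≤ 888 D (log_2 e(H) + 1) p_E(n,H)`. -/
theorem pc_le_of_degree (n : ℕ) (hn : 0 < n) {W : Type} [Fintype W] (H : SimpleGraph W)
    (hW : Fintype.card W ≤ n) (hH : ∃ a b, H.Adj a b) (D : ℕ)
    (hD : ∀ w : W, (H.neighborSet w).ncard ≤ D) :
    pc n H ≤ 888 * D * ((Nat.log 2 H.edgeSet.ncard + 1 : ℕ) : ℝ) * pE n H := by
  classical
  have hD1 : 1 ≤ D := by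
    obtain ⟨a, b, hab⟩ := hH
    have h1 : 0 < (H.neighborSet a).ncard := (Set.ncard_pos (Set.toFinite _)).mpr ⟨b, hab⟩
    exact h1.trans_le (hD a)
  obtain ⟨hq0, hq1, hq⟩ := pE_mem n H hW
  have hqpos : 0 < pE n H := pE_pos n H hW hH
  obtain ⟨q, hqdef⟩ : ∃ q : ℝ, q = pE n H := ⟨_, rfl⟩
  rw [← hqdef] at hq0 hq1 hq hqpos ⊢
  obtain ⟨r, hrdef⟩ : ∃ r : ℕ, r = Nat.log 2 H.edgeSet.ncard + 1 := ⟨_, rfl⟩
  rw [← hrdef]
  have hr : H.edgeSet.ncard < 2 ^ r := by
    rw [hrdef]
    exact Nat.lt_pow_succ_log_self (by norm_num) _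
  have hr1 : (1 : ℝ) ≤ r := by
    rw [hrdef]
    exact_mod_cast Nat.succ_le_succ (Nat.zero_le _)
  have hDpos : (0 : ℝ) < D := by exact_mod_cast hD1
  rcases le_or_gt (12 * (74 * (D : ℝ) * q)) 1 with hle | hgt
  · obtain ⟨p, hpdef⟩ : ∃ p : ℝ, p = 12 * (74 * (D : ℝ) * q) := ⟨_, rfl⟩
    have hp0 : 0 < p := by rw [hpdef]; positivity
    have hp1 : p ≤ 1 := by rw [hpdef]; exact hle
    have hmem := containsProb_ge_half H n hn hW q hq0 hq1 hq D hD1 hD p hp0 hp1 hpdef.ge r hr
    have hρ0 : 0 ≤ 1 - (1 - p) ^ r := by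
      have : (1 - p) ^ r ≤ 1 := pow_le_one₀ (by linarith) (by linarith)
      linarith
    have hρ1 : 1 - (1 - p) ^ r ≤ 1 := by
      have : 0 ≤ (1 - p) ^ r := pow_nonneg (by linarith) _
      linarith
    have h1 : pc n H ≤ 1 - (1 - p) ^ r :=
      csInf_le ⟨0, fun x hx => hx.1⟩ ⟨hρ0, hρ1, hmem⟩
    have h2 : 1 - (1 - p) ^ r ≤ r * p := by
      have h3 := one_add_mul_le_pow (show (-2 : ℝ) ≤ -p by linarith) r
      have h4 : (1 + -p) ^ r = (1 - p) ^ r := by ring_nf
      rw [h4] at h3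
      linarith
    calc pc n H ≤ r * p := h1.trans h2
      _ = 888 * D * r * q := by rw [hpdef]; ring
  · have hDq : (0 : ℝ) ≤ 888 * D * q := by positivity
    calc pc n H ≤ 1 := pc_le_one' n H hW
      _ ≤ 12 * (74 * (D : ℝ) * q) := hgt.le
      _ = 888 * D * q * 1 := by ring
      _ ≤ 888 * D * q * r := mul_le_mul_of_nonneg_left hr1 hDq
      _ = 888 * D * r * q := by ring

/-- Hosts of maximum degree at most `D`: `p_c(n,H) ≤ 2600 D p_E(n,H) log n`. -/
theorem pc_le_log (n : ℕ) (hn : 2 ≤ n) {W : Type} [Fintype W] (H : SimpleGraph W)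
    (hW : Fintype.card W ≤ n) (hH : ∃ a b, H.Adj a b) (D : ℕ)
    (hD : ∀ w : W, (H.neighborSet w).ncard ≤ D) :
    pc n H ≤ 2600 * D * pE n H * Real.log n := by
  classical
  have h := pc_le_of_degree n (by omega) H hW hH D hD
  obtain ⟨r, hrdef⟩ : ∃ r : ℕ, r = Nat.log 2 H.edgeSet.ncard + 1 := ⟨_, rfl⟩
  rw [← hrdef] at h
  obtain ⟨l, hldef⟩ : ∃ l : ℕ, l = H.edgeSet.ncard := ⟨_, rfl⟩
  rw [← hldef] at hrdef
  -- number of edges
  have hl1 : l ≠ 0 := by
    obtain ⟨a, b, hab⟩ := hH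
    rw [hldef]
    have : 0 < H.edgeSet.ncard :=
      (Set.ncard_pos (Set.toFinite _)).mpr ⟨s(a, b), (SimpleGraph.mem_edgeSet H).mpr hab⟩
    omega
  have hl2 : 2 * l ≤ n * (n - 1) := by
    have h1 : l ≤ (Fintype.card W).choose 2 := by
      rw [hldef, Set.ncard_eq_toFinset_card', ← SimpleGraph.edgeFinset]
      exact SimpleGraph.card_edgeFinset_le_card_choose_two
    have h2 : (Fintype.card W).choose 2 ≤ n.choose 2 := Nat.choose_le_choose 2 hW
    have h3 : 2 * n.choose 2 ≤ n * (n - 1) := by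
      rw [Nat.choose_two_right]
      exact Nat.mul_div_le _ _
    omega
  have hpow : 2 ^ r ≤ n * (n - 1) := by
    have h1 : 2 ^ Nat.log 2 l ≤ l := Nat.pow_log_le_self 2 hl1
    rw [hrdef, pow_succ]
    omega
  have hnpos : (0 : ℝ) < n := by exact_mod_cast (by omega : 0 < n)
  have hpow' : (2 : ℝ) ^ r < (n : ℝ) ^ 2 := by
    have h1 : ((2 ^ r : ℕ) : ℝ) ≤ ((n * (n - 1) : ℕ) : ℝ) := by exact_mod_cast hpow
    have h2 : ((n * (n - 1) : ℕ) : ℝ) = (n : ℝ) * ((n : ℝ) - 1) := by
      rw [Nat.cast_mul, Nat.cast_sub (by omega : 1 ≤ n), Nat.cast_one]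
    rw [h2] at h1
    push_cast at h1
    nlinarith
  have hlog : (r : ℝ) * Real.log 2 < 2 * Real.log n := by
    have h1 := Real.log_lt_log (by positivity) hpow'
    rw [Real.log_pow, Real.log_pow] at h1
    exact_mod_cast h1
  have hl2' : (0.6931471803 : ℝ) < Real.log 2 := Real.log_two_gt_d9
  have hlogn : 0 < Real.log n := Real.log_pos (by exact_mod_cast (by omega : 1 < n))
  have hr : (r : ℝ) ≤ 2.9 * Real.log n := by
    have hr0 : (0 : ℝ) ≤ r := Nat.cast_nonneg _
    nlinarith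
  have hq0 : 0 ≤ pE n H := (pE_mem n H hW).1
  have hDq : (0 : ℝ) ≤ 888 * D * pE n H := by positivity
  calc pc n H ≤ 888 * D * r * pE n H := h
    _ = 888 * D * pE n H * r := by ring
    _ ≤ 888 * D * pE n H * (2.9 * Real.log n) := mul_le_mul_of_nonneg_left hr hDq
    _ = 2575.2 * D * pE n H * Real.log n := by ring
    _ ≤ 2600 * D * pE n H * Real.log n := by
        have : (0 : ℝ) ≤ D * pE n H * Real.log n := by positivity
        nlinarith

/-- `p_E(n,H) ≤ p_c(n,H)`: a graph containing `H` contains every subgraph of `H`. -/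
theorem pE_le_pc (n : ℕ) {W : Type} [Fintype W] (H : SimpleGraph W)
    (hW : Fintype.card W ≤ n) : pE n H ≤ pc n H := by
  classical
  unfold pE pc
  apply csInf_le_csInf
  · exact ⟨0, fun p hp => hp.1⟩
  · refine ⟨1, by norm_num, le_refl _, ?_⟩
    unfold containsProb
    rw [gnpExp_one]
    have h : 0 < (⊤ : SimpleGraph (Fin n)).copyCount H :=
      SimpleGraph.copyCount_pos.mpr (contained_top H hW)
    rw [if_pos h]
    norm_num
  · rintro p ⟨h0, h1, h⟩
    refine ⟨h0, h1, fun F => le_trans h ?_⟩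
    unfold containsProb gnpExp
    apply Finset.sum_le_sum
    intro A _
    have h2 : 0 ≤ 1 - p := by linarith
    apply mul_le_mul_of_nonneg_left _ (by positivity)
    beta_reduce
    split_ifs with hpos
    · have h3 : SimpleGraph.IsContained F.coe (graphOf A) :=
        (F.coe_isContained).trans (SimpleGraph.copyCount_pos.mp hpos)
      have h4 : 0 < (graphOf A).copyCount F.coe := SimpleGraph.copyCount_pos.mpr h3
      exact_mod_cast h4
    · exact Nat.cast_nonneg _

end Vale.Agent.Lib.P064
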