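import Vale.Agent.Lib.P064.BddPc

/-!
From a counting bound to thresholds (P064), for an arbitrary host `H`.  Assume that every graph
`S` has at most `n^{v(S)} (M q)^{e(S)}` embeddings into `H`.  Then every graph `S` has at most
`(n)_{v(S)} (7.4 M q)^{e(S)}` embeddings into `H`, so `N(H,S) ≤ E N(G(n, min(1, 7.4 M q)), S)`;
with `q = p_E(n,H)` this gives `p~_E(n,H) ≤ 7.4 M p_E(n,H)` and, by the spread lemma,
`p_c(n,H) ≤ 12 * 7.4 M (log_2 e(H) + 1) p_E(n,H)`.
-/

namespace Vale.Agent.Lib.P064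

open Finset

variable {W : Type} [Fintype W] [DecidableEq W]

omit [DecidableEq W] in
/-- Graphs without isolated vertices: at most `(n)_v (7.4 M q)^e` embeddings into `H`. -/
theorem labelledCopyCount_le_desc_of_no_isolated_gen (H : SimpleGraph W) (n : ℕ)
    (hW : Fintype.card W ≤ n) (q : ℝ) (hq0 : 0 ≤ q) (M : ℝ) (hM : 0 ≤ M)
    (hLc : ∀ (V : Type) [Fintype V] (S : SimpleGraph V),
      (H.labelledCopyCount S : ℝ) ≤ (n : ℝ) ^ Fintype.card V * (M * q) ^ S.edgeSet.ncard)
    {V : Type} [Fintype V] (S : SimpleGraph V) (hS : ∀ v, ∃ w, S.Adj v w) :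
    (H.labelledCopyCount S : ℝ)
      ≤ (n.descFactorial (Fintype.card V) : ℝ) * (7.4 * M * q) ^ S.edgeSet.ncard := by
  rcases le_or_gt (Fintype.card V) n with hv | hv
  · have h1 := hLc V S
    have h2 := pow_le_exp_mul_descFactorial n _ hv
    have h3 := card_le_two_mul_ncard_edgeSet S hS
    obtain ⟨e, he⟩ : ∃ e : ℕ, e = S.edgeSet.ncard := ⟨_, rfl⟩
    rw [← he] at h1 h3 ⊢
    have hy : (0 : ℝ) ≤ M * q := by positivity
    have hexp : Real.exp (Fintype.card V : ℝ) ≤ (7.4 : ℝ) ^ e := by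
      calc Real.exp (Fintype.card V : ℝ) ≤ Real.exp ((2 * e : ℕ) : ℝ) :=
            Real.exp_le_exp.mpr (by exact_mod_cast h3)
        _ = (Real.exp 1 ^ 2) ^ e := by
            rw [← pow_mul, ← Real.exp_nat_mul, mul_one]
        _ ≤ (7.4 : ℝ) ^ e := by
            apply pow_le_pow_left₀ (by positivity)
            have h9 := Real.exp_one_lt_d9
            have h0 := Real.exp_pos 1
            nlinarith
    have hd : (0 : ℝ) ≤ (n.descFactorial (Fintype.card V) : ℝ) := Nat.cast_nonneg _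
    calc (H.labelledCopyCount S : ℝ) ≤ (n : ℝ) ^ Fintype.card V * (M * q) ^ e := h1
      _ ≤ (Real.exp (Fintype.card V : ℝ) * (n.descFactorial (Fintype.card V) : ℝ))
            * (M * q) ^ e := mul_le_mul_of_nonneg_right h2 (pow_nonneg hy _)
      _ ≤ ((7.4 : ℝ) ^ e * (n.descFactorial (Fintype.card V) : ℝ)) * (M * q) ^ e :=
          mul_le_mul_of_nonneg_right (mul_le_mul_of_nonneg_right hexp hd) (pow_nonneg hy _)
      _ = (n.descFactorial (Fintype.card V) : ℝ) * (7.4 * M * q) ^ e := by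
          have h74 : (7.4 * M * q) ^ e = (7.4 : ℝ) ^ e * (M * q) ^ e := by
            rw [← mul_pow]
            congr 1
            ring
          rw [h74]
          ring
  · have h0 : H.labelledCopyCount S = 0 := by
      rw [SimpleGraph.labelledCopyCount_eq_zero]
      rintro ⟨c⟩
      have := Fintype.card_le_of_injective c c.injective
      omega
    rw [h0, Nat.cast_zero]
    have hx : (0 : ℝ) ≤ 7.4 * M * q := by positivity
    exact mul_nonneg (Nat.cast_nonneg _) (pow_nonneg hx _)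

omit [DecidableEq W] in
/-- All graphs: at most `(n)_v (7.4 M q)^e` embeddings into `H`. -/
theorem labelledCopyCount_le_desc_gen (H : SimpleGraph W) (n : ℕ)
    (hW : Fintype.card W ≤ n) (q : ℝ) (hq0 : 0 ≤ q) (M : ℝ) (hM : 0 ≤ M)
    (hLc : ∀ (V : Type) [Fintype V] (S : SimpleGraph V),
      (H.labelledCopyCount S : ℝ) ≤ (n : ℝ) ^ Fintype.card V * (M * q) ^ S.edgeSet.ncard)
    {V : Type} [Fintype V] (S : SimpleGraph V) :
    (H.labelledCopyCount S : ℝ)
      ≤ (n.descFactorial (Fintype.card V) : ℝ) * (7.4 * M * q) ^ S.edgeSet.ncard := by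
  classical
  obtain ⟨A, hAdef⟩ : ∃ A : Set V, A = {v | ∃ w, S.Adj v w} := ⟨_, rfl⟩
  have hmemA : ∀ v, (∃ w, S.Adj v w) → v ∈ A := by
    intro v hv
    rw [hAdef]
    exact hv
  have hA : ∀ a ∈ A, ∀ b, S.Adj a b → b ∈ A := by
    intro a _ b hab
    exact hmemA b ⟨a, hab.symm⟩
  have hSA : ∀ v : A, ∃ w, (S.induce A).Adj v w := by
    intro ⟨v, hv⟩
    have hv' := hv
    rw [hAdef] at hv'
    obtain ⟨w, hw⟩ := hv'
    exact ⟨⟨w, hA v hv w hw⟩, hw⟩
  have h1 := labelledCopyCount_le_desc_of_no_isolated_gen H n hW q hq0 M hM hLc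
    (S.induce A) hSA
  have h2 := labelledCopyCount_le_mul_descFactorial S H A
  have h3 := ncard_edgeSet_induce_add S A hA
  have h4 : (S.induce Aᶜ).edgeSet.ncard = 0 := by
    have : (S.induce Aᶜ).edgeSet = ∅ := by
      rw [Set.eq_empty_iff_forall_notMem]
      intro e he
      induction e using Sym2.ind with
      | _ x y =>
        rw [SimpleGraph.mem_edgeSet] at he
        exact x.2 (hmemA x.1 ⟨y.1, he⟩)
    rw [this, Set.ncard_empty]
  have h5 : (Fintype.card W - Fintype.card A).descFactorial (Fintype.card V - Fintype.card A)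
      ≤ (n - Fintype.card A).descFactorial (Fintype.card V - Fintype.card A) :=
    Nat.descFactorial_le _ (Nat.sub_le_sub_right hW _)
  have hAV : Fintype.card A ≤ Fintype.card V := set_fintype_card_le_univ A
  have h6 : (n - Fintype.card A).descFactorial (Fintype.card V - Fintype.card A)
      * n.descFactorial (Fintype.card A) = n.descFactorial (Fintype.card V) :=
    Nat.descFactorial_mul_descFactorial hAV
  have h7 : (S.induce A).edgeSet.ncard = S.edgeSet.ncard := by omega
  have hx : (0 : ℝ) ≤ 7.4 * M * q := by positivity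
  have h5' : (((Fintype.card W - Fintype.card A).descFactorial
      (Fintype.card V - Fintype.card A) : ℕ) : ℝ)
      ≤ (((n - Fintype.card A).descFactorial (Fintype.card V - Fintype.card A) : ℕ) : ℝ) := by
    exact_mod_cast h5
  have h6' : (((n - Fintype.card A).descFactorial (Fintype.card V - Fintype.card A) : ℕ) : ℝ)
      * (n.descFactorial (Fintype.card A) : ℝ) = (n.descFactorial (Fintype.card V) : ℝ) := by
    exact_mod_cast h6
  rw [h7] at h1
  calc (H.labelledCopyCount S : ℝ)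
      ≤ (H.labelledCopyCount (S.induce A) : ℝ)
          * (((Fintype.card W - Fintype.card A).descFactorial
              (Fintype.card V - Fintype.card A) : ℕ) : ℝ) := by exact_mod_cast h2
    _ ≤ ((n.descFactorial (Fintype.card A) : ℝ) * (7.4 * M * q) ^ S.edgeSet.ncard)
          * (((n - Fintype.card A).descFactorial (Fintype.card V - Fintype.card A) : ℕ) : ℝ) :=
        mul_le_mul h1 h5' (Nat.cast_nonneg _)
          (mul_nonneg (Nat.cast_nonneg _) (pow_nonneg hx _))
    _ = (n.descFactorial (Fintype.card V) : ℝ) * (7.4 * M * q) ^ S.edgeSet.ncard := by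
        rw [← h6']
        ring

omit [DecidableEq W] in
/-- `N(H,S) ≤ E N(G(n, min(1, 7.4 M q)), S)` for every graph `S`. -/
theorem copyCount_le_gnpExp_gen (H : SimpleGraph W) (n : ℕ)
    (hW : Fintype.card W ≤ n) (q : ℝ) (hq0 : 0 ≤ q) (M : ℝ) (hM : 0 ≤ M)
    (hLc : ∀ (V : Type) [Fintype V] (S : SimpleGraph V),
      (H.labelledCopyCount S : ℝ) ≤ (n : ℝ) ^ Fintype.card V * (M * q) ^ S.edgeSet.ncard)
    {V : Type} [Fintype V] (S : SimpleGraph V) :
    (H.copyCount S : ℝ) ≤ gnpExp n (min 1 (7.4 * M * q)) (fun G => (G.copyCount S : ℝ)) := by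
  classical
  have ha : (0 : ℝ) < Nat.card (S ≃g S) := by exact_mod_cast card_aut_pos S
  have hkey : (H.labelledCopyCount S : ℝ) ≤ (n.descFactorial (Fintype.card V) : ℝ)
      * (min 1 (7.4 * M * q)) ^ S.edgeSet.ncard := by
    rcases le_or_gt (7.4 * M * q) 1 with hle | hgt
    · rw [min_eq_right hle]
      exact labelledCopyCount_le_desc_gen H n hW q hq0 M hM hLc S
    · rw [min_eq_left hgt.le, one_pow, mul_one]
      have h1 : H.labelledCopyCount S ≤ (Fintype.card W).descFactorial (Fintype.card V) := by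
        rw [← Fintype.card_embedding_eq]
        unfold SimpleGraph.labelledCopyCount
        rw [Fintype.card_eq_nat_card, Fintype.card_eq_nat_card]
        apply Nat.card_le_card_of_injective (fun c : S.Copy H => c.toEmbedding)
        intro c1 c2 h
        apply DFunLike.coe_injective
        exact congrArg (fun f : V ↪ W => (f : V → W)) h
      have h2 := Nat.descFactorial_le (Fintype.card V) hW
      exact_mod_cast h1.trans h2
  rw [labelledCopyCount_eq_card_aut_mul_copyCount S H, ← aut_mul_gnpExp_copyCount S n] at hkey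
  push_cast at hkey
  exact le_of_mul_le_mul_left hkey ha

omit [DecidableEq W] in
/-- `p~_E(n,H) ≤ 7.4 M p_E(n,H)` from the counting bound at `q = p_E(n,H)`. -/
theorem pEt_le_gen (n : ℕ) (H : SimpleGraph W) (hW : Fintype.card W ≤ n) (M : ℝ) (hM : 0 ≤ M)
    (hLc : ∀ (V : Type) [Fintype V] (S : SimpleGraph V),
      (H.labelledCopyCount S : ℝ)
        ≤ (n : ℝ) ^ Fintype.card V * (M * pE n H) ^ S.edgeSet.ncard) :
    pEt n H ≤ 7.4 * M * pE n H := by
  classical
  obtain ⟨hq0, -, -⟩ := pE_mem n H hW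
  have hx : (0 : ℝ) ≤ 7.4 * M * pE n H := by positivity
  have hmem : min 1 (7.4 * M * pE n H) ∈ {p : ℝ | 0 ≤ p ∧ p ≤ 1 ∧
      ∀ F : H.Subgraph,
        (H.copyCount F.coe : ℝ) / 2 ≤ gnpExp n p (fun G => (G.copyCount F.coe : ℝ))} := by
    refine ⟨le_min zero_le_one hx, min_le_left _ _, ?_⟩
    intro F
    have h := copyCount_le_gnpExp_gen H n hW (pE n H) hq0 M hM hLc F.coe
    have h0 : (0 : ℝ) ≤ (H.copyCount F.coe : ℝ) := Nat.cast_nonneg _
    linarith
  calc pEt n H ≤ min 1 (7.4 * M * pE n H) := csInf_le ⟨0, fun p hp => hp.1⟩ hmem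
    _ ≤ 7.4 * M * pE n H := min_le_right _ _

/-- Spread property of the uniform measure on the embeddings of `H` into the complete graph:
at most `(n)_{v(H)} (7.4 M q)^{|A|}` embeddings have an edge image containing `A`. -/
theorem embeddings_spread_gen (H : SimpleGraph W) (n : ℕ)
    (hW : Fintype.card W ≤ n) (q : ℝ) (hq0 : 0 ≤ q) (M : ℝ) (hM : 0 ≤ M)
    (hLc : ∀ (V : Type) [Fintype V] (S : SimpleGraph V),
      (H.labelledCopyCount S : ℝ) ≤ (n : ℝ) ^ Fintype.card V * (M * q) ^ S.edgeSet.ncard)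
    (A : Finset (Sym2 (Fin n))) :
    ((Finset.univ.filter (fun φ : W ↪ Fin n => A ⊆ eImg H (φ : W → Fin n))).card : ℝ)
      ≤ (n.descFactorial (Fintype.card W) : ℝ) * (7.4 * M * q) ^ A.card := by
  classical
  have hx : (0 : ℝ) ≤ 7.4 * M * q := by positivity
  by_cases hA : ∀ e ∈ A, e ∈ (⊤ : SimpleGraph (Fin n)).edgeSet
  · have h1 := card_embeddings_containing_le H n A hA
    have h2 := labelledCopyCount_le_desc_gen H n hW q hq0 M hM hLc
      (subOf (⊤ : SimpleGraph (Fin n)) A hA).coe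
    rw [subOf_coe_edgeSet_ncard] at h2
    obtain ⟨a, ha⟩ : ∃ a : ℕ,
        a = Fintype.card ↥(subOf (⊤ : SimpleGraph (Fin n)) A hA).verts := ⟨_, rfl⟩
    rw [← ha] at h1 h2
    rcases le_or_gt a (Fintype.card W) with hle | hgt
    · have h3 : (n - a).descFactorial (Fintype.card W - a) * n.descFactorial a
          = n.descFactorial (Fintype.card W) := Nat.descFactorial_mul_descFactorial hle
      have h3' : (((n - a).descFactorial (Fintype.card W - a) : ℕ) : ℝ)
          * (n.descFactorial a : ℝ) = (n.descFactorial (Fintype.card W) : ℝ) := by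
        exact_mod_cast h3
      calc ((Finset.univ.filter
              (fun φ : W ↪ Fin n => A ⊆ eImg H (φ : W → Fin n))).card : ℝ)
          ≤ (H.labelledCopyCount (subOf (⊤ : SimpleGraph (Fin n)) A hA).coe : ℝ)
              * (((n - a).descFactorial (Fintype.card W - a) : ℕ) : ℝ) := by
            exact_mod_cast h1
        _ ≤ ((n.descFactorial a : ℝ) * (7.4 * M * q) ^ A.card)
              * (((n - a).descFactorial (Fintype.card W - a) : ℕ) : ℝ) :=
            mul_le_mul_of_nonneg_right h2 (Nat.cast_nonneg _)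
        _ = (n.descFactorial (Fintype.card W) : ℝ) * (7.4 * M * q) ^ A.card := by
            rw [← h3']
            ring
    · have h0 : H.labelledCopyCount (subOf (⊤ : SimpleGraph (Fin n)) A hA).coe = 0 := by
        rw [SimpleGraph.labelledCopyCount_eq_zero]
        rintro ⟨c⟩
        have := Fintype.card_le_of_injective c c.injective
        omega
      rw [h0, zero_mul, Nat.le_zero] at h1
      rw [h1, Nat.cast_zero]
      exact mul_nonneg (Nat.cast_nonneg _) (pow_nonneg hx _)
  · have h0 : (Finset.univ.filter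
        (fun φ : W ↪ Fin n => A ⊆ eImg H (φ : W → Fin n))) = ∅ := by
      rw [Finset.filter_eq_empty_iff]
      intro φ _ hsub
      apply hA
      intro e he
      have he' := hsub he
      induction e using Sym2.ind with
      | _ x y =>
        rw [mem_eImg] at he'
        obtain ⟨a, b, hab, rfl, rfl⟩ := he'
        rw [SimpleGraph.mem_edgeSet, SimpleGraph.top_adj]
        exact fun h => H.ne_of_adj hab (φ.injective h)
    rw [h0, Finset.card_empty, Nat.cast_zero]
    exact mul_nonneg (Nat.cast_nonneg _) (pow_nonneg hx _)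

omit [DecidableEq W] in
/-- With `r` rounds of density `p ≥ 12 * 7.4 M q`, where `e(H) < 2^r`, the random graph contains
a copy of `H` with probability at least `1/2`. -/
theorem containsProb_ge_half_gen (H : SimpleGraph W) (n : ℕ)
    (hW : Fintype.card W ≤ n) (q : ℝ) (hq0 : 0 ≤ q) (M : ℝ) (hM : 0 ≤ M)
    (hLc : ∀ (V : Type) [Fintype V] (S : SimpleGraph V),
      (H.labelledCopyCount S : ℝ) ≤ (n : ℝ) ^ Fintype.card V * (M * q) ^ S.edgeSet.ncard)
    (p : ℝ) (hp0 : 0 < p) (hp1 : p ≤ 1) (hqp : 12 * (7.4 * M * q) ≤ p) (r : ℕ)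
    (hr : H.edgeSet.ncard < 2 ^ r) :
    1 / 2 ≤ containsProb n (1 - (1 - p) ^ r) H := by
  classical
  obtain ⟨N, hN⟩ : ∃ N : ℕ, N = n.descFactorial (Fintype.card W) := ⟨_, rfl⟩
  have hNpos : 0 < N := by
    rw [hN]
    exact Nat.descFactorial_pos.mpr hW
  have hNcard : (Finset.univ : Finset (W ↪ Fin n)).card = N := by
    rw [Finset.card_univ, Fintype.card_embedding_eq, Fintype.card_fin, hN]
  have hNpos' : (0 : ℝ) < N := by exact_mod_cast hNpos
  have hx : (0 : ℝ) ≤ 7.4 * M * q := by positivity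
  have hTE : ∀ φ ∈ (Finset.univ : Finset (W ↪ Fin n)),
      eImg H (φ : W → Fin n) ⊆ edgesKn n := by
    intro φ _ e he
    induction e using Sym2.ind with
    | _ x y =>
      rw [mem_eImg] at he
      obtain ⟨a, b, hab, rfl, rfl⟩ := he
      unfold edgesKn
      rw [SimpleGraph.mem_edgeFinset, SimpleGraph.mem_edgeSet, SimpleGraph.top_adj]
      exact fun h => H.ne_of_adj hab (φ.injective h)
  have hTl : ∀ φ ∈ (Finset.univ : Finset (W ↪ Fin n)),
      (eImg H (φ : W → Fin n)).card ≤ H.edgeSet.ncard := by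
    intro φ _
    exact (eImg_card H _ φ.injective).le
  have hμ1 : ∑ _φ ∈ (Finset.univ : Finset (W ↪ Fin n)), (1 / (N : ℝ)) = 1 := by
    rw [Finset.sum_const, hNcard, nsmul_eq_mul]
    field_simp
  have hspread : ∀ A : Finset (Sym2 (Fin n)),
      ∑ _φ ∈ (Finset.univ : Finset (W ↪ Fin n)).filter
        (fun φ : W ↪ Fin n => A ⊆ eImg H (φ : W → Fin n)), (1 / (N : ℝ))
          ≤ (7.4 * M * q) ^ A.card := by
    intro A
    rw [Finset.sum_const, nsmul_eq_mul]
    have h := embeddings_spread_gen H n hW q hq0 M hM hLc A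
    rw [← hN] at h
    rw [mul_one_div, div_le_iff₀ hNpos']
    linarith
  have key := spread_lemma (edgesKn n) (Finset.univ : Finset (W ↪ Fin n))
    (fun φ : W ↪ Fin n => eImg H (φ : W → Fin n)) (fun _ => 1 / (N : ℝ)) (7.4 * M * q) p
    H.edgeSet.ncard r
    hTE hTl (fun φ _ => by positivity) hμ1 hspread hx hp0 hp1 hqp hr
  have hρ0 : 0 ≤ 1 - (1 - p) ^ r := by
    have : (1 - p) ^ r ≤ 1 := pow_le_one₀ (by linarith) (by linarith)
    linarith
  have hρ1 : 1 - (1 - p) ^ r ≤ 1 := by
    have : 0 ≤ (1 - p) ^ r := pow_nonneg (by linarith) _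
    linarith
  unfold containsProb
  rw [gnpExp_eq_rsExp]
  refine le_trans key (rsExp_mono _ _ hρ0 hρ1 _ _ ?_)
  intro A _
  by_cases h1 : ∃ φ ∈ (Finset.univ : Finset (W ↪ Fin n)), eImg H (φ : W → Fin n) ⊆ A
  · have h2 : 0 < (graphOf A).copyCount H := by
      obtain ⟨φ, -, hφ⟩ := h1
      rw [SimpleGraph.copyCount_pos]
      refine ⟨⟨⟨φ, ?_⟩, φ.injective⟩⟩
      intro a b hab
      unfold graphOf
      rw [SimpleGraph.fromEdgeSet_adj]
      refine ⟨?_, fun h => H.ne_of_adj hab (φ.injective h)⟩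
      exact_mod_cast hφ ((mem_eImg H _ _ _).mpr ⟨a, b, hab, rfl, rfl⟩)
    rw [if_pos h1, if_pos h2]
  · rw [if_neg h1]
    split_ifs <;> norm_num

omit [DecidableEq W] in
/-- `p_c(n,H) ≤ 12 * 7.4 M (log_2 e(H) + 1) p_E(n,H)` from the counting bound at
`q = p_E(n,H)`. -/
theorem pc_le_gen (n : ℕ) (H : SimpleGraph W) (hW : Fintype.card W ≤ n)
    (hH : ∃ a b, H.Adj a b) (M : ℝ) (hM : 0 ≤ M)
    (hLc : ∀ (V : Type) [Fintype V] (S : SimpleGraph V),
      (H.labelledCopyCount S : ℝ)
        ≤ (n : ℝ) ^ Fintype.card V * (M * pE n H) ^ S.edgeSet.ncard) :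
    pc n H ≤ 12 * (7.4 * M) * ((Nat.log 2 H.edgeSet.ncard + 1 : ℕ) : ℝ) * pE n H := by
  classical
  obtain ⟨hq0, -, -⟩ := pE_mem n H hW
  obtain ⟨q, hqdef⟩ : ∃ q : ℝ, q = pE n H := ⟨_, rfl⟩
  rw [← hqdef] at hq0 hLc ⊢
  obtain ⟨r, hrdef⟩ : ∃ r : ℕ, r = Nat.log 2 H.edgeSet.ncard + 1 := ⟨_, rfl⟩
  rw [← hrdef]
  have hr : H.edgeSet.ncard < 2 ^ r := by
    rw [hrdef]
    exact Nat.lt_pow_succ_log_self (by norm_num) _
  have hr1 : (1 : ℝ) ≤ r := by
    rw [hrdef]
    exact_mod_cast Nat.succ_le_succ (Nat.zero_le _)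
  have hMq : (0 : ℝ) ≤ 12 * (7.4 * M * q) := by positivity
  rcases le_or_gt (12 * (7.4 * M * q)) 1 with hle | hgt
  · rcases hMq.lt_or_eq with hpos | hzero
    · obtain ⟨p, hpdef⟩ : ∃ p : ℝ, p = 12 * (7.4 * M * q) := ⟨_, rfl⟩
      have hp0 : 0 < p := by rw [hpdef]; exact hpos
      have hp1 : p ≤ 1 := by rw [hpdef]; exact hle
      have hmem := containsProb_ge_half_gen H n hW q hq0 M hM hLc p hp0 hp1 hpdef.ge r hr
      have hρ0 : 0 ≤ 1 - (1 - p) ^ r := by
        have : (1 - p) ^ r ≤ 1 := pow_le_one₀ (by linarith) (by linarith)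
        linarith
      have hρ1 : 1 - (1 - p) ^ r ≤ 1 := by
        have : 0 ≤ (1 - p) ^ r := pow_nonneg (by linarith) _
        linarith
      have h1 : pc n H ≤ 1 - (1 - p) ^ r :=
        csInf_le ⟨0, fun x hx => hx.1⟩ ⟨hρ0, hρ1, hmem⟩
      have h2 : 1 - (1 - p) ^ r ≤ r * p := by
        have h3 := one_add_mul_le_pow (show (-2 : ℝ) ≤ -p by linarith) r
        have h4 : (1 + -p) ^ r = (1 - p) ^ r := by ring_nf
        rw [h4] at h3
        linarith
      calc pc n H ≤ r * p := h1.trans h2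
        _ = 12 * (7.4 * M) * r * q := by rw [hpdef]; ring
    · -- degenerate: the counting bound with `M q = 0` is impossible for a graph with an edge
      exfalso
      have hMq0 : M * q = 0 := by nlinarith
      have h1 := hLc W H
      rw [hMq0] at h1
      obtain ⟨a, b, hab⟩ := hH
      have he : H.edgeSet.ncard ≠ 0 := by
        have : 0 < H.edgeSet.ncard :=
          (Set.ncard_pos (Set.toFinite _)).mpr ⟨s(a, b), (SimpleGraph.mem_edgeSet H).mpr hab⟩
        omega
      rw [zero_pow he, mul_zero] at h1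
      have h2 : 0 < H.labelledCopyCount H := by
        rw [Nat.pos_iff_ne_zero, Ne, SimpleGraph.labelledCopyCount_eq_zero]
        exact fun h => h ⟨SimpleGraph.Copy.id H⟩
      have h3 : (0 : ℝ) < (H.labelledCopyCount H : ℝ) := by exact_mod_cast h2
      linarith
  · have hDq : (0 : ℝ) ≤ 12 * (7.4 * M) * q := by positivity
    calc pc n H ≤ 1 := pc_le_one' n H hW
      _ ≤ 12 * (7.4 * M * q) := hgt.le
      _ = 12 * (7.4 * M) * q * 1 := by ring
      _ ≤ 12 * (7.4 * M) * q * r := mul_le_mul_of_nonneg_left hr1 hDq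
      _ = 12 * (7.4 * M) * r * q := by ring

end Vale.Agent.Lib.P064
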