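import Vale.Agent.Lib.P064.LogMain
import Vale.Agent.Lib.P064.LogPipe

/-!
Thresholds of an arbitrary graph (P064).  For every graph `H` with an edge and at most `n`
vertices: `p~_E(n,H) ≤ 650 p_E(n,H) log n` and `p_c(n,H) ≤ 22500 p_E(n,H) log^2 n`; moreover, if
every subgraph of `H` has expected count at least `1/2` in `G(n,q)`, then
`N(H,S) ≤ E N(G(n, min(1, 650 q log n)), S)` for every graph `S`.
-/

namespace Vale.Agent.Lib.P064

/-- `clog_2 n + 1 ≤ 4.33 log n` for `n ≥ 2`. -/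
theorem clog_add_one_le (n : ℕ) (hn : 2 ≤ n) :
    ((Nat.clog 2 n : ℕ) : ℝ) + 1 ≤ 4.33 * Real.log n := by
  obtain ⟨L, hLdef⟩ : ∃ L : ℕ, L = Nat.clog 2 n := ⟨_, rfl⟩
  rw [← hLdef]
  have h1 : 2 ^ (L - 1) < n := by
    rw [hLdef]
    exact Nat.pow_pred_clog_lt_self (by norm_num) (by omega)
  have h2 : (2 : ℝ) ^ (L - 1) < (n : ℝ) := by exact_mod_cast h1
  have h3 := Real.log_lt_log (by positivity) h2
  rw [Real.log_pow] at h3
  have hl2 : (0.6931471803 : ℝ) < Real.log 2 := Real.log_two_gt_d9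
  have hlogn : Real.log 2 ≤ Real.log n :=
    Real.log_le_log (by norm_num) (by exact_mod_cast hn)
  have h4 : (L : ℝ) ≤ ((L - 1 : ℕ) : ℝ) + 1 := by
    have : L ≤ (L - 1) + 1 := by omega
    exact_mod_cast this
  have ha0 : (0 : ℝ) ≤ ((L - 1 : ℕ) : ℝ) := Nat.cast_nonneg _
  have h5 : ((L - 1 : ℕ) : ℝ) * 0.6931471803 ≤ ((L - 1 : ℕ) : ℝ) * Real.log 2 :=
    mul_le_mul_of_nonneg_left hl2.le ha0
  nlinarith

/-- `log_2 e(H) + 1 ≤ 2.9 log n` for a graph `H` with an edge and at most `n` vertices. -/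
theorem log_edges_add_one_le (n : ℕ) (hn : 2 ≤ n) {W : Type} [Fintype W] (H : SimpleGraph W)
    (hW : Fintype.card W ≤ n) (hH : ∃ a b, H.Adj a b) :
    ((Nat.log 2 H.edgeSet.ncard + 1 : ℕ) : ℝ) ≤ 2.9 * Real.log n := by
  classical
  obtain ⟨r, hrdef⟩ : ∃ r : ℕ, r = Nat.log 2 H.edgeSet.ncard + 1 := ⟨_, rfl⟩
  rw [← hrdef]
  obtain ⟨l, hldef⟩ : ∃ l : ℕ, l = H.edgeSet.ncard := ⟨_, rfl⟩
  rw [← hldef] at hrdef
  have hl1 : l ≠ 0 := by
    obtain ⟨a, b, hab⟩ := hH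
    rw [hldef]
    have : 0 < H.edgeSet.ncard :=
      (Set.ncard_pos (Set.toFinite _)).mpr ⟨s(a, b), (SimpleGraph.mem_edgeSet H).mpr hab⟩
    omega
  have hl2 : 2 * l ≤ n * (n - 1) := by
    have h1 : l ≤ (Fintype.card W).choose 2 := by
      rw [hldef, Set.ncard_eq_toFinset_card', ← SimpleGraph.edgeFinset]
      exact SimpleGraph.card_edgeFinset_le_card_choose_two
    have h2 : (Fintype.card W).choose 2 ≤ n.choose 2 := Nat.choose_le_choose 2 hW
    have h3 : 2 * n.choose 2 ≤ n * (n - 1) := by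
      rw [Nat.choose_two_right]
      exact Nat.mul_div_le _ _
    omega
  have hpow : 2 ^ r ≤ n * (n - 1) := by
    have h1 : 2 ^ Nat.log 2 l ≤ l := Nat.pow_log_le_self 2 hl1
    rw [hrdef, pow_succ]
    omega
  have hnpos : (0 : ℝ) < n := by exact_mod_cast (by omega : 0 < n)
  have hpow' : (2 : ℝ) ^ r < (n : ℝ) ^ 2 := by
    have h1 : ((2 ^ r : ℕ) : ℝ) ≤ ((n * (n - 1) : ℕ) : ℝ) := by exact_mod_cast hpow
    have h2 : ((n * (n - 1) : ℕ) : ℝ) = (n : ℝ) * ((n : ℝ) - 1) := by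
      rw [Nat.cast_mul, Nat.cast_sub (by omega : 1 ≤ n), Nat.cast_one]
    rw [h2] at h1
    push_cast at h1
    nlinarith
  have hlog : (r : ℝ) * Real.log 2 < 2 * Real.log n := by
    have h1 := Real.log_lt_log (by positivity) hpow'
    rw [Real.log_pow, Real.log_pow] at h1
    exact_mod_cast h1
  have hl2' : (0.6931471803 : ℝ) < Real.log 2 := Real.log_two_gt_d9
  have hr0 : (0 : ℝ) ≤ r := Nat.cast_nonneg _
  nlinarith

/-- The counting bound at `q = p_E(n,H)`: every graph `S` has at most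
`n^{v(S)} (20 (clog_2 n + 1) p_E(n,H))^{e(S)}` embeddings into `H`. -/
theorem labelledCopyCount_le_pE (n : ℕ) (hn : 2 ≤ n) {W : Type} [Fintype W] (H : SimpleGraph W)
    (hW : Fintype.card W ≤ n) (hH : ∃ a b, H.Adj a b) (V : Type) [Fintype V]
    (S : SimpleGraph V) :
    (H.labelledCopyCount S : ℝ) ≤ (n : ℝ) ^ Fintype.card V
      * ((20 * (((Nat.clog 2 n : ℕ) : ℝ) + 1)) * pE n H) ^ S.edgeSet.ncard := by
  classical
  obtain ⟨-, -, hq⟩ := pE_mem n H hW
  have hqpos := pE_pos n H hW hH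
  exact labelledCopyCount_le_log H n (by omega) hW (pE n H) hqpos hq (Nat.clog 2 n)
    (Nat.le_pow_clog (by norm_num) n) V S

/-- Every graph `H` with an edge and at most `n` vertices:
`p~_E(n,H) ≤ 650 p_E(n,H) log n`. -/
theorem pEt_le_log_all (n : ℕ) (hn : 2 ≤ n) {W : Type} [Fintype W] (H : SimpleGraph W)
    (hW : Fintype.card W ≤ n) (hH : ∃ a b, H.Adj a b) :
    pEt n H ≤ 650 * pE n H * Real.log n := by
  classical
  have hM : (0 : ℝ) ≤ 20 * (((Nat.clog 2 n : ℕ) : ℝ) + 1) := by positivity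
  have h := pEt_le_gen n H hW _ hM (labelledCopyCount_le_pE n hn H hW hH)
  have hc := clog_add_one_le n hn
  have hq0 : 0 ≤ pE n H := (pE_mem n H hW).1
  have hlogn : 0 ≤ Real.log n := Real.log_nonneg (by exact_mod_cast (by omega : 1 ≤ n))
  calc pEt n H ≤ 7.4 * (20 * (((Nat.clog 2 n : ℕ) : ℝ) + 1)) * pE n H := h
    _ = 148 * pE n H * (((Nat.clog 2 n : ℕ) : ℝ) + 1) := by ring
    _ ≤ 148 * pE n H * (4.33 * Real.log n) := mul_le_mul_of_nonneg_left hc (by positivity)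
    _ = 640.84 * pE n H * Real.log n := by ring
    _ ≤ 650 * pE n H * Real.log n := by
        have : 0 ≤ pE n H * Real.log n := mul_nonneg hq0 hlogn
        nlinarith

/-- Every graph `H` with an edge and at most `n` vertices:
`p_c(n,H) ≤ 22500 p_E(n,H) log^2 n`. -/
theorem pc_le_log_sq_all (n : ℕ) (hn : 2 ≤ n) {W : Type} [Fintype W] (H : SimpleGraph W)
    (hW : Fintype.card W ≤ n) (hH : ∃ a b, H.Adj a b) :
    pc n H ≤ 22500 * pE n H * Real.log n ^ 2 := by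
  classical
  have hM : (0 : ℝ) ≤ 20 * (((Nat.clog 2 n : ℕ) : ℝ) + 1) := by positivity
  have h := pc_le_gen n H hW hH _ hM (labelledCopyCount_le_pE n hn H hW hH)
  have hc := clog_add_one_le n hn
  have hr := log_edges_add_one_le n hn H hW hH
  have hq0 : 0 ≤ pE n H := (pE_mem n H hW).1
  have hlogn : 0 ≤ Real.log n := Real.log_nonneg (by exact_mod_cast (by omega : 1 ≤ n))
  obtain ⟨r, hrdef⟩ : ∃ r : ℕ, r = Nat.log 2 H.edgeSet.ncard + 1 := ⟨_, rfl⟩
  rw [← hrdef] at h hr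
  obtain ⟨c, hcdef⟩ : ∃ c : ℝ, c = ((Nat.clog 2 n : ℕ) : ℝ) + 1 := ⟨_, rfl⟩
  rw [← hcdef] at h hc hM
  have hc0 : 0 ≤ c := by rw [hcdef]; positivity
  have hr0 : (0 : ℝ) ≤ r := Nat.cast_nonneg _
  have hcr : c * r ≤ (4.33 * Real.log n) * (2.9 * Real.log n) :=
    mul_le_mul hc hr hr0 (by positivity)
  calc pc n H ≤ 12 * (7.4 * (20 * c)) * r * pE n H := h
    _ = 1776 * pE n H * (c * r) := by ring
    _ ≤ 1776 * pE n H * ((4.33 * Real.log n) * (2.9 * Real.log n)) :=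
        mul_le_mul_of_nonneg_left hcr (by positivity)
    _ = 22301.232 * pE n H * Real.log n ^ 2 := by ring
    _ ≤ 22500 * pE n H * Real.log n ^ 2 := by
        have : 0 ≤ pE n H * Real.log n ^ 2 := mul_nonneg hq0 (by positivity)
        nlinarith

/-- If every subgraph of `H` has expected count at least `1/2` in `G(n,q)`, then every graph `S`
satisfies `N(H,S) ≤ E N(G(n, min(1, 650 q log n)), S)`. -/
theorem copyCount_le_gnpExp_log (n : ℕ) (hn : 2 ≤ n) {W : Type} [Fintype W] (H : SimpleGraph W)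
    (hW : Fintype.card W ≤ n) (q : ℝ) (hq0 : 0 < q)
    (hq : ∀ F : H.Subgraph, 1 / 2 ≤ gnpExp n q (fun G => (G.copyCount F.coe : ℝ)))
    {V : Type} [Fintype V] (S : SimpleGraph V) :
    (H.copyCount S : ℝ)
      ≤ gnpExp n (min 1 (650 * q * Real.log n)) (fun G => (G.copyCount S : ℝ)) := by
  classical
  have hM : (0 : ℝ) ≤ 20 * (((Nat.clog 2 n : ℕ) : ℝ) + 1) := by positivity
  have h := copyCount_le_gnpExp_gen H n hW q hq0.le _ hM
    (fun U _ K => labelledCopyCount_le_log H n (by omega) hW q hq0 hq (Nat.clog 2 n)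
      (Nat.le_pow_clog (by norm_num) n) U K) S
  have hc := clog_add_one_le n hn
  have hlogn : 0 ≤ Real.log n := Real.log_nonneg (by exact_mod_cast (by omega : 1 ≤ n))
  have hle : 7.4 * (20 * (((Nat.clog 2 n : ℕ) : ℝ) + 1)) * q ≤ 650 * q * Real.log n := by
    calc 7.4 * (20 * (((Nat.clog 2 n : ℕ) : ℝ) + 1)) * q
        = 148 * q * (((Nat.clog 2 n : ℕ) : ℝ) + 1) := by ring
      _ ≤ 148 * q * (4.33 * Real.log n) := mul_le_mul_of_nonneg_left hc (by positivity)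
      _ = 640.84 * q * Real.log n := by ring
      _ ≤ 650 * q * Real.log n := by
          have : 0 ≤ q * Real.log n := mul_nonneg hq0.le hlogn
          nlinarith
  have hp0 : (0 : ℝ) ≤ min 1 (7.4 * (20 * (((Nat.clog 2 n : ℕ) : ℝ) + 1)) * q) :=
    le_min zero_le_one (by positivity)
  have hmono : min 1 (7.4 * (20 * (((Nat.clog 2 n : ℕ) : ℝ) + 1)) * q)
      ≤ min 1 (650 * q * Real.log n) := min_le_min le_rfl hle
  refine h.trans ?_
  rw [gnpExp_copyCount_eq, gnpExp_copyCount_eq]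
  exact mul_le_mul_of_nonneg_left (pow_le_pow_left₀ hp0 hmono _) (Nat.cast_nonneg _)

end Vale.Agent.Lib.P064
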