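import Vale.Agent.Lib.P064.ForMain
import Vale.Agent.Lib.P064.LogFinal

/-!
Thresholds of forests (P064).  For every forest `H` with an edge and at most `n` vertices:
`p~_E(n,H) ≤ 74000 p_E(n,H)` and `p_c(n,H) ≤ 888000 (log_2 e(H) + 1) p_E(n,H)
≤ 2600000 p_E(n,H) log n`; moreover, if every subgraph of `H` has expected count at least `1/2`
in `G(n,q)`, then `N(H,S) ≤ E N(G(n, min(1, 74000 q)), S)` for every graph `S`.
-/

namespace Vale.Agent.Lib.P064

/-- The counting bound at `q = p_E(n,H)` for a forest `H`. -/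
theorem labelledCopyCount_le_pE_forest (n : ℕ) {W : Type} [Fintype W] (H : SimpleGraph W)
    (hacyc : H.IsAcyclic) (hW : Fintype.card W ≤ n) (hH : ∃ a b, H.Adj a b) (V : Type)
    [Fintype V] (S : SimpleGraph V) :
    (H.labelledCopyCount S : ℝ)
      ≤ (n : ℝ) ^ Fintype.card V * (10000 * pE n H) ^ S.edgeSet.ncard := by
  classical
  obtain ⟨-, -, hq⟩ := pE_mem n H hW
  have hn : 0 < n := by
    obtain ⟨a, -, -⟩ := hH
    exact lt_of_lt_of_le (Fintype.card_pos_iff.mpr ⟨a⟩) hW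
  exact labelledCopyCount_le_forest H hacyc n hn hW (pE n H) (pE_pos n H hW hH) hq V S

/-- Forests: `p~_E(n,H) ≤ 74000 p_E(n,H)`. -/
theorem pEt_le_forest (n : ℕ) {W : Type} [Fintype W] (H : SimpleGraph W)
    (hacyc : H.IsAcyclic) (hW : Fintype.card W ≤ n) (hH : ∃ a b, H.Adj a b) :
    pEt n H ≤ 74000 * pE n H := by
  classical
  have h := pEt_le_gen n H hW 10000 (by norm_num)
    (labelledCopyCount_le_pE_forest n H hacyc hW hH)
  calc pEt n H ≤ 7.4 * 10000 * pE n H := h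
    _ = 74000 * pE n H := by ring

/-- Forests: `p_c(n,H) ≤ 888000 (log_2 e(H) + 1) p_E(n,H)`. -/
theorem pc_le_forest (n : ℕ) {W : Type} [Fintype W] (H : SimpleGraph W)
    (hacyc : H.IsAcyclic) (hW : Fintype.card W ≤ n) (hH : ∃ a b, H.Adj a b) :
    pc n H ≤ 888000 * ((Nat.log 2 H.edgeSet.ncard + 1 : ℕ) : ℝ) * pE n H := by
  classical
  have h := pc_le_gen n H hW hH 10000 (by norm_num)
    (labelledCopyCount_le_pE_forest n H hacyc hW hH)
  calc pc n H ≤ 12 * (7.4 * 10000) * ((Nat.log 2 H.edgeSet.ncard + 1 : ℕ) : ℝ) * pE n H := h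
    _ = 888000 * ((Nat.log 2 H.edgeSet.ncard + 1 : ℕ) : ℝ) * pE n H := by ring

/-- Forests: `p_c(n,H) ≤ 2600000 p_E(n,H) log n`. -/
theorem pc_le_log_forest (n : ℕ) (hn : 2 ≤ n) {W : Type} [Fintype W] (H : SimpleGraph W)
    (hacyc : H.IsAcyclic) (hW : Fintype.card W ≤ n) (hH : ∃ a b, H.Adj a b) :
    pc n H ≤ 2600000 * pE n H * Real.log n := by
  classical
  have h := pc_le_forest n H hacyc hW hH
  have hr := log_edges_add_one_le n hn H hW hH
  have hq0 : 0 ≤ pE n H := (pE_mem n H hW).1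
  have hlogn : 0 ≤ Real.log n := Real.log_nonneg (by exact_mod_cast (by omega : 1 ≤ n))
  calc pc n H ≤ 888000 * ((Nat.log 2 H.edgeSet.ncard + 1 : ℕ) : ℝ) * pE n H := h
    _ = 888000 * pE n H * ((Nat.log 2 H.edgeSet.ncard + 1 : ℕ) : ℝ) := by ring
    _ ≤ 888000 * pE n H * (2.9 * Real.log n) :=
        mul_le_mul_of_nonneg_left hr (by positivity)
    _ = 2575200 * pE n H * Real.log n := by ring
    _ ≤ 2600000 * pE n H * Real.log n := by
        have : 0 ≤ pE n H * Real.log n := mul_nonneg hq0 hlogn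
        nlinarith

/-- Forests: if every subgraph of `H` has expected count at least `1/2` in `G(n,q)`, then every
graph `S` satisfies `N(H,S) ≤ E N(G(n, min(1, 74000 q)), S)`. -/
theorem copyCount_le_gnpExp_forest (n : ℕ) {W : Type} [Fintype W] (H : SimpleGraph W)
    (hacyc : H.IsAcyclic) (hW : Fintype.card W ≤ n) (hH : ∃ a b, H.Adj a b) (q : ℝ)
    (hq0 : 0 < q)
    (hq : ∀ F : H.Subgraph, 1 / 2 ≤ gnpExp n q (fun G => (G.copyCount F.coe : ℝ)))
    {V : Type} [Fintype V] (S : SimpleGraph V) :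
    (H.copyCount S : ℝ)
      ≤ gnpExp n (min 1 (74000 * q)) (fun G => (G.copyCount S : ℝ)) := by
  classical
  have hn : 0 < n := by
    obtain ⟨a, -, -⟩ := hH
    exact lt_of_lt_of_le (Fintype.card_pos_iff.mpr ⟨a⟩) hW
  have h := copyCount_le_gnpExp_gen H n hW q hq0.le 10000 (by norm_num)
    (fun U _ K => labelledCopyCount_le_forest H hacyc n hn hW q hq0 hq U K) S
  have he : (7.4 : ℝ) * 10000 * q = 74000 * q := by ring
  rw [he] at h
  exact h

end Vale.Agent.Lib.P064
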