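import Mathlib
namespace Vale.Agent.Lib.P064

open SimpleGraph

theorem card_aut_pos {V : Type*} [Finite V] (S : SimpleGraph V) : 0 < Nat.card (S ≃g S) := by
  have : Finite (S ≃g S) :=
    Finite.of_injective (fun e : S ≃g S => (e : V → V)) DFunLike.coe_injective
  have : Nonempty (S ≃g S) := ⟨SimpleGraph.Iso.refl⟩
  exact Nat.card_pos

/-- Two copies span the same subgraph iff they have the same range and the same image
adjacency. -/
lemma autCount_toSubgraph_eq_iff {V W : Type*} {S : SimpleGraph V} {G : SimpleGraph W}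
    (c c0 : S.Copy G) :
    c.toSubgraph = c0.toSubgraph ↔ Set.range c = Set.range c0 ∧
      ∀ x y, (∃ u v, S.Adj u v ∧ c u = x ∧ c v = y) ↔
        (∃ u v, S.Adj u v ∧ c0 u = x ∧ c0 v = y) := by
  constructor
  · intro h
    constructor
    · have hv := congrArg Subgraph.verts h
      simpa using hv
    · intro x y
      have ha := congrFun (congrFun (congrArg Subgraph.Adj h) x) y
      simpa [Relation.map_apply] using ha
  · rintro ⟨hv, ha⟩
    apply Subgraph.ext
    · simpa using hv
    · funext x y
      simpa [Relation.map_apply] using ha x y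

/-- Precomposing a copy with an automorphism does not change the spanned subgraph. -/
lemma autCount_comp_toSubgraph {V W : Type*} {S : SimpleGraph V} {G : SimpleGraph W}
    (c0 : S.Copy G) (σ : S ≃g S) : (c0.comp σ.toCopy).toSubgraph = c0.toSubgraph := by
  rw [autCount_toSubgraph_eq_iff]
  constructor
  · ext x
    constructor
    · rintro ⟨u, rfl⟩
      exact ⟨σ u, rfl⟩
    · rintro ⟨u, rfl⟩
      exact ⟨σ.symm u, by simp⟩
  · intro x y
    constructor
    · rintro ⟨u, v, huv, rfl, rfl⟩
      exact ⟨σ u, σ v, σ.map_rel_iff.2 huv, rfl, rfl⟩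
    · rintro ⟨u, v, huv, rfl, rfl⟩
      refine ⟨σ.symm u, σ.symm v, σ.symm.map_rel_iff.2 huv, by simp, by simp⟩

/-- A copy spanning the same subgraph as `c0` is `c0` precomposed with an automorphism. -/
lemma autCount_exists_aut {V W : Type*} [Finite V] {S : SimpleGraph V} {G : SimpleGraph W}
    (c c0 : S.Copy G) (h : c.toSubgraph = c0.toSubgraph) :
    ∃ σ : S ≃g S, c0.comp σ.toCopy = c := by
  obtain ⟨hv, ha⟩ := (autCount_toSubgraph_eq_iff c c0).1 h
  have hex : ∀ u, ∃ u', c0 u' = c u := fun u => by
    have h1 : c u ∈ Set.range c0 := hv ▸ Set.mem_range_self u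
    exact h1
  choose τ hτ using hex
  have hinj : Function.Injective τ := by
    intro u v huv
    apply c.injective
    change c u = c v
    rw [← hτ u, ← hτ v, huv]
  have hbij : Function.Bijective τ := Finite.injective_iff_bijective.1 hinj
  have hadj : ∀ u v, S.Adj (τ u) (τ v) ↔ S.Adj u v := by
    intro u v
    constructor
    · intro h1
      obtain ⟨u', v', h2, h3, h4⟩ := (ha (c u) (c v)).2 ⟨τ u, τ v, h1, hτ u, hτ v⟩
      have e1 : u' = u := c.injective h3
      have e2 : v' = v := c.injective h4
      rw [← e1, ← e2]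
      exact h2
    · intro h1
      obtain ⟨u', v', h2, h3, h4⟩ := (ha (c u) (c v)).1 ⟨u, v, h1, rfl, rfl⟩
      have e1 : u' = τ u := c0.injective (h3.trans (hτ u).symm)
      have e2 : v' = τ v := c0.injective (h4.trans (hτ v).symm)
      rw [← e1, ← e2]
      exact h2
  refine ⟨⟨Equiv.ofBijective τ hbij, fun {u v} => hadj u v⟩, ?_⟩
  apply DFunLike.ext
  intro u
  exact hτ u

theorem labelledCopyCount_eq_card_aut_mul_copyCount {V W : Type*} [Fintype V] [Fintype W]
    (S : SimpleGraph V) (G : SimpleGraph W) :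
    G.labelledCopyCount S = Nat.card (S ≃g S) * G.copyCount S := by
  classical
  rw [copyCount_eq_card_image_copyToSubgraph]
  have h1 : G.labelledCopyCount S = (Finset.univ : Finset (S.Copy G)).card := by
    rw [Finset.card_univ]
    unfold labelledCopyCount
    congr
  rw [h1, Finset.card_eq_sum_card_fiberwise (f := Copy.toSubgraph)
    (t := (Finset.univ : Finset (S.Copy G)).image Copy.toSubgraph)
    (fun c _ => Finset.mem_image_of_mem _ (Finset.mem_univ c))]
  rw [Finset.sum_const_nat (m := Nat.card (S ≃g S)), mul_comm]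
  intro b hb
  obtain ⟨c0, -, rfl⟩ := Finset.mem_image.1 hb
  symm
  rw [← Fintype.card_subtype, ← Nat.card_eq_fintype_card]
  refine Nat.card_congr (Equiv.ofBijective (fun σ : S ≃g S =>
    (⟨c0.comp σ.toCopy, autCount_comp_toSubgraph c0 σ⟩ :
      {c : S.Copy G // c.toSubgraph = c0.toSubgraph})) ⟨?_, ?_⟩)
  · intro σ1 σ2 h12
    have h2 : c0.comp σ1.toCopy = c0.comp σ2.toCopy := congrArg Subtype.val h12
    apply DFunLike.ext
    intro u
    have h3 := DFunLike.congr_fun h2 u
    exact c0.injective h3
  · rintro ⟨c, hc⟩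
    obtain ⟨σ, hσ⟩ := autCount_exists_aut c c0 hc
    exact ⟨σ, Subtype.ext hσ⟩

end Vale.Agent.Lib.P064
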