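import Mathlib

/-!
Arithmetic for P064: `n^v ≤ e^v (n)_v` for `v ≤ n`, where `(n)_v` is the falling factorial, and
`10 e^2 ≤ 10^e` for `e ≥ 1`.
-/

namespace Vale.Agent.Lib.P064

/-- `(v+1)^v ≤ e v^v`. -/
theorem succ_pow_le_exp_mul_pow (v : ℕ) : ((v : ℝ) + 1) ^ v ≤ Real.exp 1 * (v : ℝ) ^ v := by
  rcases Nat.eq_zero_or_pos v with rfl | hv
  · simp only [pow_zero, mul_one]
    linarith [Real.add_one_le_exp (1 : ℝ)]
  · have hv' : (0 : ℝ) < v := by exact_mod_cast hv
    have h1 : (v : ℝ) + 1 = v * (1 + 1 / v) := by field_simp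
    have h2 : 1 + 1 / (v : ℝ) ≤ Real.exp (1 / v) := by
      linarith [Real.add_one_le_exp (1 / (v : ℝ))]
    have h3 : (0 : ℝ) ≤ 1 + 1 / (v : ℝ) := by positivity
    calc ((v : ℝ) + 1) ^ v = (v : ℝ) ^ v * (1 + 1 / v) ^ v := by rw [h1, mul_pow]
      _ ≤ (v : ℝ) ^ v * (Real.exp (1 / v)) ^ v :=
          mul_le_mul_of_nonneg_left (pow_le_pow_left₀ h3 h2 v) (by positivity)
      _ = (v : ℝ) ^ v * Real.exp 1 := by
          rw [← Real.exp_nat_mul]
          congr 2
          field_simp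
      _ = Real.exp 1 * (v : ℝ) ^ v := mul_comm _ _

/-- `v^v ≤ e^v v!`. -/
theorem pow_self_le_exp_mul_factorial (v : ℕ) :
    (v : ℝ) ^ v ≤ Real.exp v * (v.factorial : ℝ) := by
  induction v with
  | zero => simp
  | succ v ih =>
    have h := succ_pow_le_exp_mul_pow v
    have hv : (0 : ℝ) ≤ (v : ℝ) + 1 := by positivity
    calc ((v + 1 : ℕ) : ℝ) ^ (v + 1) = ((v : ℝ) + 1) * ((v : ℝ) + 1) ^ v := by
          push_cast; ring
      _ ≤ ((v : ℝ) + 1) * (Real.exp 1 * (v : ℝ) ^ v) := mul_le_mul_of_nonneg_left h hv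
      _ ≤ ((v : ℝ) + 1) * (Real.exp 1 * (Real.exp v * v.factorial)) :=
          mul_le_mul_of_nonneg_left
            (mul_le_mul_of_nonneg_left ih (Real.exp_pos 1).le) hv
      _ = Real.exp ((v + 1 : ℕ)) * ((v + 1).factorial : ℝ) := by
          rw [Nat.factorial_succ]
          push_cast
          rw [Real.exp_add]
          ring

/-- `n^v v! ≤ (n)_v v^v` for `v ≤ n`. -/
theorem pow_mul_factorial_le (n v : ℕ) (h : v ≤ n) :
    n ^ v * v.factorial ≤ n.descFactorial v * v ^ v := by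
  have h0 : v.factorial = ∏ i ∈ Finset.range v, (v - i) := by
    rw [← Nat.descFactorial_self v, Nat.descFactorial_eq_prod_range]
  have h1 : n ^ v = ∏ _i ∈ Finset.range v, n := by rw [Finset.prod_const, Finset.card_range]
  have h2 : v ^ v = ∏ _i ∈ Finset.range v, v := by rw [Finset.prod_const, Finset.card_range]
  rw [h0, Nat.descFactorial_eq_prod_range, h1, h2, ← Finset.prod_mul_distrib,
    ← Finset.prod_mul_distrib]
  apply Finset.prod_le_prod'
  intro i hi
  rw [Finset.mem_range] at hi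
  have e1 : n * (v - i) + n * i = n * v := by rw [← Nat.mul_add, Nat.sub_add_cancel hi.le]
  have e2 : (n - i) * v + i * v = n * v := by
    rw [← Nat.add_mul, Nat.sub_add_cancel (by omega)]
  nlinarith

/-- `n^v ≤ e^v (n)_v` for `v ≤ n`. -/
theorem pow_le_exp_mul_descFactorial (n v : ℕ) (h : v ≤ n) :
    (n : ℝ) ^ v ≤ Real.exp v * (n.descFactorial v : ℝ) := by
  have h1 : ((n ^ v * v.factorial : ℕ) : ℝ) ≤ ((n.descFactorial v * v ^ v : ℕ) : ℝ) := by
    exact_mod_cast pow_mul_factorial_le n v h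
  push_cast at h1
  have h2 := pow_self_le_exp_mul_factorial v
  have h3 : (0 : ℝ) < v.factorial := by exact_mod_cast Nat.factorial_pos v
  have h4 : (0 : ℝ) ≤ n.descFactorial v := by positivity
  have h5 : (n : ℝ) ^ v * v.factorial ≤ (Real.exp v * n.descFactorial v) * v.factorial := by
    calc (n : ℝ) ^ v * v.factorial ≤ n.descFactorial v * (v : ℝ) ^ v := h1
      _ ≤ n.descFactorial v * (Real.exp v * v.factorial) := mul_le_mul_of_nonneg_left h2 h4
      _ = _ := by ring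
  exact le_of_mul_le_mul_right h5 h3

/-- `10 e^2 ≤ 10^e` for `e ≥ 1`. -/
theorem ten_mul_sq_le (e : ℕ) (he : 1 ≤ e) : 10 * e ^ 2 ≤ 10 ^ e := by
  induction e with
  | zero => omega
  | succ k ih =>
    rcases Nat.eq_zero_or_pos k with rfl | hk
    · norm_num
    · have := ih hk
      have h2 : (k + 1) ^ 2 ≤ 10 * k ^ 2 := by nlinarith
      calc 10 * (k + 1) ^ 2 ≤ 10 * (10 * k ^ 2) := Nat.mul_le_mul_left 10 h2
        _ ≤ 10 * 10 ^ k := Nat.mul_le_mul_left 10 this
        _ = 10 ^ (k + 1) := by ring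

end Vale.Agent.Lib.P064
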