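import Mathlib

namespace Vale.Agent.Lib.P064

/-- The image in `Sym2 V` of the edge set of an induced subgraph: the edges of `S` with both
ends in `A`. -/
theorem induceEdges_image_eq {V : Type*} (S : SimpleGraph V) (A : Set V) :
    Sym2.map (Subtype.val : A → V) '' (S.induce A).edgeSet =
      {e | e ∈ S.edgeSet ∧ ∀ v ∈ e, v ∈ A} := by
  ext e
  constructor
  · rintro ⟨e', he', rfl⟩
    induction e' using Sym2.ind with
    | _ x y =>
      rw [SimpleGraph.mem_edgeSet, SimpleGraph.comap_adj] at he'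
      refine ⟨?_, ?_⟩
      · rw [Sym2.map_mk, SimpleGraph.mem_edgeSet]
        exact he'
      · intro v hv
        rw [Sym2.map_mk, Sym2.mem_iff] at hv
        rcases hv with rfl | rfl
        · exact x.2
        · exact y.2
  · rintro ⟨he, hv⟩
    induction e using Sym2.ind with
    | _ a b =>
      have ha : a ∈ A := hv a (Sym2.mem_mk_left a b)
      have hb : b ∈ A := hv b (Sym2.mem_mk_right a b)
      refine ⟨s(⟨a, ha⟩, ⟨b, hb⟩), ?_, ?_⟩
      · rw [SimpleGraph.mem_edgeSet, SimpleGraph.comap_adj]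
        exact he
      · rw [Sym2.map_mk]

theorem ncard_edgeSet_induce_add {V : Type*} [Finite V] (S : SimpleGraph V) (A : Set V)
    (hA : ∀ a ∈ A, ∀ b, S.Adj a b → b ∈ A) :
    (S.induce A).edgeSet.ncard + (S.induce Aᶜ).edgeSet.ncard = S.edgeSet.ncard := by
  have h1 : (S.induce A).edgeSet.ncard = {e | e ∈ S.edgeSet ∧ ∀ v ∈ e, v ∈ A}.ncard := by
    rw [← induceEdges_image_eq,
      Set.ncard_image_of_injective _ (Sym2.map.injective Subtype.val_injective)]
  have h2 : (S.induce Aᶜ).edgeSet.ncard = {e | e ∈ S.edgeSet ∧ ∀ v ∈ e, v ∈ Aᶜ}.ncard := by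
    rw [← induceEdges_image_eq,
      Set.ncard_image_of_injective _ (Sym2.map.injective Subtype.val_injective)]
  have hunion : S.edgeSet =
      {e | e ∈ S.edgeSet ∧ ∀ v ∈ e, v ∈ A} ∪ {e | e ∈ S.edgeSet ∧ ∀ v ∈ e, v ∈ Aᶜ} := by
    ext e
    constructor
    · intro he
      induction e using Sym2.ind with
      | _ a b =>
        have hab : S.Adj a b := he
        by_cases ha : a ∈ A
        · left
          refine ⟨he, ?_⟩
          intro v hv
          rcases Sym2.mem_iff.mp hv with rfl | rfl
          · exact ha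
          · exact hA _ ha _ hab
        · right
          refine ⟨he, ?_⟩
          intro v hv
          rcases Sym2.mem_iff.mp hv with rfl | rfl
          · exact ha
          · intro hb
            exact ha (hA _ hb _ hab.symm)
    · rintro (h | h)
      · exact h.1
      · exact h.1
  have hdisj : Disjoint {e | e ∈ S.edgeSet ∧ ∀ v ∈ e, v ∈ A}
      {e | e ∈ S.edgeSet ∧ ∀ v ∈ e, v ∈ Aᶜ} := by
    rw [Set.disjoint_left]
    rintro e ⟨-, h⟩ ⟨-, h'⟩
    induction e using Sym2.ind with
    | _ a b => exact h' a (Sym2.mem_mk_left a b) (h a (Sym2.mem_mk_left a b))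
  rw [h1, h2, ← Set.ncard_union_eq hdisj (Set.toFinite _) (Set.toFinite _), ← hunion]

theorem card_le_two_mul_ncard_edgeSet {V : Type*} [Fintype V] (S : SimpleGraph V)
    (hS : ∀ v, ∃ w, S.Adj v w) : Fintype.card V ≤ 2 * S.edgeSet.ncard := by
  classical
  have h1 : ∑ v, S.degree v = 2 * S.edgeFinset.card := S.sum_degrees_eq_twice_card_edges
  have h2 : S.edgeSet.ncard = S.edgeFinset.card := by
    rw [Set.ncard_eq_toFinset_card']
    rfl
  have h3 : ∑ _v : V, 1 ≤ ∑ v, S.degree v := by
    apply Finset.sum_le_sum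
    intro v _
    exact Nat.succ_le_of_lt ((S.degree_pos_iff_exists_adj v).mpr (hS v))
  rw [h2, ← h1]
  simpa using h3

end Vale.Agent.Lib.P064
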