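import Mathlib
namespace Vale.Agent.Lib.P064

open SimpleGraph

theorem induceSplit_finite_copy {V W : Type*} [Finite V] [Finite W]
    (S : SimpleGraph V) (H : SimpleGraph W) : Finite (S.Copy H) :=
  Finite.of_injective (fun c : S.Copy H => (c : V → W)) DFunLike.coe_injective

theorem induceSplit_count_eq {V W : Type*} [Fintype V] [Fintype W]
    (S : SimpleGraph V) (H : SimpleGraph W) : H.labelledCopyCount S = Nat.card (S.Copy H) := by
  unfold labelledCopyCount
  exact Fintype.card_eq_nat_card

theorem induceSplit_induce_apply {V : Type*} (S : SimpleGraph V) (A : Set V) (x : ↑A) :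
    Copy.induce S A x = (x : V) := rfl

theorem induceSplit_ext {V W : Type*} (S : SimpleGraph V) (H : SimpleGraph W) (A : Set V)
    (c c' : S.Copy H) (h1 : ∀ x : ↑A, c x = c' x) (h2 : ∀ x : ↑Aᶜ, c x = c' x) : c = c' := by
  apply Copy.ext
  intro v
  by_cases hv : v ∈ A
  · exact h1 ⟨v, hv⟩
  · exact h2 ⟨v, hv⟩

theorem labelledCopyCount_le_mul_induce {V W : Type*} [Fintype V] [Fintype W]
    (S : SimpleGraph V) (H : SimpleGraph W) (A : Set V) [Fintype ↑A] [Fintype ↑Aᶜ] :
    H.labelledCopyCount S
      ≤ H.labelledCopyCount (S.induce A) * H.labelledCopyCount (S.induce Aᶜ) := by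
  rw [induceSplit_count_eq, induceSplit_count_eq, induceSplit_count_eq, ← Nat.card_prod]
  have := induceSplit_finite_copy (S.induce A) H
  have := induceSplit_finite_copy (S.induce Aᶜ) H
  apply Nat.card_le_card_of_injective
    (fun c : S.Copy H => (c.comp (Copy.induce S A), c.comp (Copy.induce S Aᶜ)))
  intro c c' h
  have h1 := congrArg Prod.fst h
  have h2 := congrArg Prod.snd h
  apply induceSplit_ext S H A
  · intro x
    have h3 := DFunLike.congr_fun h1 x
    simpa only [Copy.comp_apply, induceSplit_induce_apply] using h3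
  · intro x
    have h3 := DFunLike.congr_fun h2 x
    simpa only [Copy.comp_apply, induceSplit_induce_apply] using h3

theorem labelledCopyCount_le_mul_descFactorial {V W : Type*} [Fintype V] [Fintype W]
    (S : SimpleGraph V) (H : SimpleGraph W) (A : Set V) [Fintype ↑A] :
    H.labelledCopyCount S ≤ H.labelledCopyCount (S.induce A)
      * (Fintype.card W - Fintype.card ↑A).descFactorial (Fintype.card V - Fintype.card ↑A) := by
  classical
  have : Fintype ↑Aᶜ := Fintype.ofFinite _
  rw [induceSplit_count_eq, induceSplit_count_eq]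
  have := induceSplit_finite_copy (S.induce A) H
  have : Fintype ((S.induce A).Copy H) := Fintype.ofFinite _
  have hT : ∀ c1 : (S.induce A).Copy H,
      Nat.card (↑Aᶜ ↪ {w : W // w ∉ Set.range c1})
        = (Fintype.card W - Fintype.card ↑A).descFactorial
            (Fintype.card V - Fintype.card ↑A) := by
    intro c1
    rw [Nat.card_eq_fintype_card, Fintype.card_embedding_eq, Fintype.card_compl_set,
      Fintype.card_subtype_compl]
    have hr : Fintype.card {w : W // w ∈ Set.range c1} = Fintype.card ↑A := by
      have h := Set.card_range_of_injective c1.injective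
      rw [← h]
      exact Fintype.card_congr (Equiv.refl _)
    rw [hr]
  have hmem : ∀ (c : S.Copy H) (x : ↑Aᶜ),
      c x ∉ Set.range (c.comp (Copy.induce S A)) := by
    intro c x hx
    obtain ⟨y, hy⟩ := hx
    rw [Copy.comp_apply, induceSplit_induce_apply] at hy
    have hxy := c.injective hy
    exact x.2 (hxy ▸ y.2)
  let F : S.Copy H → Σ c1 : (S.induce A).Copy H, (↑Aᶜ ↪ {w : W // w ∉ Set.range c1}) :=
    fun c => ⟨c.comp (Copy.induce S A),
      ⟨fun x => ⟨c x, hmem c x⟩, fun x y hxy => by
        have h := congrArg Subtype.val hxy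
        exact Subtype.ext (c.injective h)⟩⟩
  have hF : Function.Injective F := by
    intro c c' h
    have h1 : c.comp (Copy.induce S A) = c'.comp (Copy.induce S A) := congrArg Sigma.fst h
    have h2 : (fun x : ↑Aᶜ => c x) = (fun x : ↑Aᶜ => c' x) :=
      congrArg (fun p : Σ c1 : (S.induce A).Copy H, (↑Aᶜ ↪ {w : W // w ∉ Set.range c1}) =>
        (fun x : ↑Aᶜ => ((p.2 x : {w : W // w ∉ Set.range p.1}) : W))) h
    apply induceSplit_ext S H A
    · intro x
      have h3 := DFunLike.congr_fun h1 x
      simpa only [Copy.comp_apply, induceSplit_induce_apply] using h3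
    · intro x
      exact congrFun h2 x
  calc Nat.card (S.Copy H)
      ≤ Nat.card (Σ c1 : (S.induce A).Copy H, (↑Aᶜ ↪ {w : W // w ∉ Set.range c1})) :=
        Nat.card_le_card_of_injective F hF
    _ = ∑ c1 : (S.induce A).Copy H, Nat.card (↑Aᶜ ↪ {w : W // w ∉ Set.range c1}) :=
        Nat.card_sigma
    _ = Nat.card ((S.induce A).Copy H)
          * (Fintype.card W - Fintype.card ↑A).descFactorial
              (Fintype.card V - Fintype.card ↑A) := by
        simp only [hT, Finset.sum_const, Finset.card_univ, smul_eq_mul,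
          Nat.card_eq_fintype_card]

end Vale.Agent.Lib.P064
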