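import Vale.Agent.Lib.P064.Gnp
namespace Vale.Agent.Lib.P064
open Finset

theorem gnpExp_labelledCopyCount {V : Type*} [Fintype V] (S : SimpleGraph V) (n : ℕ) (p : ℝ) :
    gnpExp n p (fun G => (G.labelledCopyCount S : ℝ))
      = (n.descFactorial (Fintype.card V) : ℝ) * p ^ S.edgeSet.ncard := by
  classical
  obtain ⟨T, hT⟩ : ∃ T : (V → Fin n) → Finset (Sym2 (Fin n)),
      T = fun φ => S.edgeFinset.image (Sym2.map φ) := ⟨_, rfl⟩
  obtain ⟨Inj, hInj⟩ : ∃ Inj : Finset (V → Fin n),
      Inj = Finset.univ.filter Function.Injective := ⟨_, rfl⟩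
  have hTsub : ∀ φ ∈ Inj, T φ ⊆ edgesKn n := by
    intro φ hφ
    rw [hInj, Finset.mem_filter] at hφ
    intro e he
    rw [hT, Finset.mem_image] at he
    obtain ⟨e0, he0, rfl⟩ := he
    induction e0 using Sym2.ind with
    | _ a b =>
      rw [SimpleGraph.mem_edgeFinset, SimpleGraph.mem_edgeSet] at he0
      unfold edgesKn
      rw [SimpleGraph.mem_edgeFinset, Sym2.map_mk, SimpleGraph.mem_edgeSet,
        SimpleGraph.top_adj]
      exact fun h => S.ne_of_adj he0 (hφ.2 h)
  have hTcard : ∀ φ ∈ Inj, (T φ).card = S.edgeSet.ncard := by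
    intro φ hφ
    rw [hInj, Finset.mem_filter] at hφ
    rw [hT, Finset.card_image_of_injective _ (Sym2.map.injective hφ.2),
      Set.ncard_eq_toFinset_card', SimpleGraph.edgeFinset]
  have key : ∀ A : Finset (Sym2 (Fin n)),
      ((graphOf A).labelledCopyCount S : ℝ) = ∑ φ ∈ Inj, (if T φ ⊆ A then (1 : ℝ) else 0) := by
    intro A
    have h2 : (graphOf A).labelledCopyCount S = (Inj.filter (fun φ => T φ ⊆ A)).card := by
      unfold SimpleGraph.labelledCopyCount
      rw [Fintype.card_eq_nat_card, ← Fintype.card_coe, Fintype.card_eq_nat_card]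
      apply Nat.card_eq_of_bijective
        (fun c : SimpleGraph.Copy S (graphOf A) =>
          (⟨(c : V → Fin n), by
            rw [Finset.mem_filter, hInj, Finset.mem_filter]
            refine ⟨⟨Finset.mem_univ _, c.injective⟩, ?_⟩
            intro e he
            rw [hT, Finset.mem_image] at he
            obtain ⟨e0, he0, rfl⟩ := he
            induction e0 using Sym2.ind with
            | _ a b =>
              rw [SimpleGraph.mem_edgeFinset, SimpleGraph.mem_edgeSet] at he0
              have hadj := c.toHom.map_rel he0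
              unfold graphOf at hadj
              rw [SimpleGraph.fromEdgeSet_adj] at hadj
              rw [Sym2.map_mk]
              exact_mod_cast hadj.1⟩ :
            {φ // φ ∈ Inj.filter (fun φ => T φ ⊆ A)}))
      constructor
      · intro c1 c2 h
        apply DFunLike.coe_injective
        exact congrArg Subtype.val h
      · rintro ⟨φ, hφ⟩
        rw [Finset.mem_filter, hInj, Finset.mem_filter] at hφ
        obtain ⟨⟨-, hinj⟩, hsub⟩ := hφ
        refine ⟨⟨⟨φ, ?_⟩, hinj⟩, rfl⟩
        intro a b hab
        unfold graphOf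
        rw [SimpleGraph.fromEdgeSet_adj]
        refine ⟨?_, fun h => S.ne_of_adj hab (hinj h)⟩
        have hmem : s(φ a, φ b) ∈ T φ := by
          rw [hT, Finset.mem_image]
          exact ⟨s(a, b), by rw [SimpleGraph.mem_edgeFinset]; exact hab, Sym2.map_mk _ _ _⟩
        exact_mod_cast hsub hmem
    rw [Finset.sum_boole]
    exact_mod_cast h2
  have hcard : Inj.card = n.descFactorial (Fintype.card V) := by
    rw [hInj, ← Fintype.card_subtype,
      Fintype.card_congr (Equiv.subtypeInjectiveEquivEmbedding V (Fin n)),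
      Fintype.card_embedding_eq, Fintype.card_fin]
  unfold gnpExp
  calc ∑ A ∈ (edgesKn n).powerset,
        p ^ A.card * (1 - p) ^ ((edgesKn n).card - A.card) *
          ((graphOf A).labelledCopyCount S : ℝ)
      = ∑ A ∈ (edgesKn n).powerset,
          p ^ A.card * (1 - p) ^ ((edgesKn n).card - A.card)
            * ∑ φ ∈ Inj, (if T φ ⊆ A then (1 : ℝ) else 0) := by
        apply Finset.sum_congr rfl
        intro A _
        rw [key A]
    _ = ∑ φ ∈ Inj, ∑ A ∈ (edgesKn n).powerset,
          (if T φ ⊆ A then p ^ A.card * (1 - p) ^ ((edgesKn n).card - A.card) else 0) := by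
        rw [Finset.sum_comm]
        apply Finset.sum_congr rfl
        intro A _
        rw [Finset.mul_sum]
        apply Finset.sum_congr rfl
        intro φ _
        split_ifs <;> simp
    _ = ∑ φ ∈ Inj, p ^ S.edgeSet.ncard := by
        apply Finset.sum_congr rfl
        intro φ hφ
        rw [sum_weight_superset _ _ (hTsub φ hφ), hTcard φ hφ]
    _ = (Inj.card : ℝ) * p ^ S.edgeSet.ncard := by
        rw [Finset.sum_const, nsmul_eq_mul]
    _ = (n.descFactorial (Fintype.card V) : ℝ) * p ^ S.edgeSet.ncard := by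
        rw [hcard]

end Vale.Agent.Lib.P064
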