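import Mathlib
namespace Vale.Agent.Lib.P064

theorem card_rooted_hom_le {V W : Type*} [Fintype V] [Fintype W]
    (K : SimpleGraph V) (H : SimpleGraph W) (hK : K.Connected) (D : ℕ)
    (hD : ∀ w : W, (H.neighborSet w).ncard ≤ D) (a : V) (x : W) :
    Nat.card {f : K →g H // f a = x} ≤ D ^ (Fintype.card V - 1) := by
  classical
  -- rooted homomorphisms as plain functions
  let Hm : Finset (V → W) :=
    Finset.univ.filter fun f => (∀ u v, K.Adj u v → H.Adj (f u) (f v)) ∧ f a = x
  -- restriction to a vertex set, normalised to the value x outside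
  let ρ : Finset V → (V → W) → (V → W) := fun T f v => if v ∈ T then f v else x
  let R : Finset V → Finset (V → W) := fun T => Hm.image (ρ T)
  have hρ_in : ∀ (T : Finset V) (f : V → W) (w : V), w ∈ T → ρ T f w = f w := by
    intro T f w hw
    simp only [ρ]
    rw [if_pos hw]
  have hρ_out : ∀ (T : Finset V) (f : V → W) (w : V), w ∉ T → ρ T f w = x := by
    intro T f w hw
    simp only [ρ]
    rw [if_neg hw]
  -- adding one vertex adjacent to the reached set multiplies the count by at most D
  have hstep : ∀ (T : Finset V) (u v : V), u ∈ T → v ∉ T → K.Adj u v →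
      (R (insert v T)).card ≤ D * (R T).card := by
    intro T u v hu hv huv
    have himg : (R (insert v T)).image (ρ T) ⊆ R T := by
      intro r hr
      obtain ⟨g, hg, rfl⟩ := Finset.mem_image.mp hr
      obtain ⟨f, hf, rfl⟩ := Finset.mem_image.mp hg
      refine Finset.mem_image.mpr ⟨f, hf, ?_⟩
      funext w
      by_cases hw : w ∈ T
      · rw [hρ_in T f w hw, hρ_in T _ w hw, hρ_in _ f w (Finset.mem_insert_of_mem hw)]
      · rw [hρ_out T f w hw, hρ_out T _ w hw]
    refine (Finset.card_le_mul_card_image (R (insert v T)) D ?_).trans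
      (Nat.mul_le_mul_left D (Finset.card_le_card himg))
    intro r _
    have : Fintype (H.neighborSet (r u)) := Fintype.ofFinite _
    have hcard : (H.neighborSet (r u)).toFinset.card ≤ D := by
      rw [← Set.ncard_eq_toFinset_card']
      exact hD (r u)
    refine le_trans (Finset.card_le_card_of_injOn (fun g : V → W => g v) ?_ ?_) hcard
    · intro g hg
      obtain ⟨hgR, hgr⟩ := Finset.mem_filter.mp hg
      obtain ⟨f, hf, rfl⟩ := Finset.mem_image.mp hgR
      have hfhom := (Finset.mem_filter.mp hf).2.1
      have h1 : r u = f u := by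
        rw [← hgr, hρ_in T _ u hu, hρ_in _ f u (Finset.mem_insert_of_mem hu)]
      have h2 : ρ (insert v T) f v = f v := hρ_in _ f v (Finset.mem_insert_self v T)
      show ρ (insert v T) f v ∈ ((H.neighborSet (r u)).toFinset : Set W)
      rw [Finset.mem_coe, Set.mem_toFinset, h1, h2]
      exact hfhom u v huv
    · intro g₁ hg₁ g₂ hg₂ hv12
      obtain ⟨hg₁R, hg₁r⟩ := Finset.mem_filter.mp (Finset.mem_coe.mp hg₁)
      obtain ⟨hg₂R, hg₂r⟩ := Finset.mem_filter.mp (Finset.mem_coe.mp hg₂)
      obtain ⟨f₁, _, hf₁⟩ := Finset.mem_image.mp hg₁R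
      obtain ⟨f₂, _, hf₂⟩ := Finset.mem_image.mp hg₂R
      funext w
      by_cases hwT : w ∈ T
      · have e1 : ρ T g₁ w = g₁ w := hρ_in T g₁ w hwT
        have e2 : ρ T g₂ w = g₂ w := hρ_in T g₂ w hwT
        rw [← e1, ← e2, hg₁r, hg₂r]
      · by_cases hwv : w = v
        · rw [hwv]
          exact hv12
        · have hw' : w ∉ insert v T := by
            rw [Finset.mem_insert]
            rintro (h | h)
            · exact hwv h
            · exact hwT h
          rw [← hf₁, ← hf₂, hρ_out _ f₁ w hw', hρ_out _ f₂ w hw']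
  -- grow the reached set one vertex at a time
  have hgrow : ∀ k : ℕ, k + 1 ≤ Fintype.card V →
      ∃ T : Finset V, a ∈ T ∧ T.card = k + 1 ∧ (R T).card ≤ D ^ k := by
    intro k
    induction k with
    | zero =>
      intro _
      refine ⟨{a}, Finset.mem_singleton_self a, Finset.card_singleton a, ?_⟩
      have hsub : R {a} ⊆ {fun _ => x} := by
        intro g hg
        obtain ⟨f, hf, rfl⟩ := Finset.mem_image.mp hg
        rw [Finset.mem_singleton]
        funext w
        by_cases hw : w ∈ ({a} : Finset V)
        · rw [hρ_in _ f w hw]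
          rw [Finset.mem_singleton] at hw
          rw [hw]
          exact (Finset.mem_filter.mp hf).2.2
        · rw [hρ_out _ f w hw]
      have := Finset.card_le_card hsub
      rw [Finset.card_singleton] at this
      rw [pow_zero]
      exact this
    | succ k ih =>
      intro hk
      obtain ⟨T, haT, hTc, hR⟩ := ih (by omega)
      have hne : ¬ ∀ w, w ∈ T := by
        intro hall
        have hTu : T = Finset.univ := Finset.eq_univ_iff_forall.mpr hall
        rw [hTu, Finset.card_univ] at hTc
        omega
      obtain ⟨w, hw⟩ := not_forall.mp hne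
      obtain ⟨p⟩ := hK.preconnected a w
      obtain ⟨d, _, hd1, hd2⟩ := p.exists_boundary_dart (T : Set V) (Finset.mem_coe.mpr haT)
        (fun h => hw (Finset.mem_coe.mp h))
      have hd1' : d.fst ∈ T := Finset.mem_coe.mp hd1
      have hd2' : d.snd ∉ T := fun h => hd2 (Finset.mem_coe.mpr h)
      refine ⟨insert d.snd T, Finset.mem_insert_of_mem haT, ?_, ?_⟩
      · rw [Finset.card_insert_of_notMem hd2', hTc]
      · calc (R (insert d.snd T)).card ≤ D * (R T).card := hstep T d.fst d.snd hd1' hd2' d.adj
          _ ≤ D * D ^ k := Nat.mul_le_mul_left D hR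
          _ = D ^ (k + 1) := by ring
  have hpos : 0 < Fintype.card V := Fintype.card_pos_iff.mpr ⟨a⟩
  obtain ⟨T, _, hTc, hR⟩ := hgrow (Fintype.card V - 1) (by omega)
  have hTu : T = Finset.univ := (Finset.card_eq_iff_eq_univ T).mp (by rw [hTc]; omega)
  have hRu : R T = Hm := by
    have hid : ρ T = id := by
      funext f v
      exact hρ_in T f v (by rw [hTu]; exact Finset.mem_univ v)
    show Hm.image (ρ T) = Hm
    rw [hid, Finset.image_id]
  rw [hRu] at hR
  -- homomorphisms inject into the finset of functions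
  have hmem : ∀ f : {f : K →g H // f a = x}, (⇑f.1 : V → W) ∈ Hm := by
    intro f
    refine Finset.mem_filter.mpr ⟨Finset.mem_univ _, fun u v huv => f.1.map_adj huv, f.2⟩
  have hinj : Function.Injective
      (fun f : {f : K →g H // f a = x} => (⟨⇑f.1, hmem f⟩ : {g : V → W // g ∈ Hm})) := by
    intro f₁ f₂ h12
    have h' : (⇑f₁.1 : V → W) = ⇑f₂.1 := congrArg Subtype.val h12
    exact Subtype.ext (DFunLike.coe_injective h')
  calc Nat.card {f : K →g H // f a = x}
      ≤ Nat.card {g : V → W // g ∈ Hm} := Nat.card_le_card_of_injective _ hinj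
    _ = Hm.card := by rw [Nat.card_eq_fintype_card, Fintype.card_coe]
    _ ≤ D ^ (Fintype.card V - 1) := hR

end Vale.Agent.Lib.P064
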