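import Vale.Agent.Lib.P064.DisjFam
import Vale.Agent.Lib.P064.RootedHom
import Vale.Agent.Lib.P064.AutCount
import Vale.Agent.Lib.P064.LabelledExp
import Vale.Agent.Lib.P064.InduceSplit
import Vale.Agent.Lib.P064.InduceEdges
import Vale.Agent.Lib.P064.BddArith

/-!
Hosts of bounded degree.  If `H` has maximum degree at most `D` and every subgraph of `H` has
expected count at least `1/2` in `G(n,q)`, then every graph `S` has at most
`(n)_{v(S)} (74 D q)^{e(S)}` embeddings into `H`, hence `N(H,S) ≤ E N(G(n, min(1, 74 D q)), S)`.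
-/

namespace Vale.Agent.Lib.P064

open Finset

variable {W : Type} [Fintype W] [DecidableEq W]

omit [DecidableEq W] in
/-- Few embeddings of a connected graph send a given vertex to a given vertex. -/
theorem card_rooted_copy_le {V : Type*} [Fintype V] (K : SimpleGraph V) (H : SimpleGraph W)
    (hK : K.Connected) (D : ℕ) (hD : ∀ w : W, (H.neighborSet w).ncard ≤ D) (a : V) (x : W) :
    Nat.card {τ : K.Copy H // τ a = x} ≤ D ^ (Fintype.card V - 1) := by
  classical
  refine le_trans ?_ (card_rooted_hom_le K H hK D hD a x)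
  have : Finite (K →g H) := Finite.of_injective _ DFunLike.coe_injective
  apply Nat.card_le_card_of_injective
    (fun τ : {τ : K.Copy H // τ a = x} => (⟨τ.1.toHom, τ.2⟩ : {f : K →g H // f a = x}))
  intro τ1 τ2 h
  apply Subtype.ext
  apply DFunLike.coe_injective
  exact congrArg (fun f : {f : K →g H // f a = x} => (f.1 : V → W)) h

/-- Connected graphs: at most `n^v (10 D q)^e` embeddings into `H`. -/
theorem labelledCopyCount_connected_le {V : Type*} [Fintype V] (K : SimpleGraph V)
    (H : SimpleGraph W) (n : ℕ) (hn : 0 < n) (q : ℝ) (hq0 : 0 ≤ q) (hq1 : q ≤ 1)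
    (hq : ∀ F : H.Subgraph, 1 / 2 ≤ gnpExp n q (fun G => (G.copyCount F.coe : ℝ)))
    (hKc : K.Connected) (hK : ∀ v, ∃ w, K.Adj v w) (D : ℕ) (hD1 : 1 ≤ D)
    (hD : ∀ w : W, (H.neighborSet w).ncard ≤ D) :
    (H.labelledCopyCount K : ℝ)
      ≤ (n : ℝ) ^ Fintype.card V * (10 * D * q) ^ K.edgeSet.ncard := by
  have : Nonempty V := hKc.nonempty
  have h := labelledCopyCount_le_of_rooted K H n hn q hq0 hq1 hq hK (D ^ (Fintype.card V - 1))
    (fun a x => card_rooted_copy_le K H hKc D hD a x)
  obtain ⟨e, he⟩ : ∃ e : ℕ, e = K.edgeSet.ncard := ⟨_, rfl⟩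
  rw [← he] at h ⊢
  have hve : Fintype.card V - 1 ≤ e := by
    have h1 := hKc.card_vert_le_card_edgeSet_add_one
    rw [Nat.card_eq_fintype_card, Nat.card_coe_set_eq] at h1
    omega
  have he1 : 1 ≤ e := by
    obtain ⟨v⟩ := ‹Nonempty V›
    obtain ⟨w, hvw⟩ := hK v
    rw [he, Nat.succ_le_iff, Set.ncard_pos]
    exact ⟨s(v, w), (SimpleGraph.mem_edgeSet K).mpr hvw⟩
  have h10 : (10 : ℝ) * (e : ℝ) ^ 2 ≤ (10 : ℝ) ^ e := by
    exact_mod_cast ten_mul_sq_le e he1
  have hD1' : (1 : ℝ) ≤ D := by exact_mod_cast hD1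
  have hDpow : ((D ^ (Fintype.card V - 1) : ℕ) : ℝ) ≤ (D : ℝ) ^ e := by
    push_cast
    exact pow_le_pow_right₀ hD1' hve
  have hnq : (0 : ℝ) ≤ (n : ℝ) ^ Fintype.card V * q ^ e := by positivity
  calc (H.labelledCopyCount K : ℝ)
      ≤ 10 * (e : ℝ) ^ 2 * (D ^ (Fintype.card V - 1) : ℕ)
          * ((n : ℝ) ^ Fintype.card V * q ^ e) := h
    _ ≤ (10 : ℝ) ^ e * (D : ℝ) ^ e * ((n : ℝ) ^ Fintype.card V * q ^ e) := by
        apply mul_le_mul_of_nonneg_right _ hnq
        exact mul_le_mul h10 hDpow (by positivity) (by positivity)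
    _ = (n : ℝ) ^ Fintype.card V * (10 * D * q) ^ e := by
        rw [mul_pow, mul_pow]
        ring

/-- Graphs without isolated vertices: at most `n^v (10 D q)^e` embeddings into `H`. -/
theorem labelledCopyCount_le_pow (H : SimpleGraph W) (n : ℕ) (hn : 0 < n) (q : ℝ)
    (hq0 : 0 ≤ q) (hq1 : q ≤ 1)
    (hq : ∀ F : H.Subgraph, 1 / 2 ≤ gnpExp n q (fun G => (G.copyCount F.coe : ℝ)))
    (D : ℕ) (hD1 : 1 ≤ D) (hD : ∀ w : W, (H.neighborSet w).ncard ≤ D) :
    ∀ (m : ℕ) (V : Type) [Fintype V] (S : SimpleGraph V), Fintype.card V = m →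
      (∀ v, ∃ w, S.Adj v w) →
      (H.labelledCopyCount S : ℝ)
        ≤ (n : ℝ) ^ Fintype.card V * (10 * D * q) ^ S.edgeSet.ncard := by
  intro m
  induction m using Nat.strong_induction_on with
  | _ m ih =>
    intro V _ S hm hS
    by_cases hconn : S.Connected
    · exact labelledCopyCount_connected_le S H n hn q hq0 hq1 hq hconn hS D hD1 hD
    · rcases isEmpty_or_nonempty V with hemp | hne
      · rw [SimpleGraph.labelledCopyCount_of_isEmpty]
        have h0 : S.edgeSet.ncard = 0 := by
          rw [Set.eq_empty_of_isEmpty S.edgeSet, Set.ncard_empty]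
        rw [h0, Fintype.card_eq_zero]
        simp
      · obtain ⟨u⟩ := hne
        classical
        obtain ⟨A, hAdef⟩ : ∃ A : Set V, A = {w | S.Reachable u w} := ⟨_, rfl⟩
        have hA : ∀ a ∈ A, ∀ b, S.Adj a b → b ∈ A := by
          intro a ha b hab
          rw [hAdef] at ha ⊢
          exact ha.trans hab.reachable
        have huA : u ∈ A := by
          rw [hAdef]
          exact SimpleGraph.Reachable.refl u
        have hAne : ∃ z, z ∉ A := by
          by_contra hall
          apply hconn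
          have : Nonempty V := ⟨u⟩
          refine SimpleGraph.Connected.mk (fun x y => ?_)
          have hx : x ∈ A := by
            by_contra hx
            exact hall ⟨x, hx⟩
          have hy : y ∈ A := by
            by_contra hy
            exact hall ⟨y, hy⟩
          rw [hAdef] at hx hy
          exact hx.symm.trans hy
        obtain ⟨z, hz⟩ := hAne
        have hcA : Fintype.card A < m := by
          rw [← hm]
          exact Fintype.card_subtype_lt hz
        have hcB : Fintype.card ↥Aᶜ < m := by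
          rw [← hm]
          exact Fintype.card_subtype_lt (x := u) (fun h => h huA)
        have hsum : Fintype.card A + Fintype.card ↥Aᶜ = Fintype.card V := by
          rw [Fintype.card_compl_set]
          have := Fintype.card_subtype_le (fun x => x ∈ A)
          have h2 : Fintype.card A ≤ Fintype.card V := set_fintype_card_le_univ A
          omega
        have hSA : ∀ v : A, ∃ w, (S.induce A).Adj v w := by
          intro ⟨v, hv⟩
          obtain ⟨w, hw⟩ := hS v
          exact ⟨⟨w, hA v hv w hw⟩, hw⟩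
        have hSB : ∀ v : ↥Aᶜ, ∃ w, (S.induce Aᶜ).Adj v w := by
          intro ⟨v, hv⟩
          obtain ⟨w, hw⟩ := hS v
          exact ⟨⟨w, fun hwA => hv (hA w hwA v hw.symm)⟩, hw⟩
        have h1 := ih _ hcA A (S.induce A) rfl hSA
        have h2 := ih _ hcB ↥Aᶜ (S.induce Aᶜ) rfl hSB
        have h3 := labelledCopyCount_le_mul_induce S H A
        have h4 := ncard_edgeSet_induce_add S A hA
        have hy : (0 : ℝ) ≤ 10 * D * q := by positivity
        calc (H.labelledCopyCount S : ℝ)
            ≤ (H.labelledCopyCount (S.induce A) : ℝ)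
                * (H.labelledCopyCount (S.induce Aᶜ) : ℝ) := by exact_mod_cast h3
          _ ≤ ((n : ℝ) ^ Fintype.card A * (10 * D * q) ^ (S.induce A).edgeSet.ncard)
                * ((n : ℝ) ^ Fintype.card ↥Aᶜ * (10 * D * q) ^ (S.induce Aᶜ).edgeSet.ncard) :=
              mul_le_mul h1 h2 (Nat.cast_nonneg _)
                (mul_nonneg (pow_nonneg (Nat.cast_nonneg _) _) (pow_nonneg hy _))
          _ = (n : ℝ) ^ Fintype.card V * (10 * D * q) ^ S.edgeSet.ncard := by
              have e1 : (n : ℝ) ^ Fintype.card V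
                  = (n : ℝ) ^ Fintype.card A * (n : ℝ) ^ Fintype.card ↥Aᶜ := by
                rw [← pow_add, hsum]
              have e2 : (10 * (D : ℝ) * q) ^ S.edgeSet.ncard
                  = (10 * (D : ℝ) * q) ^ (S.induce A).edgeSet.ncard
                    * (10 * (D : ℝ) * q) ^ (S.induce Aᶜ).edgeSet.ncard := by
                rw [← pow_add, h4]
              rw [e1, e2]
              ring

/-- Graphs without isolated vertices: at most `(n)_v (74 D q)^e` embeddings into `H`. -/
theorem labelledCopyCount_le_desc_of_no_isolated (H : SimpleGraph W) (n : ℕ) (hn : 0 < n)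
    (hW : Fintype.card W ≤ n) (q : ℝ) (hq0 : 0 ≤ q) (hq1 : q ≤ 1)
    (hq : ∀ F : H.Subgraph, 1 / 2 ≤ gnpExp n q (fun G => (G.copyCount F.coe : ℝ)))
    (D : ℕ) (hD1 : 1 ≤ D) (hD : ∀ w : W, (H.neighborSet w).ncard ≤ D)
    {V : Type} [Fintype V] (S : SimpleGraph V) (hS : ∀ v, ∃ w, S.Adj v w) :
    (H.labelledCopyCount S : ℝ)
      ≤ (n.descFactorial (Fintype.card V) : ℝ) * (74 * D * q) ^ S.edgeSet.ncard := by
  rcases le_or_gt (Fintype.card V) n with hv | hv
  · have h1 := labelledCopyCount_le_pow H n hn q hq0 hq1 hq D hD1 hD _ V S rfl hS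
    have h2 := pow_le_exp_mul_descFactorial n _ hv
    have h3 := card_le_two_mul_ncard_edgeSet S hS
    obtain ⟨e, he⟩ : ∃ e : ℕ, e = S.edgeSet.ncard := ⟨_, rfl⟩
    rw [← he] at h1 h3 ⊢
    have hy : (0 : ℝ) ≤ 10 * D * q := by positivity
    have hexp : Real.exp (Fintype.card V : ℝ) ≤ (7.4 : ℝ) ^ e := by
      calc Real.exp (Fintype.card V : ℝ) ≤ Real.exp ((2 * e : ℕ) : ℝ) :=
            Real.exp_le_exp.mpr (by exact_mod_cast h3)
        _ = (Real.exp 1 ^ 2) ^ e := by
            rw [← pow_mul, ← Real.exp_nat_mul, mul_one]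
        _ ≤ (7.4 : ℝ) ^ e := by
            apply pow_le_pow_left₀ (by positivity)
            have h9 := Real.exp_one_lt_d9
            have h0 := Real.exp_pos 1
            nlinarith
    have hd : (0 : ℝ) ≤ (n.descFactorial (Fintype.card V) : ℝ) := Nat.cast_nonneg _
    calc (H.labelledCopyCount S : ℝ) ≤ (n : ℝ) ^ Fintype.card V * (10 * D * q) ^ e := h1
      _ ≤ (Real.exp (Fintype.card V : ℝ) * (n.descFactorial (Fintype.card V) : ℝ))
            * (10 * D * q) ^ e := mul_le_mul_of_nonneg_right h2 (pow_nonneg hy _)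
      _ ≤ ((7.4 : ℝ) ^ e * (n.descFactorial (Fintype.card V) : ℝ)) * (10 * D * q) ^ e :=
          mul_le_mul_of_nonneg_right (mul_le_mul_of_nonneg_right hexp hd) (pow_nonneg hy _)
      _ = (n.descFactorial (Fintype.card V) : ℝ) * (74 * D * q) ^ e := by
          have h74 : (74 * (D : ℝ) * q) ^ e = (7.4 : ℝ) ^ e * (10 * D * q) ^ e := by
            rw [← mul_pow]
            congr 1
            ring
          rw [h74]
          ring
  · have h0 : H.labelledCopyCount S = 0 := by
      rw [SimpleGraph.labelledCopyCount_eq_zero]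
      rintro ⟨c⟩
      have := Fintype.card_le_of_injective c c.injective
      omega
    rw [h0, Nat.cast_zero]
    have hx : (0 : ℝ) ≤ 74 * D * q := by positivity
    exact mul_nonneg (Nat.cast_nonneg _) (pow_nonneg hx _)

/-- All graphs: at most `(n)_v (74 D q)^e` embeddings into `H`. -/
theorem labelledCopyCount_le_desc (H : SimpleGraph W) (n : ℕ) (hn : 0 < n)
    (hW : Fintype.card W ≤ n) (q : ℝ) (hq0 : 0 ≤ q) (hq1 : q ≤ 1)
    (hq : ∀ F : H.Subgraph, 1 / 2 ≤ gnpExp n q (fun G => (G.copyCount F.coe : ℝ)))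
    (D : ℕ) (hD1 : 1 ≤ D) (hD : ∀ w : W, (H.neighborSet w).ncard ≤ D)
    {V : Type} [Fintype V] (S : SimpleGraph V) :
    (H.labelledCopyCount S : ℝ)
      ≤ (n.descFactorial (Fintype.card V) : ℝ) * (74 * D * q) ^ S.edgeSet.ncard := by
  classical
  obtain ⟨A, hAdef⟩ : ∃ A : Set V, A = {v | ∃ w, S.Adj v w} := ⟨_, rfl⟩
  have hmemA : ∀ v, (∃ w, S.Adj v w) → v ∈ A := by
    intro v hv
    rw [hAdef]
    exact hv
  have hA : ∀ a ∈ A, ∀ b, S.Adj a b → b ∈ A := by
    intro a _ b hab
    exact hmemA b ⟨a, hab.symm⟩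
  have hSA : ∀ v : A, ∃ w, (S.induce A).Adj v w := by
    intro ⟨v, hv⟩
    have hv' := hv
    rw [hAdef] at hv'
    obtain ⟨w, hw⟩ := hv'
    exact ⟨⟨w, hA v hv w hw⟩, hw⟩
  have h1 := labelledCopyCount_le_desc_of_no_isolated H n hn hW q hq0 hq1 hq D hD1 hD
    (S.induce A) hSA
  have h2 := labelledCopyCount_le_mul_descFactorial S H A
  have h3 := ncard_edgeSet_induce_add S A hA
  have h4 : (S.induce Aᶜ).edgeSet.ncard = 0 := by
    have : (S.induce Aᶜ).edgeSet = ∅ := by
      rw [Set.eq_empty_iff_forall_notMem]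
      intro e he
      induction e using Sym2.ind with
      | _ x y =>
        rw [SimpleGraph.mem_edgeSet] at he
        exact x.2 (hmemA x.1 ⟨y.1, he⟩)
    rw [this, Set.ncard_empty]
  have h5 : (Fintype.card W - Fintype.card A).descFactorial (Fintype.card V - Fintype.card A)
      ≤ (n - Fintype.card A).descFactorial (Fintype.card V - Fintype.card A) :=
    Nat.descFactorial_le _ (Nat.sub_le_sub_right hW _)
  have hAV : Fintype.card A ≤ Fintype.card V := set_fintype_card_le_univ A
  have h6 : (n - Fintype.card A).descFactorial (Fintype.card V - Fintype.card A)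
      * n.descFactorial (Fintype.card A) = n.descFactorial (Fintype.card V) :=
    Nat.descFactorial_mul_descFactorial hAV
  have h7 : (S.induce A).edgeSet.ncard = S.edgeSet.ncard := by omega
  have hx : (0 : ℝ) ≤ 74 * D * q := by positivity
  have h5' : (((Fintype.card W - Fintype.card A).descFactorial
      (Fintype.card V - Fintype.card A) : ℕ) : ℝ)
      ≤ (((n - Fintype.card A).descFactorial (Fintype.card V - Fintype.card A) : ℕ) : ℝ) := by
    exact_mod_cast h5
  have h6' : (((n - Fintype.card A).descFactorial (Fintype.card V - Fintype.card A) : ℕ) : ℝ)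
      * (n.descFactorial (Fintype.card A) : ℝ) = (n.descFactorial (Fintype.card V) : ℝ) := by
    exact_mod_cast h6
  rw [h7] at h1
  calc (H.labelledCopyCount S : ℝ)
      ≤ (H.labelledCopyCount (S.induce A) : ℝ)
          * (((Fintype.card W - Fintype.card A).descFactorial
              (Fintype.card V - Fintype.card A) : ℕ) : ℝ) := by exact_mod_cast h2
    _ ≤ ((n.descFactorial (Fintype.card A) : ℝ) * (74 * D * q) ^ S.edgeSet.ncard)
          * (((n - Fintype.card A).descFactorial (Fintype.card V - Fintype.card A) : ℕ) : ℝ) :=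
        mul_le_mul h1 h5' (Nat.cast_nonneg _)
          (mul_nonneg (Nat.cast_nonneg _) (pow_nonneg hx _))
    _ = (n.descFactorial (Fintype.card V) : ℝ) * (74 * D * q) ^ S.edgeSet.ncard := by
        rw [← h6']
        ring

/-- Number of automorphisms times the expected number of copies of `S` in `G(n,p)`. -/
theorem aut_mul_gnpExp_copyCount {V : Type*} [Fintype V] (S : SimpleGraph V) (n : ℕ) (p : ℝ) :
    (Nat.card (S ≃g S) : ℝ) * gnpExp n p (fun G => (G.copyCount S : ℝ))
      = (n.descFactorial (Fintype.card V) : ℝ) * p ^ S.edgeSet.ncard := by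
  rw [← gnpExp_labelledCopyCount S n p]
  unfold gnpExp
  rw [Finset.mul_sum]
  apply Finset.sum_congr rfl
  intro A _
  beta_reduce
  rw [labelledCopyCount_eq_card_aut_mul_copyCount S (graphOf A)]
  push_cast
  ring

/-- The expected number of copies of `S` in `G(n,p)` is the number of copies of `S` in the
complete graph times `p^{e(S)}`. -/
theorem gnpExp_copyCount_eq {V : Type*} [Fintype V] (S : SimpleGraph V) (n : ℕ) (p : ℝ) :
    gnpExp n p (fun G => (G.copyCount S : ℝ))
      = ((⊤ : SimpleGraph (Fin n)).copyCount S : ℝ) * p ^ S.edgeSet.ncard := by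
  have ha : (0 : ℝ) < Nat.card (S ≃g S) := by exact_mod_cast card_aut_pos S
  have h1 := aut_mul_gnpExp_copyCount S n p
  have h2 := aut_mul_gnpExp_copyCount S n 1
  rw [gnpExp_one, one_pow, mul_one] at h2
  apply mul_left_cancel₀ ha.ne'
  rw [h1, ← h2]
  ring

/-- Hosts of maximum degree at most `D`: `N(H,S) ≤ E N(G(n, min(1, 74 D q)), S)` for every
graph `S`. -/
theorem copyCount_le_gnpExp (H : SimpleGraph W) (n : ℕ) (hn : 0 < n)
    (hW : Fintype.card W ≤ n) (q : ℝ) (hq0 : 0 ≤ q) (hq1 : q ≤ 1)
    (hq : ∀ F : H.Subgraph, 1 / 2 ≤ gnpExp n q (fun G => (G.copyCount F.coe : ℝ)))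
    (D : ℕ) (hD1 : 1 ≤ D) (hD : ∀ w : W, (H.neighborSet w).ncard ≤ D)
    {V : Type} [Fintype V] (S : SimpleGraph V) :
    (H.copyCount S : ℝ) ≤ gnpExp n (min 1 (74 * D * q)) (fun G => (G.copyCount S : ℝ)) := by
  classical
  have ha : (0 : ℝ) < Nat.card (S ≃g S) := by exact_mod_cast card_aut_pos S
  have hkey : (H.labelledCopyCount S : ℝ) ≤ (n.descFactorial (Fintype.card V) : ℝ)
      * (min 1 (74 * (D : ℝ) * q)) ^ S.edgeSet.ncard := by
    rcases le_or_gt (74 * (D : ℝ) * q) 1 with hle | hgt
    · rw [min_eq_right hle]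
      exact labelledCopyCount_le_desc H n hn hW q hq0 hq1 hq D hD1 hD S
    · rw [min_eq_left hgt.le, one_pow, mul_one]
      have h1 : H.labelledCopyCount S ≤ (Fintype.card W).descFactorial (Fintype.card V) := by
        rw [← Fintype.card_embedding_eq]
        unfold SimpleGraph.labelledCopyCount
        rw [Fintype.card_eq_nat_card, Fintype.card_eq_nat_card]
        apply Nat.card_le_card_of_injective (fun c : S.Copy H => c.toEmbedding)
        intro c1 c2 h
        apply DFunLike.coe_injective
        exact congrArg (fun f : V ↪ W => (f : V → W)) h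
      have h2 := Nat.descFactorial_le (Fintype.card V) hW
      exact_mod_cast h1.trans h2
  rw [labelledCopyCount_eq_card_aut_mul_copyCount S H, ← aut_mul_gnpExp_copyCount S n] at hkey
  push_cast at hkey
  exact le_of_mul_le_mul_left hkey ha

end Vale.Agent.Lib.P064
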