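import Vale.Agent.Lib.P064.StarsC
import Vale.Agent.Lib.P064.BddArith

/-!
Maximum degree of an admissible host.  If every subgraph of `H` has expected count at least `1/2`
in `G(n,q)`, then every degree of `H` is less than `j` as soon as `2 e n q ≤ j` and
`128 n^2 < 2^j`.
-/

namespace Vale.Agent.Lib.P064

open Finset

/-- `25 (j+1)^2 ≤ 128 * 2^j`. -/
theorem sq_succ_le_two_pow (j : ℕ) : 25 * (j + 1) ^ 2 ≤ 128 * 2 ^ j := by
  induction j with
  | zero => norm_num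
  | succ k ih =>
    rcases Nat.lt_or_ge k 2 with hk | hk
    · interval_cases k <;> norm_num
    · have h2 : (k + 1 + 1) ^ 2 ≤ 2 * (k + 1) ^ 2 := by nlinarith
      calc 25 * (k + 1 + 1) ^ 2 ≤ 25 * (2 * (k + 1) ^ 2) := Nat.mul_le_mul_left 25 h2
        _ = 2 * (25 * (k + 1) ^ 2) := by ring
        _ ≤ 2 * (128 * 2 ^ k) := Nat.mul_le_mul_left 2 ih
        _ = 128 * 2 ^ (k + 1) := by ring

/-- `C(n-1,j) q^j ≤ (1/2)^j` when `2 e n q ≤ j`. -/
theorem choose_mul_pow_le_half_pow (n j : ℕ) (hj : 1 ≤ j) (q : ℝ) (hq0 : 0 ≤ q)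
    (h1 : 2 * Real.exp 1 * n * q ≤ j) :
    ((n - 1).choose j : ℝ) * q ^ j ≤ (1 / 2 : ℝ) ^ j := by
  have hjpos : (0 : ℝ) < j := by exact_mod_cast hj
  have hfact : (0 : ℝ) < (j.factorial : ℝ) := by exact_mod_cast Nat.factorial_pos j
  have hc : ((n - 1).choose j : ℝ) ≤ (n : ℝ) ^ j / j.factorial := by
    have h := Nat.choose_le_pow_div (α := ℝ) j (n - 1)
    have h2 : (((n - 1 : ℕ) : ℝ)) ^ j ≤ (n : ℝ) ^ j :=
      pow_le_pow_left₀ (Nat.cast_nonneg _) (by exact_mod_cast Nat.sub_le n 1) j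
    exact h.trans (div_le_div_of_nonneg_right h2 hfact.le)
  have hf : (j : ℝ) ^ j ≤ Real.exp j * j.factorial := pow_self_le_exp_mul_factorial j
  have he : Real.exp (j : ℝ) = Real.exp 1 ^ j := by
    rw [← Real.exp_nat_mul, mul_one]
  have hnq : (0 : ℝ) ≤ n * q := by positivity
  -- (n q)^j ≤ (j / (2e))^j
  have h2 : ((n : ℝ) * q) ^ j ≤ ((j : ℝ) / (2 * Real.exp 1)) ^ j := by
    apply pow_le_pow_left₀ hnq
    rw [le_div_iff₀ (by positivity)]
    linarith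
  have h3 : ((j : ℝ) / (2 * Real.exp 1)) ^ j * Real.exp 1 ^ j = (j : ℝ) ^ j * (1 / 2 : ℝ) ^ j := by
    rw [← mul_pow, ← mul_pow]
    congr 1
    field_simp
  have hexp : (0 : ℝ) < Real.exp 1 ^ j := by positivity
  calc ((n - 1).choose j : ℝ) * q ^ j ≤ (n : ℝ) ^ j / j.factorial * q ^ j :=
        mul_le_mul_of_nonneg_right hc (by positivity)
    _ = ((n : ℝ) * q) ^ j / j.factorial := by rw [mul_pow]; ring
    _ ≤ ((j : ℝ) / (2 * Real.exp 1)) ^ j / j.factorial :=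
        div_le_div_of_nonneg_right h2 hfact.le
    _ ≤ (1 / 2 : ℝ) ^ j := by
        rw [div_le_iff₀ hfact]
        have h4 : ((j : ℝ) / (2 * Real.exp 1)) ^ j * Real.exp 1 ^ j
            ≤ (1 / 2 : ℝ) ^ j * j.factorial * Real.exp 1 ^ j := by
          rw [h3]
          have h5 : (j : ℝ) ^ j * (1 / 2 : ℝ) ^ j
              ≤ Real.exp 1 ^ j * j.factorial * (1 / 2 : ℝ) ^ j := by
            rw [← he]
            exact mul_le_mul_of_nonneg_right hf (by positivity)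
          linarith
        exact le_of_mul_le_mul_right h4 hexp

variable {W : Type} [Fintype W] [DecidableEq W]

/-- Every degree of an admissible host is less than `j` when `2 e n q ≤ j` and
`128 n^2 < 2^j`. -/
theorem degree_lt_of_admissible (n : ℕ) (hn : 0 < n) (H : SimpleGraph W) [DecidableRel H.Adj]
    (q : ℝ) (hq0 : 0 ≤ q) (hq1 : q ≤ 1)
    (hq : ∀ F : H.Subgraph, 1 / 2 ≤ gnpExp n q (fun G => (G.copyCount F.coe : ℝ)))
    (j : ℕ) (hj : 1 ≤ j) (h1 : 2 * Real.exp 1 * n * q ≤ j) (h2 : 128 * n ^ 2 < 2 ^ j)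
    (w : W) : H.degree w < j := by
  by_contra hcon
  rw [not_lt] at hcon
  have htail := degree_tail n hn H q hq0 hq1 hq j hj
  have hcard : (1 : ℝ) ≤ (((Finset.univ : Finset W).filter (fun v => j ≤ H.degree v)).card : ℝ) := by
    have : 0 < ((Finset.univ : Finset W).filter (fun v => j ≤ H.degree v)).card :=
      Finset.card_pos.mpr ⟨w, Finset.mem_filter.mpr ⟨Finset.mem_univ _, hcon⟩⟩
    exact_mod_cast this
  have hch := choose_mul_pow_le_half_pow n j hj q hq0 h1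
  have hnpos : (0 : ℝ) < n := by exact_mod_cast hn
  -- 5 (j+1) n < 2^j
  have hkey : (5 * ((j : ℝ) + 1) * n) ^ 2 < ((2 : ℝ) ^ j) ^ 2 := by
    have ha : ((25 * (j + 1) ^ 2 : ℕ) : ℝ) ≤ ((128 * 2 ^ j : ℕ) : ℝ) := by
      exact_mod_cast sq_succ_le_two_pow j
    have hb : ((128 * n ^ 2 : ℕ) : ℝ) < ((2 ^ j : ℕ) : ℝ) := by exact_mod_cast h2
    push_cast at ha hb
    have hn2 : (0 : ℝ) < (n : ℝ) ^ 2 := by positivity
    have h2j : (0 : ℝ) < (2 : ℝ) ^ j := by positivity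
    calc (5 * ((j : ℝ) + 1) * n) ^ 2 = (25 * ((j : ℝ) + 1) ^ 2) * (n : ℝ) ^ 2 := by ring
      _ ≤ (128 * (2 : ℝ) ^ j) * (n : ℝ) ^ 2 := mul_le_mul_of_nonneg_right ha hn2.le
      _ = (2 : ℝ) ^ j * (128 * (n : ℝ) ^ 2) := by ring
      _ < (2 : ℝ) ^ j * (2 : ℝ) ^ j := mul_lt_mul_of_pos_left hb h2j
      _ = ((2 : ℝ) ^ j) ^ 2 := by ring
  have hkey' : 5 * ((j : ℝ) + 1) * n < (2 : ℝ) ^ j := by
    have h5 : (0 : ℝ) ≤ 5 * ((j : ℝ) + 1) * n := by positivity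
    exact lt_of_pow_lt_pow_left₀ 2 (by positivity) hkey
  have hfin : (1 : ℝ) ≤ 5 * ((j : ℝ) + 1) * (n * (1 / 2 : ℝ) ^ j) := by
    calc (1 : ℝ) ≤ _ := hcard
      _ ≤ 5 * ((j : ℝ) + 1) * (n * (n - 1).choose j * q ^ j) := htail
      _ = 5 * ((j : ℝ) + 1) * (n * (((n - 1).choose j : ℝ) * q ^ j)) := by ring
      _ ≤ 5 * ((j : ℝ) + 1) * (n * (1 / 2 : ℝ) ^ j) := by
          apply mul_le_mul_of_nonneg_left _ (by positivity)
          exact mul_le_mul_of_nonneg_left hch hnpos.le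
  have h2j : (0 : ℝ) < (2 : ℝ) ^ j := by positivity
  have hinv : (1 / 2 : ℝ) ^ j = 1 / (2 : ℝ) ^ j := by
    rw [one_div, inv_pow, one_div]
  rw [hinv] at hfin
  have : 5 * ((j : ℝ) + 1) * (n * (1 / (2 : ℝ) ^ j)) < 1 := by
    rw [show 5 * ((j : ℝ) + 1) * (n * (1 / (2 : ℝ) ^ j)) = (5 * ((j : ℝ) + 1) * n) / (2 : ℝ) ^ j by
      ring]
    rw [div_lt_one h2j]
    exact hkey'
  linarith

end Vale.Agent.Lib.P064
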