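import Vale.Agent.Lib.P064.StarsC

/-!
Maximal families of pairwise edge-disjoint images of a graph `K` in a host `H`.  If every subgraph
of `H` has expected count at least `1/2` in `G(n,q)`, such a family has at most
`5 n^{v(K)} q^{e(K)}` members, because its union is a subgraph of `H`; and every embedding of `K`
into `H` shares an edge with the union.
-/

namespace Vale.Agent.Lib.P064

open Finset

/-- A maximal pairwise disjoint subfamily: every nonempty member of `T` meets a member of it. -/
theorem exists_max_disjoint {α : Type*} [DecidableEq α] (T : Finset (Finset α)) :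
    ∃ F ⊆ T, (∀ B ∈ F, ∀ B' ∈ F, B ≠ B' → Disjoint B B') ∧
      ∀ B ∈ T, B.Nonempty → ∃ B' ∈ F, ¬ Disjoint B B' := by
  classical
  obtain ⟨S, hS⟩ : ∃ S : Finset (Finset (Finset α)),
      S = T.powerset.filter (fun F => ∀ B ∈ F, ∀ B' ∈ F, B ≠ B' → Disjoint B B') := ⟨_, rfl⟩
  have hne : S.Nonempty := ⟨∅, by rw [hS, Finset.mem_filter]; simp⟩
  obtain ⟨F, hmem, hmax⟩ := Finset.exists_max_image S (fun F => F.card) hne
  rw [hS, Finset.mem_filter, Finset.mem_powerset] at hmem
  refine ⟨F, hmem.1, hmem.2, ?_⟩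
  intro B hB hBne
  by_contra hcon
  have hcon' : ∀ B' ∈ F, Disjoint B B' := by
    intro B' hB'
    by_contra h
    exact hcon ⟨B', hB', h⟩
  have hBF : B ∉ F := fun h => by
    have := hcon' B h
    rw [Finset.disjoint_self_iff_empty] at this
    exact hBne.ne_empty this
  have hnew : insert B F ∈ S := by
    rw [hS, Finset.mem_filter, Finset.mem_powerset]
    refine ⟨Finset.insert_subset hB hmem.1, ?_⟩
    intro B1 h1 B2 h2 hne
    rw [Finset.mem_insert] at h1 h2
    rcases h1 with rfl | h1
    · rcases h2 with rfl | h2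
      · exact absurd rfl hne
      · exact hcon' B2 h2
    · rcases h2 with rfl | h2
      · exact (hcon' B1 h1).symm
      · exact hmem.2 B1 h1 B2 h2 hne
  have := hmax _ hnew
  rw [Finset.card_insert_of_notMem hBF] at this
  omega

/-- The image of the edge set of `K` under a vertex map. -/
noncomputable def eImg {V : Type*} [Finite V] {β : Type*} [DecidableEq β] (K : SimpleGraph V)
    (φ : V → β) : Finset (Sym2 β) :=
  (K.edgeSet.toFinite.toFinset).image (Sym2.map φ)

theorem mem_eImg {V : Type*} [Finite V] {β : Type*} [DecidableEq β] (K : SimpleGraph V)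
    (φ : V → β) (x y : β) :
    s(x, y) ∈ eImg K φ ↔ ∃ a b, K.Adj a b ∧ φ a = x ∧ φ b = y := by
  unfold eImg
  rw [Finset.mem_image]
  constructor
  · rintro ⟨e, he, hxy⟩
    rw [Set.Finite.mem_toFinset] at he
    induction e using Sym2.ind with
    | _ a b =>
      rw [SimpleGraph.mem_edgeSet] at he
      rw [Sym2.map_mk, Sym2.eq_iff] at hxy
      rcases hxy with ⟨h1, h2⟩ | ⟨h1, h2⟩
      · exact ⟨a, b, he, h1, h2⟩
      · exact ⟨b, a, he.symm, h2, h1⟩
  · rintro ⟨a, b, hab, rfl, rfl⟩
    refine ⟨s(a, b), ?_, rfl⟩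
    rw [Set.Finite.mem_toFinset, SimpleGraph.mem_edgeSet]
    exact hab

theorem eImg_card {V : Type*} [Finite V] {β : Type*} [DecidableEq β] (K : SimpleGraph V)
    (φ : V → β) (hφ : Function.Injective φ) : (eImg K φ).card = K.edgeSet.ncard := by
  unfold eImg
  rw [Finset.card_image_of_injective _ (Sym2.map.injective hφ),
    Set.ncard_eq_toFinset_card _ K.edgeSet.toFinite]

theorem eImg_comp {V : Type*} [Finite V] {β γ : Type*} [DecidableEq β] [DecidableEq γ]
    (K : SimpleGraph V) (φ : V → β) (ψ : β → γ) :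
    eImg K (ψ ∘ φ) = (eImg K φ).image (Sym2.map ψ) := by
  unfold eImg
  rw [Finset.image_image, Sym2.map_comp]

variable {W : Type} [Fintype W] [DecidableEq W]

omit [Fintype W] [DecidableEq W] in
theorem sym2Map_injOn (U : Finset (Sym2 W)) {n : ℕ} (ψ : W → Fin n)
    (hψ : Set.InjOn ψ {v | ∃ w, s(v, w) ∈ U}) : Set.InjOn (Sym2.map ψ) (U : Set (Sym2 W)) := by
  intro e he e' he' hee
  rw [Finset.mem_coe] at he he'
  induction e using Sym2.ind with
  | _ a b =>
    induction e' using Sym2.ind with
    | _ a' b' =>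
      have ha : ∃ w, s(a, w) ∈ U := ⟨b, he⟩
      have hb : ∃ w, s(b, w) ∈ U := ⟨a, by rw [Sym2.eq_swap]; exact he⟩
      have ha' : ∃ w, s(a', w) ∈ U := ⟨b', he'⟩
      have hb' : ∃ w, s(b', w) ∈ U := ⟨a', by rw [Sym2.eq_swap]; exact he'⟩
      simp only [Sym2.map_mk] at hee
      rw [Sym2.eq_iff] at hee ⊢
      rcases hee with ⟨h1, h2⟩ | ⟨h1, h2⟩
      · exact Or.inl ⟨hψ ha ha' h1, hψ hb hb' h2⟩
      · exact Or.inr ⟨hψ ha hb' h1, hψ hb ha' h2⟩

/-- The images of `K` in the complete graph on `Fin n`, as edge sets. -/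
noncomputable def imgsKn {V : Type*} [Fintype V] (K : SimpleGraph V) (n : ℕ) :
    Finset (Finset (Sym2 (Fin n))) := by
  classical
  exact ((Finset.univ : Finset (V → Fin n)).filter Function.Injective).image (fun φ => eImg K φ)

theorem imgsKn_card_le {V : Type*} [Fintype V] (K : SimpleGraph V) (n : ℕ) :
    (imgsKn K n).card ≤ n ^ Fintype.card V := by
  classical
  unfold imgsKn
  calc _ ≤ ((Finset.univ : Finset (V → Fin n)).filter Function.Injective).card :=
        Finset.card_image_le
    _ ≤ (Finset.univ : Finset (V → Fin n)).card := Finset.card_filter_le _ _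
    _ = n ^ Fintype.card V := by
        rw [Finset.card_univ, Fintype.card_fun, Fintype.card_fin]

/-- The number of images in the complete graph of the union of `t` images of `K` is at most the
number of `t`-sets of images of `K` in the complete graph. -/
theorem imgs_biUnion_card_le {V : Type*} [Fintype V] (K : SimpleGraph V)
    (hK : ∀ v, ∃ w, K.Adj v w) (F : Finset (Finset (Sym2 W)))
    (hF : ∀ B ∈ F, ∃ τ : V → W, Function.Injective τ ∧ B = eImg K τ) (n : ℕ) :
    (imgs (F.biUnion id) n).card ≤ ((imgsKn K n).card).choose F.card := by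
  classical
  rw [← Finset.card_powersetCard]
  have hsub : imgs (F.biUnion id) n ⊆ (Finset.powersetCard F.card (imgsKn K n)).image
      (fun T => T.biUnion id) := by
    intro B hB
    unfold imgs at hB
    rw [Finset.mem_image] at hB
    obtain ⟨ψ, hψ, rfl⟩ := hB
    rw [Finset.mem_filter] at hψ
    have hinj := hψ.2
    have hinjU := sym2Map_injOn _ ψ hinj
    have hmemU : ∀ B ∈ F, ∀ x ∈ B, x ∈ F.biUnion id := by
      intro B hB x hx
      rw [Finset.mem_biUnion]
      exact ⟨B, hB, hx⟩
    have hend : ∀ B ∈ F, ∀ τ : V → W, B = eImg K τ → ∀ v, ∃ w, s(τ v, w) ∈ F.biUnion id := by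
      intro B hB τ hBτ v
      obtain ⟨w, hw⟩ := hK v
      refine ⟨τ w, hmemU B hB _ ?_⟩
      rw [hBτ, mem_eImg]
      exact ⟨v, w, hw, rfl, rfl⟩
    rw [Finset.mem_image]
    refine ⟨F.image (fun B => B.image (Sym2.map ψ)), ?_, ?_⟩
    · rw [Finset.mem_powersetCard]
      constructor
      · intro B' hB'
        rw [Finset.mem_image] at hB'
        obtain ⟨B, hB, rfl⟩ := hB'
        obtain ⟨τ, hτ, hBτ⟩ := hF B hB
        unfold imgsKn
        rw [Finset.mem_image]
        refine ⟨ψ ∘ τ, ?_, ?_⟩
        · rw [Finset.mem_filter]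
          refine ⟨Finset.mem_univ _, ?_⟩
          intro v v' hvv
          exact hτ (hinj (hend B hB τ hBτ v) (hend B hB τ hBτ v') hvv)
        · rw [eImg_comp, hBτ]
      · apply Finset.card_image_of_injOn
        have key : ∀ B ∈ F, ∀ B' ∈ F,
            B.image (Sym2.map ψ) = B'.image (Sym2.map ψ) → B ⊆ B' := by
          intro B hB B' hB' h x hx
          have hx1 : Sym2.map ψ x ∈ B'.image (Sym2.map ψ) :=
            h ▸ Finset.mem_image_of_mem _ hx
          obtain ⟨x', hx', hxx⟩ := Finset.mem_image.mp hx1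
          have := hinjU (Finset.mem_coe.mpr (hmemU B' hB' x' hx'))
            (Finset.mem_coe.mpr (hmemU B hB x hx)) hxx
          exact this ▸ hx'
        intro B hB B' hB' hBB
        exact Finset.Subset.antisymm (key B hB B' hB' hBB) (key B' hB' B hB hBB.symm)
    · rw [Finset.image_biUnion, Finset.biUnion_image]
      rfl
  exact (Finset.card_le_card hsub).trans Finset.card_image_le

/-- Core bound: if at most `R` embeddings of `K` into `H` send a given vertex to a given vertex,
then the number of embeddings of `K` into `H` is at most `10 e(K)^2 R n^{v(K)} q^{e(K)}`. -/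
theorem labelledCopyCount_le_of_rooted {V : Type*} [Fintype V] [Nonempty V] (K : SimpleGraph V)
    (H : SimpleGraph W) (n : ℕ) (hn : 0 < n) (q : ℝ) (hq0 : 0 ≤ q) (hq1 : q ≤ 1)
    (hq : ∀ F : H.Subgraph, 1 / 2 ≤ gnpExp n q (fun G => (G.copyCount F.coe : ℝ)))
    (hK : ∀ v, ∃ w, K.Adj v w) (R : ℕ)
    (hR : ∀ (a : V) (x : W), Nat.card {τ : K.Copy H // τ a = x} ≤ R) :
    (H.labelledCopyCount K : ℝ)
      ≤ 10 * (K.edgeSet.ncard : ℝ) ^ 2 * R
          * ((n : ℝ) ^ Fintype.card V * q ^ K.edgeSet.ncard) := by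
  classical
  obtain ⟨e, he⟩ : ∃ e : ℕ, e = K.edgeSet.ncard := ⟨_, rfl⟩
  rw [← he]
  obtain ⟨T, hT⟩ : ∃ T : Finset (Finset (Sym2 W)),
      T = (Finset.univ : Finset (K.Copy H)).image (fun τ : K.Copy H => eImg K (τ : V → W)) :=
    ⟨_, rfl⟩
  obtain ⟨F, hFT, hdisj, hcov⟩ := exists_max_disjoint T
  have hF : ∀ B ∈ F, ∃ τ : K.Copy H, B = eImg K (τ : V → W) := by
    intro B hB
    have := hFT hB
    rw [hT, Finset.mem_image] at this
    obtain ⟨τ, -, rfl⟩ := this
    exact ⟨τ, rfl⟩
  have hF' : ∀ B ∈ F, ∃ τ : V → W, Function.Injective τ ∧ B = eImg K τ := by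
    intro B hB
    obtain ⟨τ, rfl⟩ := hF B hB
    exact ⟨τ, τ.injective, rfl⟩
  obtain ⟨U, hUdef⟩ : ∃ U : Finset (Sym2 W), U = F.biUnion id := ⟨_, rfl⟩
  have hU : ∀ u ∈ U, u ∈ H.edgeSet := by
    intro u hu
    rw [hUdef, Finset.mem_biUnion] at hu
    obtain ⟨B, hB, hu⟩ := hu
    obtain ⟨τ, rfl⟩ := hF B hB
    simp only [id] at hu
    induction u using Sym2.ind with
    | _ x y =>
      rw [mem_eImg] at hu
      obtain ⟨a, b, hab, rfl, rfl⟩ := hu
      rw [SimpleGraph.mem_edgeSet]
      exact τ.toHom.map_rel hab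
  have hUcard : U.card = e * F.card := by
    rw [hUdef, Finset.card_biUnion]
    · have : ∀ B ∈ F, (id B).card = e := by
        intro B hB
        obtain ⟨τ, hτ, rfl⟩ := hF' B hB
        rw [he]
        exact eImg_card K τ hτ
      rw [Finset.sum_congr rfl this, Finset.sum_const, smul_eq_mul, mul_comm]
    · intro B hB B' hB' hne
      exact hdisj B hB B' hB' hne
  -- the family is small
  have ht : (F.card : ℝ) ≤ 5 * ((n : ℝ) ^ Fintype.card V * q ^ e) := by
    have h1 := hq (subOf H U hU)
    have h2 := gnpExp_copyCount_subOf_le H U hU n hn q hq0 hq1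
    have h3 : ((imgs U n).card : ℝ) ≤ (((imgsKn K n).card).choose F.card : ℝ) := by
      rw [hUdef]
      exact_mod_cast imgs_biUnion_card_le K hK F hF' n
    have h4 : 1 / 2 ≤ (((imgsKn K n).card).choose F.card : ℝ) * q ^ (e * F.card) := by
      rw [← hUcard]
      calc (1 : ℝ) / 2 ≤ _ := h1
        _ ≤ _ := h2
        _ ≤ _ := mul_le_mul_of_nonneg_right h3 (by positivity)
    have h5 := card_le_of_half_le _ _ _ q hq0 h4
    have h6 : ((imgsKn K n).card : ℝ) ≤ (n : ℝ) ^ Fintype.card V := by
      exact_mod_cast imgsKn_card_le K n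
    calc (F.card : ℝ) ≤ 5 * (((imgsKn K n).card : ℝ) * q ^ e) := h5
      _ ≤ 5 * ((n : ℝ) ^ Fintype.card V * q ^ e) := by
          have : 0 ≤ q ^ e := by positivity
          nlinarith
  -- few copies through a given edge
  have hfib : ∀ (u : Sym2 W) (f : Sym2 V),
      (Finset.univ.filter (fun τ : K.Copy H => Sym2.map τ f = u)).card ≤ 2 * R := by
    intro u f
    induction u using Sym2.ind with
    | _ x y =>
      induction f using Sym2.ind with
      | _ a b =>
        have hsub : Finset.univ.filter (fun τ : K.Copy H => Sym2.map τ s(a, b) = s(x, y))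
            ⊆ Finset.univ.filter (fun τ : K.Copy H => τ a = x)
              ∪ Finset.univ.filter (fun τ : K.Copy H => τ a = y) := by
          intro τ hτ
          rw [Finset.mem_filter, Sym2.map_mk, Sym2.eq_iff] at hτ
          rw [Finset.mem_union, Finset.mem_filter, Finset.mem_filter]
          rcases hτ.2 with ⟨h1, -⟩ | ⟨h1, -⟩
          · exact Or.inl ⟨Finset.mem_univ _, h1⟩
          · exact Or.inr ⟨Finset.mem_univ _, h1⟩
        have hone : ∀ z : W, (Finset.univ.filter (fun τ : K.Copy H => τ a = z)).card ≤ R := by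
          intro z
          have := hR a z
          rwa [Nat.card_eq_fintype_card, Fintype.card_subtype] at this
        calc _ ≤ _ := Finset.card_le_card hsub
          _ ≤ _ + _ := Finset.card_union_le _ _
          _ ≤ R + R := Nat.add_le_add (hone x) (hone y)
          _ = 2 * R := by ring
  -- every copy meets the union
  have hcopies : Fintype.card (K.Copy H) ≤ U.card * (e * (2 * R)) := by
    have hsub : (Finset.univ : Finset (K.Copy H)) ⊆ U.biUnion (fun u =>
        (K.edgeSet.toFinite.toFinset).biUnion (fun f =>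
          Finset.univ.filter (fun τ : K.Copy H => Sym2.map τ f = u))) := by
      intro τ _
      have hmem : eImg K (τ : V → W) ∈ T := by
        rw [hT, Finset.mem_image]
        exact ⟨τ, Finset.mem_univ _, rfl⟩
      obtain ⟨v⟩ := ‹Nonempty V›
      obtain ⟨w, hvw⟩ := hK v
      have hne : (eImg K (τ : V → W)).Nonempty :=
        ⟨s(τ v, τ w), (mem_eImg K (τ : V → W) _ _).mpr ⟨v, w, hvw, rfl, rfl⟩⟩
      obtain ⟨B', hB', hnd⟩ := hcov _ hmem hne
      rw [Finset.not_disjoint_iff] at hnd
      obtain ⟨u, hu1, hu2⟩ := hnd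
      rw [Finset.mem_biUnion]
      refine ⟨u, by rw [hUdef, Finset.mem_biUnion]; exact ⟨B', hB', hu2⟩, ?_⟩
      unfold eImg at hu1
      rw [Finset.mem_image] at hu1
      obtain ⟨f, hf, hfu⟩ := hu1
      rw [Finset.mem_biUnion]
      exact ⟨f, hf, by rw [Finset.mem_filter]; exact ⟨Finset.mem_univ _, hfu⟩⟩
    calc Fintype.card (K.Copy H) = (Finset.univ : Finset (K.Copy H)).card :=
          Finset.card_univ.symm
      _ ≤ _ := Finset.card_le_card hsub
      _ ≤ ∑ u ∈ U, ((K.edgeSet.toFinite.toFinset).biUnion (fun f =>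
            Finset.univ.filter (fun τ : K.Copy H => Sym2.map τ f = u))).card :=
          Finset.card_biUnion_le
      _ ≤ ∑ u ∈ U, (e * (2 * R)) := by
          apply Finset.sum_le_sum
          intro u _
          calc _ ≤ ∑ f ∈ K.edgeSet.toFinite.toFinset,
                (Finset.univ.filter (fun τ : K.Copy H => Sym2.map τ f = u)).card :=
                Finset.card_biUnion_le
            _ ≤ ∑ f ∈ K.edgeSet.toFinite.toFinset, 2 * R :=
                Finset.sum_le_sum (fun f _ => hfib u f)
            _ = e * (2 * R) := by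
                rw [Finset.sum_const, smul_eq_mul, he,
                  Set.ncard_eq_toFinset_card _ K.edgeSet.toFinite]
      _ = U.card * (e * (2 * R)) := by rw [Finset.sum_const, smul_eq_mul]
  have hlab : H.labelledCopyCount K = Fintype.card (K.Copy H) := by
    unfold SimpleGraph.labelledCopyCount
    rw [Fintype.card_eq_nat_card, Fintype.card_eq_nat_card]
  have hfin : (H.labelledCopyCount K : ℝ) ≤ ((e * F.card) * (e * (2 * R)) : ℕ) := by
    rw [← hUcard, hlab]
    exact_mod_cast hcopies
  push_cast at hfin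
  have he0 : (0 : ℝ) ≤ e := by positivity
  have hR0 : (0 : ℝ) ≤ R := by positivity
  calc (H.labelledCopyCount K : ℝ) ≤ (e * F.card) * (e * (2 * R)) := hfin
    _ = 2 * (e : ℝ) ^ 2 * R * F.card := by ring
    _ ≤ 2 * (e : ℝ) ^ 2 * R * (5 * ((n : ℝ) ^ Fintype.card V * q ^ e)) :=
        mul_le_mul_of_nonneg_left ht (by positivity)
    _ = 10 * (e : ℝ) ^ 2 * R * ((n : ℝ) ^ Fintype.card V * q ^ e) := by ring

end Vale.Agent.Lib.P064
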