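import Vale.Agent.Lib.P064.Gnp

/-!
First-moment bound: the expected number of copies of `F` in `G(n,p)` is at most
`n^{v(F)} p^{e(F)}`.
-/

namespace Vale.Agent.Lib.P064

open Finset

/-- The expected number of subgraphs of `G(n,p)` isomorphic to `F` is at most
`n^{v(F)} * p^{e(F)}`. -/
theorem gnpExp_copyCount_le {V : Type*} [Fintype V] (F : SimpleGraph V) (n : ℕ) (p : ℝ)
    (hp0 : 0 ≤ p) (hp1 : p ≤ 1) :
    gnpExp n p (fun G => (G.copyCount F : ℝ)) ≤ (n : ℝ) ^ Fintype.card V * p ^ F.edgeSet.ncard := by
  classical
  obtain ⟨T, hT⟩ : ∃ T : (V → Fin n) → Finset (Sym2 (Fin n)),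
      T = fun φ => F.edgeFinset.image (Sym2.map φ) := ⟨_, rfl⟩
  obtain ⟨Inj, hInj⟩ : ∃ Inj : Finset (V → Fin n),
      Inj = Finset.univ.filter Function.Injective := ⟨_, rfl⟩
  -- edge images of injective maps
  have hTsub : ∀ φ ∈ Inj, T φ ⊆ edgesKn n := by
    intro φ hφ
    rw [hInj, Finset.mem_filter] at hφ
    intro e he
    rw [hT, Finset.mem_image] at he
    obtain ⟨e0, he0, rfl⟩ := he
    induction e0 using Sym2.ind with
    | _ a b =>
      rw [SimpleGraph.mem_edgeFinset, SimpleGraph.mem_edgeSet] at he0
      unfold edgesKn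
      rw [SimpleGraph.mem_edgeFinset, Sym2.map_mk, SimpleGraph.mem_edgeSet,
        SimpleGraph.top_adj]
      exact fun h => F.ne_of_adj he0 (hφ.2 h)
  have hTcard : ∀ φ ∈ Inj, (T φ).card = F.edgeSet.ncard := by
    intro φ hφ
    rw [hInj, Finset.mem_filter] at hφ
    rw [hT, Finset.card_image_of_injective _ (Sym2.map.injective hφ.2),
      Set.ncard_eq_toFinset_card', SimpleGraph.edgeFinset]
  -- pointwise bound on the number of copies
  have key : ∀ A : Finset (Sym2 (Fin n)),
      ((graphOf A).copyCount F : ℝ) ≤ ∑ φ ∈ Inj, (if T φ ⊆ A then (1 : ℝ) else 0) := by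
    intro A
    have h1 : (graphOf A).copyCount F ≤ (graphOf A).labelledCopyCount F :=
      SimpleGraph.copyCount_le_labelledCopyCount
    have h2 : (graphOf A).labelledCopyCount F ≤ (Inj.filter (fun φ => T φ ⊆ A)).card := by
      unfold SimpleGraph.labelledCopyCount
      rw [Fintype.card_eq_nat_card, ← Fintype.card_coe, Fintype.card_eq_nat_card]
      apply Nat.card_le_card_of_injective
        (fun c : SimpleGraph.Copy F (graphOf A) =>
          (⟨(c : V → Fin n), by
            rw [Finset.mem_filter, hInj, Finset.mem_filter]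
            refine ⟨⟨Finset.mem_univ _, c.injective⟩, ?_⟩
            intro e he
            rw [hT, Finset.mem_image] at he
            obtain ⟨e0, he0, rfl⟩ := he
            induction e0 using Sym2.ind with
            | _ a b =>
              rw [SimpleGraph.mem_edgeFinset, SimpleGraph.mem_edgeSet] at he0
              have hadj := c.toHom.map_rel he0
              unfold graphOf at hadj
              rw [SimpleGraph.fromEdgeSet_adj] at hadj
              rw [Sym2.map_mk]
              exact_mod_cast hadj.1⟩ :
            {φ // φ ∈ Inj.filter (fun φ => T φ ⊆ A)}))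
      intro c1 c2 h
      apply DFunLike.coe_injective
      exact congrArg Subtype.val h
    rw [Finset.sum_boole]
    exact_mod_cast h1.trans h2
  -- weights are nonnegative
  have hw : ∀ A : Finset (Sym2 (Fin n)),
      0 ≤ p ^ A.card * (1 - p) ^ ((edgesKn n).card - A.card) := by
    intro A
    have : 0 ≤ 1 - p := by linarith
    positivity
  unfold gnpExp
  calc ∑ A ∈ (edgesKn n).powerset,
        p ^ A.card * (1 - p) ^ ((edgesKn n).card - A.card) * ((graphOf A).copyCount F : ℝ)
      ≤ ∑ A ∈ (edgesKn n).powerset,
          p ^ A.card * (1 - p) ^ ((edgesKn n).card - A.card)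
            * ∑ φ ∈ Inj, (if T φ ⊆ A then (1 : ℝ) else 0) := by
        apply Finset.sum_le_sum
        intro A _
        exact mul_le_mul_of_nonneg_left (key A) (hw A)
    _ = ∑ φ ∈ Inj, ∑ A ∈ (edgesKn n).powerset,
          (if T φ ⊆ A then p ^ A.card * (1 - p) ^ ((edgesKn n).card - A.card) else 0) := by
        rw [Finset.sum_comm]
        apply Finset.sum_congr rfl
        intro A _
        rw [Finset.mul_sum]
        apply Finset.sum_congr rfl
        intro φ _
        split_ifs <;> simp
    _ = ∑ φ ∈ Inj, p ^ F.edgeSet.ncard := by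
        apply Finset.sum_congr rfl
        intro φ hφ
        rw [sum_weight_superset _ _ (hTsub φ hφ), hTcard φ hφ]
    _ = (Inj.card : ℝ) * p ^ F.edgeSet.ncard := by
        rw [Finset.sum_const, nsmul_eq_mul]
    _ ≤ (n : ℝ) ^ Fintype.card V * p ^ F.edgeSet.ncard := by
        apply mul_le_mul_of_nonneg_right _ (by positivity)
        have h3 : Inj.card ≤ Fintype.card (V → Fin n) := by
          rw [hInj]; exact Finset.card_filter_le _ _
        have h4 : Fintype.card (V → Fin n) = n ^ Fintype.card V := by
          rw [Fintype.card_fun, Fintype.card_fin]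
        rw [h4] at h3
        exact_mod_cast h3

end Vale.Agent.Lib.P064
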