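import Vale.Agent.Lib.P064.StarsB

/-!
Degree tail bound.  If every subgraph of `H` has expected count at least `1/2` in `G(n,q)`, then
`H` has at most `5 (j+1) n C(n-1,j) q^j` vertices of degree at least `j`: a maximal family of
pairwise edge-disjoint `j`-stars covers all such vertices, and it cannot be large because its
union is a subgraph of `H`.
-/

namespace Vale.Agent.Lib.P064

open Finset

variable {W : Type} [Fintype W] [DecidableEq W]

/-- If `C(m,t) q^(j t) ≥ 1/2` then `t ≤ 5 m q^j`. -/
theorem card_le_of_half_le (m t j : ℕ) (q : ℝ) (hq0 : 0 ≤ q)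
    (h : 1 / 2 ≤ (m.choose t : ℝ) * q ^ (j * t)) : (t : ℝ) ≤ 5 * (m * q ^ j) := by
  obtain ⟨y, hy⟩ : ∃ y : ℝ, y = q ^ j := ⟨_, rfl⟩
  have hy0 : 0 ≤ y := by rw [hy]; positivity
  rw [pow_mul, ← hy] at h
  rw [← hy]
  have ha0 : 0 ≤ (m : ℝ) * y := by positivity
  rcases Nat.eq_zero_or_pos t with ht | ht
  · rw [ht]; simp; positivity
  -- step 1
  have h1 : (m.choose t : ℝ) * (2 * y) ^ t ≤ (2 * y + 1) ^ m := by
    rcases Nat.lt_or_ge m t with hmt | hmt
    · rw [Nat.choose_eq_zero_of_lt hmt]
      simp
      positivity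
    · rw [add_pow]
      have hmem : t ∈ Finset.range (m + 1) := by rw [Finset.mem_range]; omega
      have hterm := Finset.single_le_sum
        (f := fun i => (2 * y) ^ i * (1 : ℝ) ^ (m - i) * (m.choose i : ℝ))
        (s := Finset.range (m + 1)) (fun i _ => by positivity) hmem
      simp only [one_pow, mul_one] at hterm ⊢
      linarith
  have h2 : (2 * y + 1) ^ m ≤ Real.exp (2 * (m * y)) := by
    have : 2 * y + 1 ≤ Real.exp (2 * y) := Real.add_one_le_exp _
    calc (2 * y + 1) ^ m ≤ (Real.exp (2 * y)) ^ m := pow_le_pow_left₀ (by positivity) this m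
      _ = Real.exp (2 * (m * y)) := by rw [← Real.exp_nat_mul]; ring_nf
  have h3 : (2 : ℝ) ^ t ≤ 2 * Real.exp (2 * (m * y)) := by
    have : (2 : ℝ) ^ t * (1 / 2) ≤ (m.choose t : ℝ) * (2 * y) ^ t := by
      rw [mul_pow]
      have h2t : (0 : ℝ) < 2 ^ t := by positivity
      nlinarith
    linarith
  -- step 4
  have h4 : (t : ℝ) ≤ 1 + 3 * (m * y) := by
    have hlog : Real.log ((2 : ℝ) ^ t) ≤ Real.log (2 * Real.exp (2 * (m * y))) :=
      Real.log_le_log (by positivity) h3
    rw [Real.log_pow, Real.log_mul (by norm_num) (Real.exp_pos _).ne', Real.log_exp] at hlog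
    have hl2 : (0.6931471803 : ℝ) < Real.log 2 := Real.log_two_gt_d9
    have ht1 : (1 : ℝ) ≤ t := by exact_mod_cast ht
    nlinarith
  -- step 5
  have h5 : (1 : ℝ) / 2 ≤ m * y := by
    by_contra hlt
    rw [not_le] at hlt
    have hle : (m.choose t : ℝ) * y ^ t ≤ ((m : ℝ) * y) ^ t := by
      rw [mul_pow]
      apply mul_le_mul_of_nonneg_right _ (by positivity)
      exact_mod_cast Nat.choose_le_pow m t
    have hpow : ((m : ℝ) * y) ^ t ≤ (m : ℝ) * y :=
      pow_le_of_le_one ha0 (by linarith) (by omega)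
    linarith
  linarith

/-- A maximal family of edge-disjoint `j`-stars covers all vertices of degree at least `j`. -/
theorem exists_starFam_cover (H : SimpleGraph W) [DecidableRel H.Adj] (j : ℕ) :
    ∃ (C : Finset W) (N : W → Finset W), IsStarFam H j C N ∧
      ∀ v, j ≤ H.degree v → v ∈ C ∨ ∃ c ∈ C, v ∈ N c := by
  classical
  obtain ⟨S, hS⟩ : ∃ S : Finset (Finset W × (W → Finset W)),
      S = Finset.univ.filter (fun p => IsStarFam H j p.1 p.2) := ⟨_, rfl⟩
  have hne : S.Nonempty := by
    refine ⟨(∅, fun _ => ∅), ?_⟩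
    rw [hS, Finset.mem_filter]
    refine ⟨Finset.mem_univ _, ?_, ?_⟩
    · intro c hc; simp at hc
    · intro c hc; simp at hc
  obtain ⟨⟨C, N⟩, hmem, hmax⟩ := Finset.exists_max_image S (fun p => p.1.card) hne
  rw [hS, Finset.mem_filter] at hmem
  have hfam : IsStarFam H j C N := hmem.2
  refine ⟨C, N, hfam, ?_⟩
  intro v hv
  by_contra hcon
  rw [not_or] at hcon
  obtain ⟨hvC, hvN⟩ := hcon
  have hvN' : ∀ c ∈ C, v ∉ N c := fun c hc hvc => hvN ⟨c, hc, hvc⟩
  rw [← SimpleGraph.card_neighborFinset_eq_degree] at hv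
  obtain ⟨T, hTsub, hTcard⟩ := Finset.exists_subset_card_eq hv
  -- disjointness of the new star from the old ones
  have hdis : ∀ c ∈ C, Disjoint (starE v T) (starE c (N c)) := by
    intro c hc
    rw [Finset.disjoint_left]
    intro e he he'
    unfold starE at he he'
    rw [Finset.mem_image] at he he'
    obtain ⟨x, hx, rfl⟩ := he
    obtain ⟨y, hy, hxy⟩ := he'
    rw [Sym2.eq_iff] at hxy
    rcases hxy with ⟨h1, h2⟩ | ⟨h1, h2⟩
    · exact hvC (h1 ▸ hc)
    · exact hvN' c hc (h2 ▸ hy)
  have hnew : IsStarFam H j (insert v C) (Function.update N v T) := by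
    constructor
    · intro c hc
      rw [Finset.mem_insert] at hc
      rcases hc with rfl | hc
      · rw [Function.update_self]
        exact ⟨hTsub, hTcard⟩
      · have hne : c ≠ v := fun h => hvC (h ▸ hc)
        rw [Function.update_of_ne hne]
        exact hfam.1 c hc
    · intro c hc c' hc' hcc
      rw [Finset.mem_insert] at hc hc'
      rcases hc with rfl | hc
      · rcases hc' with rfl | hc'
        · exact absurd rfl hcc
        · have hne : c' ≠ c := fun h => hvC (h ▸ hc')
          rw [Function.update_self, Function.update_of_ne hne]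
          exact hdis c' hc'
      · rcases hc' with rfl | hc'
        · have hne : c ≠ c' := fun h => hvC (h ▸ hc)
          rw [Function.update_self, Function.update_of_ne hne]
          exact (hdis c hc).symm
        · have hne : c ≠ v := fun h => hvC (h ▸ hc)
          have hne' : c' ≠ v := fun h => hvC (h ▸ hc')
          rw [Function.update_of_ne hne, Function.update_of_ne hne']
          exact hfam.2 c hc c' hc' hcc
  have hmem' : (insert v C, Function.update N v T) ∈ S := by
    rw [hS, Finset.mem_filter]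
    exact ⟨Finset.mem_univ _, hnew⟩
  have := hmax _ hmem'
  simp only at this
  rw [Finset.card_insert_of_notMem hvC] at this
  omega

/-- Degree tail bound: if every subgraph of `H` has expected count at least `1/2` in `G(n,q)`,
then the number of vertices of degree at least `j` is at most `5 (j+1) n C(n-1,j) q^j`. -/
theorem degree_tail (n : ℕ) (hn : 0 < n) (H : SimpleGraph W) [DecidableRel H.Adj] (q : ℝ)
    (hq0 : 0 ≤ q) (hq1 : q ≤ 1)
    (hq : ∀ F : H.Subgraph, 1 / 2 ≤ gnpExp n q (fun G => (G.copyCount F.coe : ℝ)))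
    (j : ℕ) (hj : 1 ≤ j) :
    (((Finset.univ : Finset W).filter (fun v => j ≤ H.degree v)).card : ℝ)
      ≤ 5 * (j + 1) * (n * (n - 1).choose j * q ^ j) := by
  classical
  obtain ⟨C, N, hfam, hcov⟩ := exists_starFam_cover H j
  have hU := famEdges_sub H j C N hfam
  have h1 := hq (subOf H (famEdges C N) hU)
  have h2 := gnpExp_copyCount_subOf_le H (famEdges C N) hU n hn q hq0 hq1
  have h3 := imgs_famEdges_card_le H j hj C N hfam n
  rw [famEdges_card H j C N hfam] at h2
  have h4 : (1 : ℝ) / 2 ≤ ((n * (n - 1).choose j).choose C.card : ℝ) * q ^ (j * C.card) := by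
    have h5 : ((imgs (famEdges C N) n).card : ℝ) ≤ ((n * (n - 1).choose j).choose C.card : ℝ) := by
      exact_mod_cast h3
    have h6 : (0 : ℝ) ≤ q ^ (j * C.card) := by positivity
    calc (1 : ℝ) / 2 ≤ _ := h1
      _ ≤ _ := h2
      _ ≤ _ := mul_le_mul_of_nonneg_right h5 h6
  have h7 := card_le_of_half_le _ _ _ q hq0 h4
  -- covering
  have hsub : (Finset.univ : Finset W).filter (fun v => j ≤ H.degree v) ⊆ C ∪ C.biUnion N := by
    intro v hv
    rw [Finset.mem_filter] at hv
    rw [Finset.mem_union, Finset.mem_biUnion]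
    exact hcov v hv.2
  have hcard : ((Finset.univ : Finset W).filter (fun v => j ≤ H.degree v)).card
      ≤ (j + 1) * C.card := by
    calc _ ≤ (C ∪ C.biUnion N).card := Finset.card_le_card hsub
      _ ≤ C.card + (C.biUnion N).card := Finset.card_union_le _ _
      _ ≤ C.card + ∑ c ∈ C, (N c).card := by
          have := Finset.card_biUnion_le (s := C) (t := N)
          omega
      _ = C.card + ∑ c ∈ C, j := by
          rw [Finset.sum_congr rfl (fun c hc => (hfam.1 c hc).2)]
      _ = (j + 1) * C.card := by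
          rw [Finset.sum_const, smul_eq_mul]; ring
  have hcard' : (((Finset.univ : Finset W).filter (fun v => j ≤ H.degree v)).card : ℝ)
      ≤ ((j : ℝ) + 1) * C.card := by exact_mod_cast hcard
  have hj0 : (0 : ℝ) ≤ (j : ℝ) + 1 := by positivity
  push_cast at h7
  nlinarith

end Vale.Agent.Lib.P064
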