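import Vale.Agent.Lib.P064.LogPipe
import Vale.Agent.Lib.P064.StarsC

/-!
Forest hosts (P064): definitions.

A rooted forest structure on a finite type `W` is given by a children function
`ch : W → Finset W` and a depth function `d : W → ℕ` with `d y = d x + 1` for `y ∈ ch x` and
unique parents.  Quantities defined by recursion along the forest (from the leaves up) are
produced by `fixF`.  The file defines the weights `wtF`, and, for an abstract set `Rich` of
vertices and an abstract choice `PP x` of attached poor children: codes (isomorphism types of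
pruned clusters), clusters, their edge sets, heights, costs `piF` and weight bounds `wbF`.
-/

set_option linter.unusedSectionVars false

namespace Vale.Agent.Lib.P064

open Finset

variable {W : Type} [Fintype W] [DecidableEq W]

/-! ### generic recursion along a rooted forest -/

/-- `k`-fold iteration of a step function. -/
def iterF {α : Type*} (F : W → (W → α) → α) (a : α) : ℕ → W → α
  | 0 => fun _ => a
  | k + 1 => fun x => F x (iterF F a k)

/-- The value at `x` of the recursion with step `F`: iterate `sup d + 1 - d x` times. -/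
def fixF {α : Type*} (d : W → ℕ) (F : W → (W → α) → α) (a : α) (x : W) : α :=
  iterF F a (Finset.univ.sup d + 1 - d x) x

omit [DecidableEq W] in
/-- The recursion equation: if `F x g` only depends on the values of `g` on the children of `x`,
then `fixF d F a x = F x (fixF d F a)`. -/
theorem fixF_eq {α : Type*} (ch : W → Finset W) (d : W → ℕ)
    (hd : ∀ x, ∀ y ∈ ch x, d y = d x + 1) (F : W → (W → α) → α) (a : α)
    (hF : ∀ x (g g' : W → α), (∀ y ∈ ch x, g y = g' y) → F x g = F x g') (x : W) :
    fixF d F a x = F x (fixF d F a) := by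
  have hx : d x ≤ Finset.univ.sup d := Finset.le_sup (Finset.mem_univ x)
  obtain ⟨k, hk⟩ : ∃ k, Finset.univ.sup d + 1 - d x = k + 1 :=
    ⟨Finset.univ.sup d - d x, by omega⟩
  have h1 : fixF d F a x = F x (iterF F a k) := by
    unfold fixF
    rw [hk]
    rfl
  rw [h1]
  apply hF
  intro y hy
  have h2 := hd x y hy
  have hy' : d y ≤ Finset.univ.sup d := Finset.le_sup (Finset.mem_univ y)
  have h3 : Finset.univ.sup d + 1 - d y = k := by omega
  unfold fixF
  rw [h3]

omit [DecidableEq W] in
/-- Induction along a rooted forest, from the leaves up. -/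
theorem forest_induction (ch : W → Finset W) (d : W → ℕ)
    (hd : ∀ x, ∀ y ∈ ch x, d y = d x + 1) (P : W → Prop)
    (h : ∀ x, (∀ y ∈ ch x, P y) → P x) : ∀ x, P x := by
  have key : ∀ k x, Finset.univ.sup d - d x ≤ k → P x := by
    intro k
    induction k with
    | zero =>
      intro x hx
      apply h
      intro y hy
      have h2 := hd x y hy
      have hy' : d y ≤ Finset.univ.sup d := Finset.le_sup (Finset.mem_univ y)
      exfalso
      omega
    | succ k ih =>
      intro x hx
      apply h
      intro y hy
      apply ih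
      have h2 := hd x y hy
      omega
  intro x
  exact key _ x le_rfl

/-! ### rooted forest structure of an acyclic graph -/

/-- `d` is a depth function for `H`: adjacent vertices have depths differing by exactly one, and
every vertex has at most one neighbour of smaller depth. -/
def IsDepth (H : SimpleGraph W) (d : W → ℕ) : Prop :=
  (∀ a b, H.Adj a b → d a = d b + 1 ∨ d b = d a + 1) ∧
  (∀ a b c, H.Adj a b → H.Adj a c → d b < d a → d c < d a → b = c)

open Classical in
/-- The children of `x`: its neighbours of depth `d x + 1`. -/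
noncomputable def chF (H : SimpleGraph W) (d : W → ℕ) (x : W) : Finset W :=
  Finset.univ.filter (fun y => H.Adj x y ∧ d y = d x + 1)

omit [DecidableEq W] in
theorem mem_chF (H : SimpleGraph W) (d : W → ℕ) (x y : W) :
    y ∈ chF H d x ↔ H.Adj x y ∧ d y = d x + 1 := by
  unfold chF
  simp only [Finset.mem_filter, Finset.mem_univ, true_and]

omit [DecidableEq W] in
theorem chF_depth (H : SimpleGraph W) (d : W → ℕ) :
    ∀ x, ∀ y ∈ chF H d x, d y = d x + 1 :=
  fun x y hy => ((mem_chF H d x y).1 hy).2

omit [DecidableEq W] in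
theorem chF_par_unique (H : SimpleGraph W) (d : W → ℕ) (hdep : IsDepth H d) :
    ∀ x x' y, y ∈ chF H d x → y ∈ chF H d x' → x = x' := by
  intro x x' y hx hx'
  rw [mem_chF] at hx hx'
  exact hdep.2 y x x' hx.1.symm hx'.1.symm (by omega) (by omega)

/-! ### weights -/

/-- Ordered selection sum `m! e_m(ω | T)`: the sum over ordered `m`-tuples of distinct elements
of `T` of the product of the `ω`-values. -/
noncomputable def Psum (T : Finset W) (ω : W → ℝ) (m : ℕ) : ℝ :=
  (m.factorial : ℝ) * ∑ A ∈ T.powersetCard m, ∏ u ∈ A, ω u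

/-- One step of the weight recursion: `max_m m! e_m(g | ch x) / Λ^m`. -/
noncomputable def wtStep (ch : W → Finset W) (Λ : ℝ) (x : W) (g : W → ℝ) : ℝ :=
  (Finset.range (Fintype.card W + 1)).sup' ⟨0, Finset.mem_range.2 (Nat.succ_pos _)⟩
    (fun m => Psum (ch x) g m / Λ ^ m)

/-- The weight of a vertex: `wt x = max_m m! e_m(wt | ch x) / Λ^m`. -/
noncomputable def wtF (ch : W → Finset W) (d : W → ℕ) (Λ : ℝ) : W → ℝ :=
  fixF d (wtStep ch Λ) 1

omit [DecidableEq W] in
theorem Psum_congr (T : Finset W) (g g' : W → ℝ) (h : ∀ y ∈ T, g y = g' y) (m : ℕ) :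
    Psum T g m = Psum T g' m := by
  unfold Psum
  congr 1
  apply Finset.sum_congr rfl
  intro A hA
  apply Finset.prod_congr rfl
  intro u hu
  exact h u ((Finset.mem_powersetCard.1 hA).1 hu)

omit [DecidableEq W] in
theorem wtF_eq (ch : W → Finset W) (d : W → ℕ) (hd : ∀ x, ∀ y ∈ ch x, d y = d x + 1)
    (Λ : ℝ) (x : W) : wtF ch d Λ x = wtStep ch Λ x (wtF ch d Λ) := by
  unfold wtF
  apply fixF_eq ch d hd
  intro x g g' h
  unfold wtStep
  congr 1
  funext m
  rw [Psum_congr (ch x) g g' h m]

/-! ### pruned clusters: codes, heights, vertex sets, edge sets, costs, weight bounds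

Parameters: `Rich : W → Prop` (the rich vertices) and `PP : W → Finset W` (the poor children of
`x` that are attached to the cluster of `x`). -/

open Classical in
/-- The rich children of `x`. -/
noncomputable def RR (ch : W → Finset W) (Rich : W → Prop) (x : W) : Finset W :=
  (ch x).filter Rich

omit [Fintype W] [DecidableEq W] in
theorem mem_RR (ch : W → Finset W) (Rich : W → Prop) (x u : W) :
    u ∈ RR ch Rich x ↔ u ∈ ch x ∧ Rich u := by
  unfold RR
  simp only [Finset.mem_filter]

omit [Fintype W] [DecidableEq W] in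
theorem RR_subset (ch : W → Finset W) (Rich : W → Prop) (x : W) : RR ch Rich x ⊆ ch x :=
  fun _ hu => ((mem_RR ch Rich x _).1 hu).1

/-- Injective encoding of a pair (number, multiset of codes) by a natural number. -/
def encC (j : ℕ) (M : Multiset ℕ) : ℕ :=
  Nat.pair j (Encodable.encode (M.sort (· ≤ ·)))

/-- The code of `x`: encodes the number of attached poor children and the multiset of the codes
of the rich children, i.e. the isomorphism type of the pruned cluster of `x`. -/
noncomputable def codeF (ch : W → Finset W) (d : W → ℕ) (Rich : W → Prop) (PP : W → Finset W) :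
    W → ℕ :=
  fixF d (fun x g => encC (PP x).card ((RR ch Rich x).val.map g)) 0

/-- The height of the pruned cluster of `x`. -/
noncomputable def htF (ch : W → Finset W) (d : W → ℕ) (Rich : W → Prop) : W → ℕ :=
  fixF d (fun x g => (RR ch Rich x).sup g + 1) 0

/-- The vertex set of the pruned cluster of `x`: `x`, its attached poor children, and the
clusters of its rich children. -/
noncomputable def clF (ch : W → Finset W) (d : W → ℕ) (Rich : W → Prop) (PP : W → Finset W) :
    W → Finset W :=
  fixF d (fun x g => insert x (PP x ∪ (RR ch Rich x).biUnion g)) ∅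

/-- The edge set of the pruned cluster of `x`. -/
noncomputable def UF (ch : W → Finset W) (d : W → ℕ) (Rich : W → Prop) (PP : W → Finset W) :
    W → Finset (Sym2 W) :=
  fixF d (fun x g => (PP x).image (fun p => s(x, p))
    ∪ (RR ch Rich x).biUnion (fun u => insert s(x, u) (g u))) ∅

/-- The number of edges of the pruned cluster of `x` (as a recursion). -/
noncomputable def eF (ch : W → Finset W) (d : W → ℕ) (Rich : W → Prop) (PP : W → Finset W) :
    W → ℕ :=
  fixF d (fun x g => (PP x).card + ∑ u ∈ RR ch Rich x, (g u + 1)) 0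

open Classical in
/-- The number of rich children of `x` with code `τ`. -/
noncomputable def multF (ch : W → Finset W) (d : W → ℕ) (Rich : W → Prop) (PP : W → Finset W)
    (x : W) (τ : ℕ) : ℕ :=
  ((RR ch Rich x).filter (fun u => codeF ch d Rich PP u = τ)).card

/-- The cost of the pruned cluster of `x`: `c^e / A`, where `e` is its number of edges and `A`
its number of rooted automorphisms. -/
noncomputable def piF (ch : W → Finset W) (d : W → ℕ) (Rich : W → Prop) (PP : W → Finset W)
    (c : ℝ) : W → ℝ :=
  fixF d (fun x g => c ^ (PP x).card / ((PP x).card.factorial : ℝ)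
    * (∏ u ∈ RR ch Rich x, c * g u)
    / ∏ τ ∈ (RR ch Rich x).image (codeF ch d Rich PP),
        ((multF ch d Rich PP x τ).factorial : ℝ)) 0

/-- `g_Λ(j) = ∑_{i ≤ j} (j)_i (2/Λ)^i`. -/
noncomputable def gJ (Λ : ℝ) (j : ℕ) : ℝ :=
  ∑ i ∈ Finset.range (j + 1), (j.descFactorial i : ℝ) * (2 / Λ) ^ i

/-- `∑_{A ⊆ T} |A|! ∏_{u ∈ A} y u`. -/
noncomputable def PhiS (T : Finset W) (y : W → ℝ) : ℝ :=
  ∑ A ∈ T.powerset, (A.card.factorial : ℝ) * ∏ u ∈ A, y u

/-- The weight bound of the pruned cluster of `x`. -/
noncomputable def wbF (ch : W → Finset W) (d : W → ℕ) (Rich : W → Prop) (PP : W → Finset W)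
    (Λ : ℝ) : W → ℝ :=
  fixF d (fun x g =>
    if (PP x).card = 0 then PhiS (RR ch Rich x) (fun u => 4 * g u / Λ) - 1
    else gJ Λ (PP x).card * PhiS (RR ch Rich x) (fun u => 4 * g u / Λ)) 0

/-! ### recursion equations -/

section unfold

variable (ch : W → Finset W) (d : W → ℕ) (hd : ∀ x, ∀ y ∈ ch x, d y = d x + 1)
  (Rich : W → Prop) (PP : W → Finset W)

include hd

theorem codeF_eq (x : W) : codeF ch d Rich PP x
    = encC (PP x).card ((RR ch Rich x).val.map (codeF ch d Rich PP)) := by
  unfold codeF
  apply fixF_eq ch d hd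
  intro x g g' h
  congr 1
  apply Multiset.map_congr rfl
  intro u hu
  exact h u (RR_subset ch Rich x (Finset.mem_def.2 hu))

theorem htF_eq (x : W) : htF ch d Rich x = (RR ch Rich x).sup (htF ch d Rich) + 1 := by
  unfold htF
  apply fixF_eq ch d hd
  intro x g g' h
  congr 1
  apply Finset.sup_congr rfl
  intro u hu
  exact h u (RR_subset ch Rich x hu)

theorem clF_eq (x : W) : clF ch d Rich PP x
    = insert x (PP x ∪ (RR ch Rich x).biUnion (clF ch d Rich PP)) := by
  unfold clF
  apply fixF_eq ch d hd
  intro x g g' h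
  congr 2
  apply Finset.biUnion_congr rfl
  intro u hu
  exact h u (RR_subset ch Rich x hu)

theorem UF_eq (x : W) : UF ch d Rich PP x
    = (PP x).image (fun p => s(x, p))
      ∪ (RR ch Rich x).biUnion (fun u => insert s(x, u) (UF ch d Rich PP u)) := by
  unfold UF
  apply fixF_eq ch d hd
  intro x g g' h
  congr 1
  apply Finset.biUnion_congr rfl
  intro u hu
  rw [h u (RR_subset ch Rich x hu)]

theorem eF_eq (x : W) : eF ch d Rich PP x
    = (PP x).card + ∑ u ∈ RR ch Rich x, (eF ch d Rich PP u + 1) := by
  unfold eF
  apply fixF_eq ch d hd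
  intro x g g' h
  congr 1
  apply Finset.sum_congr rfl
  intro u hu
  rw [h u (RR_subset ch Rich x hu)]

theorem piF_eq (c : ℝ) (x : W) : piF ch d Rich PP c x
    = c ^ (PP x).card / ((PP x).card.factorial : ℝ)
      * (∏ u ∈ RR ch Rich x, c * piF ch d Rich PP c u)
      / ∏ τ ∈ (RR ch Rich x).image (codeF ch d Rich PP),
          ((multF ch d Rich PP x τ).factorial : ℝ) := by
  unfold piF
  apply fixF_eq ch d hd
  intro x g g' h
  congr 2
  apply Finset.prod_congr rfl
  intro u hu
  rw [h u (RR_subset ch Rich x hu)]

theorem wbF_eq (Λ : ℝ) (x : W) : wbF ch d Rich PP Λ x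
    = if (PP x).card = 0
      then PhiS (RR ch Rich x) (fun u => 4 * wbF ch d Rich PP Λ u / Λ) - 1
      else gJ Λ (PP x).card * PhiS (RR ch Rich x) (fun u => 4 * wbF ch d Rich PP Λ u / Λ) := by
  unfold wbF
  apply fixF_eq ch d hd
  intro x g g' h
  have hP : PhiS (RR ch Rich x) (fun u => 4 * g u / Λ)
      = PhiS (RR ch Rich x) (fun u => 4 * g' u / Λ) := by
    unfold PhiS
    apply Finset.sum_congr rfl
    intro A hA
    congr 1
    apply Finset.prod_congr rfl
    intro u hu
    show 4 * g u / Λ = 4 * g' u / Λ
    rw [h u (RR_subset ch Rich x (Finset.mem_powerset.1 hA hu))]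
  rw [hP]

end unfold

/-! ### images of clusters in the complete graph -/

open Classical in
/-- The images `(ψ x, ψ (U x))` of the rooted cluster of `x` under maps `ψ : W → Fin n` that are
injective on the cluster. -/
noncomputable def ImF (ch : W → Finset W) (d : W → ℕ) (Rich : W → Prop) (PP : W → Finset W)
    (n : ℕ) (x : W) : Finset (Fin n × Finset (Sym2 (Fin n))) :=
  ((Finset.univ : Finset (W → Fin n)).filter
    (fun ψ => Set.InjOn ψ (clF ch d Rich PP x : Set W))).image
      (fun ψ => (ψ x, (UF ch d Rich PP x).image (Sym2.map ψ)))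

open Classical in
/-- The union of the image sets of the clusters of the rich vertices with code `κ`. -/
noncomputable def JF (ch : W → Finset W) (d : W → ℕ) (Rich : W → Prop) (PP : W → Finset W)
    (n : ℕ) (κ : ℕ) : Finset (Fin n × Finset (Sym2 (Fin n))) :=
  ((Finset.univ : Finset W).filter
    (fun y => Rich y ∧ codeF ch d Rich PP y = κ)).biUnion (ImF ch d Rich PP n)

open Classical in
/-- The class of `x`: the rich vertices with the same code. -/
noncomputable def QF (ch : W → Finset W) (d : W → ℕ) (Rich : W → Prop) (PP : W → Finset W)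
    (x : W) : Finset W :=
  (Finset.univ : Finset W).filter
    (fun y => Rich y ∧ codeF ch d Rich PP y = codeF ch d Rich PP x)

/-- The regrouped form of `PhiS`: for multiplicities `μ i` of elements with common value `y i`,
`∑_t ∏_i C(μ i, t i) * (∑_i t i)! * ∏_i (y i)^(t i)` over all `t ≤ μ`. -/
noncomputable def PhiM {ι : Type} [Fintype ι] [DecidableEq ι] (μ : ι → ℕ) (y : ι → ℝ) : ℝ :=
  ∑ t ∈ Fintype.piFinset (fun i => Finset.range (μ i + 1)),
    (∏ i, ((μ i).choose (t i) : ℝ)) * ((∑ i, t i).factorial : ℝ) * ∏ i, y i ^ t i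

/-! ### the concrete instance -/

/-- Rich vertices: weight larger than one. -/
def richF (ch : W → Finset W) (d : W → ℕ) (Λ : ℝ) (x : W) : Prop := 1 < wtF ch d Λ x

open Classical in
/-- The poor children of `x`. -/
noncomputable def poorF (ch : W → Finset W) (d : W → ℕ) (Λ : ℝ) (x : W) : Finset W :=
  (ch x).filter (fun u => ¬ richF ch d Λ u)

open Classical in
/-- The attached poor children: all poor children if there are more than `Λ/2` of them, none
otherwise. -/
noncomputable def ppF (ch : W → Finset W) (d : W → ℕ) (Λ : ℝ) (x : W) : Finset W :=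
  if Λ < 2 * ((poorF ch d Λ x).card : ℝ) then poorF ch d Λ x else ∅

end Vale.Agent.Lib.P064
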