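import Vale.Agent.Lib.P064.ForDefs

/-!
Forest hosts (P064): the counting theorem for acyclic hosts.

If `H` is a forest on at most `n` vertices and every subgraph of `H` has expected count at least
`1/2` in `G(n,q)`, then every graph `S` has at most `n^{v(S)} (10000 q)^{e(S)}` embeddings into
`H` (`labelledCopyCount_le_forest`).

Outline.  Root every component of `H` (`exists_isDepth`).  With `Λ = 1000 n q`, the weights
`wtF` satisfy `wt x = max_m m! e_m(wt | children of x) / Λ^m`, and a connected graph `S` has at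
most `v(S) Λ^{v(S)-1} ∑_x wt x` embeddings (`labelledCopyCount_connected_le_wt`).  Rich vertices
(weight above one) are grouped into classes by the isomorphism type (`codeF`) of their pruned
clusters; clusters of one class are pairwise disjoint (`clF_disjoint`), so the expected count of
their union bounds the class size by `6 n π` (`class_card_le`); the weight of a rich vertex is at
most the bound `wbF` of its class (`wtF_le_wbF`); and the exponential formula (`gf_core`) bounds
the sum of `π * wb` over the classes by `1/40` (`gf_bound`).  Hence `∑_x wt x ≤ 2n`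
(`sum_wtF_le`).
-/

set_option linter.unusedSectionVars false
set_option linter.unusedVariables false

namespace Vale.Agent.Lib.P064

open Finset

variable {W : Type} [Fintype W] [DecidableEq W]

/-! ### FOR-A : every acyclic graph has a depth function -/

theorem taskForA_parent_unique (H : SimpleGraph W) (hH : H.IsAcyclic) (r a b c : W)
    (hra : H.Reachable r a) (hab : H.Adj a b) (hac : H.Adj a c)
    (hb : H.dist r a = H.dist r b + 1) (hc : H.dist r a = H.dist r c + 1) : b = c := by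
  have hrb : H.Reachable r b := hra.trans hab.reachable
  have hrc : H.Reachable r c := hra.trans hac.reachable
  obtain ⟨pa, hpa, hpa'⟩ := hra.exists_path_of_dist
  obtain ⟨pb, hpb, hpb'⟩ := hrb.exists_path_of_dist
  obtain ⟨pc, hpc, hpc'⟩ := hrc.exists_path_of_dist
  have hnb : a ∉ pb.support := by
    intro hmem
    have h1 := SimpleGraph.dist_le (pb.takeUntil a hmem)
    have h2 := pb.length_takeUntil_le_length hmem
    omega
  have hnc : a ∉ pc.support := by
    intro hmem
    have h1 := SimpleGraph.dist_le (pc.takeUntil a hmem)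
    have h2 := pc.length_takeUntil_le_length hmem
    omega
  have hb_mem : b ∈ pa.support :=
    hH.mem_support_of_ne_mem_support_of_adj_of_isPath hpa hpb hab hnb
  have hc_mem : c ∈ pa.support :=
    hH.mem_support_of_ne_mem_support_of_adj_of_isPath hpa hpc hac hnc
  have e1 : pa = pb.concat hab.symm := hH.path_concat hpb hpa hab.symm hb_mem
  have e2 : pa = pc.concat hac.symm := hH.path_concat hpc hpa hac.symm hc_mem
  obtain ⟨h, -⟩ := SimpleGraph.Walk.concat_inj (e1.symm.trans e2)
  exact h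

theorem exists_isDepth (H : SimpleGraph W) (hH : H.IsAcyclic) : ∃ d : W → ℕ, IsDepth H d := by
  classical
  obtain ⟨root, hroot⟩ : ∃ root : H.ConnectedComponent → W, ∀ C, root C ∈ C :=
    ⟨fun C => C.nonempty_supp.some, fun C => C.nonempty_supp.some_mem⟩
  have hreach : ∀ v, H.Reachable (root (H.connectedComponentMk v)) v := fun v =>
    SimpleGraph.ConnectedComponent.exact (hroot _)
  have hcomp : ∀ a b, H.Adj a b → H.connectedComponentMk b = H.connectedComponentMk a :=
    fun a b hab => SimpleGraph.ConnectedComponent.sound hab.symm.reachable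
  refine ⟨fun v => H.dist (root (H.connectedComponentMk v)) v, ?_, ?_⟩
  · intro a b hab
    simp only [hcomp a b hab]
    exact hH.dist_eq_dist_add_one_of_adj_of_reachable _ hab (hreach a)
  · intro a b c hab hac hb hc
    simp only [hcomp a b hab, hcomp a c hac] at hb hc
    have h1 := hH.dist_eq_dist_add_one_of_adj_of_reachable
      (root (H.connectedComponentMk a)) hab (hreach a)
    have h2 := hH.dist_eq_dist_add_one_of_adj_of_reachable
      (root (H.connectedComponentMk a)) hac (hreach a)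
    exact taskForA_parent_unique H hH _ a b c (hreach a) hab hac (by omega) (by omega)

/-! ### FOR-P : ordered selection sums -/

theorem Psum_nonneg (T : Finset W) (ω : W → ℝ) (hω : ∀ u ∈ T, 0 ≤ ω u) (m : ℕ) :
    0 ≤ Psum T ω m := by
  unfold Psum
  refine mul_nonneg (Nat.cast_nonneg _) (Finset.sum_nonneg fun A hA => ?_)
  exact Finset.prod_nonneg fun u hu => hω u ((Finset.mem_powersetCard.1 hA).1 hu)

theorem Psum_zero (T : Finset W) (ω : W → ℝ) : Psum T ω 0 = 1 := by
  unfold Psum
  simp [Finset.powersetCard_zero]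

theorem Psum_eq_zero_of_card_lt (T : Finset W) (ω : W → ℝ) (m : ℕ) (h : T.card < m) :
    Psum T ω m = 0 := by
  unfold Psum
  rw [Finset.powersetCard_eq_empty.2 h]
  simp

theorem Psum_mono (T : Finset W) (ω ω' : W → ℝ) (h0 : ∀ u ∈ T, 0 ≤ ω u)
    (h : ∀ u ∈ T, ω u ≤ ω' u) (m : ℕ) : Psum T ω m ≤ Psum T ω' m := by
  unfold Psum
  refine mul_le_mul_of_nonneg_left (Finset.sum_le_sum fun A hA => ?_) (Nat.cast_nonneg _)
  have hAT := (Finset.mem_powersetCard.1 hA).1
  exact Finset.prod_le_prod (fun u hu => h0 u (hAT hu)) (fun u hu => h u (hAT hu))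

theorem taskForP_card_inj {ι : Type} [Fintype ι] [DecidableEq ι] (A : Finset W)
    (hA : A.card = Fintype.card ι) :
    ((Finset.univ : Finset (ι → W)).filter
        (fun σ => Function.Injective σ ∧ Finset.univ.image σ = A)).card
      = (Fintype.card ι).factorial := by
  classical
  have h1 : Fintype.card (ι ↪ A) = (Fintype.card ι).factorial := by
    rw [Fintype.card_embedding_eq, Fintype.card_coe, hA, Nat.descFactorial_self]
  rw [← h1, ← Finset.card_univ]
  symm
  apply Finset.card_bij (fun (e : ι ↪ A) _ => fun i => (e i : W))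
  · intro e _
    simp only [Finset.mem_filter, Finset.mem_univ, true_and]
    have hinj : Function.Injective (fun i => (e i : W)) :=
      fun i j hij => e.injective (Subtype.ext hij)
    refine ⟨hinj, ?_⟩
    apply Finset.eq_of_subset_of_card_le
    · intro u hu
      obtain ⟨i, -, rfl⟩ := Finset.mem_image.1 hu
      exact (e i).2
    · rw [Finset.card_image_of_injective _ hinj, Finset.card_univ, hA]
  · intro e1 _ e2 _ h
    ext i
    exact congrFun h i
  · intro σ hσ
    simp only [Finset.mem_filter, Finset.mem_univ, true_and] at hσ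
    have hmem : ∀ i, σ i ∈ A := by
      intro i
      rw [← hσ.2]
      exact Finset.mem_image_of_mem _ (Finset.mem_univ _)
    refine ⟨⟨fun i => ⟨σ i, hmem i⟩, ?_⟩, Finset.mem_univ _, rfl⟩
    intro i j hij
    exact hσ.1 (Subtype.ext_iff.1 hij)

/-- Auxiliary form of `sum_injective_eq_Psum`, placed before `Psum_le_pow`. -/
theorem taskForP_sum_inj {ι : Type} [Fintype ι] [DecidableEq ι] (T : Finset W)
    (ω : W → ℝ) :
    ∑ σ ∈ (Finset.univ : Finset (ι → W)).filter
        (fun σ => Function.Injective σ ∧ ∀ i, σ i ∈ T), ∏ i, ω (σ i)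
      = Psum T ω (Fintype.card ι) := by
  classical
  unfold Psum
  have hmaps : ∀ σ ∈ (Finset.univ : Finset (ι → W)).filter
      (fun σ => Function.Injective σ ∧ ∀ i, σ i ∈ T),
      Finset.univ.image σ ∈ T.powersetCard (Fintype.card ι) := by
    intro σ hσ
    simp only [Finset.mem_filter, Finset.mem_univ, true_and] at hσ
    rw [Finset.mem_powersetCard]
    refine ⟨?_, ?_⟩
    · intro u hu
      obtain ⟨i, -, rfl⟩ := Finset.mem_image.1 hu
      exact hσ.2 i
    · rw [Finset.card_image_of_injective _ hσ.1, Finset.card_univ]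
  rw [← Finset.sum_fiberwise_of_maps_to hmaps, Finset.mul_sum]
  apply Finset.sum_congr rfl
  intro A hA
  rw [Finset.mem_powersetCard] at hA
  have h2 : ∀ σ ∈ ((Finset.univ : Finset (ι → W)).filter
      (fun σ => Function.Injective σ ∧ ∀ i, σ i ∈ T)).filter
      (fun σ => Finset.univ.image σ = A), ∏ i, ω (σ i) = ∏ u ∈ A, ω u := by
    intro σ hσ
    simp only [Finset.mem_filter, Finset.mem_univ, true_and] at hσ
    rw [← hσ.2, Finset.prod_image (fun i _ j _ hij => hσ.1.1 hij)]
  rw [Finset.sum_congr rfl h2, Finset.sum_const, nsmul_eq_mul]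
  congr 1
  have h3 : ((Finset.univ : Finset (ι → W)).filter
      (fun σ => Function.Injective σ ∧ ∀ i, σ i ∈ T)).filter
      (fun σ => Finset.univ.image σ = A)
      = (Finset.univ : Finset (ι → W)).filter
        (fun σ => Function.Injective σ ∧ Finset.univ.image σ = A) := by
    ext σ
    simp only [Finset.mem_filter, Finset.mem_univ, true_and]
    constructor
    · rintro ⟨⟨h1, _⟩, h3⟩
      exact ⟨h1, h3⟩
    · rintro ⟨h1, h3⟩
      refine ⟨⟨h1, fun i => hA.1 ?_⟩, h3⟩
      rw [← h3]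
      exact Finset.mem_image_of_mem _ (Finset.mem_univ _)
  rw [h3]
  have h4 := taskForP_card_inj (ι := ι) A hA.2
  exact_mod_cast h4

/-- `m! e_m(ω | T) ≤ (∑_T ω)^m`. -/
theorem Psum_le_pow (T : Finset W) (ω : W → ℝ) (hω : ∀ u ∈ T, 0 ≤ ω u) (m : ℕ) :
    Psum T ω m ≤ (∑ u ∈ T, ω u) ^ m := by
  classical
  have h1 := taskForP_sum_inj (ι := Fin m) T ω
  rw [Fintype.card_fin] at h1
  rw [← h1]
  have h2 : (∑ u ∈ T, ω u) ^ m
      = ∑ σ ∈ Fintype.piFinset (fun _ : Fin m => T), ∏ i, ω (σ i) := by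
    rw [← Finset.prod_univ_sum, Finset.prod_const, Finset.card_univ, Fintype.card_fin]
  rw [h2]
  apply Finset.sum_le_sum_of_subset_of_nonneg
  · intro σ hσ
    simp only [Finset.mem_filter, Finset.mem_univ, true_and] at hσ
    rw [Fintype.mem_piFinset]
    exact hσ.2
  · intro σ hσ _
    rw [Fintype.mem_piFinset] at hσ
    exact Finset.prod_nonneg fun i _ => hω _ (hσ i)

/-- The sum over injective maps `σ : ι → T` of `∏_i ω (σ i)` is `|ι|! e_{|ι|}(ω | T)`. -/
theorem sum_injective_eq_Psum {ι : Type} [Fintype ι] [DecidableEq ι] (T : Finset W)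
    (ω : W → ℝ) :
    ∑ σ ∈ (Finset.univ : Finset (ι → W)).filter
        (fun σ => Function.Injective σ ∧ ∀ i, σ i ∈ T), ∏ i, ω (σ i)
      = Psum T ω (Fintype.card ι) :=
  taskForP_sum_inj T ω

/-! ### FOR-W : basic facts on the weights -/

section weights

variable (ch : W → Finset W) (d : W → ℕ) (hd : ∀ x, ∀ y ∈ ch x, d y = d x + 1) (Λ : ℝ)

include hd

theorem one_le_wtF (x : W) : 1 ≤ wtF ch d Λ x := by
  have h := Finset.le_sup' (f := fun m => Psum (ch x) (wtF ch d Λ) m / Λ ^ m)
    (s := Finset.range (Fintype.card W + 1)) (b := 0) (Finset.mem_range.2 (Nat.succ_pos _))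
  simp only [Psum_zero, pow_zero, div_one] at h
  have h2 := wtF_eq ch d hd Λ x
  unfold wtStep at h2
  rw [h2]
  exact h

theorem wtF_term_le (hΛ : 0 < Λ) (x : W) (m : ℕ) :
    Psum (ch x) (wtF ch d Λ) m / Λ ^ m ≤ wtF ch d Λ x := by
  by_cases hm : m ≤ Fintype.card W
  · have h2 := wtF_eq ch d hd Λ x
    unfold wtStep at h2
    have h := Finset.le_sup' (f := fun m => Psum (ch x) (wtF ch d Λ) m / Λ ^ m)
      (s := Finset.range (Fintype.card W + 1)) (b := m) (Finset.mem_range.2 (by omega))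
    calc Psum (ch x) (wtF ch d Λ) m / Λ ^ m ≤ _ := h
      _ = wtF ch d Λ x := h2.symm
  · have hc : (ch x).card < m := lt_of_le_of_lt (Finset.card_le_univ _) (by omega)
    rw [Psum_eq_zero_of_card_lt _ _ _ hc, zero_div]
    exact le_trans zero_le_one (one_le_wtF ch d hd Λ x)

theorem wtF_le_of (x : W) (B : ℝ)
    (hB : ∀ m, Psum (ch x) (wtF ch d Λ) m / Λ ^ m ≤ B) : wtF ch d Λ x ≤ B := by
  have h2 := wtF_eq ch d hd Λ x
  unfold wtStep at h2
  rw [h2]
  exact Finset.sup'_le _ _ (fun m _ => hB m)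

/-- A rich vertex has children of total weight more than `Λ`. -/
theorem sum_ch_gt_of_rich (hΛ : 0 < Λ) (x : W) (hx : richF ch d Λ x) :
    Λ < ∑ u ∈ ch x, wtF ch d Λ u := by
  by_contra hcon
  rw [not_lt] at hcon
  have h0 : ∀ u ∈ ch x, 0 ≤ wtF ch d Λ u :=
    fun u _ => le_trans zero_le_one (one_le_wtF ch d hd Λ u)
  have hs0 : 0 ≤ ∑ u ∈ ch x, wtF ch d Λ u := Finset.sum_nonneg h0
  have h1 : wtF ch d Λ x ≤ 1 := by
    apply wtF_le_of ch d hd Λ x
    intro m
    have hp := Psum_le_pow (ch x) (wtF ch d Λ) h0 m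
    have hpow : (∑ u ∈ ch x, wtF ch d Λ u) ^ m ≤ Λ ^ m := pow_le_pow_left₀ hs0 hcon m
    rw [div_le_one (pow_pos hΛ m)]
    exact hp.trans hpow
  unfold richF at hx
  linarith

end weights

/-! ### FOR-I : the concrete instance (rich vertices, attached poor children) -/

section instFacts

variable (ch : W → Finset W) (d : W → ℕ) (hd : ∀ x, ∀ y ∈ ch x, d y = d x + 1) (Λ : ℝ)

include hd

theorem ppF_spec (x : W) : ∀ y ∈ ppF ch d Λ x, y ∈ ch x ∧ ¬ richF ch d Λ y := by
  classical
  intro y hy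
  unfold ppF at hy
  split_ifs at hy with h
  · unfold poorF at hy
    exact Finset.mem_filter.1 hy
  · exact absurd hy (Finset.notMem_empty y)

theorem ppF_case (hΛ : 0 < Λ) (x : W) :
    (ppF ch d Λ x).card = 0 ∨ Λ < 2 * ((ppF ch d Λ x).card : ℝ) := by
  unfold ppF
  split_ifs with h
  · right
    exact h
  · left
    exact Finset.card_empty

theorem wtF_eq_one_of_not_rich (x : W) (hx : ¬ richF ch d Λ x) : wtF ch d Λ x = 1 := by
  unfold richF at hx
  have h1 := one_le_wtF ch d hd Λ x
  rw [not_lt] at hx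
  exact le_antisymm hx h1

/-- A rich vertex has an attached poor child or a rich child. -/
theorem ppF_RR_nonempty (hΛ : 0 < Λ) (x : W) (hx : richF ch d Λ x) :
    (ppF ch d Λ x ∪ RR ch (richF ch d Λ) x).Nonempty := by
  classical
  by_contra hne
  rw [Finset.not_nonempty_iff_eq_empty, Finset.union_eq_empty] at hne
  obtain ⟨hpp, hrr⟩ := hne
  have hsum := sum_ch_gt_of_rich ch d hd Λ hΛ x hx
  have hnr : ∀ u ∈ ch x, ¬ richF ch d Λ u := by
    intro u hu hr
    have hmem : u ∈ RR ch (richF ch d Λ) x := (mem_RR _ _ _ _).2 ⟨hu, hr⟩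
    rw [hrr] at hmem
    exact absurd hmem (Finset.notMem_empty u)
  have hall : ∀ u ∈ ch x, wtF ch d Λ u = 1 :=
    fun u hu => wtF_eq_one_of_not_rich ch d hd Λ u (hnr u hu)
  rw [Finset.sum_congr rfl hall, Finset.sum_const, nsmul_eq_mul, mul_one] at hsum
  have hpoor : poorF ch d Λ x = ch x := by
    unfold poorF
    exact Finset.filter_true_of_mem hnr
  have hc0 : (0 : ℝ) ≤ ((ch x).card : ℝ) := Nat.cast_nonneg _
  have hlt : Λ < 2 * ((poorF ch d Λ x).card : ℝ) := by
    rw [hpoor]
    linarith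
  unfold ppF at hpp
  rw [if_pos hlt, hpoor] at hpp
  rw [hpp, Finset.card_empty, Nat.cast_zero] at hsum
  linarith

end instFacts

/-! ### FOR-B1 : an embedding is descending from a vertex whose image has minimum depth -/

lemma taskForB1_pred {V : Type} (S : SimpleGraph V) (hS : S.Connected) (r v : V) (t : ℕ)
    (hv : S.dist r v = t + 1) : ∃ u, S.Adj u v ∧ S.dist r u = t := by
  obtain ⟨p, hp⟩ := hS.exists_walk_length_eq_dist v r
  rw [SimpleGraph.dist_comm, hv] at hp
  cases p with
  | nil => simp at hp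
  | cons h q =>
    rename_i u
    rw [SimpleGraph.Walk.length_cons] at hp
    have hq : q.length = t := by omega
    refine ⟨u, h.symm, ?_⟩
    have h1 : S.dist r u ≤ t := by
      rw [SimpleGraph.dist_comm, ← hq]
      exact SimpleGraph.dist_le q
    have h2 : S.dist r v ≤ S.dist r u + S.dist u v := hS.dist_triangle
    have h3 : S.dist u v = 1 := SimpleGraph.dist_eq_one_iff_adj.mpr h.symm
    omega

theorem depth_of_min {V : Type} [Fintype V] (S : SimpleGraph V) (hS : S.Connected)
    (H : SimpleGraph W) (d : W → ℕ) (hdep : IsDepth H d) (φ : V → W)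
    (hφ : Function.Injective φ) (hhom : ∀ u v, S.Adj u v → H.Adj (φ u) (φ v)) (r : V)
    (hr : ∀ v, d (φ r) ≤ d (φ v)) : ∀ v, d (φ v) = d (φ r) + S.dist r v := by
  have key : ∀ t : ℕ, ∀ v, S.dist r v = t → d (φ v) = d (φ r) + t := by
    intro t
    induction t using Nat.strong_induction_on with
    | _ t ih =>
      intro v hv
      rcases t with _ | t
      · have hrv : r = v := (hS.dist_eq_zero_iff).1 hv
        subst hrv
        rfl
      · obtain ⟨u, huv, hu⟩ := taskForB1_pred S hS r v t hv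
        have hdu := ih t (Nat.lt_succ_self t) u hu
        have hadj : H.Adj (φ u) (φ v) := hhom u v huv
        rcases hdep.1 (φ u) (φ v) hadj with h1 | h1
        · exfalso
          rcases t with _ | t
          · have hru : r = u := (hS.dist_eq_zero_iff).1 hu
            subst hru
            have h2 := hr v
            omega
          · obtain ⟨u', hu'u, hu'⟩ := taskForB1_pred S hS r u t hu
            have hdu' := ih t (by omega) u' hu'
            have hadj' : H.Adj (φ u) (φ u') := hhom u u' hu'u.symm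
            have heq : φ v = φ u' :=
              hdep.2 (φ u) (φ v) (φ u') hadj hadj' (by omega) (by omega)
            have hvu' : v = u' := hφ heq
            subst hvu'
            omega
        · omega
  intro v
  exact key _ v rfl

/-! ### FOR-B2 : counting descending maps of a rooted tree -/

open Classical in
/-- The maps that take the value `x` outside `U` and at `r`, and that are descending and
injective on siblings inside `U`. -/
noncomputable def taskForB2_valid {V : Type} [Fintype V] [DecidableEq V] (r : V) (par : V → V)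
    (ch : W → Finset W) (x : W) (U : Finset V) : Finset (V → W) :=
  Finset.univ.filter (fun φ => (∀ v, v ∉ U → φ v = x) ∧ φ r = x ∧
    (∀ v ∈ U, v ≠ r → φ v ∈ ch (φ (par v))) ∧
    ∀ v ∈ U, ∀ v' ∈ U, v ≠ r → v' ≠ r → par v = par v' → φ v = φ v' → v = v')

theorem taskForB2_mem {V : Type} [Fintype V] [DecidableEq V] (r : V) (par : V → V)
    (ch : W → Finset W) (x : W) (U : Finset V) (φ : V → W) :
    φ ∈ taskForB2_valid r par ch x U ↔ (∀ v, v ∉ U → φ v = x) ∧ φ r = x ∧
      (∀ v ∈ U, v ≠ r → φ v ∈ ch (φ (par v))) ∧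
      ∀ v ∈ U, ∀ v' ∈ U, v ≠ r → v' ≠ r → par v = par v' → φ v = φ v' → v = v' := by
  unfold taskForB2_valid
  simp only [Finset.mem_filter, Finset.mem_univ, true_and]

/-- Replace the values on `C` by `x`. -/
def taskForB2_cut {V : Type} [DecidableEq V] (x : W) (C : Finset V) (φ : V → W) : V → W :=
  fun v => if v ∈ C then x else φ v

theorem taskForB2_cut_of_mem {V : Type} [DecidableEq V] (x : W) (C : Finset V) (φ : V → W)
    {v : V} (hv : v ∈ C) : taskForB2_cut x C φ v = x := if_pos hv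

theorem taskForB2_cut_of_notMem {V : Type} [DecidableEq V] (x : W) (C : Finset V) (φ : V → W)
    {v : V} (hv : v ∉ C) : taskForB2_cut x C φ v = φ v := if_neg hv

/-- Cutting off a set `C` of leaves that are siblings gives a valid map of the rest. -/
theorem taskForB2_restrict {V : Type} [Fintype V] [DecidableEq V] (r : V) (par : V → V)
    (ch : W → Finset W) (x : W) (U C : Finset V) (p : V)
    (hC : ∀ c ∈ C, c ≠ r ∧ c ∈ U ∧ par c = p)
    (hCleaf : ∀ c ∈ C, ∀ v ∈ U, v ≠ r → par v ≠ c) (φ : V → W)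
    (hφ : φ ∈ taskForB2_valid r par ch x U) :
    taskForB2_cut x C φ ∈ taskForB2_valid r par ch x (U \ C) := by
  rw [taskForB2_mem] at hφ ⊢
  obtain ⟨h1, h2, h3, h4⟩ := hφ
  have hrC : r ∉ C := fun h => (hC r h).1 rfl
  refine ⟨?_, ?_, ?_, ?_⟩
  · intro v hv
    by_cases hvC : v ∈ C
    · exact taskForB2_cut_of_mem x C φ hvC
    · rw [taskForB2_cut_of_notMem x C φ hvC]
      exact h1 v (fun hvU => hv (Finset.mem_sdiff.mpr ⟨hvU, hvC⟩))
  · rw [taskForB2_cut_of_notMem x C φ hrC]
    exact h2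
  · intro v hv hvr
    obtain ⟨hvU, hvC⟩ := Finset.mem_sdiff.mp hv
    have hpC : par v ∉ C := fun h => hCleaf _ h v hvU hvr rfl
    rw [taskForB2_cut_of_notMem x C φ hvC, taskForB2_cut_of_notMem x C φ hpC]
    exact h3 v hvU hvr
  · intro v hv v' hv' hvr hvr' hpp hφeq
    obtain ⟨hvU, hvC⟩ := Finset.mem_sdiff.mp hv
    obtain ⟨hvU', hvC'⟩ := Finset.mem_sdiff.mp hv'
    rw [taskForB2_cut_of_notMem x C φ hvC, taskForB2_cut_of_notMem x C φ hvC'] at hφeq
    exact h4 v hvU v' hvU' hvr hvr' hpp hφeq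

/-- The total weight of the valid maps with a given restriction to the complement of a set `C`
of siblings. -/
theorem taskForB2_fibre {V : Type} [Fintype V] [DecidableEq V] (r : V) (par : V → V)
    (ch : W → Finset W) (d : W → ℕ) (hd : ∀ x, ∀ y ∈ ch x, d y = d x + 1) (Λ : ℝ) (x : W)
    (U C Z : Finset V) (p : V) (hC : ∀ c ∈ C, c ≠ r ∧ c ∈ U ∧ par c = p) (hpC : p ∉ C)
    (φ' : V → W) :
    ∑ φ ∈ (taskForB2_valid r par ch x U).filter (fun φ => taskForB2_cut x C φ = φ'),
        ∏ v ∈ Z, wtF ch d Λ (φ v)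
      ≤ (∏ v ∈ Z \ C, wtF ch d Λ (φ' v)) * Psum (ch (φ' p)) (wtF ch d Λ) C.card := by
  classical
  have hw1 : ∀ y, 1 ≤ wtF ch d Λ y := one_le_wtF ch d hd Λ
  have hw0 : ∀ y, 0 ≤ wtF ch d Λ y := fun y => le_trans zero_le_one (hw1 y)
  have hP := sum_injective_eq_Psum (ι := ↥C) (ch (φ' p)) (wtF ch d Λ)
  rw [Fintype.card_coe] at hP
  have hpt : ∀ φ ∈ (taskForB2_valid r par ch x U).filter (fun φ => taskForB2_cut x C φ = φ'),
      ∏ v ∈ Z, wtF ch d Λ (φ v)
        ≤ (∏ v ∈ Z \ C, wtF ch d Λ (φ' v)) * ∏ i : ↥C, wtF ch d Λ (φ i) := by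
    intro φ hφ
    have hcut : taskForB2_cut x C φ = φ' := (Finset.mem_filter.mp hφ).2
    have h1 : ∏ v ∈ Z, wtF ch d Λ (φ v)
        = (∏ v ∈ Z ∩ C, wtF ch d Λ (φ v)) * ∏ v ∈ Z \ C, wtF ch d Λ (φ v) :=
      (Finset.prod_inter_mul_prod_sdiff Z C _).symm
    have h2 : ∏ v ∈ Z \ C, wtF ch d Λ (φ v) = ∏ v ∈ Z \ C, wtF ch d Λ (φ' v) := by
      refine Finset.prod_congr rfl fun v hv => ?_
      rw [← hcut, taskForB2_cut_of_notMem x C φ (Finset.mem_sdiff.mp hv).2]
    have h3 : ∏ v ∈ Z ∩ C, wtF ch d Λ (φ v) ≤ ∏ v ∈ C, wtF ch d Λ (φ v) :=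
      Finset.prod_le_prod_of_subset_of_one_le Finset.inter_subset_right
        (fun v _ => hw0 _) (fun v _ _ => hw1 _)
    have h4 : ∏ i : ↥C, wtF ch d Λ (φ i) = ∏ v ∈ C, wtF ch d Λ (φ v) :=
      Finset.prod_coe_sort C (fun v => wtF ch d Λ (φ v))
    rw [h1, h2, h4, mul_comm]
    exact mul_le_mul_of_nonneg_left h3 (Finset.prod_nonneg fun v _ => hw0 _)
  have hinj : Set.InjOn (fun (φ : V → W) (i : ↥C) => φ i)
      ↑((taskForB2_valid r par ch x U).filter (fun φ => taskForB2_cut x C φ = φ')) := by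
    intro φ₁ h₁ φ₂ h₂ heq
    have hc₁ : taskForB2_cut x C φ₁ = φ' := (Finset.mem_filter.mp (Finset.mem_coe.mp h₁)).2
    have hc₂ : taskForB2_cut x C φ₂ = φ' := (Finset.mem_filter.mp (Finset.mem_coe.mp h₂)).2
    funext v
    by_cases hv : v ∈ C
    · exact congrFun heq ⟨v, hv⟩
    · rw [← taskForB2_cut_of_notMem x C φ₁ hv, ← taskForB2_cut_of_notMem x C φ₂ hv, hc₁, hc₂]
  have hsub : ((taskForB2_valid r par ch x U).filter
        (fun φ => taskForB2_cut x C φ = φ')).image (fun (φ : V → W) (i : ↥C) => φ i)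
      ⊆ (Finset.univ : Finset (↥C → W)).filter
        (fun σ => Function.Injective σ ∧ ∀ i, σ i ∈ ch (φ' p)) := by
    intro σ hσ
    obtain ⟨φ, hφ, rfl⟩ := Finset.mem_image.mp hσ
    obtain ⟨hφv, hcut⟩ := Finset.mem_filter.mp hφ
    rw [taskForB2_mem] at hφv
    obtain ⟨-, -, h3, h4⟩ := hφv
    refine Finset.mem_filter.mpr ⟨Finset.mem_univ _, ?_, ?_⟩
    · intro i j hij
      obtain ⟨hir, hiU, hip⟩ := hC i i.2
      obtain ⟨hjr, hjU, hjp⟩ := hC j j.2
      exact Subtype.ext (h4 i hiU j hjU hir hjr (hip.trans hjp.symm) hij)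
    · intro i
      obtain ⟨hir, hiU, hip⟩ := hC i i.2
      have h5 := h3 i hiU hir
      rw [hip, ← taskForB2_cut_of_notMem x C φ hpC, hcut] at h5
      exact h5
  calc ∑ φ ∈ (taskForB2_valid r par ch x U).filter (fun φ => taskForB2_cut x C φ = φ'),
        ∏ v ∈ Z, wtF ch d Λ (φ v)
      ≤ ∑ φ ∈ (taskForB2_valid r par ch x U).filter (fun φ => taskForB2_cut x C φ = φ'),
        (∏ v ∈ Z \ C, wtF ch d Λ (φ' v)) * ∏ i : ↥C, wtF ch d Λ (φ i) :=
        Finset.sum_le_sum hpt
    _ = (∏ v ∈ Z \ C, wtF ch d Λ (φ' v))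
        * ∑ φ ∈ (taskForB2_valid r par ch x U).filter (fun φ => taskForB2_cut x C φ = φ'),
          ∏ i : ↥C, wtF ch d Λ (φ i) := by
        rw [Finset.mul_sum]
    _ = (∏ v ∈ Z \ C, wtF ch d Λ (φ' v))
        * ∑ σ ∈ ((taskForB2_valid r par ch x U).filter
            (fun φ => taskForB2_cut x C φ = φ')).image (fun (φ : V → W) (i : ↥C) => φ i),
          ∏ i : ↥C, wtF ch d Λ (σ i) := by
        rw [Finset.sum_image hinj]
    _ ≤ (∏ v ∈ Z \ C, wtF ch d Λ (φ' v)) * Psum (ch (φ' p)) (wtF ch d Λ) C.card := by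
        apply mul_le_mul_of_nonneg_left _ (Finset.prod_nonneg fun v _ => hw0 _)
        rw [← hP]
        exact Finset.sum_le_sum_of_subset_of_nonneg hsub
          (fun σ _ _ => Finset.prod_nonneg fun i _ => hw0 _)

/-- The weighted count of the valid maps of a parent-closed set `U` with `n + 1` elements. -/
theorem taskForB2_main {V : Type} [Fintype V] [DecidableEq V] (r : V) (par : V → V)
    (ℓ : V → ℕ) (hℓ : ∀ v, v ≠ r → ℓ (par v) + 1 = ℓ v)
    (ch : W → Finset W) (d : W → ℕ) (hd : ∀ x, ∀ y ∈ ch x, d y = d x + 1) (Λ : ℝ)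
    (hΛ : 0 < Λ) (x : W) (n : ℕ) :
    ∀ U Z : Finset V, U.card = n + 1 → r ∈ U → (∀ v ∈ U, v ≠ r → par v ∈ U) → Z ⊆ U →
      (∀ z ∈ Z, ∀ v ∈ U, v ≠ r → par v ≠ z) →
      ∑ φ ∈ taskForB2_valid r par ch x U, ∏ v ∈ Z, wtF ch d Λ (φ v)
        ≤ wtF ch d Λ x * Λ ^ n := by
  classical
  have hw1 : ∀ y, 1 ≤ wtF ch d Λ y := one_le_wtF ch d hd Λ
  have hw0 : ∀ y, 0 ≤ wtF ch d Λ y := fun y => le_trans zero_le_one (hw1 y)
  induction n using Nat.strong_induction_on with
  | _ n ih =>
    intro U Z hcard hrU hpar hZU hZleaf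
    rcases Nat.eq_zero_or_pos n with hn | hn
    · subst hn
      obtain ⟨a, ha⟩ := Finset.card_eq_one.mp hcard
      have har : a = r := by
        rw [ha, Finset.mem_singleton] at hrU
        exact hrU.symm
      rw [har] at ha
      have hsub : taskForB2_valid r par ch x U ⊆ {fun _ => x} := by
        intro φ hφ
        rw [taskForB2_mem] at hφ
        obtain ⟨h1, h2, -, -⟩ := hφ
        rw [Finset.mem_singleton]
        funext v
        by_cases hv : v = r
        · rw [hv]
          exact h2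
        · apply h1
          rw [ha, Finset.mem_singleton]
          exact hv
      have hZcard : Z.card ≤ 1 := by
        have := Finset.card_le_card hZU
        rw [hcard] at this
        exact this
      calc ∑ φ ∈ taskForB2_valid r par ch x U, ∏ v ∈ Z, wtF ch d Λ (φ v)
          ≤ ∑ φ ∈ ({fun _ => x} : Finset (V → W)), ∏ v ∈ Z, wtF ch d Λ (φ v) :=
            Finset.sum_le_sum_of_subset_of_nonneg hsub
              (fun φ _ _ => Finset.prod_nonneg fun v _ => hw0 _)
        _ = wtF ch d Λ x ^ Z.card := by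
            rw [Finset.sum_singleton, Finset.prod_const]
        _ ≤ wtF ch d Λ x ^ 1 := pow_le_pow_right₀ (hw1 x) hZcard
        _ = wtF ch d Λ x * Λ ^ 0 := by
            rw [pow_one, pow_zero, mul_one]
    · have hne : (U.erase r).Nonempty := by
        apply Finset.card_pos.mp
        rw [Finset.card_erase_of_mem hrU, hcard]
        omega
      obtain ⟨v0, hv0, hmax⟩ := Finset.exists_max_image (U.erase r) ℓ hne
      have hv0r : v0 ≠ r := (Finset.mem_erase.mp hv0).1
      have hv0U : v0 ∈ U := (Finset.mem_erase.mp hv0).2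
      obtain ⟨p, hp⟩ : ∃ p, p = par v0 := ⟨_, rfl⟩
      have hpU : p ∈ U := by
        rw [hp]
        exact hpar v0 hv0U hv0r
      obtain ⟨C, hCdef⟩ : ∃ C : Finset V, C = (U.erase r).filter (fun v => par v = p) :=
        ⟨_, rfl⟩
      have hC : ∀ c ∈ C, c ≠ r ∧ c ∈ U ∧ par c = p := by
        intro c hc
        rw [hCdef, Finset.mem_filter, Finset.mem_erase] at hc
        exact ⟨hc.1.1, hc.1.2, hc.2⟩
      have hCmem : ∀ v, v ≠ r → v ∈ U → par v = p → v ∈ C := by
        intro v hvr hvU hvp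
        rw [hCdef, Finset.mem_filter, Finset.mem_erase]
        exact ⟨⟨hvr, hvU⟩, hvp⟩
      have hv0C : v0 ∈ C := hCmem v0 hv0r hv0U hp.symm
      have hlevel : ∀ c ∈ C, ℓ c = ℓ p + 1 := by
        intro c hc
        obtain ⟨hcr, -, hcp⟩ := hC c hc
        have := hℓ c hcr
        rw [hcp] at this
        omega
      have hpC : p ∉ C := by
        intro h
        have := hlevel p h
        omega
      have hCleaf : ∀ c ∈ C, ∀ v ∈ U, v ≠ r → par v ≠ c := by
        intro c hc v hvU hvr hpv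
        have h1 := hℓ v hvr
        rw [hpv, hlevel c hc] at h1
        have h2 := hmax v (Finset.mem_erase.mpr ⟨hvr, hvU⟩)
        have h3 := hlevel v0 hv0C
        omega
      have hrC : r ∉ C := fun h => (hC r h).1 rfl
      have hCU : C ⊆ U := fun c hc => (hC c hc).2.1
      have hrU' : r ∈ U \ C := Finset.mem_sdiff.mpr ⟨hrU, hrC⟩
      have hpU' : p ∈ U \ C := Finset.mem_sdiff.mpr ⟨hpU, hpC⟩
      have hpar' : ∀ v ∈ U \ C, v ≠ r → par v ∈ U \ C := by
        intro v hv hvr
        have hvU := (Finset.mem_sdiff.mp hv).1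
        exact Finset.mem_sdiff.mpr ⟨hpar v hvU hvr, fun h => hCleaf _ h v hvU hvr rfl⟩
      have hCcard : 1 ≤ C.card := Finset.card_pos.mpr ⟨v0, hv0C⟩
      have hU'card : (U \ C).card + C.card = n + 1 := by
        rw [Finset.card_sdiff_add_card_eq_card hCU, hcard]
      have hU'pos : 1 ≤ (U \ C).card := Finset.card_pos.mpr ⟨r, hrU'⟩
      have hpZ : p ∉ Z := fun h => hZleaf p h v0 hv0U hv0r hp.symm
      have hpZC : p ∉ Z \ C := fun h => hpZ (Finset.mem_sdiff.mp h).1
      have hZ'U' : insert p (Z \ C) ⊆ U \ C :=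
        Finset.insert_subset hpU' (Finset.sdiff_subset_sdiff hZU (Finset.Subset.refl C))
      have hZ'leaf : ∀ z ∈ insert p (Z \ C), ∀ v ∈ U \ C, v ≠ r → par v ≠ z := by
        intro z hz v hv hvr hpv
        obtain ⟨hvU, hvC⟩ := Finset.mem_sdiff.mp hv
        rcases Finset.mem_insert.mp hz with hzp | hz'
        · exact hvC (hCmem v hvr hvU (hpv.trans hzp))
        · exact hZleaf z (Finset.mem_sdiff.mp hz').1 v hvU hvr hpv
      have hIH := ih ((U \ C).card - 1) (by omega) (U \ C) (insert p (Z \ C)) (by omega) hrU'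
        hpar' hZ'U' hZ'leaf
      have hmaps : ∀ φ ∈ taskForB2_valid r par ch x U,
          taskForB2_cut x C φ ∈ taskForB2_valid r par ch x (U \ C) :=
        fun φ hφ => taskForB2_restrict r par ch x U C p hC hCleaf φ hφ
      have hterm : ∀ y, Psum (ch y) (wtF ch d Λ) C.card ≤ wtF ch d Λ y * Λ ^ C.card := by
        intro y
        have := wtF_term_le ch d hd Λ hΛ y C.card
        rwa [div_le_iff₀ (pow_pos hΛ _)] at this
      calc ∑ φ ∈ taskForB2_valid r par ch x U, ∏ v ∈ Z, wtF ch d Λ (φ v)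
          = ∑ φ' ∈ taskForB2_valid r par ch x (U \ C),
              ∑ φ ∈ (taskForB2_valid r par ch x U).filter
                (fun φ => taskForB2_cut x C φ = φ'), ∏ v ∈ Z, wtF ch d Λ (φ v) :=
            (Finset.sum_fiberwise_of_maps_to hmaps _).symm
        _ ≤ ∑ φ' ∈ taskForB2_valid r par ch x (U \ C),
              (∏ v ∈ Z \ C, wtF ch d Λ (φ' v)) * Psum (ch (φ' p)) (wtF ch d Λ) C.card :=
            Finset.sum_le_sum fun φ' _ =>
              taskForB2_fibre r par ch d hd Λ x U C Z p hC hpC φ'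
        _ ≤ ∑ φ' ∈ taskForB2_valid r par ch x (U \ C),
              Λ ^ C.card * ∏ v ∈ insert p (Z \ C), wtF ch d Λ (φ' v) := by
            refine Finset.sum_le_sum fun φ' _ => ?_
            rw [Finset.prod_insert hpZC]
            have h1 := mul_le_mul_of_nonneg_left (hterm (φ' p))
              (Finset.prod_nonneg fun v (_ : v ∈ Z \ C) => hw0 (φ' v))
            calc (∏ v ∈ Z \ C, wtF ch d Λ (φ' v)) * Psum (ch (φ' p)) (wtF ch d Λ) C.card
                ≤ (∏ v ∈ Z \ C, wtF ch d Λ (φ' v)) * (wtF ch d Λ (φ' p) * Λ ^ C.card) := h1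
              _ = Λ ^ C.card * (wtF ch d Λ (φ' p) * ∏ v ∈ Z \ C, wtF ch d Λ (φ' v)) := by
                  ring
        _ = Λ ^ C.card * ∑ φ' ∈ taskForB2_valid r par ch x (U \ C),
              ∏ v ∈ insert p (Z \ C), wtF ch d Λ (φ' v) := by
            rw [Finset.mul_sum]
        _ ≤ Λ ^ C.card * (wtF ch d Λ x * Λ ^ ((U \ C).card - 1)) :=
            mul_le_mul_of_nonneg_left hIH (pow_pos hΛ _).le
        _ = wtF ch d Λ x * Λ ^ n := by
            have hexp : n = C.card + ((U \ C).card - 1) := by omega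
            rw [hexp, pow_add]
            ring

/-- `V` carries a rooted tree structure with root `r` and parent function `par` (`ℓ` is the
level).  The maps `φ : V → W` with `φ r = x` that send every non-root vertex to a child of the
image of its parent, injectively on siblings, number at most `wt x * Λ^(|V| - 1)`. -/
theorem card_tree_maps_le {V : Type} [Fintype V] [DecidableEq V] (r : V) (par : V → V)
    (ℓ : V → ℕ) (hℓ : ∀ v, v ≠ r → ℓ (par v) + 1 = ℓ v)
    (ch : W → Finset W) (d : W → ℕ) (hd : ∀ x, ∀ y ∈ ch x, d y = d x + 1) (Λ : ℝ)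
    (hΛ : 0 < Λ) (x : W) :
    (((Finset.univ : Finset (V → W)).filter (fun φ => φ r = x ∧
        (∀ v, v ≠ r → φ v ∈ ch (φ (par v))) ∧
        ∀ v v', v ≠ r → v' ≠ r → par v = par v' → φ v = φ v' → v = v')).card : ℝ)
      ≤ wtF ch d Λ x * Λ ^ (Fintype.card V - 1) := by
  have hVpos : 1 ≤ Fintype.card V := Fintype.card_pos_iff.mpr ⟨r⟩
  have hmain := taskForB2_main r par ℓ hℓ ch d hd Λ hΛ x (Fintype.card V - 1) Finset.univ ∅
    (by rw [Finset.card_univ]; omega) (Finset.mem_univ r) (fun v _ _ => Finset.mem_univ _)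
    (Finset.empty_subset _) (fun z hz => absurd hz (Finset.notMem_empty z))
  have hsub : (Finset.univ : Finset (V → W)).filter (fun φ => φ r = x ∧
        (∀ v, v ≠ r → φ v ∈ ch (φ (par v))) ∧
        ∀ v v', v ≠ r → v' ≠ r → par v = par v' → φ v = φ v' → v = v')
      ⊆ taskForB2_valid r par ch x Finset.univ := by
    intro φ hφ
    obtain ⟨-, h1, h2, h3⟩ := Finset.mem_filter.mp hφ
    rw [taskForB2_mem]
    exact ⟨fun v hv => absurd (Finset.mem_univ v) hv, h1, fun v _ hvr => h2 v hvr,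
      fun v _ v' _ => h3 v v'⟩
  have hcard := Finset.card_le_card hsub
  have hcardR : (((Finset.univ : Finset (V → W)).filter (fun φ => φ r = x ∧
        (∀ v, v ≠ r → φ v ∈ ch (φ (par v))) ∧
        ∀ v v', v ≠ r → v' ≠ r → par v = par v' → φ v = φ v' → v = v')).card : ℝ)
      ≤ ((taskForB2_valid r par ch x Finset.univ).card : ℝ) := by
    exact_mod_cast hcard
  refine le_trans hcardR ?_
  simp only [Finset.prod_empty, Finset.sum_const, nsmul_eq_mul, mul_one] at hmain
  exact hmain

/-! ### FOR-B3 : embeddings of a connected graph into a rooted forest -/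

theorem taskForB3_parent {V : Type} (S : SimpleGraph V) (hS : S.Connected) (r v : V)
    (hv : v ≠ r) : ∃ p, S.Adj p v ∧ S.dist r p + 1 = S.dist r v := by
  obtain ⟨w, hw⟩ := hS.exists_walk_length_eq_dist v r
  cases w with
  | nil => exact absurd rfl hv
  | @cons _ p _ h w' =>
    refine ⟨p, h.symm, ?_⟩
    have h1 : S.dist p r ≤ w'.length := SimpleGraph.dist_le w'
    have h2 : S.dist v r ≤ S.dist v p + S.dist p r := hS.dist_triangle
    have h3 : S.dist v p = 1 := SimpleGraph.dist_eq_one_iff_adj.mpr h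
    rw [SimpleGraph.Walk.length_cons] at hw
    rw [SimpleGraph.dist_comm (u := r) (v := p), SimpleGraph.dist_comm (u := r) (v := v)]
    omega

theorem taskForB3_count_le {V : Type} [Fintype V] (S : SimpleGraph V) (H : SimpleGraph W)
    (F : Finset (V → W)) (hF : ∀ c : S.Copy H, (c : V → W) ∈ F) :
    H.labelledCopyCount S ≤ F.card := by
  unfold SimpleGraph.labelledCopyCount
  rw [Fintype.card_eq_nat_card, ← Fintype.card_coe, Fintype.card_eq_nat_card]
  apply Nat.card_le_card_of_injective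
    (fun c : SimpleGraph.Copy S H => (⟨(c : V → W), hF c⟩ : {φ // φ ∈ F}))
  intro c1 c2 h
  apply DFunLike.coe_injective
  exact congrArg (fun f : {φ // φ ∈ F} => (f : V → W)) h

theorem labelledCopyCount_connected_le_wt {V : Type} [Fintype V] (S : SimpleGraph V)
    (hS : S.Connected) (H : SimpleGraph W) (d : W → ℕ) (hdep : IsDepth H d) (Λ : ℝ)
    (hΛ : 0 < Λ) :
    (H.labelledCopyCount S : ℝ)
      ≤ (Fintype.card V : ℝ) * (∑ x, wtF (chF H d) d Λ x) * Λ ^ (Fintype.card V - 1) := by
  classical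
  have hpar0 : ∀ r : V, ∃ par : V → V,
      ∀ v, v ≠ r → S.Adj (par v) v ∧ S.dist r (par v) + 1 = S.dist r v := by
    intro r
    have h : ∀ v, ∃ p, v ≠ r → S.Adj p v ∧ S.dist r p + 1 = S.dist r v := by
      intro v
      by_cases hv : v = r
      · exact ⟨v, fun h => absurd hv h⟩
      · obtain ⟨p, hp⟩ := taskForB3_parent S hS r v hv
        exact ⟨p, fun _ => hp⟩
    choose par hpar using h
    exact ⟨par, hpar⟩
  choose par hpar using hpar0
  -- the sets of descending maps
  obtain ⟨T, hT⟩ : ∃ T : V → W → Finset (V → W), T = fun r x =>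
      (Finset.univ : Finset (V → W)).filter (fun φ => φ r = x ∧
        (∀ v, v ≠ r → φ v ∈ chF H d (φ (par r v))) ∧
        ∀ v v', v ≠ r → v' ≠ r → par r v = par r v' → φ v = φ v' → v = v') := ⟨_, rfl⟩
  have hTcard : ∀ r x,
      ((T r x).card : ℝ) ≤ wtF (chF H d) d Λ x * Λ ^ (Fintype.card V - 1) := by
    intro r x
    rw [hT]
    exact card_tree_maps_le r (par r) (fun v => S.dist r v) (fun v hv => (hpar r v hv).2)
      (chF H d) d (chF_depth H d) Λ hΛ x
  have hTmem : ∀ (r : V) (x : W) (φ : V → W), φ ∈ T r x ↔ (φ r = x ∧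
      (∀ v, v ≠ r → φ v ∈ chF H d (φ (par r v))) ∧
      ∀ v v', v ≠ r → v' ≠ r → par r v = par r v' → φ v = φ v' → v = v') := by
    intro r x φ
    rw [hT]
    simp only [Finset.mem_filter, Finset.mem_univ, true_and]
  have hmem : ∀ c : S.Copy H, (c : V → W) ∈
      Finset.univ.biUnion (fun r => Finset.univ.biUnion (fun x => T r x)) := by
    intro c
    have hne : Nonempty V := hS.nonempty
    obtain ⟨r, -, hr⟩ := Finset.exists_min_image Finset.univ (fun v => d (c v))
      Finset.univ_nonempty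
    have hdepth := depth_of_min S hS H d hdep (c : V → W) c.injective
      (fun u v huv => c.toHom.map_rel huv) r (fun v => hr v (Finset.mem_univ v))
    rw [Finset.mem_biUnion]
    refine ⟨r, Finset.mem_univ r, ?_⟩
    rw [Finset.mem_biUnion]
    refine ⟨c r, Finset.mem_univ _, ?_⟩
    rw [hTmem]
    refine ⟨rfl, fun v hv => ?_, fun v v' _ _ _ h => c.injective h⟩
    rw [mem_chF]
    obtain ⟨hadj, hdist⟩ := hpar r v hv
    refine ⟨c.toHom.map_rel hadj, ?_⟩
    rw [hdepth v, hdepth (par r v)]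
    omega
  have hcount := taskForB3_count_le S H _ hmem
  have h1 : (Finset.univ.biUnion (fun r => Finset.univ.biUnion (fun x => T r x))).card
      ≤ ∑ r : V, ∑ x : W, (T r x).card :=
    Finset.card_biUnion_le.trans (Finset.sum_le_sum (fun r _ => Finset.card_biUnion_le))
  have h2 : (H.labelledCopyCount S : ℝ) ≤ ((∑ r : V, ∑ x : W, (T r x).card : ℕ) : ℝ) := by
    exact_mod_cast hcount.trans h1
  calc (H.labelledCopyCount S : ℝ) ≤ ((∑ r : V, ∑ x : W, (T r x).card : ℕ) : ℝ) := h2
    _ = ∑ r : V, ∑ x : W, ((T r x).card : ℝ) := by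
        push_cast
        rfl
    _ ≤ ∑ r : V, ∑ x : W, wtF (chF H d) d Λ x * Λ ^ (Fintype.card V - 1) :=
        Finset.sum_le_sum (fun r _ => Finset.sum_le_sum (fun x _ => hTcard r x))
    _ = (Fintype.card V : ℝ) * (∑ x, wtF (chF H d) d Λ x) * Λ ^ (Fintype.card V - 1) := by
        rw [Finset.sum_const, Finset.card_univ, nsmul_eq_mul, ← Finset.sum_mul, mul_assoc]

/-! ### FOR-C : the weight of a rich vertex is at most its weight bound -/

/-- Monotonicity of `PhiS` (local copy for this section). -/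
theorem taskForC_PhiS_mono (T : Finset W) (y y' : W → ℝ) (hy : ∀ u ∈ T, 0 ≤ y u)
    (h : ∀ u ∈ T, y u ≤ y' u) : PhiS T y ≤ PhiS T y' := by
  unfold PhiS
  apply Finset.sum_le_sum
  intro A hA
  have hAT : A ⊆ T := Finset.mem_powerset.1 hA
  apply mul_le_mul_of_nonneg_left _ (Nat.cast_nonneg _)
  apply Finset.prod_le_prod
  · intro u hu
    exact hy u (hAT hu)
  · intro u hu
    exact h u (hAT hu)

/-- Doubling the arguments of `PhiS` gains at least the sum of the arguments. -/
theorem taskForC_PhiS_double (T : Finset W) (y : W → ℝ) (hy : ∀ u ∈ T, 0 ≤ y u)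
    (h1 : 1 ≤ ∑ u ∈ T, y u) : PhiS T y ≤ PhiS T (fun u => 2 * y u) - 1 := by
  have hterm : ∀ A ∈ T.powerset, 0 ≤ (A.card.factorial : ℝ) * ∏ u ∈ A, 2 * y u
      - (A.card.factorial : ℝ) * ∏ u ∈ A, y u := by
    intro A hA
    have hAT : A ⊆ T := Finset.mem_powerset.1 hA
    rw [Finset.prod_mul_distrib, Finset.prod_const]
    have hp : 0 ≤ ∏ u ∈ A, y u := Finset.prod_nonneg fun u hu => hy u (hAT hu)
    have h2 : (1 : ℝ) ≤ 2 ^ A.card := one_le_pow₀ (by norm_num)
    have hf : (0 : ℝ) ≤ (A.card.factorial : ℝ) := Nat.cast_nonneg _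
    nlinarith [mul_nonneg hf (mul_nonneg (sub_nonneg.2 h2) hp)]
  have key : ∑ u ∈ T, y u ≤ PhiS T (fun u => 2 * y u) - PhiS T y := by
    unfold PhiS
    rw [← Finset.sum_sub_distrib]
    calc ∑ u ∈ T, y u
        = ∑ A ∈ T.image (fun u => ({u} : Finset W)),
            ((A.card.factorial : ℝ) * ∏ u ∈ A, 2 * y u
              - (A.card.factorial : ℝ) * ∏ u ∈ A, y u) := by
          rw [Finset.sum_image (fun a _ b _ hab => Finset.singleton_injective hab)]
          apply Finset.sum_congr rfl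
          intro u _
          rw [Finset.card_singleton, Nat.factorial_one, Nat.cast_one, Finset.prod_singleton,
            Finset.prod_singleton]
          ring
      _ ≤ ∑ A ∈ T.powerset, ((A.card.factorial : ℝ) * ∏ u ∈ A, 2 * y u
              - (A.card.factorial : ℝ) * ∏ u ∈ A, y u) := by
          apply Finset.sum_le_sum_of_subset_of_nonneg
          · intro A hA
            obtain ⟨u, hu, rfl⟩ := Finset.mem_image.1 hA
            exact Finset.mem_powerset.2 (Finset.singleton_subset_iff.2 hu)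
          · intro A hA _
            exact hterm A hA
  linarith

/-- The number of `m`-subsets of `T` with a given trace `B` on `R`. -/
theorem taskForC_fiber_card (T R B : Finset W) (m : ℕ) :
    ((T.powersetCard m).filter (fun A => A ∩ R = B)).card
      ≤ (T \ R).card.choose (m - B.card) := by
  rw [← Finset.card_powersetCard]
  apply Finset.card_le_card_of_injOn (fun A => A \ R)
  · intro A hA
    have hA' := Finset.mem_filter.1 (Finset.mem_coe.1 hA)
    obtain ⟨hAT, hAm⟩ := Finset.mem_powersetCard.1 hA'.1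
    have hAB : A ∩ R = B := hA'.2
    rw [Finset.mem_coe, Finset.mem_powersetCard]
    refine ⟨Finset.sdiff_subset_sdiff hAT (Finset.Subset.refl R), ?_⟩
    have h := Finset.card_sdiff_add_card_inter A R
    rw [hAB, hAm] at h
    show (A \ R).card = m - B.card
    omega
  · intro A hA A' hA' h
    have hA2 : A ∩ R = B := (Finset.mem_filter.1 (Finset.mem_coe.1 hA)).2
    have hA2' : A' ∩ R = B := (Finset.mem_filter.1 (Finset.mem_coe.1 hA')).2
    have h' : A \ R = A' \ R := h
    rw [← Finset.sdiff_union_inter A R, ← Finset.sdiff_union_inter A' R, hA2, hA2', h']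

/-- The coefficient bound: `m! c / Λ^m ≤ K t! (2/Λ)^t` when `c ≤ C(j, m - t)`. -/
theorem taskForC_coef (Λ : ℝ) (hΛ : 0 < Λ) (K : ℝ) (j m t c : ℕ) (htm : t ≤ m)
    (hc : c ≤ j.choose (m - t))
    (hK : ((j.descFactorial (m - t) : ℕ) : ℝ) * (2 / Λ) ^ (m - t) ≤ K) :
    (m.factorial : ℝ) / Λ ^ m * (c : ℝ) ≤ K * ((t.factorial : ℝ) * (2 / Λ) ^ t) := by
  have hnat : m.factorial * c ≤ 2 ^ m * (t.factorial * j.descFactorial (m - t)) := by
    calc m.factorial * c ≤ m.factorial * j.choose (m - t) := Nat.mul_le_mul_left _ hc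
      _ = m.choose t * t.factorial * (m - t).factorial * j.choose (m - t) := by
          rw [Nat.choose_mul_factorial_mul_factorial htm]
      _ = m.choose t * (t.factorial * j.descFactorial (m - t)) := by
          rw [Nat.descFactorial_eq_factorial_mul_choose]
          ring
      _ ≤ 2 ^ m * (t.factorial * j.descFactorial (m - t)) :=
          Nat.mul_le_mul_right _ (Nat.choose_le_two_pow m t)
  have hreal : (m.factorial : ℝ) * (c : ℝ)
      ≤ 2 ^ m * ((t.factorial : ℝ) * ((j.descFactorial (m - t) : ℕ) : ℝ)) := by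
    exact_mod_cast hnat
  have hΛm : 0 < Λ ^ m := pow_pos hΛ m
  have h2 : (2 / Λ) ^ m = (2 / Λ) ^ t * (2 / Λ) ^ (m - t) := by
    rw [← pow_add]
    congr 1
    omega
  have h3 : (2 : ℝ) ^ m / Λ ^ m = (2 / Λ) ^ t * (2 / Λ) ^ (m - t) := by
    rw [← div_pow, h2]
  have h4 : (0 : ℝ) ≤ (t.factorial : ℝ) * (2 / Λ) ^ t := by positivity
  calc (m.factorial : ℝ) / Λ ^ m * (c : ℝ) = (m.factorial : ℝ) * (c : ℝ) / Λ ^ m := by ring
    _ ≤ 2 ^ m * ((t.factorial : ℝ) * ((j.descFactorial (m - t) : ℕ) : ℝ)) / Λ ^ m :=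
        div_le_div_of_nonneg_right hreal hΛm.le
    _ = (2 ^ m / Λ ^ m) * ((t.factorial : ℝ) * ((j.descFactorial (m - t) : ℕ) : ℝ)) := by ring
    _ = ((t.factorial : ℝ) * (2 / Λ) ^ t)
          * (((j.descFactorial (m - t) : ℕ) : ℝ) * (2 / Λ) ^ (m - t)) := by
        rw [h3]
        ring
    _ ≤ ((t.factorial : ℝ) * (2 / Λ) ^ t) * K := mul_le_mul_of_nonneg_left hK h4
    _ = K * ((t.factorial : ℝ) * (2 / Λ) ^ t) := by ring

/-- Splitting the children into those in `R` and the others (all of weight one). -/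
theorem taskForC_main (T R : Finset W) (hR : R ⊆ T) (ω : W → ℝ)
    (hω1 : ∀ u ∈ T, u ∉ R → ω u = 1) (hω0 : ∀ u ∈ R, 0 ≤ ω u) (Λ : ℝ) (hΛ : 0 < Λ) (K : ℝ)
    (hK : ∀ i : ℕ, (((T \ R).card.descFactorial i : ℕ) : ℝ) * (2 / Λ) ^ i ≤ K) (m : ℕ) :
    Psum T ω m / Λ ^ m ≤ K * PhiS R (fun u => 2 * ω u / Λ) := by
  have hK0 : 0 ≤ K := by
    have h := hK 0
    rw [Nat.descFactorial_zero, Nat.cast_one, pow_zero, mul_one] at h
    linarith
  have hinner : ∀ B : Finset W,
      ∑ A ∈ (T.powersetCard m).filter (fun A => A ∩ R = B), ∏ u ∈ A, ω u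
        = (((T.powersetCard m).filter (fun A => A ∩ R = B)).card : ℝ) * ∏ u ∈ B, ω u := by
    intro B
    rw [← nsmul_eq_mul, ← Finset.sum_const]
    apply Finset.sum_congr rfl
    intro A hA
    obtain ⟨hA1, hA2⟩ := Finset.mem_filter.1 hA
    have hAT : A ⊆ T := (Finset.mem_powersetCard.1 hA1).1
    have h1 : ∏ u ∈ A \ R, ω u = 1 := by
      apply Finset.prod_eq_one
      intro u hu
      obtain ⟨huA, huR⟩ := Finset.mem_sdiff.1 hu
      exact hω1 u (hAT huA) huR
    rw [← Finset.prod_inter_mul_prod_sdiff A R ω, hA2, h1, mul_one]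
  have hprod : ∀ B : Finset W,
      ∏ u ∈ B, (2 * ω u / Λ) = (2 / Λ) ^ B.card * ∏ u ∈ B, ω u := by
    intro B
    rw [← Finset.prod_const, ← Finset.prod_mul_distrib]
    apply Finset.prod_congr rfl
    intro u _
    ring
  have hcoef : ∀ B : Finset W,
      (m.factorial : ℝ) / Λ ^ m
          * (((T.powersetCard m).filter (fun A => A ∩ R = B)).card : ℝ)
        ≤ K * ((B.card.factorial : ℝ) * (2 / Λ) ^ B.card) := by
    intro B
    by_cases hne : ((T.powersetCard m).filter (fun A => A ∩ R = B)).Nonempty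
    · obtain ⟨A, hA⟩ := hne
      obtain ⟨hA1, hA2⟩ := Finset.mem_filter.1 hA
      have hAm : A.card = m := (Finset.mem_powersetCard.1 hA1).2
      have htm : B.card ≤ m := by
        rw [← hAm, ← hA2]
        exact Finset.card_le_card Finset.inter_subset_left
      exact taskForC_coef Λ hΛ K (T \ R).card m B.card _ htm (taskForC_fiber_card T R B m)
        (hK _)
    · rw [Finset.not_nonempty_iff_eq_empty] at hne
      rw [hne, Finset.card_empty, Nat.cast_zero, mul_zero]
      exact mul_nonneg hK0 (by positivity)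
  have hL : Psum T ω m / Λ ^ m = ∑ B ∈ R.powerset, (m.factorial : ℝ) / Λ ^ m
      * (((T.powersetCard m).filter (fun A => A ∩ R = B)).card : ℝ) * ∏ u ∈ B, ω u := by
    unfold Psum
    rw [← Finset.sum_fiberwise_of_maps_to (g := fun A => A ∩ R) (t := R.powerset)
      (fun A _ => Finset.mem_powerset.2 Finset.inter_subset_right), Finset.mul_sum,
      Finset.sum_div]
    apply Finset.sum_congr rfl
    intro B _
    rw [hinner B]
    ring
  have hRHS : K * PhiS R (fun u => 2 * ω u / Λ) = ∑ B ∈ R.powerset,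
      K * ((B.card.factorial : ℝ) * (2 / Λ) ^ B.card) * ∏ u ∈ B, ω u := by
    unfold PhiS
    rw [Finset.mul_sum]
    apply Finset.sum_congr rfl
    intro B _
    rw [hprod B]
    ring
  rw [hL, hRHS]
  apply Finset.sum_le_sum
  intro B hB
  have hBR : B ⊆ R := Finset.mem_powerset.1 hB
  have hp0 : 0 ≤ ∏ u ∈ B, ω u := Finset.prod_nonneg fun u hu => hω0 u (hBR hu)
  exact mul_le_mul_of_nonneg_right (hcoef B) hp0

/-- Every term `(j)_i (2/Λ)^i` is at most `g_Λ(j)`. -/
theorem taskForC_gJ_term (Λ : ℝ) (hΛ : 0 < Λ) (j i : ℕ) :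
    ((j.descFactorial i : ℕ) : ℝ) * (2 / Λ) ^ i ≤ gJ Λ j := by
  unfold gJ
  have hnn : ∀ k ∈ Finset.range (j + 1),
      (0 : ℝ) ≤ ((j.descFactorial k : ℕ) : ℝ) * (2 / Λ) ^ k := by
    intro k _
    positivity
  by_cases hij : i ≤ j
  · exact Finset.single_le_sum (f := fun k => ((j.descFactorial k : ℕ) : ℝ) * (2 / Λ) ^ k) hnn
      (Finset.mem_range.2 (Nat.lt_succ_of_le hij))
  · have h0 : j.descFactorial i = 0 := Nat.descFactorial_eq_zero_iff_lt.2 (by omega)
    rw [h0, Nat.cast_zero, zero_mul]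
    exact Finset.sum_nonneg hnn

/-- If `2 j ≤ Λ` then every term `(j)_i (2/Λ)^i` is at most one. -/
theorem taskForC_small_term (Λ : ℝ) (hΛ : 0 < Λ) (j i : ℕ) (hj : 2 * (j : ℝ) ≤ Λ) :
    ((j.descFactorial i : ℕ) : ℝ) * (2 / Λ) ^ i ≤ 1 := by
  have h1 : ((j.descFactorial i : ℕ) : ℝ) ≤ (j : ℝ) ^ i := by
    exact_mod_cast Nat.descFactorial_le_pow j i
  have h2 : (0 : ℝ) ≤ (2 / Λ) ^ i := by positivity
  have h3 : (j : ℝ) * (2 / Λ) ≤ 1 := by
    rw [mul_div_assoc', div_le_one hΛ]
    linarith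
  have h4 : (0 : ℝ) ≤ (j : ℝ) * (2 / Λ) := by positivity
  calc ((j.descFactorial i : ℕ) : ℝ) * (2 / Λ) ^ i ≤ (j : ℝ) ^ i * (2 / Λ) ^ i :=
        mul_le_mul_of_nonneg_right h1 h2
    _ = ((j : ℝ) * (2 / Λ)) ^ i := (mul_pow _ _ _).symm
    _ ≤ 1 := pow_le_one₀ h4 h3

/-- The induction step of `wtF_le_wbF`. -/
theorem taskForC_step (ch : W → Finset W) (d : W → ℕ) (hd : ∀ x, ∀ y ∈ ch x, d y = d x + 1)
    (Λ : ℝ) (hΛ : 0 < Λ) (x : W)
    (ih : ∀ y ∈ ch x, richF ch d Λ y →
      wtF ch d Λ y ≤ wbF ch d (richF ch d Λ) (ppF ch d Λ) Λ y)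
    (hx : richF ch d Λ x) :
    wtF ch d Λ x ≤ wbF ch d (richF ch d Λ) (ppF ch d Λ) Λ x := by
  have hRT : RR ch (richF ch d Λ) x ⊆ ch x := RR_subset ch _ x
  have hω1 : ∀ u ∈ ch x, u ∉ RR ch (richF ch d Λ) x → wtF ch d Λ u = 1 := by
    intro u hu hnR
    apply wtF_eq_one_of_not_rich ch d hd Λ u
    intro hr
    exact hnR ((mem_RR ch _ x u).2 ⟨hu, hr⟩)
  have hω0 : ∀ u ∈ RR ch (richF ch d Λ) x, 0 ≤ wtF ch d Λ u :=
    fun u _ => le_trans zero_le_one (one_le_wtF ch d hd Λ u)
  have hih : ∀ u ∈ RR ch (richF ch d Λ) x,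
      wtF ch d Λ u ≤ wbF ch d (richF ch d Λ) (ppF ch d Λ) Λ u := by
    intro u hu
    obtain ⟨h1, h2⟩ := (mem_RR ch _ x u).1 hu
    exact ih u h1 h2
  have hsd : ch x \ RR ch (richF ch d Λ) x = poorF ch d Λ x := by
    ext u
    simp only [Finset.mem_sdiff, mem_RR, poorF, Finset.mem_filter]
    tauto
  have hy0 : ∀ u ∈ RR ch (richF ch d Λ) x, 0 ≤ 2 * wtF ch d Λ u / Λ := by
    intro u hu
    have := hω0 u hu
    positivity
  have hwbx := wbF_eq ch d hd (richF ch d Λ) (ppF ch d Λ) Λ x
  apply wtF_le_of ch d hd Λ x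
  intro m
  by_cases hcase : Λ < 2 * ((poorF ch d Λ x).card : ℝ)
  · -- many poor children: they are attached
    have hpp : ppF ch d Λ x = poorF ch d Λ x := by
      unfold ppF
      rw [if_pos hcase]
    have hj : (poorF ch d Λ x).card ≠ 0 := by
      intro h0
      rw [h0, Nat.cast_zero, mul_zero] at hcase
      linarith
    rw [hpp, if_neg hj] at hwbx
    rw [hwbx]
    have hK : ∀ i : ℕ, (((ch x \ RR ch (richF ch d Λ) x).card.descFactorial i : ℕ) : ℝ)
        * (2 / Λ) ^ i ≤ gJ Λ (poorF ch d Λ x).card := by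
      intro i
      rw [hsd]
      exact taskForC_gJ_term Λ hΛ _ i
    have hg0 : 0 ≤ gJ Λ (poorF ch d Λ x).card := by
      have h := taskForC_gJ_term Λ hΛ (poorF ch d Λ x).card 0
      rw [Nat.descFactorial_zero, Nat.cast_one, pow_zero, mul_one] at h
      linarith
    have h1 := taskForC_main (ch x) (RR ch (richF ch d Λ) x) hRT (wtF ch d Λ) hω1 hω0 Λ hΛ _
      hK m
    refine le_trans h1 (mul_le_mul_of_nonneg_left ?_ hg0)
    apply taskForC_PhiS_mono _ _ _ hy0
    intro u hu
    have h2 := hih u hu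
    have h3 := hω0 u hu
    apply div_le_div_of_nonneg_right _ hΛ.le
    linarith
  · -- few poor children: none is attached
    have hpp : ppF ch d Λ x = ∅ := by
      unfold ppF
      rw [if_neg hcase]
    rw [hpp, Finset.card_empty, if_pos rfl] at hwbx
    rw [hwbx]
    have hjle : 2 * ((poorF ch d Λ x).card : ℝ) ≤ Λ := not_lt.1 hcase
    have hK : ∀ i : ℕ, (((ch x \ RR ch (richF ch d Λ) x).card.descFactorial i : ℕ) : ℝ)
        * (2 / Λ) ^ i ≤ 1 := by
      intro i
      rw [hsd]
      exact taskForC_small_term Λ hΛ _ i hjle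
    have h1 := taskForC_main (ch x) (RR ch (richF ch d Λ) x) hRT (wtF ch d Λ) hω1 hω0 Λ hΛ 1
      hK m
    rw [one_mul] at h1
    have hsum : 1 ≤ ∑ u ∈ RR ch (richF ch d Λ) x, 2 * wtF ch d Λ u / Λ := by
      have hgt := sum_ch_gt_of_rich ch d hd Λ hΛ x hx
      rw [← Finset.sum_sdiff hRT] at hgt
      have hp : ∑ u ∈ ch x \ RR ch (richF ch d Λ) x, wtF ch d Λ u
          = ((poorF ch d Λ x).card : ℝ) := by
        rw [Finset.sum_congr rfl (fun u hu =>
          hω1 u (Finset.mem_sdiff.1 hu).1 (Finset.mem_sdiff.1 hu).2), Finset.sum_const, hsd,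
          nsmul_eq_mul, mul_one]
      rw [hp] at hgt
      rw [← Finset.sum_div, ← Finset.mul_sum, le_div_iff₀ hΛ]
      linarith
    have h2 := taskForC_PhiS_double (RR ch (richF ch d Λ) x)
      (fun u => 2 * wtF ch d Λ u / Λ) hy0 hsum
    have h3 : PhiS (RR ch (richF ch d Λ) x) (fun u => 2 * (2 * wtF ch d Λ u / Λ))
        ≤ PhiS (RR ch (richF ch d Λ) x)
          (fun u => 4 * wbF ch d (richF ch d Λ) (ppF ch d Λ) Λ u / Λ) := by
      apply taskForC_PhiS_mono
      · intro u hu
        have := hy0 u hu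
        positivity
      · intro u hu
        have h4 := hih u hu
        rw [show 2 * (2 * wtF ch d Λ u / Λ) = 4 * wtF ch d Λ u / Λ by ring]
        apply div_le_div_of_nonneg_right _ hΛ.le
        linarith
    linarith

theorem wtF_le_wbF (ch : W → Finset W) (d : W → ℕ) (hd : ∀ x, ∀ y ∈ ch x, d y = d x + 1)
    (Λ : ℝ) (hΛ : 0 < Λ) (x : W) (hx : richF ch d Λ x) :
    wtF ch d Λ x ≤ wbF ch d (richF ch d Λ) (ppF ch d Λ) Λ x := by
  revert hx
  refine forest_induction ch d hd
    (fun x => richF ch d Λ x → wtF ch d Λ x ≤ wbF ch d (richF ch d Λ) (ppF ch d Λ) Λ x) ?_ x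
  intro x ih hx
  exact taskForC_step ch d hd Λ hΛ x ih hx

section abstractForest

variable (ch : W → Finset W) (d : W → ℕ) (Rich : W → Prop) (PP : W → Finset W)
  (hd : ∀ x, ∀ y ∈ ch x, d y = d x + 1)
  (hpar : ∀ x x' y, y ∈ ch x → y ∈ ch x' → x = x')
  (hPP : ∀ x, ∀ y ∈ PP x, y ∈ ch x ∧ ¬ Rich y)

/-! ### FOR-CI : the code determines the pruned cluster up to isomorphism -/

omit [Fintype W] [DecidableEq W] in
theorem encC_inj {j j' : ℕ} {M M' : Multiset ℕ} (h : encC j M = encC j' M') :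
    j = j' ∧ M = M' := by
  unfold encC at h
  rw [Nat.pair_eq_pair] at h
  refine ⟨h.1, ?_⟩
  have h2 := Encodable.encode_injective h.2
  have h3 : ((M.sort (· ≤ ·) : List ℕ) : Multiset ℕ) = ((M'.sort (· ≤ ·) : List ℕ) : Multiset ℕ) := by
    rw [h2]
  rwa [Multiset.sort_eq, Multiset.sort_eq] at h3

include hd in
theorem codeF_data (x y : W) (h : codeF ch d Rich PP x = codeF ch d Rich PP y) :
    (PP x).card = (PP y).card ∧
      (RR ch Rich x).val.map (codeF ch d Rich PP) = (RR ch Rich y).val.map (codeF ch d Rich PP) := by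
  rw [codeF_eq ch d hd Rich PP x, codeF_eq ch d hd Rich PP y] at h
  exact encC_inj h

omit [DecidableEq W] in
/-- The number of rich children with a given code is a multiplicity in the multiset of codes. -/
theorem taskForCI_multF (x : W) (τ : ℕ) :
    multF ch d Rich PP x τ
      = Multiset.count τ ((RR ch Rich x).val.map (codeF ch d Rich PP)) := by
  classical
  unfold multF
  rw [Multiset.count_map, Finset.card_def, Finset.filter_val]
  congr 1
  exact Multiset.filter_congr (fun u _ => eq_comm)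

include hd in
theorem multF_congr (x y : W) (h : codeF ch d Rich PP x = codeF ch d Rich PP y) (τ : ℕ) :
    multF ch d Rich PP x τ = multF ch d Rich PP y τ := by
  rw [taskForCI_multF, taskForCI_multF, (codeF_data ch d Rich PP hd x y h).2]

include hd in
theorem image_codeF_congr (x y : W) (h : codeF ch d Rich PP x = codeF ch d Rich PP y) :
    (RR ch Rich x).image (codeF ch d Rich PP) = (RR ch Rich y).image (codeF ch d Rich PP) := by
  have hx : (RR ch Rich x).image (codeF ch d Rich PP)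
      = ((RR ch Rich x).val.map (codeF ch d Rich PP)).toFinset := rfl
  have hy : (RR ch Rich y).image (codeF ch d Rich PP)
      = ((RR ch Rich y).val.map (codeF ch d Rich PP)).toFinset := rfl
  rw [hx, hy, (codeF_data ch d Rich PP hd x y h).2]

omit [Fintype W] [DecidableEq W] in
/-- If two finite sets have the same multiset of codes and the quantity `X` is determined by the
code on the first set against arbitrary elements, then they have the same multiset of values. -/
theorem taskForCI_map_eq {α : Type*} [Nonempty α] (T T' : Finset W) (code : W → ℕ) (X : W → α)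
    (hM : T.val.map code = T'.val.map code)
    (hX : ∀ u ∈ T, ∀ v, code u = code v → X u = X v) :
    T.val.map X = T'.val.map X := by
  classical
  obtain ⟨Xc, hXc⟩ : ∃ Xc : ℕ → α, ∀ t, ∀ u ∈ T, code u = t → Xc t = X u := by
    refine ⟨fun t => if h : ∃ u ∈ T, code u = t then X h.choose else Classical.arbitrary α, ?_⟩
    intro t u hu hut
    have h : ∃ u ∈ T, code u = t := ⟨u, hu, hut⟩
    show (if h : ∃ u ∈ T, code u = t then X h.choose else Classical.arbitrary α) = X u
    rw [dif_pos h]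
    exact hX h.choose h.choose_spec.1 u (h.choose_spec.2.trans hut.symm)
  have h1 : ∀ u ∈ T.val, X u = Xc (code u) := fun u hu =>
    (hXc (code u) u (Finset.mem_def.2 hu) rfl).symm
  have h2 : ∀ v ∈ T'.val, X v = Xc (code v) := by
    intro v hv
    have hmem : code v ∈ T.val.map code := by
      rw [hM]
      exact Multiset.mem_map_of_mem code hv
    obtain ⟨u, hu, huv⟩ := Multiset.mem_map.1 hmem
    rw [hXc (code v) u (Finset.mem_def.2 hu) huv]
    exact (hX u (Finset.mem_def.2 hu) v huv).symm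
  have e : ∀ s : Multiset W, s.map (fun x => Xc (code x)) = (s.map code).map Xc :=
    fun s => (Multiset.map_map Xc code s).symm
  rw [Multiset.map_congr rfl h1, Multiset.map_congr rfl h2, e, e, hM]

include hd in
theorem htF_congr (x y : W) (h : codeF ch d Rich PP x = codeF ch d Rich PP y) :
    htF ch d Rich x = htF ch d Rich y := by
  revert y
  refine forest_induction ch d hd
    (fun x => ∀ y, codeF ch d Rich PP x = codeF ch d Rich PP y → htF ch d Rich x = htF ch d Rich y)
    ?_ x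
  intro x IH y h
  have hM := (codeF_data ch d Rich PP hd x y h).2
  have hmap := taskForCI_map_eq (RR ch Rich x) (RR ch Rich y) (codeF ch d Rich PP)
    (htF ch d Rich) hM (fun u hu v hv => IH u (RR_subset ch Rich x hu) v hv)
  rw [htF_eq ch d hd Rich x, htF_eq ch d hd Rich y, Finset.sup_def, Finset.sup_def, hmap]

include hd in
theorem eF_congr (x y : W) (h : codeF ch d Rich PP x = codeF ch d Rich PP y) :
    eF ch d Rich PP x = eF ch d Rich PP y := by
  revert y
  refine forest_induction ch d hd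
    (fun x => ∀ y, codeF ch d Rich PP x = codeF ch d Rich PP y →
      eF ch d Rich PP x = eF ch d Rich PP y) ?_ x
  intro x IH y h
  have hdat := codeF_data ch d Rich PP hd x y h
  have hmap := taskForCI_map_eq (RR ch Rich x) (RR ch Rich y) (codeF ch d Rich PP)
    (fun u => eF ch d Rich PP u + 1) hdat.2
    (fun u hu v hv => by rw [IH u (RR_subset ch Rich x hu) v hv])
  rw [eF_eq ch d hd Rich PP x, eF_eq ch d hd Rich PP y, hdat.1, Finset.sum_eq_multiset_sum,
    Finset.sum_eq_multiset_sum, hmap]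

include hd in
theorem piF_congr (c : ℝ) (x y : W) (h : codeF ch d Rich PP x = codeF ch d Rich PP y) :
    piF ch d Rich PP c x = piF ch d Rich PP c y := by
  revert y
  refine forest_induction ch d hd
    (fun x => ∀ y, codeF ch d Rich PP x = codeF ch d Rich PP y →
      piF ch d Rich PP c x = piF ch d Rich PP c y) ?_ x
  intro x IH y h
  have hdat := codeF_data ch d Rich PP hd x y h
  have hmap := taskForCI_map_eq (RR ch Rich x) (RR ch Rich y) (codeF ch d Rich PP)
    (fun u => c * piF ch d Rich PP c u) hdat.2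
    (fun u hu v hv => by rw [IH u (RR_subset ch Rich x hu) v hv])
  have hden : ∏ τ ∈ (RR ch Rich x).image (codeF ch d Rich PP),
        ((multF ch d Rich PP x τ).factorial : ℝ)
      = ∏ τ ∈ (RR ch Rich y).image (codeF ch d Rich PP),
        ((multF ch d Rich PP y τ).factorial : ℝ) := by
    rw [image_codeF_congr ch d Rich PP hd x y h]
    refine Finset.prod_congr rfl (fun τ _ => ?_)
    rw [multF_congr ch d Rich PP hd x y h τ]
  have hnum : ∏ u ∈ RR ch Rich x, c * piF ch d Rich PP c u
      = ∏ u ∈ RR ch Rich y, c * piF ch d Rich PP c u := by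
    rw [Finset.prod_eq_multiset_prod, Finset.prod_eq_multiset_prod, hmap]
  rw [piF_eq ch d hd Rich PP c x, piF_eq ch d hd Rich PP c y, hdat.1, hden, hnum]

omit [Fintype W] in
/-- `PhiS` as a sum of elementary symmetric functions of the multiset of values. -/
theorem taskForCI_PhiS_esymm (T : Finset W) (y : W → ℝ) :
    PhiS T y = ∑ k ∈ Finset.range ((T.val.map y).card + 1),
      (k.factorial : ℝ) * (T.val.map y).esymm k := by
  unfold PhiS
  rw [Multiset.card_map, Finset.sum_powerset]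
  refine Finset.sum_congr rfl (fun k _ => ?_)
  rw [Finset.esymm_map_val, Finset.mul_sum]
  refine Finset.sum_congr rfl (fun A hA => ?_)
  rw [(Finset.mem_powersetCard.1 hA).2]

omit [Fintype W] in
/-- `PhiS` only depends on the multiset of values. -/
theorem taskForCI_PhiS_congr (T T' : Finset W) (y y' : W → ℝ)
    (h : T.val.map y = T'.val.map y') : PhiS T y = PhiS T' y' := by
  rw [taskForCI_PhiS_esymm, taskForCI_PhiS_esymm, h]

include hd in
theorem wbF_congr (Λ : ℝ) (x y : W) (h : codeF ch d Rich PP x = codeF ch d Rich PP y) :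
    wbF ch d Rich PP Λ x = wbF ch d Rich PP Λ y := by
  revert y
  refine forest_induction ch d hd
    (fun x => ∀ y, codeF ch d Rich PP x = codeF ch d Rich PP y →
      wbF ch d Rich PP Λ x = wbF ch d Rich PP Λ y) ?_ x
  intro x IH y h
  have hdat := codeF_data ch d Rich PP hd x y h
  have hmap := taskForCI_map_eq (RR ch Rich x) (RR ch Rich y) (codeF ch d Rich PP)
    (fun u => 4 * wbF ch d Rich PP Λ u / Λ) hdat.2
    (fun u hu v hv => by rw [IH u (RR_subset ch Rich x hu) v hv])
  have hPhi := taskForCI_PhiS_congr (RR ch Rich x) (RR ch Rich y)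
    (fun u => 4 * wbF ch d Rich PP Λ u / Λ) (fun u => 4 * wbF ch d Rich PP Λ u / Λ) hmap
  rw [wbF_eq ch d hd Rich PP Λ x, wbF_eq ch d hd Rich PP Λ y, hdat.1, hPhi]

/-! ### FOR-N : nonnegativity and representatives -/

include hd in
theorem piF_nonneg (c : ℝ) (hc : 0 ≤ c) (x : W) : 0 ≤ piF ch d Rich PP c x := by
  refine forest_induction ch d hd (fun x => 0 ≤ piF ch d Rich PP c x) ?_ x
  intro x ih
  rw [piF_eq ch d hd Rich PP c x]
  apply div_nonneg
  · apply mul_nonneg
    · exact div_nonneg (pow_nonneg hc _) (Nat.cast_nonneg _)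
    · exact Finset.prod_nonneg (fun u hu => mul_nonneg hc (ih u (RR_subset ch Rich x hu)))
  · exact Finset.prod_nonneg (fun τ _ => Nat.cast_nonneg _)

omit [Fintype W] [DecidableEq W] in
theorem one_le_PhiS (T : Finset W) (y : W → ℝ) (hy : ∀ u ∈ T, 0 ≤ y u) : 1 ≤ PhiS T y := by
  unfold PhiS
  have h0 : ∀ A ∈ T.powerset, 0 ≤ (A.card.factorial : ℝ) * ∏ u ∈ A, y u := by
    intro A hA
    exact mul_nonneg (Nat.cast_nonneg _)
      (Finset.prod_nonneg (fun u hu => hy u (Finset.mem_powerset.mp hA hu)))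
  have h1 : ((∅ : Finset W).card.factorial : ℝ) * ∏ u ∈ (∅ : Finset W), y u
      ≤ ∑ A ∈ T.powerset, (A.card.factorial : ℝ) * ∏ u ∈ A, y u :=
    Finset.single_le_sum h0 (Finset.empty_mem_powerset T)
  have e : ((∅ : Finset W).card.factorial : ℝ) * ∏ u ∈ (∅ : Finset W), y u = 1 := by simp
  rw [e] at h1
  exact h1

omit [Fintype W] [DecidableEq W] in
theorem PhiS_mono (T : Finset W) (y y' : W → ℝ) (hy : ∀ u ∈ T, 0 ≤ y u)
    (h : ∀ u ∈ T, y u ≤ y' u) : PhiS T y ≤ PhiS T y' := by
  unfold PhiS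
  refine Finset.sum_le_sum (fun A hA => ?_)
  have hsub := Finset.mem_powerset.mp hA
  exact mul_le_mul_of_nonneg_left
    (Finset.prod_le_prod (fun u hu => hy u (hsub hu)) (fun u hu => h u (hsub hu)))
    (Nat.cast_nonneg _)

theorem one_le_gJ (Λ : ℝ) (hΛ : 0 < Λ) (j : ℕ) : 1 ≤ gJ Λ j := by
  unfold gJ
  have h0 : ∀ i ∈ Finset.range (j + 1), 0 ≤ (j.descFactorial i : ℝ) * (2 / Λ) ^ i := by
    intro i _
    exact mul_nonneg (Nat.cast_nonneg _) (pow_nonneg (div_nonneg zero_le_two hΛ.le) _)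
  have h1 : (j.descFactorial 0 : ℝ) * (2 / Λ) ^ 0
      ≤ ∑ i ∈ Finset.range (j + 1), (j.descFactorial i : ℝ) * (2 / Λ) ^ i :=
    Finset.single_le_sum h0 (Finset.mem_range.mpr (Nat.succ_pos j))
  have e : (j.descFactorial 0 : ℝ) * (2 / Λ) ^ 0 = 1 := by simp
  rw [e] at h1
  exact h1

/-- A system of representatives of the classes of rich vertices. -/
theorem exists_reps : ∃ T : Finset W, (∀ x ∈ T, Rich x) ∧
    Set.InjOn (codeF ch d Rich PP) (T : Set W) ∧
    ∀ x, Rich x → ∃ t ∈ T, codeF ch d Rich PP t = codeF ch d Rich PP x := by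
  classical
  have hex : ∀ k ∈ (Finset.univ.filter (fun x => Rich x)).image (codeF ch d Rich PP),
      ∃ x, Rich x ∧ codeF ch d Rich PP x = k := by
    intro k hk
    obtain ⟨x, hx, rfl⟩ := Finset.mem_image.mp hk
    exact ⟨x, (Finset.mem_filter.mp hx).2, rfl⟩
  choose rep hrep using hex
  refine ⟨((Finset.univ.filter (fun x => Rich x)).image (codeF ch d Rich PP)).attach.image
    (fun k => rep k.1 k.2), ?_, ?_, ?_⟩
  · intro x hx
    obtain ⟨k, -, rfl⟩ := Finset.mem_image.mp hx
    exact (hrep k.1 k.2).1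
  · intro x hx y hy hxy
    obtain ⟨k, -, rfl⟩ := Finset.mem_image.mp (Finset.mem_coe.mp hx)
    obtain ⟨k', -, rfl⟩ := Finset.mem_image.mp (Finset.mem_coe.mp hy)
    rw [(hrep k.1 k.2).2, (hrep k'.1 k'.2).2] at hxy
    have hkk : k = k' := Subtype.ext hxy
    rw [hkk]
  · intro x hx
    have hk : codeF ch d Rich PP x
        ∈ (Finset.univ.filter (fun x => Rich x)).image (codeF ch d Rich PP) :=
      Finset.mem_image_of_mem _ (Finset.mem_filter.mpr ⟨Finset.mem_univ x, hx⟩)
    exact ⟨rep _ hk, Finset.mem_image.mpr ⟨⟨_, hk⟩, Finset.mem_attach _ _, rfl⟩, (hrep _ hk).2⟩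

/-! ### FOR-D1 : structure of the clusters -/

include hd in
theorem self_mem_clF (x : W) : x ∈ clF ch d Rich PP x := by
  rw [clF_eq ch d hd Rich PP x]
  exact Finset.mem_insert_self _ _

include hd in
theorem taskForD1_mem_clF (x z : W) :
    z ∈ clF ch d Rich PP x ↔
      z = x ∨ z ∈ PP x ∨ ∃ u ∈ RR ch Rich x, z ∈ clF ch d Rich PP u := by
  rw [clF_eq ch d hd Rich PP x]
  simp only [Finset.mem_insert, Finset.mem_union, Finset.mem_biUnion]

include hd hPP in
theorem clF_depth (x z : W) (hz : z ∈ clF ch d Rich PP x) :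
    d x ≤ d z ∧ (d z = d x → z = x) := by
  revert z
  refine forest_induction ch d hd
    (fun x => ∀ z, z ∈ clF ch d Rich PP x → d x ≤ d z ∧ (d z = d x → z = x)) ?_ x
  intro x ih z hz
  rcases (taskForD1_mem_clF ch d Rich PP hd x z).1 hz with h | h | ⟨u, hu, hzu⟩
  · subst h
    exact ⟨le_rfl, fun _ => rfl⟩
  · have h1 := hd x z (hPP x z h).1
    exact ⟨by omega, fun h2 => absurd h2 (by omega)⟩
  · have huc : u ∈ ch x := RR_subset ch Rich x hu
    have h1 := hd x u huc
    have h2 := (ih u huc z hzu).1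
    exact ⟨by omega, fun h3 => absurd h3 (by omega)⟩

include hd hPP in
theorem clF_parent (x z : W) (hz : z ∈ clF ch d Rich PP x) (hzx : z ≠ x) :
    ∃ p ∈ clF ch d Rich PP x, z ∈ ch p := by
  revert z
  refine forest_induction ch d hd
    (fun x => ∀ z, z ∈ clF ch d Rich PP x → z ≠ x → ∃ p ∈ clF ch d Rich PP x, z ∈ ch p) ?_ x
  intro x ih z hz hzx
  rcases (taskForD1_mem_clF ch d Rich PP hd x z).1 hz with h | h | ⟨u, hu, hzu⟩
  · exact absurd h hzx
  · exact ⟨x, self_mem_clF ch d Rich PP hd x, (hPP x z h).1⟩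
  · have huc : u ∈ ch x := RR_subset ch Rich x hu
    by_cases hzu' : z = u
    · subst hzu'
      exact ⟨x, self_mem_clF ch d Rich PP hd x, huc⟩
    · obtain ⟨p, hp, hzp⟩ := ih u huc z hzu hzu'
      exact ⟨p, (taskForD1_mem_clF ch d Rich PP hd x p).2 (Or.inr (Or.inr ⟨u, hu, hp⟩)), hzp⟩

include hd hpar hPP in
/-- Two clusters that meet: one contains the root of the other. -/
theorem clF_inter (x y z : W) (hx : z ∈ clF ch d Rich PP x) (hy : z ∈ clF ch d Rich PP y)
    (hxy : x ≠ y) : y ∈ clF ch d Rich PP x ∨ x ∈ clF ch d Rich PP y := by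
  have key : ∀ k : ℕ, ∀ z x y : W, d z = k → z ∈ clF ch d Rich PP x →
      z ∈ clF ch d Rich PP y → x ≠ y →
      y ∈ clF ch d Rich PP x ∨ x ∈ clF ch d Rich PP y := by
    intro k
    induction k using Nat.strong_induction_on with
    | _ k ih =>
      intro z x y hk hx hy hxy
      by_cases hzx : z = x
      · subst hzx
        exact Or.inr hy
      by_cases hzy : z = y
      · subst hzy
        exact Or.inl hx
      obtain ⟨p, hp, hzp⟩ := clF_parent ch d Rich PP hd hPP x z hx hzx
      obtain ⟨p', hp', hzp'⟩ := clF_parent ch d Rich PP hd hPP y z hy hzy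
      have hpp : p = p' := hpar p p' z hzp hzp'
      subst hpp
      have hdp := hd p z hzp
      exact ih (d p) (by omega) p x y rfl hp hp' hxy
  exact key (d z) z x y rfl hx hy hxy

include hd hPP in
theorem htF_lt_of_mem (x y : W) (hy : y ∈ clF ch d Rich PP x) (hyx : y ≠ x) (hR : Rich y) :
    htF ch d Rich y < htF ch d Rich x := by
  revert y
  refine forest_induction ch d hd
    (fun x => ∀ y, y ∈ clF ch d Rich PP x → y ≠ x → Rich y →
      htF ch d Rich y < htF ch d Rich x) ?_ x
  intro x ih y hy hyx hR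
  rcases (taskForD1_mem_clF ch d Rich PP hd x y).1 hy with h | h | ⟨u, hu, hyu⟩
  · exact absurd h hyx
  · exact absurd hR (hPP x y h).2
  · have huc : u ∈ ch x := RR_subset ch Rich x hu
    have h1 : htF ch d Rich u < htF ch d Rich x := by
      rw [htF_eq ch d hd Rich x]
      exact Nat.lt_add_one_of_le (Finset.le_sup (f := htF ch d Rich) hu)
    by_cases hyu' : y = u
    · subst hyu'
      exact h1
    · exact lt_trans (ih u huc y hyu hyu' hR) h1

include hd hpar hPP in
/-- Clusters of distinct rich vertices of the same height are disjoint. -/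
theorem clF_disjoint (x y : W) (hx : Rich x) (hy : Rich y) (hxy : x ≠ y)
    (hht : htF ch d Rich x = htF ch d Rich y) :
    Disjoint (clF ch d Rich PP x) (clF ch d Rich PP y) := by
  rw [Finset.disjoint_left]
  intro z hzx hzy
  rcases clF_inter ch d Rich PP hd hpar hPP x y z hzx hzy hxy with h | h
  · have h1 := htF_lt_of_mem ch d Rich PP hd hPP x y h (Ne.symm hxy) hy
    omega
  · have h1 := htF_lt_of_mem ch d Rich PP hd hPP y x h hxy hx
    omega

/-! ### FOR-D2 : the edge sets of the clusters -/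

include hd hPP in
theorem UF_mem (x : W) (e : Sym2 W) (he : e ∈ UF ch d Rich PP x) :
    ∃ p ∈ clF ch d Rich PP x, ∃ z ∈ clF ch d Rich PP x, z ∈ ch p ∧ e = s(p, z) := by
  revert e
  refine forest_induction ch d hd (fun x => ∀ e, e ∈ UF ch d Rich PP x →
    ∃ p ∈ clF ch d Rich PP x, ∃ z ∈ clF ch d Rich PP x, z ∈ ch p ∧ e = s(p, z)) ?_ x
  intro x ih e he
  rw [UF_eq ch d hd Rich PP x] at he
  rw [clF_eq ch d hd Rich PP x]
  rcases Finset.mem_union.1 he with h1 | h1
  · obtain ⟨p, hp, rfl⟩ := Finset.mem_image.1 h1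
    exact ⟨x, Finset.mem_insert_self _ _, p,
      Finset.mem_insert_of_mem (Finset.mem_union_left _ hp), (hPP x p hp).1, rfl⟩
  · obtain ⟨u, hu, h2⟩ := Finset.mem_biUnion.1 h1
    have hsub : clF ch d Rich PP u
        ⊆ insert x (PP x ∪ (RR ch Rich x).biUnion (clF ch d Rich PP)) := by
      intro w hw
      exact Finset.mem_insert_of_mem
        (Finset.mem_union_right _ (Finset.mem_biUnion.2 ⟨u, hu, hw⟩))
    rcases Finset.mem_insert.1 h2 with h3 | h3
    · exact ⟨x, Finset.mem_insert_self _ _, u, hsub (self_mem_clF ch d Rich PP hd u),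
        RR_subset ch Rich x hu, h3⟩
    · obtain ⟨p, hp, z, hz, hzp, hez⟩ := ih u (RR_subset ch Rich x hu) e h3
      exact ⟨p, hsub hp, z, hsub hz, hzp, hez⟩

include hd hPP in
theorem UF_endpoint_ne (x z : W) (hz : z ∈ clF ch d Rich PP x) (hzx : z ≠ x) :
    ∃ w, s(z, w) ∈ UF ch d Rich PP x := by
  revert z
  refine forest_induction ch d hd (fun x => ∀ z, z ∈ clF ch d Rich PP x → z ≠ x →
    ∃ w, s(z, w) ∈ UF ch d Rich PP x) ?_ x
  intro x ih z hz hzx
  rw [clF_eq ch d hd Rich PP x] at hz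
  rw [UF_eq ch d hd Rich PP x]
  rcases Finset.mem_insert.1 hz with h1 | h1
  · exact absurd h1 hzx
  rcases Finset.mem_union.1 h1 with h2 | h2
  · exact ⟨x, Finset.mem_union_left _ (Finset.mem_image.2 ⟨z, h2, Sym2.eq_swap⟩)⟩
  · obtain ⟨u, hu, h3⟩ := Finset.mem_biUnion.1 h2
    by_cases hzu : z = u
    · refine ⟨x, Finset.mem_union_right _
        (Finset.mem_biUnion.2 ⟨u, hu, Finset.mem_insert.2 (Or.inl ?_)⟩)⟩
      rw [hzu]
      exact Sym2.eq_swap
    · obtain ⟨w, hw⟩ := ih u (RR_subset ch Rich x hu) z h3 hzu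
      exact ⟨w, Finset.mem_union_right _
        (Finset.mem_biUnion.2 ⟨u, hu, Finset.mem_insert_of_mem hw⟩)⟩

include hd in
theorem UF_endpoint_root (x : W) (hne : (PP x ∪ RR ch Rich x).Nonempty) :
    ∃ w, s(x, w) ∈ UF ch d Rich PP x := by
  obtain ⟨w, hw⟩ := hne
  rw [UF_eq ch d hd Rich PP x]
  rcases Finset.mem_union.1 hw with h1 | h1
  · exact ⟨w, Finset.mem_union_left _ (Finset.mem_image.2 ⟨w, h1, rfl⟩)⟩
  · exact ⟨w, Finset.mem_union_right _
      (Finset.mem_biUnion.2 ⟨w, h1, Finset.mem_insert_self _ _⟩)⟩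

include hd hPP in
theorem UF_disjoint (x y : W) (h : Disjoint (clF ch d Rich PP x) (clF ch d Rich PP y)) :
    Disjoint (UF ch d Rich PP x) (UF ch d Rich PP y) := by
  rw [Finset.disjoint_left]
  intro e hex hey
  obtain ⟨p, hp, z, hz, -, he⟩ := UF_mem ch d Rich PP hd hPP x e hex
  obtain ⟨p', hp', z', hz', -, he'⟩ := UF_mem ch d Rich PP hd hPP y e hey
  rw [he] at he'
  rcases Sym2.eq_iff.1 he' with ⟨h1, -⟩ | ⟨h1, -⟩
  · exact Finset.disjoint_left.1 h hp (by rw [h1]; exact hp')
  · exact Finset.disjoint_left.1 h hp (by rw [h1]; exact hz')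

include hd hpar hPP in
theorem UF_card (x : W) : (UF ch d Rich PP x).card = eF ch d Rich PP x := by
  refine forest_induction ch d hd
    (fun x => (UF ch d Rich PP x).card = eF ch d Rich PP x) ?_ x
  intro x ih
  rw [UF_eq ch d hd Rich PP x, eF_eq ch d hd Rich PP x]
  have hxu : ∀ u ∈ RR ch Rich x, x ∉ clF ch d Rich PP u := by
    intro u hu hx
    have h1 := (clF_depth ch d Rich PP hd hPP u x hx).1
    have h2 := hd x u (RR_subset ch Rich x hu)
    omega
  have hnot : ∀ u ∈ RR ch Rich x, ∀ w, s(x, w) ∉ UF ch d Rich PP u := by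
    intro u hu w hmem
    obtain ⟨p, hp, z, hz, -, he⟩ := UF_mem ch d Rich PP hd hPP u _ hmem
    rcases Sym2.eq_iff.1 he with ⟨h1, -⟩ | ⟨h1, -⟩
    · exact hxu u hu (by rw [h1]; exact hp)
    · exact hxu u hu (by rw [h1]; exact hz)
  have hcl : ∀ u ∈ RR ch Rich x, ∀ u' ∈ RR ch Rich x, u ≠ u' →
      Disjoint (clF ch d Rich PP u) (clF ch d Rich PP u') := by
    intro u hu u' hu' hne
    rw [Finset.disjoint_left]
    intro z hz hz'
    have hdu := hd x u (RR_subset ch Rich x hu)
    have hdu' := hd x u' (RR_subset ch Rich x hu')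
    rcases clF_inter ch d Rich PP hd hpar hPP u u' z hz hz' hne with h1 | h1
    · exact hne ((clF_depth ch d Rich PP hd hPP u u' h1).2 (by omega)).symm
    · exact hne ((clF_depth ch d Rich PP hd hPP u' u h1).2 (by omega))
  have hinj : Function.Injective (fun p : W => s(x, p)) := by
    intro p p' hpp
    have hpp' : s(x, p) = s(x, p') := hpp
    rcases Sym2.eq_iff.1 hpp' with ⟨-, h4⟩ | ⟨h4, h5⟩
    · exact h4
    · exact h5.trans h4
  have hdisj1 : Disjoint ((PP x).image (fun p => s(x, p)))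
      ((RR ch Rich x).biUnion (fun u => insert s(x, u) (UF ch d Rich PP u))) := by
    rw [Finset.disjoint_left]
    intro e he1 he2
    obtain ⟨p, hp, rfl⟩ := Finset.mem_image.1 he1
    obtain ⟨u, hu, h2⟩ := Finset.mem_biUnion.1 he2
    rcases Finset.mem_insert.1 h2 with h3 | h3
    · have hpu : p = u := hinj h3
      rw [hpu] at hp
      exact (hPP x u hp).2 ((mem_RR ch Rich x u).1 hu).2
    · exact hnot u hu p h3
  have hpair : ((RR ch Rich x : Finset W) : Set W).PairwiseDisjoint
      (fun u => insert s(x, u) (UF ch d Rich PP u)) := by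
    intro u hu u' hu' hne
    have hu1 : u ∈ RR ch Rich x := hu
    have hu1' : u' ∈ RR ch Rich x := hu'
    show Disjoint (insert s(x, u) (UF ch d Rich PP u))
      (insert s(x, u') (UF ch d Rich PP u'))
    rw [Finset.disjoint_left]
    intro e he1 he2
    rcases Finset.mem_insert.1 he1 with h1 | h1
    · rcases Finset.mem_insert.1 he2 with h2 | h2
      · rw [h1] at h2
        exact hne (hinj h2)
      · rw [h1] at h2
        exact hnot u' hu1' u h2
    · rcases Finset.mem_insert.1 he2 with h2 | h2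
      · rw [h2] at h1
        exact hnot u hu1 u' h1
      · exact Finset.disjoint_left.1
          (UF_disjoint ch d Rich PP hd hPP u u' (hcl u hu1 u' hu1' hne)) h1 h2
  rw [Finset.card_union_of_disjoint hdisj1, Finset.card_image_of_injective _ hinj,
    Finset.card_biUnion hpair]
  congr 1
  apply Finset.sum_congr rfl
  intro u hu
  rw [Finset.card_insert_of_notMem (hnot u hu u), ih u (RR_subset ch Rich x hu)]

/-! ### FOR-D3 : the number of images of the clusters of one class -/

/-- Abstract counting: if every element of `JX` is assembled from a root, a `j`-set of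
vertices and, for every `t ∈ Tc`, a `μ t`-subset of `Jt t`, then `JX` has at most
`n * C(n, j) * ∏ C(|Jt t|, μ t)` elements. -/
lemma taskForD3_count (n j : ℕ) (Tc : Finset ℕ) (μ : ℕ → ℕ)
    (Jt : ℕ → Finset (Fin n × Finset (Sym2 (Fin n))))
    (JX : Finset (Fin n × Finset (Sym2 (Fin n))))
    (hJX : ∀ z ∈ JX, ∃ (r : Fin n) (P : Finset (Fin n))
      (T : ℕ → Finset (Fin n × Finset (Sym2 (Fin n)))),
      P.card = j ∧ (∀ t ∈ Tc, T t ⊆ Jt t ∧ (T t).card = μ t) ∧
      z = (r, P.image (fun p => s(r, p)) ∪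
        Tc.biUnion (fun t => (T t).biUnion (fun w => insert s(r, w.1) w.2)))) :
    JX.card ≤ n * n.choose j * ∏ t ∈ Tc, (Jt t).card.choose (μ t) := by
  obtain ⟨Om, hOm⟩ : ∃ Om : Finset (Fin n × Finset (Fin n) ×
      (∀ t ∈ Tc, Finset (Fin n × Finset (Sym2 (Fin n))))),
      Om = Finset.univ ×ˢ (Finset.powersetCard j Finset.univ ×ˢ
        Tc.pi (fun t => (Jt t).powersetCard (μ t))) := ⟨_, rfl⟩
  obtain ⟨asm, hasm⟩ : ∃ asm : (Fin n × Finset (Fin n) ×
      (∀ t ∈ Tc, Finset (Fin n × Finset (Sym2 (Fin n))))) → Fin n × Finset (Sym2 (Fin n)),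
      asm = fun o => (o.1, o.2.1.image (fun p => s(o.1, p)) ∪
        Tc.attach.biUnion (fun t => (o.2.2 t.1 t.2).biUnion
          (fun w => insert s(o.1, w.1) w.2))) := ⟨_, rfl⟩
  have hsub : JX ⊆ Om.image asm := by
    intro z hz
    obtain ⟨r, P, T, hP, hT, rfl⟩ := hJX z hz
    rw [Finset.mem_image]
    refine ⟨(r, P, fun t _ => T t), ?_, ?_⟩
    · rw [hOm]
      simp only [Finset.mem_product, Finset.mem_univ, true_and, Finset.mem_powersetCard,
        Finset.subset_univ, Finset.mem_pi]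
      exact ⟨hP, fun t ht => hT t ht⟩
    · rw [hasm]
      refine Prod.ext rfl ?_
      show P.image (fun p => s(r, p)) ∪ Tc.attach.biUnion (fun t => (T t.1).biUnion
          (fun w => insert s(r, w.1) w.2))
        = P.image (fun p => s(r, p)) ∪
          Tc.biUnion (fun t => (T t).biUnion (fun w => insert s(r, w.1) w.2))
      congr 1
      ext e
      simp only [Finset.mem_biUnion, Finset.mem_attach, true_and, Subtype.exists]
      constructor
      · rintro ⟨t, ht, w, hw, he⟩
        exact ⟨t, ht, w, hw, he⟩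
      · rintro ⟨t, ht, w, hw, he⟩
        exact ⟨t, ht, w, hw, he⟩
  calc JX.card ≤ (Om.image asm).card := Finset.card_le_card hsub
    _ ≤ Om.card := Finset.card_image_le
    _ = n * n.choose j * ∏ t ∈ Tc, (Jt t).card.choose (μ t) := by
      rw [hOm]
      simp only [Finset.card_product, Finset.card_univ, Fintype.card_fin,
        Finset.card_powersetCard, Finset.card_pi]
      ring

/-- The union over the fibres of a map is the union over the whole set. -/
lemma taskForD3_fiber_biUnion {β : Type} [DecidableEq β] (s : Finset W) (c : W → ℕ)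
    (G : W → Finset β) :
    (s.image c).biUnion (fun t => (s.filter (fun u => c u = t)).biUnion G) = s.biUnion G := by
  ext e
  simp only [Finset.mem_biUnion, Finset.mem_image, Finset.mem_filter]
  constructor
  · rintro ⟨t, -, u, ⟨hu, -⟩, he⟩
    exact ⟨u, hu, he⟩
  · rintro ⟨u, hu, he⟩
    exact ⟨c u, ⟨u, hu, rfl⟩, u, ⟨hu, rfl⟩, he⟩

/-- The multiplicity as the size of a fibre. -/
lemma taskForD3_multF (x : W) (t : ℕ) :
    multF ch d Rich PP x t
      = ((RR ch Rich x).filter (fun u => codeF ch d Rich PP u = t)).card := by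
  unfold multF
  congr

include hd in
/-- The image of the edge set of a cluster under a map. -/
lemma taskForD3_image_UF (n : ℕ) (ψ : W → Fin n) (y : W) :
    (UF ch d Rich PP y).image (Sym2.map ψ)
      = (PP y).image (fun p => s(ψ y, ψ p)) ∪ (RR ch Rich y).biUnion
          (fun u => insert s(ψ y, ψ u) ((UF ch d Rich PP u).image (Sym2.map ψ))) := by
  rw [UF_eq ch d hd Rich PP y, Finset.image_union, Finset.image_image, Finset.biUnion_image]
  have e1 : (PP y).image (Sym2.map ψ ∘ fun p => s(y, p))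
      = (PP y).image (fun p => s(ψ y, ψ p)) := rfl
  have e2 : ((RR ch Rich y).biUnion
        fun a => (insert s(y, a) (UF ch d Rich PP a)).image (Sym2.map ψ))
      = (RR ch Rich y).biUnion
          (fun u => insert s(ψ y, ψ u) ((UF ch d Rich PP u).image (Sym2.map ψ))) := by
    apply Finset.biUnion_congr rfl
    intro u _
    rw [Finset.image_insert, Sym2.map_mk]
  rw [e1, e2]

include hd in
/-- Every image of a cluster of the class of `x` is assembled from a root, the images of the
attached poor children and images of the clusters of the rich children. -/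
lemma taskForD3_sub (n : ℕ) (x : W) :
    ∀ z ∈ JF ch d Rich PP n (codeF ch d Rich PP x),
      ∃ (r : Fin n) (P : Finset (Fin n)) (T : ℕ → Finset (Fin n × Finset (Sym2 (Fin n)))),
        P.card = (PP x).card ∧
        (∀ t ∈ (RR ch Rich x).image (codeF ch d Rich PP),
          T t ⊆ JF ch d Rich PP n t ∧ (T t).card = multF ch d Rich PP x t) ∧
        z = (r, P.image (fun p => s(r, p)) ∪
          ((RR ch Rich x).image (codeF ch d Rich PP)).biUnion
            (fun t => (T t).biUnion (fun w => insert s(r, w.1) w.2))) := by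
  classical
  intro z hz
  unfold JF at hz
  rw [Finset.mem_biUnion] at hz
  obtain ⟨y, hy, hzy⟩ := hz
  rw [Finset.mem_filter] at hy
  obtain ⟨-, hyR, hyc⟩ := hy
  unfold ImF at hzy
  rw [Finset.mem_image] at hzy
  obtain ⟨ψ, hψ, rfl⟩ := hzy
  rw [Finset.mem_filter] at hψ
  have hinj : Set.InjOn ψ (clF ch d Rich PP y : Set W) := hψ.2
  have hcl := clF_eq ch d hd Rich PP y
  have hPPsub : ∀ p ∈ PP y, p ∈ clF ch d Rich PP y := by
    intro p hp
    rw [hcl]
    exact Finset.mem_insert_of_mem (Finset.mem_union_left _ hp)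
  have hclsub : ∀ u ∈ RR ch Rich y, ∀ w ∈ clF ch d Rich PP u, w ∈ clF ch d Rich PP y := by
    intro u hu w hw
    rw [hcl]
    exact Finset.mem_insert_of_mem
      (Finset.mem_union_right _ (Finset.mem_biUnion.mpr ⟨u, hu, hw⟩))
  have hRRsub : ∀ u ∈ RR ch Rich y, u ∈ clF ch d Rich PP y :=
    fun u hu => hclsub u hu u (self_mem_clF ch d Rich PP hd u)
  have hdata := codeF_data ch d Rich PP hd x y hyc.symm
  have himg := image_codeF_congr ch d Rich PP hd x y hyc.symm
  refine ⟨ψ y, (PP y).image ψ,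
    fun t => ((RR ch Rich y).filter (fun u => codeF ch d Rich PP u = t)).image
      (fun u => (ψ u, (UF ch d Rich PP u).image (Sym2.map ψ))), ?_, ?_, ?_⟩
  · rw [Finset.card_image_of_injOn
      (fun p hp p' hp' h => hinj (hPPsub p hp) (hPPsub p' hp') h)]
    exact hdata.1.symm
  · intro t _
    constructor
    · intro w hw
      rw [Finset.mem_image] at hw
      obtain ⟨u, hu, rfl⟩ := hw
      rw [Finset.mem_filter] at hu
      unfold JF
      rw [Finset.mem_biUnion]
      refine ⟨u, ?_, ?_⟩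
      · rw [Finset.mem_filter]
        exact ⟨Finset.mem_univ _, ((mem_RR ch Rich y u).1 hu.1).2, hu.2⟩
      · unfold ImF
        rw [Finset.mem_image]
        refine ⟨ψ, ?_, rfl⟩
        rw [Finset.mem_filter]
        exact ⟨Finset.mem_univ _,
          fun w hw w' hw' h => hinj (hclsub u hu.1 w hw) (hclsub u hu.1 w' hw') h⟩
    · rw [Finset.card_image_of_injOn]
      · rw [multF_congr ch d Rich PP hd x y hyc.symm t]
        exact (taskForD3_multF ch d Rich PP y t).symm
      · intro u hu u' hu' heq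
        rw [Finset.mem_coe, Finset.mem_filter] at hu hu'
        have h1 : ψ u = ψ u' := congrArg Prod.fst heq
        exact hinj (hRRsub u hu.1) (hRRsub u' hu'.1) h1
  · refine Prod.ext rfl ?_
    show (UF ch d Rich PP y).image (Sym2.map ψ)
      = ((PP y).image ψ).image (fun p => s(ψ y, p)) ∪
          ((RR ch Rich x).image (codeF ch d Rich PP)).biUnion
            (fun t => (((RR ch Rich y).filter (fun u => codeF ch d Rich PP u = t)).image
              (fun u => (ψ u, (UF ch d Rich PP u).image (Sym2.map ψ)))).biUnion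
                (fun w => insert s(ψ y, w.1) w.2))
    rw [taskForD3_image_UF ch d Rich PP hd n ψ y, himg, Finset.image_image]
    congr 1
    rw [← taskForD3_fiber_biUnion (RR ch Rich y) (codeF ch d Rich PP)
      (fun u => insert s(ψ y, ψ u) ((UF ch d Rich PP u).image (Sym2.map ψ)))]
    apply Finset.biUnion_congr rfl
    intro t _
    rw [Finset.image_biUnion]

/-- The arithmetic of the induction step. -/
lemma taskForD3_arith (s : Finset W) (c : W → ℕ) (N : ℕ → ℕ) (E : W → ℕ) (Pc : W → ℝ)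
    (n : ℕ) (q : ℝ) (hq0 : 0 ≤ q)
    (IH : ∀ u ∈ s, (N (c u) : ℝ) * q ^ E u ≤ n * Pc u) :
    (∏ t ∈ s.image c, ((N t).choose ((s.filter (fun u => c u = t)).card) : ℝ))
        * ∏ u ∈ s, q ^ (E u + 1)
      ≤ (∏ u ∈ s, (n * q) * Pc u)
        / ∏ t ∈ s.image c, (((s.filter (fun u => c u = t)).card).factorial : ℝ) := by
  have hmaps : ∀ u ∈ s, c u ∈ s.image c := fun u hu => Finset.mem_image_of_mem c hu
  rw [← Finset.prod_fiberwise_of_maps_to hmaps (fun u => q ^ (E u + 1)),
    ← Finset.prod_fiberwise_of_maps_to hmaps (fun u => (n * q) * Pc u),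
    ← Finset.prod_mul_distrib, ← Finset.prod_div_distrib]
  apply Finset.prod_le_prod
  · intro t _
    exact mul_nonneg (Nat.cast_nonneg _) (Finset.prod_nonneg (fun u _ => pow_nonneg hq0 _))
  · intro t _
    have hcard : (0 : ℝ) < ((s.filter (fun u => c u = t)).card.factorial : ℝ) :=
      Nat.cast_pos.mpr (Nat.factorial_pos _)
    have h1 : ((N t).choose (s.filter (fun u => c u = t)).card : ℝ)
        ≤ (N t : ℝ) ^ (s.filter (fun u => c u = t)).card
          / ((s.filter (fun u => c u = t)).card.factorial : ℝ) := Nat.choose_le_pow_div _ _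
    have h2 : (N t : ℝ) ^ (s.filter (fun u => c u = t)).card
        = ∏ u ∈ s.filter (fun u => c u = t), (N (c u) : ℝ) := by
      rw [← Finset.prod_const]
      apply Finset.prod_congr rfl
      intro u hu
      rw [(Finset.mem_filter.mp hu).2]
    have h3 : (∏ u ∈ s.filter (fun u => c u = t), (N (c u) : ℝ))
          * ∏ u ∈ s.filter (fun u => c u = t), q ^ (E u + 1)
        ≤ ∏ u ∈ s.filter (fun u => c u = t), (n * q) * Pc u := by
      rw [← Finset.prod_mul_distrib]
      apply Finset.prod_le_prod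
      · intro u _
        exact mul_nonneg (Nat.cast_nonneg _) (pow_nonneg hq0 _)
      · intro u hu
        have h4 := mul_le_mul_of_nonneg_right (IH u (Finset.mem_filter.mp hu).1) hq0
        rw [pow_succ]
        linarith
    have hP : 0 ≤ ∏ u ∈ s.filter (fun u => c u = t), q ^ (E u + 1) :=
      Finset.prod_nonneg (fun u _ => pow_nonneg hq0 _)
    calc ((N t).choose (s.filter (fun u => c u = t)).card : ℝ)
          * ∏ u ∈ s.filter (fun u => c u = t), q ^ (E u + 1)
        ≤ ((N t : ℝ) ^ (s.filter (fun u => c u = t)).card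
            / ((s.filter (fun u => c u = t)).card.factorial : ℝ))
          * ∏ u ∈ s.filter (fun u => c u = t), q ^ (E u + 1) :=
          mul_le_mul_of_nonneg_right h1 hP
      _ = ((∏ u ∈ s.filter (fun u => c u = t), (N (c u) : ℝ))
            * ∏ u ∈ s.filter (fun u => c u = t), q ^ (E u + 1))
          / ((s.filter (fun u => c u = t)).card.factorial : ℝ) := by
          rw [h2]
          ring
      _ ≤ (∏ u ∈ s.filter (fun u => c u = t), (n * q) * Pc u)
          / ((s.filter (fun u => c u = t)).card.factorial : ℝ) :=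
          div_le_div_of_nonneg_right h3 hcard.le

include hd hpar hPP in
theorem JF_card_le (n : ℕ) (q : ℝ) (hq0 : 0 ≤ q) (x : W) :
    ((JF ch d Rich PP n (codeF ch d Rich PP x)).card : ℝ) * q ^ eF ch d Rich PP x
      ≤ n * piF ch d Rich PP (n * q) x := by
  revert x
  apply forest_induction ch d hd
  intro x ih
  have hn0 : (0 : ℝ) ≤ (n : ℝ) := Nat.cast_nonneg n
  have hnq : 0 ≤ (n : ℝ) * q := mul_nonneg hn0 hq0
  have hcount := taskForD3_count n (PP x).card ((RR ch Rich x).image (codeF ch d Rich PP))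
    (multF ch d Rich PP x) (JF ch d Rich PP n) (JF ch d Rich PP n (codeF ch d Rich PP x))
    (taskForD3_sub ch d Rich PP hd n x)
  have hcountR : ((JF ch d Rich PP n (codeF ch d Rich PP x)).card : ℝ)
      ≤ n * (n.choose (PP x).card : ℝ)
        * ∏ t ∈ (RR ch Rich x).image (codeF ch d Rich PP),
            (((JF ch d Rich PP n t).card).choose (multF ch d Rich PP x t) : ℝ) := by
    exact_mod_cast hcount
  have harith := taskForD3_arith (RR ch Rich x) (codeF ch d Rich PP)
    (fun t => (JF ch d Rich PP n t).card) (eF ch d Rich PP) (piF ch d Rich PP (n * q)) n q hq0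
    (fun u hu => ih u (RR_subset ch Rich x hu))
  simp only [← taskForD3_multF ch d Rich PP x] at harith
  have hA : (n.choose (PP x).card : ℝ) * q ^ (PP x).card
      ≤ ((n : ℝ) * q) ^ (PP x).card / ((PP x).card.factorial : ℝ) := by
    have h1 : (n.choose (PP x).card : ℝ)
        ≤ (n : ℝ) ^ (PP x).card / ((PP x).card.factorial : ℝ) := Nat.choose_le_pow_div _ _
    have h2 := mul_le_mul_of_nonneg_right h1 (pow_nonneg hq0 (PP x).card)
    rw [mul_pow, ← div_mul_eq_mul_div]
    exact h2
  have hA0 : (0 : ℝ) ≤ (n.choose (PP x).card : ℝ) * q ^ (PP x).card :=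
    mul_nonneg (Nat.cast_nonneg _) (pow_nonneg hq0 _)
  have hB0 : (0 : ℝ) ≤ (∏ t ∈ (RR ch Rich x).image (codeF ch d Rich PP),
        (((JF ch d Rich PP n t).card).choose (multF ch d Rich PP x t) : ℝ))
      * ∏ u ∈ RR ch Rich x, q ^ (eF ch d Rich PP u + 1) :=
    mul_nonneg (Finset.prod_nonneg (fun t _ => Nat.cast_nonneg _))
      (Finset.prod_nonneg (fun u _ => pow_nonneg hq0 _))
  have hA'0 : (0 : ℝ) ≤ ((n : ℝ) * q) ^ (PP x).card / ((PP x).card.factorial : ℝ) :=
    le_trans hA0 hA
  have hq : q ^ eF ch d Rich PP x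
      = q ^ (PP x).card * ∏ u ∈ RR ch Rich x, q ^ (eF ch d Rich PP u + 1) := by
    rw [eF_eq ch d hd Rich PP x, pow_add, Finset.prod_pow_eq_pow_sum]
  calc ((JF ch d Rich PP n (codeF ch d Rich PP x)).card : ℝ) * q ^ eF ch d Rich PP x
      ≤ (n * (n.choose (PP x).card : ℝ)
        * ∏ t ∈ (RR ch Rich x).image (codeF ch d Rich PP),
            (((JF ch d Rich PP n t).card).choose (multF ch d Rich PP x t) : ℝ))
          * q ^ eF ch d Rich PP x :=
        mul_le_mul_of_nonneg_right hcountR (pow_nonneg hq0 _)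
    _ = n * ((n.choose (PP x).card : ℝ) * q ^ (PP x).card)
          * ((∏ t ∈ (RR ch Rich x).image (codeF ch d Rich PP),
              (((JF ch d Rich PP n t).card).choose (multF ch d Rich PP x t) : ℝ))
            * ∏ u ∈ RR ch Rich x, q ^ (eF ch d Rich PP u + 1)) := by
        rw [hq]
        ring
    _ ≤ n * (((n : ℝ) * q) ^ (PP x).card / ((PP x).card.factorial : ℝ))
          * ((∏ u ∈ RR ch Rich x, (n * q) * piF ch d Rich PP (n * q) u)
            / ∏ t ∈ (RR ch Rich x).image (codeF ch d Rich PP),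
                ((multF ch d Rich PP x t).factorial : ℝ)) :=
        mul_le_mul (mul_le_mul_of_nonneg_left hA hn0) harith hB0 (mul_nonneg hn0 hA'0)
    _ = n * piF ch d Rich PP (n * q) x := by
        rw [piF_eq ch d hd Rich PP (n * q) x]
        ring

/-! ### FOR-D4 : the number of images of a union of disjoint clusters -/

include hd hpar hPP in
theorem imgs_biUnion_UF_card_le (n : ℕ) (Q : Finset W)
    (hdisj : ∀ x ∈ Q, ∀ y ∈ Q, x ≠ y →
      Disjoint (clF ch d Rich PP x) (clF ch d Rich PP y))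
    (hne : ∀ x ∈ Q, (PP x ∪ RR ch Rich x).Nonempty)
    (J : Finset (Fin n × Finset (Sym2 (Fin n))))
    (hJ : ∀ x ∈ Q, ImF ch d Rich PP n x ⊆ J) :
    (imgs (Q.biUnion (UF ch d Rich PP)) n).card ≤ J.card.choose Q.card := by
  classical
  rw [← Finset.card_powersetCard]
  have hsub : imgs (Q.biUnion (UF ch d Rich PP)) n ⊆
      (Finset.powersetCard Q.card J).image (fun T => T.biUnion Prod.snd) := by
    intro B hB
    unfold imgs at hB
    rw [Finset.mem_image] at hB
    obtain ⟨ψ, hψ, rfl⟩ := hB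
    rw [Finset.mem_filter] at hψ
    have hinj := hψ.2
    -- every vertex of a cluster of `Q` is an endpoint of the union of the edge sets
    have hend : ∀ x ∈ Q, ∀ z ∈ clF ch d Rich PP x,
        ∃ w, s(z, w) ∈ Q.biUnion (UF ch d Rich PP) := by
      intro x hx z hz
      by_cases hzx : z = x
      · subst hzx
        obtain ⟨w, hw⟩ := UF_endpoint_root ch d Rich PP hd z (hne z hx)
        exact ⟨w, Finset.mem_biUnion.mpr ⟨z, hx, hw⟩⟩
      · obtain ⟨w, hw⟩ := UF_endpoint_ne ch d Rich PP hd hPP x z hz hzx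
        exact ⟨w, Finset.mem_biUnion.mpr ⟨x, hx, hw⟩⟩
    rw [Finset.mem_image]
    refine ⟨Q.image (fun x => (ψ x, (UF ch d Rich PP x).image (Sym2.map ψ))), ?_, ?_⟩
    · rw [Finset.mem_powersetCard]
      constructor
      · intro p hp
        rw [Finset.mem_image] at hp
        obtain ⟨x, hx, rfl⟩ := hp
        apply hJ x hx
        unfold ImF
        rw [Finset.mem_image]
        refine ⟨ψ, ?_, rfl⟩
        rw [Finset.mem_filter]
        refine ⟨Finset.mem_univ _, ?_⟩
        intro z hz z' hz' hzz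
        exact hinj (hend x hx z (Finset.mem_coe.mp hz))
          (hend x hx z' (Finset.mem_coe.mp hz')) hzz
      · apply Finset.card_image_of_injOn
        intro x hx x' hx' hxx
        have h1 : ψ x = ψ x' := congrArg Prod.fst hxx
        exact hinj (hend x hx x (self_mem_clF ch d Rich PP hd x))
          (hend x' hx' x' (self_mem_clF ch d Rich PP hd x')) h1
    · rw [Finset.image_biUnion, Finset.biUnion_image]
  exact (Finset.card_le_card hsub).trans Finset.card_image_le

/-! ### FOR-D5 : the size of a class -/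

include hd hpar hPP in
theorem class_card_le (H : SimpleGraph W) (hchH : ∀ x, ∀ y ∈ ch x, H.Adj x y)
    (hne : ∀ x, Rich x → (PP x ∪ RR ch Rich x).Nonempty)
    (n : ℕ) (hn : 0 < n) (q : ℝ) (hq0 : 0 < q) (hq1 : q ≤ 1)
    (hq : ∀ F : H.Subgraph, 1 / 2 ≤ gnpExp n q (fun G => (G.copyCount F.coe : ℝ)))
    (x : W) (hx : Rich x) :
    ((QF ch d Rich PP x).card : ℝ) ≤ 6 * (n * piF ch d Rich PP (n * q) x) := by
  have hQ : ∀ y, y ∈ QF ch d Rich PP x ↔
      Rich y ∧ codeF ch d Rich PP y = codeF ch d Rich PP x := by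
    intro y
    simp only [QF, Finset.mem_filter, Finset.mem_univ, true_and]
  have hJ : ∀ y ∈ QF ch d Rich PP x,
      ImF ch d Rich PP n y ⊆ JF ch d Rich PP n (codeF ch d Rich PP x) := by
    intro y hy
    unfold QF at hy
    unfold JF
    exact Finset.subset_biUnion_of_mem (ImF ch d Rich PP n) hy
  obtain ⟨Q, hQdef⟩ : ∃ Q : Finset W, Q = QF ch d Rich PP x := ⟨_, rfl⟩
  obtain ⟨J, hJdef⟩ : ∃ J : Finset (Fin n × Finset (Sym2 (Fin n))),
      J = JF ch d Rich PP n (codeF ch d Rich PP x) := ⟨_, rfl⟩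
  rw [← hQdef] at hQ hJ ⊢
  rw [← hJdef] at hJ
  have hcl : ∀ y ∈ Q, ∀ y' ∈ Q, y ≠ y' →
      Disjoint (clF ch d Rich PP y) (clF ch d Rich PP y') := by
    intro y hy y' hy' hyy
    rw [hQ] at hy hy'
    exact clF_disjoint ch d Rich PP hd hpar hPP y y' hy.1 hy'.1 hyy
      (htF_congr ch d Rich PP hd y y' (hy.2.trans hy'.2.symm))
  have hUd : (Q : Set W).PairwiseDisjoint (UF ch d Rich PP) := by
    intro y hy y' hy' hyy
    exact UF_disjoint ch d Rich PP hd hPP y y' (hcl y hy y' hy' hyy)
  have hsum : ∑ y ∈ Q, (UF ch d Rich PP y).card = ∑ _y ∈ Q, eF ch d Rich PP x :=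
    Finset.sum_congr rfl (fun y hy => by
      rw [UF_card ch d Rich PP hd hpar hPP y, eF_congr ch d Rich PP hd y x ((hQ y).1 hy).2])
  have hcard : (Q.biUnion (UF ch d Rich PP)).card = eF ch d Rich PP x * Q.card := by
    rw [Finset.card_biUnion hUd, hsum, Finset.sum_const, smul_eq_mul, mul_comm]
  have hU : ∀ e ∈ Q.biUnion (UF ch d Rich PP), e ∈ H.edgeSet := by
    intro e he
    rw [Finset.mem_biUnion] at he
    obtain ⟨y, _, hey⟩ := he
    obtain ⟨p, _, z, _, hzp, rfl⟩ := UF_mem ch d Rich PP hd hPP y e hey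
    rw [SimpleGraph.mem_edgeSet]
    exact hchH p z hzp
  have h1 := hq (subOf H _ hU)
  have h2 := gnpExp_copyCount_subOf_le H _ hU n hn q hq0.le hq1
  have h3 := imgs_biUnion_UF_card_le ch d Rich PP hd hpar hPP n Q hcl
    (fun y hy => hne y ((hQ y).1 hy).1) J hJ
  rw [hcard] at h2
  have h4 : (1 : ℝ) / 2 ≤ ((J.card.choose Q.card : ℕ) : ℝ)
      * q ^ (eF ch d Rich PP x * Q.card) := by
    have h5 : ((imgs (Q.biUnion (UF ch d Rich PP)) n).card : ℝ)
        ≤ ((J.card.choose Q.card : ℕ) : ℝ) := by exact_mod_cast h3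
    have h6 : (0 : ℝ) ≤ q ^ (eF ch d Rich PP x * Q.card) := by positivity
    calc (1 : ℝ) / 2 ≤ _ := h1
      _ ≤ _ := h2
      _ ≤ _ := mul_le_mul_of_nonneg_right h5 h6
  have h7 := card_le_of_half_le _ _ _ q hq0.le h4
  have h8 := JF_card_le ch d Rich PP hd hpar hPP n q hq0.le x
  rw [← hJdef] at h8
  have h9 : (0 : ℝ) ≤ (J.card : ℝ) * q ^ eF ch d Rich PP x := by positivity
  linarith

/-! ### FOR-E2 : regrouping the children by their codes -/

omit [Fintype W] in
theorem taskForE2_prod_regroup (cf : W → ℕ) (A T' : Finset W)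
    (hinj : Set.InjOn cf (T' : Set W))
    (hcov : ∀ u ∈ A, ∃ t ∈ T', cf t = cf u) (g : W → ℝ)
    (hg : ∀ u v, cf u = cf v → g u = g v) :
    ∏ u ∈ A, g u = ∏ t ∈ T', g t ^ (A.filter (fun u => cf u = cf t)).card := by
  have hmaps : ∀ u ∈ A, cf u ∈ T'.image cf := by
    intro u hu
    obtain ⟨t, ht, hte⟩ := hcov u hu
    exact Finset.mem_image.2 ⟨t, ht, hte⟩
  rw [← Finset.prod_fiberwise_of_maps_to hmaps g, Finset.prod_image hinj]
  apply Finset.prod_congr rfl
  intro t _
  rw [Finset.prod_congr rfl (fun u hu => hg u t (Finset.mem_filter.1 hu).2), Finset.prod_const]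

omit [Fintype W] in
theorem taskForE2_card_regroup (cf : W → ℕ) (A T' : Finset W)
    (hinj : Set.InjOn cf (T' : Set W))
    (hcov : ∀ u ∈ A, ∃ t ∈ T', cf t = cf u) :
    A.card = ∑ t ∈ T', (A.filter (fun u => cf u = cf t)).card := by
  have hmaps : ∀ u ∈ A, cf u ∈ T'.image cf := by
    intro u hu
    obtain ⟨t, ht, hte⟩ := hcov u hu
    exact Finset.mem_image.2 ⟨t, ht, hte⟩
  rw [Finset.card_eq_sum_card_fiberwise hmaps, Finset.sum_image hinj]

omit [Fintype W] in
theorem taskForE2_PhiS_le (cf : W → ℕ) (R T' : Finset W)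
    (hinj : Set.InjOn cf (T' : Set W))
    (hcov : ∀ u ∈ R, ∃ t ∈ T', cf t = cf u)
    (y : W → ℝ) (hy0 : ∀ u ∈ R, 0 ≤ y u)
    (hy : ∀ u v, cf u = cf v → y u = y v) :
    PhiS R y ≤ PhiM (fun t : ↥T' => (R.filter (fun u => cf u = cf t.1)).card)
      (fun t : ↥T' => y t.1) := by
  classical
  unfold PhiS PhiM
  obtain ⟨prof, hprof⟩ : ∃ prof : Finset W → (↥T' → ℕ),
      ∀ A t, prof A t = (A.filter (fun u => cf u = cf t.1)).card := ⟨_, fun _ _ => rfl⟩
  obtain ⟨F, hF⟩ : ∃ F : (↥T' → ℕ) → ℝ,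
      ∀ τ, F τ = ((∑ t, τ t).factorial : ℝ) * ∏ t : ↥T', y t.1 ^ τ t := ⟨_, fun _ => rfl⟩
  have hterm : ∀ A ∈ R.powerset, ((A.card.factorial : ℝ) * ∏ u ∈ A, y u) = F (prof A) := by
    intro A hA
    have hAR := Finset.mem_powerset.1 hA
    have hcovA : ∀ u ∈ A, ∃ t ∈ T', cf t = cf u := fun u hu => hcov u (hAR hu)
    have h1 : A.card = ∑ t : ↥T', prof A t := by
      rw [taskForE2_card_regroup cf A T' hinj hcovA,
        ← Finset.sum_coe_sort T' (fun t => (A.filter (fun u => cf u = cf t)).card)]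
      exact Finset.sum_congr rfl (fun t _ => (hprof A t).symm)
    have h2 : ∏ u ∈ A, y u = ∏ t : ↥T', y t.1 ^ prof A t := by
      rw [taskForE2_prod_regroup cf A T' hinj hcovA y hy,
        ← Finset.prod_coe_sort T' (fun t => y t ^ (A.filter (fun u => cf u = cf t)).card)]
      exact Finset.prod_congr rfl (fun t _ => by rw [hprof A t])
    rw [hF, ← h1, ← h2]
  have hmaps : ∀ A ∈ R.powerset, prof A ∈ Fintype.piFinset
      (fun t : ↥T' => Finset.range ((R.filter (fun u => cf u = cf t.1)).card + 1)) := by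
    intro A hA
    have hAR := Finset.mem_powerset.1 hA
    rw [Fintype.mem_piFinset]
    intro t
    rw [Finset.mem_range, hprof A t, Nat.lt_succ_iff]
    exact Finset.card_le_card (Finset.filter_subset_filter _ hAR)
  rw [Finset.sum_congr rfl hterm, ← Finset.sum_fiberwise_of_maps_to hmaps (fun A => F (prof A))]
  apply Finset.sum_le_sum
  intro τ hτ
  rw [Fintype.mem_piFinset] at hτ
  have hτ' : ∀ t, τ t ≤ (R.filter (fun u => cf u = cf t.1)).card :=
    fun t => Nat.lt_succ_iff.1 (Finset.mem_range.1 (hτ t))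
  have hFnn : 0 ≤ F τ := by
    rw [hF]
    apply mul_nonneg (Nat.cast_nonneg _)
    apply Finset.prod_nonneg
    intro t _
    rcases Nat.eq_zero_or_pos (τ t) with h0 | hpos
    · rw [h0, pow_zero]
      exact zero_le_one
    · have hc : 0 < (R.filter (fun u => cf u = cf t.1)).card := lt_of_lt_of_le hpos (hτ' t)
      obtain ⟨u, hu⟩ := Finset.card_pos.1 hc
      rw [Finset.mem_filter] at hu
      rw [← hy u t.1 hu.2]
      exact pow_nonneg (hy0 u hu.1) _
  have hcard : (R.powerset.filter (fun A => prof A = τ)).card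
      ≤ ∏ t : ↥T', ((R.filter (fun u => cf u = cf t.1)).card).choose (τ t) := by
    have hle := Finset.card_le_card_of_injOn
      (s := R.powerset.filter (fun A => prof A = τ))
      (t := Fintype.piFinset
        (fun t : ↥T' => (R.filter (fun u => cf u = cf t.1)).powersetCard (τ t)))
      (fun A => fun t : ↥T' => A.filter (fun u => cf u = cf t.1)) ?_ ?_
    · rw [Fintype.card_piFinset] at hle
      refine le_trans hle (le_of_eq ?_)
      exact Finset.prod_congr rfl (fun t _ => Finset.card_powersetCard _ _)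
    · intro A hA
      rw [Finset.mem_coe, Finset.mem_filter, Finset.mem_powerset] at hA
      rw [Finset.mem_coe, Fintype.mem_piFinset]
      intro t
      rw [Finset.mem_powersetCard]
      refine ⟨Finset.filter_subset_filter _ hA.1, ?_⟩
      rw [← hprof A t, hA.2]
    · intro A hA B hB hAB
      rw [Finset.mem_coe, Finset.mem_filter, Finset.mem_powerset] at hA hB
      have hAB' : ∀ t : ↥T', A.filter (fun u => cf u = cf t.1)
          = B.filter (fun u => cf u = cf t.1) := fun t => congrFun hAB t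
      ext u
      constructor
      · intro hu
        obtain ⟨t, ht, hte⟩ := hcov u (hA.1 hu)
        have h3 : u ∈ A.filter (fun u => cf u = cf (⟨t, ht⟩ : ↥T').1) :=
          Finset.mem_filter.2 ⟨hu, hte.symm⟩
        rw [hAB' ⟨t, ht⟩] at h3
        exact (Finset.mem_filter.1 h3).1
      · intro hu
        obtain ⟨t, ht, hte⟩ := hcov u (hB.1 hu)
        have h3 : u ∈ B.filter (fun u => cf u = cf (⟨t, ht⟩ : ↥T').1) :=
          Finset.mem_filter.2 ⟨hu, hte.symm⟩
        rw [← hAB' ⟨t, ht⟩] at h3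
        exact (Finset.mem_filter.1 h3).1
  have hsum : ∑ A ∈ R.powerset.filter (fun A => prof A = τ), F (prof A)
      = ((R.powerset.filter (fun A => prof A = τ)).card : ℝ) * F τ := by
    rw [Finset.sum_congr rfl (fun A hA => by rw [(Finset.mem_filter.1 hA).2]) (g := fun _ => F τ),
      Finset.sum_const, nsmul_eq_mul]
  have hcardR : ((R.powerset.filter (fun A => prof A = τ)).card : ℝ)
      ≤ ∏ t : ↥T', (((R.filter (fun u => cf u = cf t.1)).card).choose (τ t) : ℝ) := by
    rw [← Nat.cast_prod]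
    exact Nat.cast_le.2 hcard
  calc ∑ A ∈ R.powerset.filter (fun A => prof A = τ), F (prof A)
      = ((R.powerset.filter (fun A => prof A = τ)).card : ℝ) * F τ := hsum
    _ ≤ (∏ t : ↥T', (((R.filter (fun u => cf u = cf t.1)).card).choose (τ t) : ℝ)) * F τ :=
        mul_le_mul_of_nonneg_right hcardR hFnn
    _ = _ := by rw [hF, mul_assoc]

include hd in
theorem piF_regroup (c : ℝ) (x : W) (T' : Finset W)
    (hinj : Set.InjOn (codeF ch d Rich PP) (T' : Set W))
    (hcov : ∀ u ∈ RR ch Rich x, ∃ t ∈ T', codeF ch d Rich PP t = codeF ch d Rich PP u) :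
    piF ch d Rich PP c x
      = c ^ (PP x).card / ((PP x).card.factorial : ℝ)
        * ∏ t : ↥T', (c * piF ch d Rich PP c t.1) ^ multF ch d Rich PP x (codeF ch d Rich PP t.1)
            / ((multF ch d Rich PP x (codeF ch d Rich PP t.1)).factorial : ℝ) := by
  have hnum : ∏ u ∈ RR ch Rich x, c * piF ch d Rich PP c u
      = ∏ t ∈ T', (c * piF ch d Rich PP c t)
          ^ multF ch d Rich PP x (codeF ch d Rich PP t) := by
    rw [taskForE2_prod_regroup (codeF ch d Rich PP) (RR ch Rich x) T' hinj hcov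
      (fun u => c * piF ch d Rich PP c u)
      (fun u v huv => by rw [piF_congr ch d Rich PP hd c u v huv])]
    rfl
  have hden : ∏ τ ∈ (RR ch Rich x).image (codeF ch d Rich PP),
        ((multF ch d Rich PP x τ).factorial : ℝ)
      = ∏ t ∈ T', ((multF ch d Rich PP x (codeF ch d Rich PP t)).factorial : ℝ) := by
    rw [← Finset.prod_image (f := fun τ => ((multF ch d Rich PP x τ).factorial : ℝ)) hinj]
    apply Finset.prod_subset
    · intro τ hτ
      obtain ⟨u, hu, rfl⟩ := Finset.mem_image.1 hτ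
      obtain ⟨t, ht, hte⟩ := hcov u hu
      exact Finset.mem_image.2 ⟨t, ht, hte⟩
    · intro τ _ hτ
      have h0 : multF ch d Rich PP x τ = 0 := by
        unfold multF
        rw [Finset.card_eq_zero, Finset.filter_eq_empty_iff]
        intro u hu hue
        exact hτ (Finset.mem_image.2 ⟨u, hu, hue⟩)
      rw [h0, Nat.factorial_zero, Nat.cast_one]
  rw [piF_eq ch d hd Rich PP c x, hnum, hden, mul_div_assoc, ← Finset.prod_div_distrib,
    Finset.prod_coe_sort T' (fun t => (c * piF ch d Rich PP c t)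
      ^ multF ch d Rich PP x (codeF ch d Rich PP t)
        / ((multF ch d Rich PP x (codeF ch d Rich PP t)).factorial : ℝ))]

include hd in
theorem PhiS_regroup (x : W) (T' : Finset W)
    (hinj : Set.InjOn (codeF ch d Rich PP) (T' : Set W))
    (hcov : ∀ u ∈ RR ch Rich x, ∃ t ∈ T', codeF ch d Rich PP t = codeF ch d Rich PP u)
    (y : W → ℝ) (hy0 : ∀ u ∈ RR ch Rich x, 0 ≤ y u)
    (hy : ∀ u v, codeF ch d Rich PP u = codeF ch d Rich PP v → y u = y v) :
    PhiS (RR ch Rich x) y
      ≤ PhiM (fun t : ↥T' => multF ch d Rich PP x (codeF ch d Rich PP t.1))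
          (fun t : ↥T' => y t.1) := by
  have _ := hd
  exact taskForE2_PhiS_le (codeF ch d Rich PP) (RR ch Rich x) T' hinj hcov y hy0 hy

end abstractForest

/-! ### FOR-E1 : the exponential formula -/

/-- One level of the multinomial theorem: the terms with `∑ t = k` sum to at most
`(∑ z)^k`. -/
theorem taskE1_level_le {ι : Type} [Fintype ι] [DecidableEq ι] (z : ι → ℝ)
    (hz : ∀ i, 0 ≤ z i) (B : Finset (ι → ℕ)) (k : ℕ) :
    ∑ t ∈ B.filter (fun t => ∑ i, t i = k),
        ((∑ i, t i).factorial : ℝ) * ∏ i, z i ^ t i / ((t i).factorial : ℝ)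
      ≤ (∑ i, z i) ^ k := by
  rw [Finset.sum_pow_eq_sum_piAntidiag]
  have hsub : B.filter (fun t => ∑ i, t i = k) ⊆ Finset.piAntidiag Finset.univ k := by
    intro t ht
    rw [Finset.mem_filter] at ht
    rw [Finset.mem_piAntidiag]
    exact ⟨ht.2, fun i _ => Finset.mem_univ i⟩
  refine le_trans (le_of_eq ?_) (Finset.sum_le_sum_of_subset_of_nonneg hsub ?_)
  · refine Finset.sum_congr rfl fun t ht => ?_
    have hm := Nat.multinomial_spec Finset.univ t
    have hm' : ((∑ i, t i).factorial : ℝ)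
        = (∏ i, ((t i).factorial : ℝ)) * (Nat.multinomial Finset.univ t : ℝ) := by
      rw [← hm]
      push_cast
      ring
    have hne : (∏ i, ((t i).factorial : ℝ)) ≠ 0 :=
      Finset.prod_ne_zero_iff.mpr fun i _ => by positivity
    rw [hm', Finset.prod_div_distrib]
    field_simp
  · intro t _ _
    exact mul_nonneg (Nat.cast_nonneg _) (Finset.prod_nonneg fun i _ => pow_nonneg (hz i) _)

/-- The terms of total degree at least `k0` in a box sum to at most a geometric tail. -/
theorem taskE1_first_le {ι : Type} [Fintype ι] [DecidableEq ι] (z : ι → ℝ)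
    (hz : ∀ i, 0 ≤ z i) (hb : ∑ i, z i < 1) (N k0 : ℕ) :
    ∑ t ∈ (Fintype.piFinset fun _ : ι => Finset.range (N + 1)).filter
          (fun t => k0 ≤ ∑ i, t i),
        ((∑ i, t i).factorial : ℝ) * ∏ i, z i ^ t i / ((t i).factorial : ℝ)
      ≤ (∑ i, z i) ^ k0 / (1 - ∑ i, z i) := by
  have hb0 : 0 ≤ ∑ i, z i := Finset.sum_nonneg fun i _ => hz i
  obtain ⟨S, hS⟩ : ∃ S : Finset (ι → ℕ), S = (Fintype.piFinset fun _ : ι =>
      Finset.range (N + 1)).filter (fun t => k0 ≤ ∑ i, t i) := ⟨_, rfl⟩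
  rw [← hS]
  have hmaps : ∀ t ∈ S, (∑ i, t i) ∈ Finset.Ico k0 (N * Fintype.card ι + 1) := by
    intro t ht
    rw [hS, Finset.mem_filter, Fintype.mem_piFinset] at ht
    rw [Finset.mem_Ico]
    refine ⟨ht.2, Nat.lt_succ_of_le ?_⟩
    calc ∑ i, t i ≤ ∑ _i : ι, N :=
          Finset.sum_le_sum fun i _ => Nat.lt_succ_iff.mp (Finset.mem_range.mp (ht.1 i))
      _ = N * Fintype.card ι := by
          rw [Finset.sum_const, Finset.card_univ, smul_eq_mul, mul_comm]
  rw [← Finset.sum_fiberwise_of_maps_to hmaps]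
  refine le_trans (Finset.sum_le_sum fun k _ => taskE1_level_le z hz S k) ?_
  exact geom_sum_Ico_le_of_lt_one hb0 hb

/-- The exponential formula with the terms of total degree at least `k0`. -/
theorem taskE1_main {ι : Type} [Fintype ι] [DecidableEq ι] (x y : ι → ℝ) (hx : ∀ i, 0 ≤ x i)
    (hy : ∀ i, 0 ≤ y i) (hb : ∑ i, x i * y i < 1) (M : Finset (ι → ℕ)) (k0 : ℕ) :
    ∑ μ ∈ M, (∏ i, x i ^ μ i / ((μ i).factorial : ℝ)) *
        (∑ t ∈ (Fintype.piFinset (fun i => Finset.range (μ i + 1))).filter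
            (fun t => k0 ≤ ∑ i, t i),
          (∏ i, ((μ i).choose (t i) : ℝ)) * ((∑ i, t i).factorial : ℝ) * ∏ i, y i ^ t i)
      ≤ Real.exp (∑ i, x i) * ((∑ i, x i * y i) ^ k0 / (1 - ∑ i, x i * y i)) := by
  classical
  obtain ⟨N, hN⟩ : ∃ N : ℕ, ∀ μ ∈ M, ∀ i, μ i ≤ N :=
    ⟨M.sup (fun μ => Finset.univ.sup μ), fun μ hμ i =>
      le_trans (Finset.le_sup (f := μ) (Finset.mem_univ i))
        (Finset.le_sup (f := fun μ : ι → ℕ => Finset.univ.sup μ) hμ)⟩
  obtain ⟨Box, hBox⟩ : ∃ Box : Finset (ι → ℕ),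
      Box = Fintype.piFinset fun _ : ι => Finset.range (N + 1) := ⟨_, rfl⟩
  obtain ⟨G, hG⟩ : ∃ G : (ι → ℕ) → ℝ, G = fun t =>
      ((∑ i, t i).factorial : ℝ) * ∏ i, (x i * y i) ^ t i / ((t i).factorial : ℝ) := ⟨_, rfl⟩
  obtain ⟨E, hE⟩ : ∃ E : (ι → ℕ) → ℝ, E = fun s => ∏ i, x i ^ s i / ((s i).factorial : ℝ) :=
    ⟨_, rfl⟩
  have hG0 : ∀ t, 0 ≤ G t := by
    intro t
    rw [hG]
    exact mul_nonneg (Nat.cast_nonneg _) (Finset.prod_nonneg fun i _ =>
      div_nonneg (pow_nonneg (mul_nonneg (hx i) (hy i)) _) (Nat.cast_nonneg _))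
  have hE0 : ∀ s, 0 ≤ E s := by
    intro s
    rw [hE]
    exact Finset.prod_nonneg fun i _ => div_nonneg (pow_nonneg (hx i) _) (Nat.cast_nonneg _)
  -- step A: rewrite each term
  have hA : ∀ μ ∈ M, (∏ i, x i ^ μ i / ((μ i).factorial : ℝ)) *
        (∑ t ∈ (Fintype.piFinset (fun i => Finset.range (μ i + 1))).filter
            (fun t => k0 ≤ ∑ i, t i),
          (∏ i, ((μ i).choose (t i) : ℝ)) * ((∑ i, t i).factorial : ℝ) * ∏ i, y i ^ t i)
      = ∑ t ∈ Box.filter (fun t => k0 ≤ ∑ i, t i),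
          if (∀ i, t i ≤ μ i) then G t * E (μ - t) else 0 := by
    intro μ hμ
    rw [← Finset.sum_filter, Finset.mul_sum]
    have hset : (Box.filter (fun t => k0 ≤ ∑ i, t i)).filter (fun t => ∀ i, t i ≤ μ i)
        = (Fintype.piFinset (fun i => Finset.range (μ i + 1))).filter
            (fun t => k0 ≤ ∑ i, t i) := by
      ext t
      simp only [Finset.mem_filter, Fintype.mem_piFinset, Finset.mem_range, hBox]
      constructor
      · rintro ⟨⟨-, h2⟩, h3⟩
        exact ⟨fun i => Nat.lt_succ_of_le (h3 i), h2⟩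
      · rintro ⟨h1, h2⟩
        exact ⟨⟨fun i => Nat.lt_succ_of_le (le_trans (Nat.lt_succ_iff.mp (h1 i)) (hN μ hμ i)),
          h2⟩, fun i => Nat.lt_succ_iff.mp (h1 i)⟩
    rw [hset]
    refine Finset.sum_congr rfl fun t ht => ?_
    rw [Finset.mem_filter, Fintype.mem_piFinset] at ht
    have hle : ∀ i, t i ≤ μ i := fun i => Nat.lt_succ_iff.mp (Finset.mem_range.mp (ht.1 i))
    rw [hG, hE]
    dsimp only
    have e1 : (∏ i, x i ^ μ i / ((μ i).factorial : ℝ)) * (∏ i, ((μ i).choose (t i) : ℝ))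
        * ∏ i, y i ^ t i
        = (∏ i, (x i * y i) ^ t i / ((t i).factorial : ℝ))
          * ∏ i, x i ^ (μ - t) i / (((μ - t) i).factorial : ℝ) := by
      rw [← Finset.prod_mul_distrib, ← Finset.prod_mul_distrib, ← Finset.prod_mul_distrib]
      refine Finset.prod_congr rfl fun i _ => ?_
      have hc := Nat.choose_mul_factorial_mul_factorial (hle i)
      have hc' : ((μ i).choose (t i) : ℝ) * ((t i).factorial : ℝ)
          * (((μ i - t i)).factorial : ℝ) = ((μ i).factorial : ℝ) := by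
        exact_mod_cast hc
      have h1 : ((t i).factorial : ℝ) ≠ 0 := by positivity
      have h2 : (((μ i - t i)).factorial : ℝ) ≠ 0 := by positivity
      have h3 : ((μ i).factorial : ℝ) ≠ 0 := by positivity
      have h4 : ((μ i).choose (t i) : ℝ) ≠ 0 := by
        exact_mod_cast (Nat.choose_pos (hle i)).ne'
      have hpow : x i ^ μ i = x i ^ t i * x i ^ (μ i - t i) := by
        rw [← pow_add, Nat.add_sub_cancel' (hle i)]
      rw [Pi.sub_apply, ← hc', hpow, mul_pow]
      field_simp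
    calc (∏ i, x i ^ μ i / ((μ i).factorial : ℝ)) *
          ((∏ i, ((μ i).choose (t i) : ℝ)) * ((∑ i, t i).factorial : ℝ) * ∏ i, y i ^ t i)
        = ((∑ i, t i).factorial : ℝ) * ((∏ i, x i ^ μ i / ((μ i).factorial : ℝ))
            * (∏ i, ((μ i).choose (t i) : ℝ)) * ∏ i, y i ^ t i) := by ring
      _ = ((∑ i, t i).factorial : ℝ) * (∏ i, (x i * y i) ^ t i / ((t i).factorial : ℝ))
            * ∏ i, x i ^ (μ - t) i / (((μ - t) i).factorial : ℝ) := by
          rw [e1]
          ring
  rw [Finset.sum_congr rfl hA, Finset.sum_comm]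
  -- step B: for each t, the sum over μ
  have hB : ∀ t ∈ Box.filter (fun t => k0 ≤ ∑ i, t i),
      ∑ μ ∈ M, (if (∀ i, t i ≤ μ i) then G t * E (μ - t) else 0) ≤ G t * ∑ s ∈ Box, E s := by
    intro t _
    rw [← Finset.sum_filter, ← Finset.mul_sum]
    refine mul_le_mul_of_nonneg_left ?_ (hG0 t)
    have hinj : Set.InjOn (fun μ : ι → ℕ => μ - t)
        ((M.filter (fun μ => ∀ i, t i ≤ μ i) : Finset (ι → ℕ)) : Set (ι → ℕ)) := by
      intro μ hμ μ' hμ' h
      rw [Finset.mem_coe, Finset.mem_filter] at hμ hμ'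
      funext i
      have hi := congrFun h i
      simp only [Pi.sub_apply] at hi
      have h1 := hμ.2 i
      have h2 := hμ'.2 i
      omega
    rw [← Finset.sum_image (f := E) hinj]
    refine Finset.sum_le_sum_of_subset_of_nonneg ?_ fun s _ _ => hE0 s
    intro s hs
    rw [Finset.mem_image] at hs
    obtain ⟨μ, hμ, rfl⟩ := hs
    rw [Finset.mem_filter] at hμ
    rw [hBox, Fintype.mem_piFinset]
    intro i
    rw [Finset.mem_range, Pi.sub_apply]
    have := hN μ hμ.1 i
    omega
  refine le_trans (Finset.sum_le_sum hB) ?_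
  rw [← Finset.sum_mul, mul_comm]
  -- step C
  have hC : ∑ s ∈ Box, E s ≤ Real.exp (∑ i, x i) := by
    rw [hBox, hE, Finset.sum_prod_piFinset (Finset.range (N + 1))
      (fun i k => x i ^ k / (k.factorial : ℝ)), Real.exp_sum]
    exact Finset.prod_le_prod (fun i _ => Finset.sum_nonneg fun k _ =>
      div_nonneg (pow_nonneg (hx i) _) (Nat.cast_nonneg _))
      (fun i _ => Real.sum_le_exp_of_nonneg (hx i) _)
  -- step D
  have hD : ∑ t ∈ Box.filter (fun t => k0 ≤ ∑ i, t i), G t
      ≤ (∑ i, x i * y i) ^ k0 / (1 - ∑ i, x i * y i) := by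
    rw [hBox, hG]
    exact taskE1_first_le (fun i => x i * y i) (fun i => mul_nonneg (hx i) (hy i)) hb N k0
  have hD0 : 0 ≤ ∑ t ∈ Box.filter (fun t => k0 ≤ ∑ i, t i), G t :=
    Finset.sum_nonneg fun t _ => hG0 t
  exact mul_le_mul hC hD hD0 (Real.exp_pos _).le

theorem gf_core {ι : Type} [Fintype ι] [DecidableEq ι] (x y : ι → ℝ) (hx : ∀ i, 0 ≤ x i)
    (hy : ∀ i, 0 ≤ y i) (hb : ∑ i, x i * y i < 1) (M : Finset (ι → ℕ)) :
    ∑ μ ∈ M, (∏ i, x i ^ μ i / ((μ i).factorial : ℝ)) * PhiM μ y
      ≤ Real.exp (∑ i, x i) / (1 - ∑ i, x i * y i) := by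
  have h := taskE1_main x y hx hy hb M 0
  rw [pow_zero, mul_one_div] at h
  refine le_trans (le_of_eq ?_) h
  refine Finset.sum_congr rfl fun μ _ => ?_
  unfold PhiM
  rw [Finset.filter_true_of_mem fun t _ => Nat.zero_le _]

theorem gf_core_sub_one {ι : Type} [Fintype ι] [DecidableEq ι] (x y : ι → ℝ)
    (hx : ∀ i, 0 ≤ x i) (hy : ∀ i, 0 ≤ y i) (hb : ∑ i, x i * y i < 1) (M : Finset (ι → ℕ)) :
    ∑ μ ∈ M, (∏ i, x i ^ μ i / ((μ i).factorial : ℝ)) * (PhiM μ y - 1)
      ≤ Real.exp (∑ i, x i) * (∑ i, x i * y i) / (1 - ∑ i, x i * y i) := by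
  have h := taskE1_main x y hx hy hb M 1
  rw [pow_one, ← mul_div_assoc] at h
  refine le_trans (le_of_eq ?_) h
  refine Finset.sum_congr rfl fun μ _ => ?_
  congr 1
  unfold PhiM
  rw [← Finset.sum_filter_add_sum_filter_not (Fintype.piFinset (fun i => Finset.range (μ i + 1)))
    (fun t => 1 ≤ ∑ i, t i)]
  have h0 : ∑ t ∈ (Fintype.piFinset (fun i => Finset.range (μ i + 1))).filter
      (fun t => ¬ 1 ≤ ∑ i, t i),
      (∏ i, ((μ i).choose (t i) : ℝ)) * ((∑ i, t i).factorial : ℝ) * ∏ i, y i ^ t i = 1 := by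
    have hmem : (fun _ => 0 : ι → ℕ) ∈ (Fintype.piFinset (fun i => Finset.range (μ i + 1))).filter
        (fun t => ¬ 1 ≤ ∑ i, t i) := by
      rw [Finset.mem_filter, Fintype.mem_piFinset]
      exact ⟨fun i => Finset.mem_range.mpr (Nat.succ_pos _), by simp⟩
    rw [Finset.sum_eq_single_of_mem _ hmem]
    · simp
    · intro t ht hne
      exfalso
      apply hne
      rw [Finset.mem_filter] at ht
      have hs : ∑ i, t i = 0 := by omega
      funext i
      exact (Finset.sum_eq_zero_iff.mp hs) i (Finset.mem_univ i)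
  rw [h0]
  ring

/-! ### FOR-E3 : a Poisson tail bound -/

theorem sum_gJ_le (c : ℝ) (hc : 0 < c) (J : Finset ℕ)
    (hJ : ∀ j ∈ J, 1000 * c < 2 * (j : ℝ)) :
    ∑ j ∈ J, c ^ j / (j.factorial : ℝ) * gJ (1000 * c) j ≤ 1 / 80 ∧
      c * ∑ j ∈ J, c ^ j / (j.factorial : ℝ) * gJ (1000 * c) j ≤ 1 / 1000 := by
  have key : ∀ j : ℕ, 1000 * c < 2 * (j : ℝ) →
      c ^ j / (j.factorial : ℝ) * gJ (1000 * c) j ≤ (3 / 500 : ℝ) ^ j := by
    intro j hj
    have hcj : c ≤ (j : ℝ) / 500 := by linarith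
    have hj0 : (0 : ℝ) ≤ (j : ℝ) := Nat.cast_nonneg j
    unfold gJ
    rw [Finset.mul_sum]
    have h1 : ∀ i ∈ Finset.range (j + 1),
        c ^ j / (j.factorial : ℝ) * ((j.descFactorial i : ℝ) * (2 / (1000 * c)) ^ i)
          ≤ (1 / 500 : ℝ) ^ j * ((j : ℝ) ^ (j - i) / ((j - i).factorial : ℝ)) := by
      intro i hi
      have hij : i ≤ j := Nat.lt_succ_iff.1 (Finset.mem_range.1 hi)
      have hfac : ((j - i).factorial : ℝ) * (j.descFactorial i : ℝ) = (j.factorial : ℝ) := by
        exact_mod_cast Nat.factorial_mul_descFactorial hij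
      have hjf : (0 : ℝ) < (j.factorial : ℝ) := by exact_mod_cast Nat.factorial_pos j
      have hjif : (0 : ℝ) < ((j - i).factorial : ℝ) := by
        exact_mod_cast Nat.factorial_pos (j - i)
      have hci : c ^ i ≠ 0 := pow_ne_zero _ hc.ne'
      have e1 : c ^ j / (j.factorial : ℝ) * ((j.descFactorial i : ℝ) * (2 / (1000 * c)) ^ i)
          = c ^ (j - i) / ((j - i).factorial : ℝ) * (1 / 500 : ℝ) ^ i := by
        have hcpow : c ^ j = c ^ (j - i) * c ^ i := by
          rw [← pow_add, Nat.sub_add_cancel hij]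
        have h2 : (2 / (1000 * c)) ^ i = (1 / 500 : ℝ) ^ i / c ^ i := by
          rw [← div_pow]
          congr 1
          field_simp
          ring
        have hdf : (j.descFactorial i : ℝ) ≠ 0 := by
          intro h
          rw [h, mul_zero] at hfac
          exact hjf.ne hfac
        rw [hcpow, h2, ← hfac]
        field_simp
      rw [e1]
      have e2 : c ^ (j - i) ≤ ((j : ℝ) / 500) ^ (j - i) := pow_le_pow_left₀ hc.le hcj _
      have e3 : (1 / 500 : ℝ) ^ j * ((j : ℝ) ^ (j - i) / ((j - i).factorial : ℝ))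
          = ((j : ℝ) / 500) ^ (j - i) / ((j - i).factorial : ℝ) * (1 / 500 : ℝ) ^ i := by
        have h3 : (1 / 500 : ℝ) ^ j = (1 / 500 : ℝ) ^ (j - i) * (1 / 500 : ℝ) ^ i := by
          rw [← pow_add, Nat.sub_add_cancel hij]
        rw [h3, show ((j : ℝ) / 500) = (j : ℝ) * (1 / 500) by ring, mul_pow]
        ring
      rw [e3]
      apply mul_le_mul_of_nonneg_right _ (by positivity)
      exact div_le_div_of_nonneg_right e2 hjif.le
    calc ∑ i ∈ Finset.range (j + 1),
          c ^ j / (j.factorial : ℝ) * ((j.descFactorial i : ℝ) * (2 / (1000 * c)) ^ i)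
        ≤ ∑ i ∈ Finset.range (j + 1),
          (1 / 500 : ℝ) ^ j * ((j : ℝ) ^ (j - i) / ((j - i).factorial : ℝ)) :=
          Finset.sum_le_sum h1
      _ = (1 / 500 : ℝ) ^ j
            * ∑ i ∈ Finset.range (j + 1), (j : ℝ) ^ i / (i.factorial : ℝ) := by
          rw [← Finset.mul_sum]
          congr 1
          have h4 := Finset.sum_range_reflect (fun i => (j : ℝ) ^ i / (i.factorial : ℝ)) (j + 1)
          rw [← h4]
          apply Finset.sum_congr rfl
          intro i hi
          simp only [Nat.add_sub_cancel]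
      _ ≤ (1 / 500 : ℝ) ^ j * Real.exp j := by
          apply mul_le_mul_of_nonneg_left _ (by positivity)
          exact Real.sum_le_exp_of_nonneg hj0 _
      _ ≤ (1 / 500 : ℝ) ^ j * 3 ^ j := by
          apply mul_le_mul_of_nonneg_left _ (by positivity)
          have h5 : Real.exp (j : ℝ) = Real.exp 1 ^ j := by
            rw [← Real.exp_nat_mul, mul_one]
          rw [h5]
          exact pow_le_pow_left₀ (Real.exp_pos 1).le
            (by have h6 := Real.exp_one_lt_d9; linarith) _
      _ = (3 / 500 : ℝ) ^ j := by rw [← mul_pow]; norm_num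
  have hnn : ∀ j : ℕ, 0 ≤ c ^ j / (j.factorial : ℝ) * gJ (1000 * c) j := by
    intro j
    apply mul_nonneg (by positivity)
    unfold gJ
    apply Finset.sum_nonneg
    intro i hi
    positivity
  have h0 : 0 ∉ J := by
    intro h
    have h1 := hJ 0 h
    simp only [Nat.cast_zero, mul_zero] at h1
    linarith
  have geo : ∑ j ∈ J, (6 / 500 : ℝ) ^ j ≤ 6 / 494 := by
    have hs : HasSum (fun j : ℕ => (6 / 500 : ℝ) ^ j) (1 - 6 / 500)⁻¹ :=
      hasSum_geometric_of_lt_one (by norm_num) (by norm_num)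
    have h1 : ∑ j ∈ insert 0 J, (6 / 500 : ℝ) ^ j ≤ (1 - 6 / 500)⁻¹ :=
      sum_le_hasSum _ (fun j _ => by positivity) hs
    rw [Finset.sum_insert h0] at h1
    norm_num at h1 ⊢
    linarith
  have hT : ∀ j ∈ J, c ^ j / (j.factorial : ℝ) * gJ (1000 * c) j ≤ (6 / 500 : ℝ) ^ j := by
    intro j hj
    refine (key j (hJ j hj)).trans ?_
    exact pow_le_pow_left₀ (by norm_num) (by norm_num) _
  constructor
  · calc ∑ j ∈ J, c ^ j / (j.factorial : ℝ) * gJ (1000 * c) j
        ≤ ∑ j ∈ J, (6 / 500 : ℝ) ^ j := Finset.sum_le_sum hT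
      _ ≤ 6 / 494 := geo
      _ ≤ 1 / 80 := by norm_num
  · rw [Finset.mul_sum]
    have hT2 : ∀ j ∈ J, c * (c ^ j / (j.factorial : ℝ) * gJ (1000 * c) j)
        ≤ (1 / 500 : ℝ) * (6 / 500 : ℝ) ^ j := by
      intro j hj
      have h1 := key j (hJ j hj)
      have hcj : c ≤ (j : ℝ) / 500 := by
        have h2 := hJ j hj
        linarith
      have hj2 : (j : ℝ) ≤ 2 ^ j := by exact_mod_cast (Nat.lt_two_pow_self).le
      calc c * (c ^ j / (j.factorial : ℝ) * gJ (1000 * c) j)
          ≤ (j : ℝ) / 500 * (3 / 500 : ℝ) ^ j :=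
            mul_le_mul hcj h1 (hnn j) (by positivity)
        _ ≤ (2 : ℝ) ^ j / 500 * (3 / 500 : ℝ) ^ j := by
            apply mul_le_mul_of_nonneg_right _ (by positivity)
            linarith
        _ = (1 / 500 : ℝ) * (6 / 500 : ℝ) ^ j := by
            rw [show (6 / 500 : ℝ) = 2 * (3 / 500) by norm_num, mul_pow]
            ring
    calc ∑ j ∈ J, c * (c ^ j / (j.factorial : ℝ) * gJ (1000 * c) j)
        ≤ ∑ j ∈ J, (1 / 500 : ℝ) * (6 / 500 : ℝ) ^ j := Finset.sum_le_sum hT2
      _ = (1 / 500 : ℝ) * ∑ j ∈ J, (6 / 500 : ℝ) ^ j := by rw [Finset.mul_sum]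
      _ ≤ (1 / 500 : ℝ) * (6 / 494) := by
          apply mul_le_mul_of_nonneg_left geo (by norm_num)
      _ ≤ 1 / 1000 := by norm_num

/-! ### FOR-E4 : the total cost of the classes -/

/-- The multiplicities of the codes of the representatives among the rich children of `x`. -/
noncomputable def taskForE4_mu (ch : W → Finset W) (d : W → ℕ) (Rich : W → Prop)
    (PP : W → Finset W) (T' : Finset W) (x : W) : ↥T' → ℕ :=
  fun t => multF ch d Rich PP x (codeF ch d Rich PP t.1)

/-- The costs of the representatives. -/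
noncomputable def taskForE4_X (ch : W → Finset W) (d : W → ℕ) (Rich : W → Prop)
    (PP : W → Finset W) (c : ℝ) (T' : Finset W) : ↥T' → ℝ :=
  fun t => c * piF ch d Rich PP c t.1

/-- The scaled weight bounds of the representatives. -/
noncomputable def taskForE4_Y (ch : W → Finset W) (d : W → ℕ) (Rich : W → Prop)
    (PP : W → Finset W) (c : ℝ) (T' : Finset W) : ↥T' → ℝ :=
  fun t => 4 * wbF ch d Rich PP (1000 * c) t.1 / (1000 * c)

/-- The summand of the exponential formula. -/
noncomputable def taskForE4_G (ch : W → Finset W) (d : W → ℕ) (Rich : W → Prop)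
    (PP : W → Finset W) (c : ℝ) (T' : Finset W) (μ : ↥T' → ℕ) : ℝ :=
  ∏ t, taskForE4_X ch d Rich PP c T' t ^ μ t / ((μ t).factorial : ℝ)

theorem taskForE4_count (ch : W → Finset W) (d : W → ℕ) (Rich : W → Prop) (PP : W → Finset W)
    (x : W) (τ : ℕ) :
    Multiset.count τ ((RR ch Rich x).val.map (codeF ch d Rich PP))
      = multF ch d Rich PP x τ := by
  unfold multF
  rw [Multiset.count_map, Finset.card_def, Finset.filter_val]
  congr 1
  exact Multiset.filter_congr (fun a _ => eq_comm)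

theorem taskForE4_mult_zero (ch : W → Finset W) (d : W → ℕ) (Rich : W → Prop)
    (PP : W → Finset W) (T' : Finset W) (x : W)
    (hcov : ∀ u ∈ RR ch Rich x, ∃ t ∈ T', codeF ch d Rich PP t = codeF ch d Rich PP u)
    (τ : ℕ) (h : ¬ ∃ t ∈ T', codeF ch d Rich PP t = τ) : multF ch d Rich PP x τ = 0 := by
  unfold multF
  rw [Finset.card_eq_zero, Finset.filter_eq_empty_iff]
  intro u hu hcode
  obtain ⟨t, ht, hte⟩ := hcov u hu
  exact h ⟨t, ht, hte.trans hcode⟩

theorem taskForE4_code_eq (ch : W → Finset W) (d : W → ℕ) (Rich : W → Prop)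
    (PP : W → Finset W) (hd : ∀ x, ∀ y ∈ ch x, d y = d x + 1) (T' : Finset W) (x y : W)
    (hcovx : ∀ u ∈ RR ch Rich x, ∃ t ∈ T', codeF ch d Rich PP t = codeF ch d Rich PP u)
    (hcovy : ∀ u ∈ RR ch Rich y, ∃ t ∈ T', codeF ch d Rich PP t = codeF ch d Rich PP u)
    (hj : (PP x).card = (PP y).card)
    (hμ : ∀ t ∈ T', multF ch d Rich PP x (codeF ch d Rich PP t)
      = multF ch d Rich PP y (codeF ch d Rich PP t)) :
    codeF ch d Rich PP x = codeF ch d Rich PP y := by
  rw [codeF_eq ch d hd Rich PP x, codeF_eq ch d hd Rich PP y, hj]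
  congr 1
  ext τ
  rw [taskForE4_count, taskForE4_count]
  by_cases h : ∃ t ∈ T', codeF ch d Rich PP t = τ
  · obtain ⟨t, ht, rfl⟩ := h
    exact hμ t ht
  · rw [taskForE4_mult_zero ch d Rich PP T' x hcovx τ h,
      taskForE4_mult_zero ch d Rich PP T' y hcovy τ h]

theorem taskForE4_mu_inj (ch : W → Finset W) (d : W → ℕ) (Rich : W → Prop)
    (PP : W → Finset W) (hd : ∀ x, ∀ y ∈ ch x, d y = d x + 1) (T T' : Finset W)
    (hinj : Set.InjOn (codeF ch d Rich PP) (T : Set W))
    (hcov : ∀ x ∈ T, ∀ u ∈ RR ch Rich x,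
      ∃ t ∈ T', codeF ch d Rich PP t = codeF ch d Rich PP u)
    (x y : W) (hx : x ∈ T) (hy : y ∈ T) (hj : (PP x).card = (PP y).card)
    (hμ : taskForE4_mu ch d Rich PP T' x = taskForE4_mu ch d Rich PP T' y) : x = y := by
  apply hinj (Finset.mem_coe.2 hx) (Finset.mem_coe.2 hy)
  apply taskForE4_code_eq ch d Rich PP hd T' x y (hcov x hx) (hcov y hy) hj
  intro t ht
  exact congrFun hμ ⟨t, ht⟩

theorem taskForE4_X_nonneg (ch : W → Finset W) (d : W → ℕ) (Rich : W → Prop)
    (PP : W → Finset W) (hd : ∀ x, ∀ y ∈ ch x, d y = d x + 1) (c : ℝ) (hc : 0 < c)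
    (T' : Finset W) (t : ↥T') : 0 ≤ taskForE4_X ch d Rich PP c T' t :=
  mul_nonneg hc.le (piF_nonneg ch d Rich PP hd c hc.le t.1)

theorem taskForE4_Y_nonneg (ch : W → Finset W) (d : W → ℕ) (Rich : W → Prop)
    (PP : W → Finset W) (c : ℝ) (hc : 0 < c)
    (hwb : ∀ x, Rich x → 1 ≤ wbF ch d Rich PP (1000 * c) x)
    (T' : Finset W) (hT' : ∀ t ∈ T', Rich t) (t : ↥T') :
    0 ≤ taskForE4_Y ch d Rich PP c T' t := by
  have h1 := hwb t.1 (hT' t.1 t.2)
  have hL : 0 < 1000 * c := by positivity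
  exact div_nonneg (by linarith) hL.le

theorem taskForE4_G_nonneg (ch : W → Finset W) (d : W → ℕ) (Rich : W → Prop)
    (PP : W → Finset W) (hd : ∀ x, ∀ y ∈ ch x, d y = d x + 1) (c : ℝ) (hc : 0 < c)
    (T' : Finset W) (μ : ↥T' → ℕ) : 0 ≤ taskForE4_G ch d Rich PP c T' μ :=
  Finset.prod_nonneg (fun t _ => div_nonneg
    (pow_nonneg (taskForE4_X_nonneg ch d Rich PP hd c hc T' t) _) (Nat.cast_nonneg _))

/-- The cost times the weight bound of one vertex, in terms of its multiplicity vector. -/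
theorem taskForE4_term (ch : W → Finset W) (d : W → ℕ) (Rich : W → Prop)
    (PP : W → Finset W) (hd : ∀ x, ∀ y ∈ ch x, d y = d x + 1) (c : ℝ) (hc : 0 < c)
    (hwb : ∀ x, Rich x → 1 ≤ wbF ch d Rich PP (1000 * c) x) (x : W) (T' : Finset W)
    (hinj : Set.InjOn (codeF ch d Rich PP) (T' : Set W))
    (hcov : ∀ u ∈ RR ch Rich x, ∃ t ∈ T', codeF ch d Rich PP t = codeF ch d Rich PP u) :
    ((PP x).card = 0 → piF ch d Rich PP c x * wbF ch d Rich PP (1000 * c) x
      ≤ taskForE4_G ch d Rich PP c T' (taskForE4_mu ch d Rich PP T' x)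
        * (PhiM (taskForE4_mu ch d Rich PP T' x) (taskForE4_Y ch d Rich PP c T') - 1)) ∧
    ((PP x).card ≠ 0 → piF ch d Rich PP c x * wbF ch d Rich PP (1000 * c) x
      ≤ c ^ (PP x).card / ((PP x).card.factorial : ℝ) * gJ (1000 * c) (PP x).card
        * (taskForE4_G ch d Rich PP c T' (taskForE4_mu ch d Rich PP T' x)
          * PhiM (taskForE4_mu ch d Rich PP T' x) (taskForE4_Y ch d Rich PP c T'))) := by
  have hL : 0 < 1000 * c := by positivity
  have hreg : piF ch d Rich PP c x = c ^ (PP x).card / ((PP x).card.factorial : ℝ)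
      * taskForE4_G ch d Rich PP c T' (taskForE4_mu ch d Rich PP T' x) :=
    piF_regroup ch d Rich PP hd c x T' hinj hcov
  have hPhi : PhiS (RR ch Rich x) (fun u => 4 * wbF ch d Rich PP (1000 * c) u / (1000 * c))
      ≤ PhiM (taskForE4_mu ch d Rich PP T' x) (taskForE4_Y ch d Rich PP c T') :=
    PhiS_regroup ch d Rich PP hd x T' hinj hcov
      (fun u => 4 * wbF ch d Rich PP (1000 * c) u / (1000 * c))
      (fun u hu => div_nonneg
        (by linarith [hwb u ((mem_RR ch Rich x u).1 hu).2]) hL.le)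
      (fun u v h => by
        show 4 * wbF ch d Rich PP (1000 * c) u / (1000 * c)
          = 4 * wbF ch d Rich PP (1000 * c) v / (1000 * c)
        rw [wbF_congr ch d Rich PP hd (1000 * c) u v h])
  have hG := taskForE4_G_nonneg ch d Rich PP hd c hc T' (taskForE4_mu ch d Rich PP T' x)
  have hw := wbF_eq ch d hd Rich PP (1000 * c) x
  constructor
  · intro hj
    rw [if_pos hj] at hw
    rw [hreg, hj, hw]
    simp only [pow_zero, Nat.factorial_zero, Nat.cast_one, div_one, one_mul]
    exact mul_le_mul_of_nonneg_left (by linarith) hG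
  · intro hj
    rw [if_neg hj] at hw
    rw [hreg, hw]
    have hgJ : 0 ≤ gJ (1000 * c) (PP x).card := by
      linarith [one_le_gJ (1000 * c) hL (PP x).card]
    have hcj : 0 ≤ c ^ (PP x).card / ((PP x).card.factorial : ℝ) := by positivity
    have e : c ^ (PP x).card / ((PP x).card.factorial : ℝ)
          * taskForE4_G ch d Rich PP c T' (taskForE4_mu ch d Rich PP T' x)
          * (gJ (1000 * c) (PP x).card
            * PhiS (RR ch Rich x) (fun u => 4 * wbF ch d Rich PP (1000 * c) u / (1000 * c)))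
        = c ^ (PP x).card / ((PP x).card.factorial : ℝ) * gJ (1000 * c) (PP x).card
          * (taskForE4_G ch d Rich PP c T' (taskForE4_mu ch d Rich PP T' x)
            * PhiS (RR ch Rich x)
              (fun u => 4 * wbF ch d Rich PP (1000 * c) u / (1000 * c))) := by ring
    rw [e]
    apply mul_le_mul_of_nonneg_left _ (mul_nonneg hcj hgJ)
    exact mul_le_mul_of_nonneg_left hPhi hG

/-- The vertices without attached poor children. -/
theorem taskForE4_part0 (ch : W → Finset W) (d : W → ℕ) (Rich : W → Prop)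
    (PP : W → Finset W) (hd : ∀ x, ∀ y ∈ ch x, d y = d x + 1) (c : ℝ) (hc : 0 < c)
    (hwb : ∀ x, Rich x → 1 ≤ wbF ch d Rich PP (1000 * c) x) (T T' : Finset W)
    (hinj : Set.InjOn (codeF ch d Rich PP) (T : Set W))
    (hinj' : Set.InjOn (codeF ch d Rich PP) (T' : Set W))
    (hcov : ∀ x ∈ T, ∀ u ∈ RR ch Rich x,
      ∃ t ∈ T', codeF ch d Rich PP t = codeF ch d Rich PP u)
    (hT' : ∀ t ∈ T', Rich t)
    (hb : ∑ t, taskForE4_X ch d Rich PP c T' t * taskForE4_Y ch d Rich PP c T' t < 1) :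
    ∑ x ∈ T.filter (fun x => (PP x).card = 0),
        piF ch d Rich PP c x * wbF ch d Rich PP (1000 * c) x
      ≤ Real.exp (∑ t, taskForE4_X ch d Rich PP c T' t)
          * (∑ t, taskForE4_X ch d Rich PP c T' t * taskForE4_Y ch d Rich PP c T' t)
          / (1 - ∑ t, taskForE4_X ch d Rich PP c T' t * taskForE4_Y ch d Rich PP c T' t) := by
  have h1 : ∑ x ∈ T.filter (fun x => (PP x).card = 0),
        piF ch d Rich PP c x * wbF ch d Rich PP (1000 * c) x
      ≤ ∑ x ∈ T.filter (fun x => (PP x).card = 0),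
          (fun μ : ↥T' → ℕ => taskForE4_G ch d Rich PP c T' μ
            * (PhiM μ (taskForE4_Y ch d Rich PP c T') - 1))
          (taskForE4_mu ch d Rich PP T' x) := by
    apply Finset.sum_le_sum
    intro x hx
    rw [Finset.mem_filter] at hx
    exact (taskForE4_term ch d Rich PP hd c hc hwb x T' hinj' (hcov x hx.1)).1 hx.2
  have h2 : ∑ x ∈ T.filter (fun x => (PP x).card = 0),
          (fun μ : ↥T' → ℕ => taskForE4_G ch d Rich PP c T' μ
            * (PhiM μ (taskForE4_Y ch d Rich PP c T') - 1))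
          (taskForE4_mu ch d Rich PP T' x)
      = ∑ μ ∈ (T.filter (fun x => (PP x).card = 0)).image (taskForE4_mu ch d Rich PP T'),
          taskForE4_G ch d Rich PP c T' μ
            * (PhiM μ (taskForE4_Y ch d Rich PP c T') - 1) := by
    rw [Finset.sum_image]
    intro x hx y hy hxy
    have hx' := Finset.mem_filter.1 (Finset.mem_coe.1 hx)
    have hy' := Finset.mem_filter.1 (Finset.mem_coe.1 hy)
    exact taskForE4_mu_inj ch d Rich PP hd T T' hinj hcov x y hx'.1 hy'.1
      (hx'.2.trans hy'.2.symm) hxy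
  have h3 := gf_core_sub_one (taskForE4_X ch d Rich PP c T') (taskForE4_Y ch d Rich PP c T')
    (taskForE4_X_nonneg ch d Rich PP hd c hc T')
    (taskForE4_Y_nonneg ch d Rich PP c hc hwb T' hT') hb
    ((T.filter (fun x => (PP x).card = 0)).image (taskForE4_mu ch d Rich PP T'))
  exact le_trans h1 (le_trans (le_of_eq h2) h3)

/-- The vertices with attached poor children. -/
theorem taskForE4_part1 (ch : W → Finset W) (d : W → ℕ) (Rich : W → Prop)
    (PP : W → Finset W) (hd : ∀ x, ∀ y ∈ ch x, d y = d x + 1) (c : ℝ) (hc : 0 < c)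
    (hwb : ∀ x, Rich x → 1 ≤ wbF ch d Rich PP (1000 * c) x) (T T' : Finset W)
    (hinj : Set.InjOn (codeF ch d Rich PP) (T : Set W))
    (hinj' : Set.InjOn (codeF ch d Rich PP) (T' : Set W))
    (hcov : ∀ x ∈ T, ∀ u ∈ RR ch Rich x,
      ∃ t ∈ T', codeF ch d Rich PP t = codeF ch d Rich PP u)
    (hT' : ∀ t ∈ T', Rich t)
    (hb : ∑ t, taskForE4_X ch d Rich PP c T' t * taskForE4_Y ch d Rich PP c T' t < 1) :
    ∑ x ∈ T.filter (fun x => ¬ (PP x).card = 0),
        piF ch d Rich PP c x * wbF ch d Rich PP (1000 * c) x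
      ≤ (∑ j ∈ (T.filter (fun x => ¬ (PP x).card = 0)).image (fun x => (PP x).card),
            c ^ j / (j.factorial : ℝ) * gJ (1000 * c) j)
          * (Real.exp (∑ t, taskForE4_X ch d Rich PP c T' t)
            / (1 - ∑ t, taskForE4_X ch d Rich PP c T' t
                * taskForE4_Y ch d Rich PP c T' t)) := by
  have hL : 0 < 1000 * c := by positivity
  have h1 : ∑ x ∈ T.filter (fun x => ¬ (PP x).card = 0),
        piF ch d Rich PP c x * wbF ch d Rich PP (1000 * c) x
      ≤ ∑ x ∈ T.filter (fun x => ¬ (PP x).card = 0),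
          c ^ (PP x).card / ((PP x).card.factorial : ℝ) * gJ (1000 * c) (PP x).card
            * (taskForE4_G ch d Rich PP c T' (taskForE4_mu ch d Rich PP T' x)
              * PhiM (taskForE4_mu ch d Rich PP T' x) (taskForE4_Y ch d Rich PP c T')) := by
    apply Finset.sum_le_sum
    intro x hx
    rw [Finset.mem_filter] at hx
    exact (taskForE4_term ch d Rich PP hd c hc hwb x T' hinj' (hcov x hx.1)).2 hx.2
  have h2 : ∑ x ∈ T.filter (fun x => ¬ (PP x).card = 0),
          c ^ (PP x).card / ((PP x).card.factorial : ℝ) * gJ (1000 * c) (PP x).card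
            * (taskForE4_G ch d Rich PP c T' (taskForE4_mu ch d Rich PP T' x)
              * PhiM (taskForE4_mu ch d Rich PP T' x) (taskForE4_Y ch d Rich PP c T'))
      = ∑ j ∈ (T.filter (fun x => ¬ (PP x).card = 0)).image (fun x => (PP x).card),
          ∑ x ∈ (T.filter (fun x => ¬ (PP x).card = 0)).filter (fun x => (PP x).card = j),
            c ^ (PP x).card / ((PP x).card.factorial : ℝ) * gJ (1000 * c) (PP x).card
              * (taskForE4_G ch d Rich PP c T' (taskForE4_mu ch d Rich PP T' x)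
                * PhiM (taskForE4_mu ch d Rich PP T' x)
                    (taskForE4_Y ch d Rich PP c T')) :=
    (Finset.sum_fiberwise_of_maps_to (fun x hx => Finset.mem_image_of_mem _ hx) _).symm
  have h3 : ∀ j ∈ (T.filter (fun x => ¬ (PP x).card = 0)).image (fun x => (PP x).card),
      ∑ x ∈ (T.filter (fun x => ¬ (PP x).card = 0)).filter (fun x => (PP x).card = j),
          c ^ (PP x).card / ((PP x).card.factorial : ℝ) * gJ (1000 * c) (PP x).card
            * (taskForE4_G ch d Rich PP c T' (taskForE4_mu ch d Rich PP T' x)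
              * PhiM (taskForE4_mu ch d Rich PP T' x) (taskForE4_Y ch d Rich PP c T'))
        ≤ c ^ j / (j.factorial : ℝ) * gJ (1000 * c) j
          * (Real.exp (∑ t, taskForE4_X ch d Rich PP c T' t)
            / (1 - ∑ t, taskForE4_X ch d Rich PP c T' t
                * taskForE4_Y ch d Rich PP c T' t)) := by
    intro j _
    have e1 : ∑ x ∈ (T.filter (fun x => ¬ (PP x).card = 0)).filter
            (fun x => (PP x).card = j),
          c ^ (PP x).card / ((PP x).card.factorial : ℝ) * gJ (1000 * c) (PP x).card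
            * (taskForE4_G ch d Rich PP c T' (taskForE4_mu ch d Rich PP T' x)
              * PhiM (taskForE4_mu ch d Rich PP T' x) (taskForE4_Y ch d Rich PP c T'))
        = c ^ j / (j.factorial : ℝ) * gJ (1000 * c) j
          * ∑ x ∈ (T.filter (fun x => ¬ (PP x).card = 0)).filter
              (fun x => (PP x).card = j),
            (fun μ : ↥T' → ℕ => taskForE4_G ch d Rich PP c T' μ
              * PhiM μ (taskForE4_Y ch d Rich PP c T'))
            (taskForE4_mu ch d Rich PP T' x) := by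
      rw [Finset.mul_sum]
      apply Finset.sum_congr rfl
      intro x hx
      rw [(Finset.mem_filter.1 hx).2]
    have e2 : ∑ x ∈ (T.filter (fun x => ¬ (PP x).card = 0)).filter
              (fun x => (PP x).card = j),
            (fun μ : ↥T' → ℕ => taskForE4_G ch d Rich PP c T' μ
              * PhiM μ (taskForE4_Y ch d Rich PP c T'))
            (taskForE4_mu ch d Rich PP T' x)
        = ∑ μ ∈ ((T.filter (fun x => ¬ (PP x).card = 0)).filter
              (fun x => (PP x).card = j)).image (taskForE4_mu ch d Rich PP T'),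
            taskForE4_G ch d Rich PP c T' μ * PhiM μ (taskForE4_Y ch d Rich PP c T') := by
      rw [Finset.sum_image]
      intro x hx y hy hxy
      have hx' := Finset.mem_filter.1 (Finset.mem_coe.1 hx)
      have hy' := Finset.mem_filter.1 (Finset.mem_coe.1 hy)
      exact taskForE4_mu_inj ch d Rich PP hd T T' hinj hcov x y
        (Finset.mem_filter.1 hx'.1).1 (Finset.mem_filter.1 hy'.1).1
        (hx'.2.trans hy'.2.symm) hxy
    have e3 := gf_core (taskForE4_X ch d Rich PP c T') (taskForE4_Y ch d Rich PP c T')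
      (taskForE4_X_nonneg ch d Rich PP hd c hc T')
      (taskForE4_Y_nonneg ch d Rich PP c hc hwb T' hT') hb
      (((T.filter (fun x => ¬ (PP x).card = 0)).filter
        (fun x => (PP x).card = j)).image (taskForE4_mu ch d Rich PP T'))
    have hK : 0 ≤ c ^ j / (j.factorial : ℝ) * gJ (1000 * c) j :=
      mul_nonneg (by positivity) (by linarith [one_le_gJ (1000 * c) hL j])
    rw [e1, e2]
    exact mul_le_mul_of_nonneg_left e3 hK
  rw [Finset.sum_mul]
  exact le_trans h1 (le_trans (le_of_eq h2) (Finset.sum_le_sum h3))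

/-- One step of the induction on the height. -/
theorem taskForE4_step (ch : W → Finset W) (d : W → ℕ) (Rich : W → Prop)
    (PP : W → Finset W) (hd : ∀ x, ∀ y ∈ ch x, d y = d x + 1) (c : ℝ) (hc : 0 < c)
    (hcase : ∀ x, (PP x).card = 0 ∨ 1000 * c < 2 * ((PP x).card : ℝ))
    (hwb : ∀ x, Rich x → 1 ≤ wbF ch d Rich PP (1000 * c) x) (T T' : Finset W)
    (hinj : Set.InjOn (codeF ch d Rich PP) (T : Set W))
    (hinj' : Set.InjOn (codeF ch d Rich PP) (T' : Set W))
    (hcov : ∀ x ∈ T, ∀ u ∈ RR ch Rich x,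
      ∃ t ∈ T', codeF ch d Rich PP t = codeF ch d Rich PP u)
    (hT' : ∀ t ∈ T', Rich t)
    (hf1 : ∑ x ∈ T', piF ch d Rich PP c x * wbF ch d Rich PP (1000 * c) x ≤ 1 / 40)
    (hf2 : c * ∑ x ∈ T', piF ch d Rich PP c x * wbF ch d Rich PP (1000 * c) x ≤ 1 / 500) :
    ∑ x ∈ T, piF ch d Rich PP c x * wbF ch d Rich PP (1000 * c) x ≤ 1 / 40 ∧
      c * ∑ x ∈ T, piF ch d Rich PP c x * wbF ch d Rich PP (1000 * c) x ≤ 1 / 500 := by
  have hpi : ∀ x, 0 ≤ piF ch d Rich PP c x := piF_nonneg ch d Rich PP hd c hc.le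
  have hc0 : c ≠ 0 := hc.ne'
  have hb_eq : ∑ t, taskForE4_X ch d Rich PP c T' t * taskForE4_Y ch d Rich PP c T' t
      = 4 / 1000 * ∑ x ∈ T', piF ch d Rich PP c x * wbF ch d Rich PP (1000 * c) x := by
    rw [← Finset.sum_coe_sort T'
      (fun x => piF ch d Rich PP c x * wbF ch d Rich PP (1000 * c) x), Finset.mul_sum]
    apply Finset.sum_congr rfl
    intro t _
    unfold taskForE4_X taskForE4_Y
    field_simp
  have ha_le : ∑ t, taskForE4_X ch d Rich PP c T' t
      ≤ c * ∑ x ∈ T', piF ch d Rich PP c x * wbF ch d Rich PP (1000 * c) x := by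
    rw [← Finset.sum_coe_sort T'
      (fun x => piF ch d Rich PP c x * wbF ch d Rich PP (1000 * c) x), Finset.mul_sum]
    apply Finset.sum_le_sum
    intro t _
    unfold taskForE4_X
    have h1 := hwb t.1 (hT' t.1 t.2)
    have h2 := hpi t.1
    have h3 : piF ch d Rich PP c t.1
        ≤ piF ch d Rich PP c t.1 * wbF ch d Rich PP (1000 * c) t.1 :=
      le_mul_of_one_le_right h2 h1
    exact mul_le_mul_of_nonneg_left h3 hc.le
  have ha0 : 0 ≤ ∑ t, taskForE4_X ch d Rich PP c T' t :=
    Finset.sum_nonneg (fun t _ => taskForE4_X_nonneg ch d Rich PP hd c hc T' t)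
  have hf0 : 0 ≤ ∑ x ∈ T', piF ch d Rich PP c x * wbF ch d Rich PP (1000 * c) x :=
    Finset.sum_nonneg (fun x hx => mul_nonneg (hpi x) (by linarith [hwb x (hT' x hx)]))
  have hb1 : ∑ t, taskForE4_X ch d Rich PP c T' t * taskForE4_Y ch d Rich PP c T' t < 1 := by
    rw [hb_eq]
    linarith
  have hp0 := taskForE4_part0 ch d Rich PP hd c hc hwb T T' hinj hinj' hcov hT' hb1
  have hp1 := taskForE4_part1 ch d Rich PP hd c hc hwb T T' hinj hinj' hcov hT' hb1
  obtain ⟨hB1, hB2⟩ := sum_gJ_le c hc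
    ((T.filter (fun x => ¬ (PP x).card = 0)).image (fun x => (PP x).card)) (by
      intro j hj
      rw [Finset.mem_image] at hj
      obtain ⟨x, hx, rfl⟩ := hj
      rw [Finset.mem_filter] at hx
      rcases hcase x with h0 | h0
      · exact absurd h0 hx.2
      · exact h0)
  have hB0 : 0 ≤ ∑ j ∈ (T.filter (fun x => ¬ (PP x).card = 0)).image (fun x => (PP x).card),
      c ^ j / (j.factorial : ℝ) * gJ (1000 * c) j :=
    Finset.sum_nonneg (fun j _ => mul_nonneg (by positivity)
      (by linarith [one_le_gJ (1000 * c) (by positivity) j]))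
  have hsplit : ∑ x ∈ T, piF ch d Rich PP c x * wbF ch d Rich PP (1000 * c) x
      = ∑ x ∈ T.filter (fun x => (PP x).card = 0),
          piF ch d Rich PP c x * wbF ch d Rich PP (1000 * c) x
        + ∑ x ∈ T.filter (fun x => ¬ (PP x).card = 0),
          piF ch d Rich PP c x * wbF ch d Rich PP (1000 * c) x :=
    (Finset.sum_filter_add_sum_filter_not T (fun x => (PP x).card = 0) _).symm
  have hexp : Real.exp (∑ t, taskForE4_X ch d Rich PP c T' t)
      * (1 - ∑ t, taskForE4_X ch d Rich PP c T' t) ≤ 1 := by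
    have h1 := Real.add_one_le_exp (-(∑ t, taskForE4_X ch d Rich PP c T' t))
    have h2 : Real.exp (∑ t, taskForE4_X ch d Rich PP c T' t)
        * Real.exp (-(∑ t, taskForE4_X ch d Rich PP c T' t)) = 1 := by
      rw [← Real.exp_add, add_neg_cancel, Real.exp_zero]
    have h3 := Real.exp_pos (∑ t, taskForE4_X ch d Rich PP c T' t)
    nlinarith
  have hexp0 := Real.exp_pos (∑ t, taskForE4_X ch d Rich PP c T' t)
  rw [hsplit]
  generalize (∑ x ∈ T.filter (fun x => (PP x).card = 0),
    piF ch d Rich PP c x * wbF ch d Rich PP (1000 * c) x) = s0 at hp0 ⊢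
  generalize (∑ x ∈ T.filter (fun x => ¬ (PP x).card = 0),
    piF ch d Rich PP c x * wbF ch d Rich PP (1000 * c) x) = s1 at hp1 ⊢
  generalize (∑ j ∈ (T.filter (fun x => ¬ (PP x).card = 0)).image (fun x => (PP x).card),
    c ^ j / (j.factorial : ℝ) * gJ (1000 * c) j) = B at hp1 hB1 hB2 hB0
  generalize (∑ t, taskForE4_X ch d Rich PP c T' t * taskForE4_Y ch d Rich PP c T' t) = b
    at hb_eq hb1 hp0 hp1
  generalize (∑ t, taskForE4_X ch d Rich PP c T' t) = a at ha_le ha0 hp0 hp1 hexp hexp0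
  generalize (∑ x ∈ T', piF ch d Rich PP c x * wbF ch d Rich PP (1000 * c) x) = f'
    at hf1 hf2 hb_eq ha_le hf0
  generalize Real.exp a = e at hp0 hp1 hexp hexp0
  have hb0 : 0 ≤ b := by rw [hb_eq]; linarith
  have ha1 : a ≤ 1 / 500 := le_trans ha_le hf2
  have hb2 : b ≤ 1 / 10000 := by rw [hb_eq]; linarith
  have he2 : e ≤ 500 / 499 := by nlinarith
  have h1b : 0 < 1 - b := by linarith
  have htot : s0 + s1 ≤ e * (b + B) / (1 - b) := by
    have h : e * b / (1 - b) + B * (e / (1 - b)) = e * (b + B) / (1 - b) := by ring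
    linarith
  have hcb : c * b ≤ 4 / 1000 * (1 / 500) := by
    rw [hb_eq]
    nlinarith
  have hcB0 : 0 ≤ c * B := mul_nonneg hc.le hB0
  have hcb0 : 0 ≤ c * b := mul_nonneg hc.le hb0
  constructor
  · refine le_trans htot ?_
    rw [div_le_iff₀ h1b]
    have h1 : e * (b + B) ≤ 500 / 499 * (1 / 10000 + 1 / 80) :=
      mul_le_mul he2 (by linarith) (by linarith) (by norm_num)
    linarith
  · have h2 : c * (s0 + s1) ≤ c * (e * (b + B) / (1 - b)) :=
      mul_le_mul_of_nonneg_left htot hc.le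
    refine le_trans h2 ?_
    have h3 : c * (e * (b + B) / (1 - b)) = e * (c * b + c * B) / (1 - b) := by ring
    rw [h3, div_le_iff₀ h1b]
    have h4 : e * (c * b + c * B) ≤ 500 / 499 * (4 / 1000 * (1 / 500) + 1 / 1000) :=
      mul_le_mul he2 (by linarith) (by linarith) (by norm_num)
    linarith

/-- The bound by induction on the height. -/
theorem taskForE4_main (ch : W → Finset W) (d : W → ℕ) (Rich : W → Prop)
    (PP : W → Finset W) (hd : ∀ x, ∀ y ∈ ch x, d y = d x + 1) (c : ℝ) (hc : 0 < c)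
    (hcase : ∀ x, (PP x).card = 0 ∨ 1000 * c < 2 * ((PP x).card : ℝ))
    (hwb : ∀ x, Rich x → 1 ≤ wbF ch d Rich PP (1000 * c) x) :
    ∀ h : ℕ, ∀ T : Finset W, (∀ x ∈ T, Rich x) →
      Set.InjOn (codeF ch d Rich PP) (T : Set W) → (∀ x ∈ T, htF ch d Rich x ≤ h) →
      ∑ x ∈ T, piF ch d Rich PP c x * wbF ch d Rich PP (1000 * c) x ≤ 1 / 40 ∧
        c * ∑ x ∈ T, piF ch d Rich PP c x * wbF ch d Rich PP (1000 * c) x ≤ 1 / 500 := by
  intro h
  induction h with
  | zero =>
    intro T hT hinj hh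
    have hTe : T = ∅ := by
      apply Finset.eq_empty_of_forall_notMem
      intro x hx
      have h1 := hh x hx
      rw [htF_eq ch d hd Rich x] at h1
      omega
    rw [hTe, Finset.sum_empty, mul_zero]
    constructor <;> norm_num
  | succ h ih =>
    intro T hT hinj hh
    classical
    obtain ⟨T0, hT0R, hT0inj, hT0cov⟩ := exists_reps ch d Rich PP
    obtain ⟨T', hT'def⟩ : ∃ T' : Finset W, T' = T0.filter (fun t => ∃ x ∈ T,
        ∃ u ∈ RR ch Rich x, codeF ch d Rich PP u = codeF ch d Rich PP t) := ⟨_, rfl⟩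
    have hmem : ∀ t, t ∈ T' ↔ t ∈ T0 ∧ ∃ x ∈ T, ∃ u ∈ RR ch Rich x,
        codeF ch d Rich PP u = codeF ch d Rich PP t := by
      intro t
      rw [hT'def, Finset.mem_filter]
    have hT'R : ∀ t ∈ T', Rich t := fun t ht => hT0R t ((hmem t).1 ht).1
    have hT'inj : Set.InjOn (codeF ch d Rich PP) (T' : Set W) :=
      hT0inj.mono (fun t ht => Finset.mem_coe.2 ((hmem t).1 (Finset.mem_coe.1 ht)).1)
    have hT'h : ∀ t ∈ T', htF ch d Rich t ≤ h := by
      intro t ht
      obtain ⟨-, x, hx, u, hu, hcode⟩ := (hmem t).1 ht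
      have e := htF_congr ch d Rich PP hd u t hcode
      have hux : htF ch d Rich u ≤ (RR ch Rich x).sup (htF ch d Rich) := Finset.le_sup hu
      have h1 := hh x hx
      rw [htF_eq ch d hd Rich x] at h1
      omega
    have hcov : ∀ x ∈ T, ∀ u ∈ RR ch Rich x,
        ∃ t ∈ T', codeF ch d Rich PP t = codeF ch d Rich PP u := by
      intro x hx u hu
      obtain ⟨t, ht, hte⟩ := hT0cov u ((mem_RR ch Rich x u).1 hu).2
      exact ⟨t, (hmem t).2 ⟨ht, x, hx, u, hu, hte.symm⟩, hte⟩
    obtain ⟨hf1, hf2⟩ := ih T' hT'R hT'inj hT'h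
    exact taskForE4_step ch d Rich PP hd c hc hcase hwb T T' hinj hT'inj hcov hT'R hf1 hf2

theorem gf_bound (ch : W → Finset W) (d : W → ℕ) (Rich : W → Prop) (PP : W → Finset W)
    (hd : ∀ x, ∀ y ∈ ch x, d y = d x + 1) (c : ℝ) (hc : 0 < c)
    (hcase : ∀ x, (PP x).card = 0 ∨ 1000 * c < 2 * ((PP x).card : ℝ))
    (hwb : ∀ x, Rich x → 1 ≤ wbF ch d Rich PP (1000 * c) x)
    (T : Finset W) (hT : ∀ x ∈ T, Rich x)
    (hinj : Set.InjOn (codeF ch d Rich PP) (T : Set W)) :
    ∑ x ∈ T, piF ch d Rich PP c x * wbF ch d Rich PP (1000 * c) x ≤ 1 / 40 ∧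
      c * ∑ x ∈ T, piF ch d Rich PP c x * wbF ch d Rich PP (1000 * c) x ≤ 1 / 500 :=
  taskForE4_main ch d Rich PP hd c hc hcase hwb (T.sup (htF ch d Rich)) T hT hinj
    (fun x hx => Finset.le_sup hx)

/-! ### FOR-F1 : the total weight -/

theorem sum_wtF_le (H : SimpleGraph W) (d : W → ℕ) (hdep : IsDepth H d) (n : ℕ) (hn : 0 < n)
    (hW : Fintype.card W ≤ n) (q : ℝ) (hq0 : 0 < q) (hq1 : q ≤ 1)
    (hq : ∀ F : H.Subgraph, 1 / 2 ≤ gnpExp n q (fun G => (G.copyCount F.coe : ℝ))) :
    ∑ x, wtF (chF H d) d (1000 * (n * q)) x ≤ 2 * n := by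
  classical
  have hnR : (0 : ℝ) < n := by exact_mod_cast hn
  have hc : (0 : ℝ) < n * q := mul_pos hnR hq0
  have hΛ : (0 : ℝ) < 1000 * (n * q) := by positivity
  obtain ⟨ch, hch⟩ : ∃ ch : W → Finset W, ch = chF H d := ⟨_, rfl⟩
  have hd : ∀ x, ∀ y ∈ ch x, d y = d x + 1 := by
    rw [hch]
    exact chF_depth H d
  have hpar : ∀ x x' y, y ∈ ch x → y ∈ ch x' → x = x' := by
    rw [hch]
    exact chF_par_unique H d hdep
  have hchH : ∀ x, ∀ y ∈ ch x, H.Adj x y := by
    intro x y hy
    rw [hch] at hy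
    exact ((mem_chF H d x y).1 hy).1
  rw [← hch]
  obtain ⟨Rich, hRich⟩ : ∃ Rich : W → Prop, Rich = richF ch d (1000 * (n * q)) := ⟨_, rfl⟩
  obtain ⟨PP, hPPdef⟩ : ∃ PP : W → Finset W, PP = ppF ch d (1000 * (n * q)) := ⟨_, rfl⟩
  have hPP : ∀ x, ∀ y ∈ PP x, y ∈ ch x ∧ ¬ Rich y := by
    rw [hPPdef, hRich]
    exact ppF_spec ch d hd _
  have hne : ∀ x, Rich x → (PP x ∪ RR ch Rich x).Nonempty := by
    rw [hPPdef, hRich]
    exact fun x hx => ppF_RR_nonempty ch d hd _ hΛ x hx
  have hcase : ∀ x, (PP x).card = 0 ∨ 1000 * ((n : ℝ) * q) < 2 * ((PP x).card : ℝ) := by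
    rw [hPPdef]
    exact fun x => ppF_case ch d hd _ hΛ x
  have hwtwb : ∀ x, Rich x →
      wtF ch d (1000 * (n * q)) x ≤ wbF ch d Rich PP (1000 * (n * q)) x := by
    rw [hPPdef, hRich]
    exact fun x hx => wtF_le_wbF ch d hd _ hΛ x hx
  have hwb : ∀ x, Rich x → 1 ≤ wbF ch d Rich PP (1000 * (n * q)) x := by
    intro x hx
    have h1 : 1 < wtF ch d (1000 * (n * q)) x := by
      rw [hRich] at hx
      exact hx
    exact le_trans h1.le (hwtwb x hx)
  obtain ⟨T, hTR, hTinj, hTcov⟩ := exists_reps ch d Rich PP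
  have hgf := (gf_bound ch d Rich PP hd (n * q) hc hcase hwb T hTR hTinj).1
  have hsplit : ∑ x, wtF ch d (1000 * (n * q)) x
      = ∑ x ∈ Finset.univ.filter Rich, wtF ch d (1000 * (n * q)) x
        + ∑ x ∈ Finset.univ.filter (fun x => ¬ Rich x), wtF ch d (1000 * (n * q)) x :=
    (Finset.sum_filter_add_sum_filter_not Finset.univ Rich _).symm
  have hpoor : ∑ x ∈ Finset.univ.filter (fun x => ¬ Rich x), wtF ch d (1000 * (n * q)) x
      ≤ n := by
    have h1 : ∀ x ∈ Finset.univ.filter (fun x => ¬ Rich x),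
        wtF ch d (1000 * (n * q)) x = 1 := by
      intro x hx
      rw [Finset.mem_filter] at hx
      have h2 := hx.2
      rw [hRich] at h2
      exact wtF_eq_one_of_not_rich ch d hd _ x h2
    rw [Finset.sum_congr rfl h1, Finset.sum_const, nsmul_eq_mul, mul_one]
    have h3 : (Finset.univ.filter (fun x => ¬ Rich x)).card ≤ Fintype.card W :=
      Finset.card_le_univ _
    exact_mod_cast le_trans h3 hW
  have hQmem : ∀ t x, x ∈ QF ch d Rich PP t ↔
      Rich x ∧ codeF ch d Rich PP x = codeF ch d Rich PP t := by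
    intro t x
    unfold QF
    simp only [Finset.mem_filter, Finset.mem_univ, true_and]
  have hset : Finset.univ.filter Rich = T.biUnion (QF ch d Rich PP) := by
    ext x
    rw [Finset.mem_filter, Finset.mem_biUnion]
    constructor
    · rintro ⟨-, hx⟩
      obtain ⟨t, ht, hcode⟩ := hTcov x hx
      exact ⟨t, ht, (hQmem t x).2 ⟨hx, hcode.symm⟩⟩
    · rintro ⟨t, ht, hx⟩
      exact ⟨Finset.mem_univ x, ((hQmem t x).1 hx).1⟩
  have hdisj : Set.PairwiseDisjoint (T : Set W) (QF ch d Rich PP) := by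
    intro t ht t' ht' hne'
    show Disjoint (QF ch d Rich PP t) (QF ch d Rich PP t')
    refine Finset.disjoint_left.mpr ?_
    intro x hx hx'
    apply hne'
    apply hTinj ht ht'
    rw [← ((hQmem t x).1 hx).2, ← ((hQmem t' x).1 hx').2]
  have hrich : ∑ x ∈ Finset.univ.filter Rich, wtF ch d (1000 * (n * q)) x ≤ 6 * n / 40 := by
    calc ∑ x ∈ Finset.univ.filter Rich, wtF ch d (1000 * (n * q)) x
        ≤ ∑ x ∈ Finset.univ.filter Rich, wbF ch d Rich PP (1000 * (n * q)) x :=
          Finset.sum_le_sum fun x hx => hwtwb x (Finset.mem_filter.mp hx).2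
      _ = ∑ t ∈ T, ∑ x ∈ QF ch d Rich PP t, wbF ch d Rich PP (1000 * (n * q)) x := by
          rw [hset]
          exact Finset.sum_biUnion hdisj
      _ ≤ ∑ t ∈ T, 6 * (n * piF ch d Rich PP (n * q) t)
            * wbF ch d Rich PP (1000 * (n * q)) t := by
          apply Finset.sum_le_sum
          intro t ht
          have h1 : ∀ x ∈ QF ch d Rich PP t, wbF ch d Rich PP (1000 * (n * q)) x
              = wbF ch d Rich PP (1000 * (n * q)) t := by
            intro x hx
            exact wbF_congr ch d Rich PP hd _ x t ((hQmem t x).1 hx).2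
          rw [Finset.sum_congr rfl h1, Finset.sum_const, nsmul_eq_mul]
          have h2 := class_card_le ch d Rich PP hd hpar hPP H hchH hne n hn q hq0 hq1 hq t
            (hTR t ht)
          exact mul_le_mul_of_nonneg_right h2 (le_trans zero_le_one (hwb t (hTR t ht)))
      _ = 6 * n * ∑ t ∈ T, piF ch d Rich PP (n * q) t
            * wbF ch d Rich PP (1000 * (n * q)) t := by
          rw [Finset.mul_sum]
          exact Finset.sum_congr rfl fun t _ => by ring
      _ ≤ 6 * n * (1 / 40) := mul_le_mul_of_nonneg_left hgf (by positivity)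
      _ = 6 * n / 40 := by ring
  rw [hsplit]
  linarith

/-! ### FOR-F2 : the counting theorem for forests -/

theorem taskForF2_two_mul_le (k : ℕ) : (2 : ℝ) * ((k : ℝ) + 2) ≤ 10 ^ (k + 1) := by
  induction k with
  | zero => norm_num
  | succ k ih =>
    have h1 : (10 : ℝ) ^ (k + 1 + 1) = 10 * 10 ^ (k + 1) := by
      rw [pow_succ]
      ring
    rw [h1]
    push_cast
    have h2 : (0 : ℝ) ≤ k := Nat.cast_nonneg k
    nlinarith

omit [DecidableEq W] in
theorem taskForF2_trivial {V : Type} [Fintype V] (S : SimpleGraph V) (H : SimpleGraph W) :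
    H.labelledCopyCount S ≤ Fintype.card W ^ Fintype.card V := by
  classical
  unfold SimpleGraph.labelledCopyCount
  rw [← Fintype.card_fun, Fintype.card_eq_nat_card, Fintype.card_eq_nat_card]
  exact Nat.card_le_card_of_injective (fun c : S.Copy H => (c : V → W))
    DFunLike.coe_injective

omit [DecidableEq W] in
theorem taskForF2_trivial_real {V : Type} [Fintype V] (S : SimpleGraph V) (H : SimpleGraph W)
    (n : ℕ) (hW : Fintype.card W ≤ n) :
    (H.labelledCopyCount S : ℝ) ≤ (n : ℝ) ^ Fintype.card V := by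
  have h1 := taskForF2_trivial S H
  calc (H.labelledCopyCount S : ℝ)
      ≤ ((Fintype.card W ^ Fintype.card V : ℕ) : ℝ) := by exact_mod_cast h1
    _ ≤ (n : ℝ) ^ Fintype.card V := by
        push_cast
        exact pow_le_pow_left₀ (Nat.cast_nonneg _) (by exact_mod_cast hW) _

theorem taskForF2_connected (H : SimpleGraph W) (hH : H.IsAcyclic) (n : ℕ)
    (hn : 0 < n) (hW : Fintype.card W ≤ n) (q : ℝ) (hq0 : 0 < q) (hq1 : q ≤ 1)
    (hq : ∀ F : H.Subgraph, 1 / 2 ≤ gnpExp n q (fun G => (G.copyCount F.coe : ℝ)))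
    {V : Type} [Fintype V] (S : SimpleGraph V) (hS : S.Connected) :
    (H.labelledCopyCount S : ℝ)
      ≤ (n : ℝ) ^ Fintype.card V * (10000 * q) ^ S.edgeSet.ncard := by
  classical
  by_cases hac : S.IsAcyclic
  · have htree : S.IsTree := ⟨hS, hac⟩
    have hedge : S.edgeSet.ncard + 1 = Fintype.card V := by
      rw [Set.ncard_eq_toFinset_card']
      exact htree.card_edgeFinset
    obtain ⟨k, hk⟩ : ∃ k, S.edgeSet.ncard = k := ⟨_, rfl⟩
    have hV : Fintype.card V = k + 1 := by omega
    have hn' : (0 : ℝ) < n := by exact_mod_cast hn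
    rcases Nat.eq_zero_or_pos k with hk0 | hkpos
    · have h1 := taskForF2_trivial_real S H n hW
      rw [hk, hk0, pow_zero, mul_one]
      exact h1
    · obtain ⟨j, hj⟩ : ∃ j, k = j + 1 := ⟨k - 1, by omega⟩
      obtain ⟨d, hdep⟩ := exists_isDepth H hH
      have hΛ : (0 : ℝ) < 1000 * (n * q) := by positivity
      have h1 := labelledCopyCount_connected_le_wt S hS H d hdep (1000 * (n * q)) hΛ
      have h2 := sum_wtF_le H d hdep n hn hW q hq0 hq1 hq
      have hV2 : Fintype.card V - 1 = j + 1 := by omega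
      have hV3 : Fintype.card V = j + 2 := by omega
      rw [hV2, hV3] at h1
      rw [hk, hj, hV3]
      have h3 := taskForF2_two_mul_le j
      have hpos : (0 : ℝ) ≤ (1000 * (n * q)) ^ (j + 1) := by positivity
      have hc : (0 : ℝ) ≤ ((j + 2 : ℕ) : ℝ) := Nat.cast_nonneg _
      calc (H.labelledCopyCount S : ℝ)
          ≤ ((j + 2 : ℕ) : ℝ) * (∑ x, wtF (chF H d) d (1000 * (n * q)) x)
              * (1000 * (n * q)) ^ (j + 1) := h1
        _ ≤ ((j + 2 : ℕ) : ℝ) * (2 * n) * (1000 * (n * q)) ^ (j + 1) :=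
            mul_le_mul_of_nonneg_right (mul_le_mul_of_nonneg_left h2 hc) hpos
        _ = (2 * ((j : ℝ) + 2)) * ((n : ℝ) ^ (j + 2) * (1000 * q) ^ (j + 1)) := by
            push_cast
            rw [mul_pow, mul_pow, mul_pow]
            ring
        _ ≤ (10 : ℝ) ^ (j + 1) * ((n : ℝ) ^ (j + 2) * (1000 * q) ^ (j + 1)) :=
            mul_le_mul_of_nonneg_right h3 (by positivity)
        _ = (n : ℝ) ^ (j + 2) * (10000 * q) ^ (j + 1) := by
            rw [mul_pow, mul_pow]
            have e : (10000 : ℝ) ^ (j + 1) = 10 ^ (j + 1) * 1000 ^ (j + 1) := by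
              rw [← mul_pow]
              norm_num
            rw [e]
            ring
  · have h0 : H.labelledCopyCount S = 0 := by
      rw [SimpleGraph.labelledCopyCount_eq_zero]
      rintro ⟨c⟩
      exact hac (hH.comap c.toHom c.injective)
    rw [h0]
    have hn' : (0 : ℝ) < n := by exact_mod_cast hn
    simp only [Nat.cast_zero]
    positivity

theorem taskForF2_all (H : SimpleGraph W) (hH : H.IsAcyclic) (n : ℕ)
    (hn : 0 < n) (hW : Fintype.card W ≤ n) (q : ℝ) (hq0 : 0 < q) (hq1 : q ≤ 1)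
    (hq : ∀ F : H.Subgraph, 1 / 2 ≤ gnpExp n q (fun G => (G.copyCount F.coe : ℝ))) :
    ∀ (m : ℕ) (V : Type) [Fintype V] (S : SimpleGraph V), Fintype.card V = m →
      (H.labelledCopyCount S : ℝ)
        ≤ (n : ℝ) ^ Fintype.card V * (10000 * q) ^ S.edgeSet.ncard := by
  intro m
  induction m using Nat.strong_induction_on with
  | _ m ih =>
    intro V _ S hm
    by_cases hconn : S.Connected
    · exact taskForF2_connected H hH n hn hW q hq0 hq1 hq S hconn
    · rcases isEmpty_or_nonempty V with hemp | hne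
      · rw [SimpleGraph.labelledCopyCount_of_isEmpty]
        have h0 : S.edgeSet.ncard = 0 := by
          rw [Set.eq_empty_of_isEmpty S.edgeSet, Set.ncard_empty]
        rw [h0, Fintype.card_eq_zero]
        simp
      · obtain ⟨u⟩ := hne
        classical
        obtain ⟨A, hAdef⟩ : ∃ A : Set V, A = {w | S.Reachable u w} := ⟨_, rfl⟩
        have hA : ∀ a ∈ A, ∀ b, S.Adj a b → b ∈ A := by
          intro a ha b hab
          rw [hAdef] at ha ⊢
          exact ha.trans hab.reachable
        have huA : u ∈ A := by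
          rw [hAdef]
          exact SimpleGraph.Reachable.refl u
        have hAne : ∃ z, z ∉ A := by
          by_contra hall
          apply hconn
          have : Nonempty V := ⟨u⟩
          refine SimpleGraph.Connected.mk (fun x y => ?_)
          have hx : x ∈ A := by
            by_contra hx
            exact hall ⟨x, hx⟩
          have hy : y ∈ A := by
            by_contra hy
            exact hall ⟨y, hy⟩
          rw [hAdef] at hx hy
          exact hx.symm.trans hy
        obtain ⟨z, hz⟩ := hAne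
        have hcA : Fintype.card A < m := by
          rw [← hm]
          exact Fintype.card_subtype_lt hz
        have hcB : Fintype.card ↥Aᶜ < m := by
          rw [← hm]
          exact Fintype.card_subtype_lt (x := u) (fun h => h huA)
        have hsum : Fintype.card A + Fintype.card ↥Aᶜ = Fintype.card V := by
          rw [Fintype.card_compl_set]
          have h2 : Fintype.card A ≤ Fintype.card V := set_fintype_card_le_univ A
          omega
        have h1 := ih _ hcA A (S.induce A) rfl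
        have h2 := ih _ hcB ↥Aᶜ (S.induce Aᶜ) rfl
        have h3 := labelledCopyCount_le_mul_induce S H A
        have h4 := ncard_edgeSet_induce_add S A hA
        have hy : (0 : ℝ) ≤ 10000 * q := by positivity
        calc (H.labelledCopyCount S : ℝ)
            ≤ (H.labelledCopyCount (S.induce A) : ℝ)
                * (H.labelledCopyCount (S.induce Aᶜ) : ℝ) := by exact_mod_cast h3
          _ ≤ ((n : ℝ) ^ Fintype.card A * (10000 * q) ^ (S.induce A).edgeSet.ncard)
                * ((n : ℝ) ^ Fintype.card ↥Aᶜ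
                    * (10000 * q) ^ (S.induce Aᶜ).edgeSet.ncard) :=
              mul_le_mul h1 h2 (Nat.cast_nonneg _)
                (mul_nonneg (pow_nonneg (Nat.cast_nonneg _) _) (pow_nonneg hy _))
          _ = (n : ℝ) ^ Fintype.card V * (10000 * q) ^ S.edgeSet.ncard := by
              have e1 : (n : ℝ) ^ Fintype.card V
                  = (n : ℝ) ^ Fintype.card A * (n : ℝ) ^ Fintype.card ↥Aᶜ := by
                rw [← pow_add, hsum]
              have e2 : (10000 * q) ^ S.edgeSet.ncard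
                  = (10000 * q) ^ (S.induce A).edgeSet.ncard
                    * (10000 * q) ^ (S.induce Aᶜ).edgeSet.ncard := by
                rw [← pow_add, h4]
              rw [e1, e2]
              ring

theorem labelledCopyCount_le_forest (H : SimpleGraph W) (hH : H.IsAcyclic) (n : ℕ)
    (hn : 0 < n) (hW : Fintype.card W ≤ n) (q : ℝ) (hq0 : 0 < q)
    (hq : ∀ F : H.Subgraph, 1 / 2 ≤ gnpExp n q (fun G => (G.copyCount F.coe : ℝ)))
    (V : Type) [Fintype V] (S : SimpleGraph V) :
    (H.labelledCopyCount S : ℝ)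
      ≤ (n : ℝ) ^ Fintype.card V * (10000 * q) ^ S.edgeSet.ncard := by
  rcases le_or_gt q 1 with hq1 | hq1
  · exact taskForF2_all H hH n hn hW q hq0 hq1 hq _ V S rfl
  · have h2 := taskForF2_trivial_real S H n hW
    have h3 : (1 : ℝ) ≤ (10000 * q) ^ S.edgeSet.ncard := one_le_pow₀ (by linarith)
    have hn' : (0 : ℝ) < n := by exact_mod_cast hn
    calc (H.labelledCopyCount S : ℝ) ≤ (n : ℝ) ^ Fintype.card V := h2
      _ = (n : ℝ) ^ Fintype.card V * 1 := by ring
      _ ≤ (n : ℝ) ^ Fintype.card V * (10000 * q) ^ S.edgeSet.ncard :=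
          mul_le_mul_of_nonneg_left h3 (by positivity)


end Vale.Agent.Lib.P064
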