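import Vale.Agent.Lib.P064.DegBound
import Vale.Agent.Lib.P064.BddPc

/-!
General hosts.  The maximum degree of any graph `H` on at most `n` vertices is at most
`21.4 max(n p_E, log n)`, because stars are subgraphs; with the bounded-degree theorems this gives
`p~_E ≤ 1600 p_E max(n p_E, log n)` and `p_c ≤ 56000 p_E log n max(n p_E, log n)` for every `H`.
-/

namespace Vale.Agent.Lib.P064

open Finset

/-- A degree bound for every host: all degrees are at most some `D ≥ 1` with
`D ≤ 21.4 max(n p_E(n,H), log n)`. -/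
theorem exists_degree_bound (n : ℕ) (hn : 2 ≤ n) {W : Type} [Fintype W] (H : SimpleGraph W)
    (hW : Fintype.card W ≤ n) :
    ∃ D : ℕ, 1 ≤ D ∧ (∀ w : W, (H.neighborSet w).ncard ≤ D) ∧
      (D : ℝ) ≤ 21.4 * max (n * pE n H) (Real.log n) := by
  classical
  obtain ⟨hq0, hq1, hq⟩ := pE_mem n H hW
  obtain ⟨q, hqdef⟩ : ∃ q : ℝ, q = pE n H := ⟨_, rfl⟩
  rw [← hqdef] at hq0 hq1 hq ⊢
  obtain ⟨m, hmdef⟩ : ∃ m : ℕ, m = 128 * n ^ 2 := ⟨_, rfl⟩
  obtain ⟨c, hcdef⟩ : ∃ c : ℕ, c = ⌈2 * Real.exp 1 * n * q⌉₊ := ⟨_, rfl⟩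
  obtain ⟨l, hldef⟩ : ∃ l : ℕ, l = Nat.log 2 m := ⟨_, rfl⟩
  have hnpos : (0 : ℝ) < n := by exact_mod_cast (by omega : 0 < n)
  have hx0 : (0 : ℝ) ≤ 2 * Real.exp 1 * n * q := by positivity
  refine ⟨max c (l + 1), ?_, ?_, ?_⟩
  · exact le_trans (Nat.succ_le_succ (Nat.zero_le l)) (le_max_right _ _)
  · intro w
    have h1 : 2 * Real.exp 1 * n * q ≤ ((max c (l + 1) : ℕ) : ℝ) := by
      have : 2 * Real.exp 1 * n * q ≤ (c : ℝ) := by
        rw [hcdef]
        exact Nat.le_ceil _
      exact this.trans (by exact_mod_cast le_max_left c (l + 1))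
    have h2 : 128 * n ^ 2 < 2 ^ (max c (l + 1)) := by
      have h3 : m < 2 ^ (l + 1) := by
        rw [hldef]
        exact Nat.lt_pow_succ_log_self (by norm_num) m
      rw [← hmdef]
      exact h3.trans_le (Nat.pow_le_pow_right (by norm_num) (le_max_right _ _))
    have hdeg := degree_lt_of_admissible n (by omega) H q hq0 hq1 hq (max c (l + 1))
      (le_trans (Nat.succ_le_succ (Nat.zero_le l)) (le_max_right _ _)) h1 h2 w
    have hnc : (H.neighborSet w).ncard = H.degree w := by
      rw [Set.ncard_eq_toFinset_card', ← SimpleGraph.card_neighborFinset_eq_degree]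
      rfl
    rw [hnc]
    exact hdeg.le
  · -- size of the bound
    have hc : (c : ℝ) < 2 * Real.exp 1 * n * q + 1 := by
      rw [hcdef]
      exact Nat.ceil_lt_add_one hx0
    have hl2 : (0.6931471803 : ℝ) < Real.log 2 := Real.log_two_gt_d9
    have hlogn : Real.log 2 ≤ Real.log n :=
      Real.log_le_log (by norm_num) (by exact_mod_cast hn)
    have hl : (l : ℝ) * Real.log 2 ≤ 7 * Real.log 2 + 2 * Real.log n := by
      have hm0 : m ≠ 0 := by
        rw [hmdef]
        positivity
      have h1 : 2 ^ l ≤ m := by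
        rw [hldef]
        exact Nat.pow_log_le_self 2 hm0
      have h2 : ((2 ^ l : ℕ) : ℝ) ≤ ((128 * n ^ 2 : ℕ) : ℝ) := by
        rw [← hmdef]
        exact_mod_cast h1
      push_cast at h2
      have h3 := Real.log_le_log (by positivity) h2
      rw [Real.log_pow, Real.log_mul (by norm_num) (by positivity), Real.log_pow] at h3
      have h4 : Real.log (128 : ℝ) = 7 * Real.log 2 := by
        rw [show (128 : ℝ) = 2 ^ 7 by norm_num, Real.log_pow]
        norm_num
      rw [h4] at h3
      exact_mod_cast h3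
    have hl' : (l : ℝ) ≤ 7 + 2.886 * Real.log n := by
      have hlog0 : 0 ≤ Real.log n := by linarith
      have hl0 : (0 : ℝ) ≤ l := Nat.cast_nonneg _
      nlinarith
    have he : Real.exp 1 < 2.7182818286 := Real.exp_one_lt_d9
    have hnq : (0 : ℝ) ≤ n * q := by positivity
    have hmax1 : (n : ℝ) * q ≤ max (n * q) (Real.log n) := le_max_left _ _
    have hmax2 : Real.log n ≤ max (n * q) (Real.log n) := le_max_right _ _
    have hD : ((max c (l + 1) : ℕ) : ℝ) ≤ (c : ℝ) + (l : ℝ) + 1 := by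
      have : max c (l + 1) ≤ c + l + 1 := by omega
      exact_mod_cast this
    have h13 : (9 : ℝ) ≤ 13 * Real.log n := by nlinarith
    have h2e : 2 * Real.exp 1 * n * q ≤ 5.44 * (n * q) := by nlinarith
    nlinarith

/-- Every host: `p~_E(n,H) ≤ 1600 p_E(n,H) max(n p_E(n,H), log n)`. -/
theorem pEt_le_general (n : ℕ) (hn : 2 ≤ n) {W : Type} [Fintype W] (H : SimpleGraph W)
    (hW : Fintype.card W ≤ n) :
    pEt n H ≤ 1600 * pE n H * max (n * pE n H) (Real.log n) := by
  obtain ⟨D, hD1, hD, hDle⟩ := exists_degree_bound n hn H hW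
  have h := pEt_le n (by omega) H hW D hD1 hD
  have hq0 : 0 ≤ pE n H := (pE_mem n H hW).1
  calc pEt n H ≤ 74 * D * pE n H := h
    _ = 74 * pE n H * D := by ring
    _ ≤ 74 * pE n H * (21.4 * max (n * pE n H) (Real.log n)) :=
        mul_le_mul_of_nonneg_left hDle (by positivity)
    _ = 1583.6 * pE n H * max (n * pE n H) (Real.log n) := by ring
    _ ≤ 1600 * pE n H * max (n * pE n H) (Real.log n) := by
        have hmax : 0 ≤ max (n * pE n H) (Real.log n) :=
          le_max_of_le_left (by positivity)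
        have : 0 ≤ pE n H * max (n * pE n H) (Real.log n) := mul_nonneg hq0 hmax
        nlinarith

/-- Every host with an edge: `p_c(n,H) ≤ 56000 p_E(n,H) log n max(n p_E(n,H), log n)`. -/
theorem pc_le_general (n : ℕ) (hn : 2 ≤ n) {W : Type} [Fintype W] (H : SimpleGraph W)
    (hW : Fintype.card W ≤ n) (hH : ∃ a b, H.Adj a b) :
    pc n H ≤ 56000 * pE n H * Real.log n * max (n * pE n H) (Real.log n) := by
  obtain ⟨D, hD1, hD, hDle⟩ := exists_degree_bound n hn H hW
  have h := pc_le_log n hn H hW hH D hD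
  have hq0 : 0 ≤ pE n H := (pE_mem n H hW).1
  have hlogn : 0 ≤ Real.log n := Real.log_nonneg (by exact_mod_cast (by omega : 1 ≤ n))
  have hmax : 0 ≤ max (n * pE n H) (Real.log n) := le_max_of_le_left (by positivity)
  calc pc n H ≤ 2600 * D * pE n H * Real.log n := h
    _ = 2600 * pE n H * Real.log n * D := by ring
    _ ≤ 2600 * pE n H * Real.log n * (21.4 * max (n * pE n H) (Real.log n)) :=
        mul_le_mul_of_nonneg_left hDle (by positivity)
    _ = 55640 * pE n H * Real.log n * max (n * pE n H) (Real.log n) := by ring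
    _ ≤ 56000 * pE n H * Real.log n * max (n * pE n H) (Real.log n) := by
        have : 0 ≤ pE n H * Real.log n * max (n * pE n H) (Real.log n) :=
          mul_nonneg (mul_nonneg hq0 hlogn) hmax
        nlinarith

end Vale.Agent.Lib.P064
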