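import Mathlib

/-!
The binomial random graph `G(n,p)` on `Fin n` as a finite weighted sum over edge sets, the
containment threshold `pc` and the expectation threshold `pE` (P064).
-/

namespace Vale.Agent.Lib.P064

open Finset

/-- The edges of the complete graph on `Fin n`. -/
def edgesKn (n : ℕ) : Finset (Sym2 (Fin n)) := (⊤ : SimpleGraph (Fin n)).edgeFinset

/-- The graph on `Fin n` whose edge set is `A`. -/
def graphOf {n : ℕ} (A : Finset (Sym2 (Fin n))) : SimpleGraph (Fin n) :=
  SimpleGraph.fromEdgeSet (A : Set (Sym2 (Fin n)))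

/-- Expectation of `f (G(n,p))`: the edge set `A` of `G(n,p)` is a subset of the edges of the
complete graph, taken with probability `p^|A| (1-p)^(C(n,2)-|A|)`. -/
noncomputable def gnpExp (n : ℕ) (p : ℝ) (f : SimpleGraph (Fin n) → ℝ) : ℝ :=
  ∑ A ∈ (edgesKn n).powerset,
    p ^ A.card * (1 - p) ^ ((edgesKn n).card - A.card) * f (graphOf A)

/-- Probability that `G(n,p)` has at least one subgraph isomorphic to `H`. -/
noncomputable def containsProb (n : ℕ) (p : ℝ) {W : Type} (H : SimpleGraph W) : ℝ :=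
  gnpExp n p (fun G => if 0 < G.copyCount H then 1 else 0)

/-- The threshold `p_c(n,H)`. -/
noncomputable def pc (n : ℕ) {W : Type} (H : SimpleGraph W) : ℝ :=
  sInf {p : ℝ | 0 ≤ p ∧ p ≤ 1 ∧ 1 / 2 ≤ containsProb n p H}

/-- The expectation threshold `p_E(n,H)`. -/
noncomputable def pE (n : ℕ) {W : Type} (H : SimpleGraph W) : ℝ :=
  sInf {p : ℝ | 0 ≤ p ∧ p ≤ 1 ∧
    ∀ F : H.Subgraph, 1 / 2 ≤ gnpExp n p (fun G => (G.copyCount F.coe : ℝ))}

/-- Total weight of the edge sets containing a fixed set `T`. -/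
theorem sum_weight_superset {α : Type*} [DecidableEq α] (E T : Finset α) (hT : T ⊆ E) (p : ℝ) :
    ∑ A ∈ E.powerset, (if T ⊆ A then p ^ A.card * (1 - p) ^ (E.card - A.card) else 0)
      = p ^ T.card := by
  have h := Finset.prod_add (fun _ : α => p) (fun e => if e ∈ T then (0 : ℝ) else 1 - p) E
  have hL : ∏ a ∈ E, (p + if a ∈ T then (0 : ℝ) else 1 - p) = p ^ T.card := by
    have h1 : ∀ a ∈ E, (p + if a ∈ T then (0 : ℝ) else 1 - p) = if a ∈ T then p else 1 := by
      intro a _
      split_ifs <;> ring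
    rw [Finset.prod_congr rfl h1, Finset.prod_ite, Finset.prod_const_one, mul_one,
      Finset.prod_const]
    congr 1
    rw [Finset.filter_mem_eq_inter, Finset.inter_eq_right.mpr hT]
  rw [← hL, h]
  apply Finset.sum_congr rfl
  intro A hA
  rw [Finset.mem_powerset] at hA
  rw [Finset.prod_const]
  split_ifs with hTA
  · have h2 : ∀ a ∈ E \ A, (if a ∈ T then (0 : ℝ) else 1 - p) = 1 - p := by
      intro a ha
      rw [Finset.mem_sdiff] at ha
      rw [if_neg (fun h => ha.2 (hTA h))]
    rw [Finset.prod_congr rfl h2, Finset.prod_const, Finset.card_sdiff_of_subset hA]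
  · obtain ⟨a, haT, haA⟩ := Finset.not_subset.mp hTA
    rw [Finset.prod_eq_zero (i := a) (Finset.mem_sdiff.mpr ⟨hT haT, haA⟩) (by simp [haT]),
      mul_zero]

theorem graphOf_edgesKn (n : ℕ) : graphOf (edgesKn n) = (⊤ : SimpleGraph (Fin n)) := by
  unfold graphOf edgesKn
  rw [SimpleGraph.coe_edgeFinset, SimpleGraph.fromEdgeSet_edgeSet]

/-- At `p = 1` the random graph is the complete graph. -/
theorem gnpExp_one (n : ℕ) (f : SimpleGraph (Fin n) → ℝ) : gnpExp n 1 f = f ⊤ := by
  unfold gnpExp
  rw [Finset.sum_eq_single (edgesKn n)]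
  · simp [graphOf_edgesKn]
  · intro A hA hne
    have hlt : A.card < (edgesKn n).card :=
      Finset.card_lt_card (Finset.ssubset_iff_subset_ne.mpr ⟨Finset.mem_powerset.mp hA, hne⟩)
    have : (edgesKn n).card - A.card ≠ 0 := by omega
    simp [this]
  · intro h
    exact absurd (Finset.mem_powerset_self _) h

/-- A graph on at most `n` vertices is contained in the complete graph on `Fin n`. -/
theorem contained_top {V : Type*} [Fintype V] (F : SimpleGraph V) {n : ℕ}
    (h : Fintype.card V ≤ n) : SimpleGraph.IsContained F (⊤ : SimpleGraph (Fin n)) := by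
  obtain ⟨f⟩ : Nonempty (V ↪ Fin n) :=
    Function.Embedding.nonempty_of_card_le (by simpa using h)
  exact ⟨⟨⟨f, fun {a b} hab => by
    rw [SimpleGraph.top_adj]
    exact fun hf => F.ne_of_adj hab (f.injective hf)⟩, f.injective⟩⟩

end Vale.Agent.Lib.P064
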