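import Mathlib

/-!
Arithmetic for the sunflower bound (P064).
-/

namespace Vale.Agent.Lib.P064

/-- If `N C(m,t) y^t ≥ 1/2` and `N ≤ 2^J` then `t ≤ 3 m y + J + 1`. -/
theorem sunflower_arith (N m t J : ℕ) (y : ℝ) (hy : 0 ≤ y) (hN : N ≤ 2 ^ J)
    (h : 1 / 2 ≤ (N : ℝ) * (m.choose t : ℝ) * y ^ t) :
    (t : ℝ) ≤ 3 * (m * y) + J + 1 := by
  by_contra hcon
  rw [not_le] at hcon
  obtain ⟨x, hx⟩ : ∃ x : ℝ, x = m * y := ⟨_, rfl⟩
  rw [← hx] at hcon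
  have hx0 : 0 ≤ x := by rw [hx]; positivity
  have hJ0 : (0 : ℝ) ≤ J := Nat.cast_nonneg J
  have ht0 : (0 : ℝ) < t := by linarith
  have hf : (0 : ℝ) < t.factorial := by exact_mod_cast Nat.factorial_pos t
  -- step 1: t! ≤ 2^(J+1) * x^t
  have hfact : (t.factorial : ℝ) ≤ 2 ^ (J + 1) * x ^ t := by
    have hc : (m.choose t : ℝ) ≤ (m : ℝ) ^ t / t.factorial := Nat.choose_le_pow_div t m
    have hN' : (N : ℝ) ≤ 2 ^ J := by exact_mod_cast hN
    have h1 : (N : ℝ) * (m.choose t : ℝ) * y ^ t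
        ≤ 2 ^ J * ((m : ℝ) ^ t / t.factorial) * y ^ t := by gcongr
    have h2 : (2 : ℝ) ^ J * ((m : ℝ) ^ t / t.factorial) * y ^ t
        = 2 ^ J * x ^ t / t.factorial := by
      rw [hx, mul_pow]
      field_simp
    have h3 : 1 / 2 ≤ (2 : ℝ) ^ J * x ^ t / t.factorial := by linarith
    rw [le_div_iff₀ hf] at h3
    rw [pow_succ]
    linarith
  -- step 2: t^t ≤ t! * exp t
  have hexp : (t : ℝ) ^ t ≤ t.factorial * Real.exp t := by
    have h1 := Real.pow_div_factorial_le_exp (t : ℝ) (Nat.cast_nonneg t) t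
    rw [div_le_iff₀ hf] at h1
    linarith
  -- step 3: x ≤ (t - (J+1))/3
  have hxle : x ≤ ((t : ℝ) - ((J + 1 : ℕ) : ℝ)) / 3 := by
    push_cast
    linarith
  have hpow : x ^ t ≤ (((t : ℝ) - ((J + 1 : ℕ) : ℝ)) / 3) ^ t := pow_le_pow_left₀ hx0 hxle t
  have hs_le : ((J + 1 : ℕ) : ℝ) ≤ t := by
    push_cast
    linarith
  have hone := Real.one_sub_div_pow_le_exp_neg hs_le
  have e1 : (((t : ℝ) - ((J + 1 : ℕ) : ℝ)) / 3) ^ t
      = (t : ℝ) ^ t * (1 - ((J + 1 : ℕ) : ℝ) / t) ^ t / 3 ^ t := by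
    rw [← mul_pow, ← div_pow]
    congr 1
    field_simp
  have htt : (0 : ℝ) < (t : ℝ) ^ t := by positivity
  have key : (1 : ℝ) ≤ 2 ^ (J + 1) * Real.exp (-((J + 1 : ℕ) : ℝ)) * (Real.exp t / 3 ^ t) := by
    have h5 : (t : ℝ) ^ t ≤ (t : ℝ) ^ t
        * (2 ^ (J + 1) * Real.exp (-((J + 1 : ℕ) : ℝ)) * (Real.exp t / 3 ^ t)) := by
      calc (t : ℝ) ^ t ≤ t.factorial * Real.exp t := hexp
        _ ≤ 2 ^ (J + 1) * x ^ t * Real.exp t := by gcongr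
        _ ≤ 2 ^ (J + 1) * (((t : ℝ) - ((J + 1 : ℕ) : ℝ)) / 3) ^ t * Real.exp t := by gcongr
        _ = 2 ^ (J + 1) * ((t : ℝ) ^ t * (1 - ((J + 1 : ℕ) : ℝ) / t) ^ t / 3 ^ t)
            * Real.exp t := by rw [e1]
        _ ≤ 2 ^ (J + 1) * ((t : ℝ) ^ t * Real.exp (-((J + 1 : ℕ) : ℝ)) / 3 ^ t)
            * Real.exp t := by gcongr
        _ = _ := by ring
    by_contra hlt
    rw [not_le] at hlt
    nlinarith
  have hA : (2 : ℝ) ^ (J + 1) * Real.exp (-((J + 1 : ℕ) : ℝ)) < 1 := by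
    have h6 : Real.exp (-((J + 1 : ℕ) : ℝ)) = (Real.exp (-1)) ^ (J + 1) := by
      rw [← Real.exp_nat_mul]
      congr 1
      ring
    rw [h6, ← mul_pow]
    apply pow_lt_one₀ (by positivity) _ (by omega)
    rw [Real.exp_neg, ← div_eq_mul_inv, div_lt_one (Real.exp_pos 1)]
    have := Real.exp_one_gt_d9
    linarith
  have hA0 : (0 : ℝ) ≤ 2 ^ (J + 1) * Real.exp (-((J + 1 : ℕ) : ℝ)) := by positivity
  have hB : Real.exp t / 3 ^ t ≤ 1 := by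
    have h7 : Real.exp (t : ℝ) = (Real.exp 1) ^ t := by
      rw [← Real.exp_nat_mul]
      simp
    rw [h7, ← div_pow]
    apply pow_le_one₀ (by positivity)
    rw [div_le_one (by norm_num)]
    have := Real.exp_one_lt_d9
    linarith
  have h8 := mul_le_of_le_one_right hA0 hB
  linarith

end Vale.Agent.Lib.P064
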