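import Vale.Agent.Lib.P064.LogSunCount
import Vale.Agent.Lib.P064.LogSunArith

/-!
The sunflower bound (P064): extensions of one pinned map with pairwise disjoint images of `B`
number at most `3 n^|B| q^E + L |boundary| + 1`, where `E` is the number of edges touching `B`
and `n ≤ 2^L`.
-/

namespace Vale.Agent.Lib.P064

open Finset

variable {V W : Type} [Fintype V] [DecidableEq V] [Fintype W] [DecidableEq W]

theorem sunflower_card_le (H : SimpleGraph W) (n : ℕ) (hn : 0 < n) (q : ℝ) (hq0 : 0 ≤ q)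
    (hq1 : q ≤ 1)
    (hq : ∀ F : H.Subgraph, 1 / 2 ≤ gnpExp n q (fun G => (G.copyCount F.coe : ℝ)))
    (L : ℕ) (hL : n ≤ 2 ^ L)
    (K : SimpleGraph V) (A B : Finset V) (hAB : Disjoint A B) (ψ : V → W)
    (D : Finset (V → W)) (hD : D ⊆ Ext K H A B ψ)
    (hdisj : ∀ φ ∈ D, ∀ φ' ∈ D, φ ≠ φ' → Disjoint (B.image φ) (B.image φ'))
    (hE : 1 ≤ eT K (A ∪ B) B) :
    (D.card : ℝ) ≤ 3 * ((n : ℝ) ^ B.card * q ^ eT K (A ∪ B) B)
      + (L : ℝ) * ((bdry K A B).card : ℝ) + 1 := by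
  classical
  obtain ⟨U, hUdef⟩ : ∃ U, U = D.biUnion (fun φ => petal K A B φ) := ⟨_, rfl⟩
  obtain ⟨E, hEdef⟩ : ∃ E, E = eT K (A ∪ B) B := ⟨_, rfl⟩
  obtain ⟨d, hddef⟩ : ∃ d, d = (bdry K A B).card := ⟨_, rfl⟩
  rw [← hEdef, ← hddef]
  -- the union has `D.card * E` edges
  have hUcard : U.card = D.card * E := by
    rw [hUdef, Finset.card_biUnion]
    · rw [Finset.sum_congr rfl (fun φ hφ => petal_card K H A B ψ φ (hD hφ)), Finset.sum_const,
        smul_eq_mul, hEdef]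
    · intro φ hφ φ' hφ' hne
      exact petal_disjoint K H A B hAB ψ φ φ' (hD hφ) (hD hφ') (hdisj φ hφ φ' hφ' hne)
  -- all its edges are edges of `H`
  have hU : ∀ e ∈ U, e ∈ H.edgeSet := by
    intro e he
    rw [hUdef, Finset.mem_biUnion] at he
    obtain ⟨φ, hφ, heφ⟩ := he
    exact petal_sub_edgeSet K H A B ψ φ (hD hφ) e heφ
  have h1 : (1 : ℝ) / 2 ≤ ((imgs U n).card : ℝ) * q ^ U.card :=
    (hq (subOf H U hU)).trans (gnpExp_copyCount_subOf_le H U hU n hn q hq0 hq1)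
  have h2 : (imgs U n).card ≤ n ^ d * (n ^ B.card).choose D.card := by
    rw [hUdef, hddef]
    exact sunflower_imgs_card_le K H A B hAB ψ D hD hdisj hE n hn
  have h2' : ((imgs U n).card : ℝ) ≤ ((n ^ d : ℕ) : ℝ) * ((n ^ B.card).choose D.card : ℝ) := by
    exact_mod_cast h2
  have hqE : (0 : ℝ) ≤ q ^ E := pow_nonneg hq0 E
  have h3 : (1 : ℝ) / 2 ≤ ((n ^ d : ℕ) : ℝ) * ((n ^ B.card).choose D.card : ℝ)
      * (q ^ E) ^ D.card := by
    have h4 : q ^ U.card = (q ^ E) ^ D.card := by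
      rw [hUcard, mul_comm, pow_mul]
    rw [h4] at h1
    exact h1.trans (mul_le_mul_of_nonneg_right h2' (pow_nonneg hqE _))
  have hN : n ^ d ≤ 2 ^ (L * d) := by
    rw [pow_mul]
    exact Nat.pow_le_pow_left hL d
  have h5 := sunflower_arith (n ^ d) (n ^ B.card) D.card (L * d) (q ^ E) hqE hN h3
  push_cast at h5
  exact h5

end Vale.Agent.Lib.P064
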