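import Vale.Agent.Lib.P064.LogRigid
import Vale.Agent.Lib.P064.LogSun

/-!
The atom bound (P064).  Let `B` be a nonempty block over `A` all of whose nonempty proper parts
are rigid over the rest.  Then the number of extensions of any pinned map is at most
`(3 n^|B| q^E + L |boundary| + 1) |B|^2 (L+1)^(|B|-1)`.
-/

namespace Vale.Agent.Lib.P064

open Finset

variable {V W : Type} [Fintype V] [DecidableEq V] [Fintype W] [DecidableEq W]

theorem atom_card_le (H : SimpleGraph W) (n : ℕ) (hn : 0 < n) (q : ℝ) (hq0 : 0 < q)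
    (hq2 : 2 * q ≤ 1)
    (hq : ∀ F : H.Subgraph, 1 / 2 ≤ gnpExp n q (fun G => (G.copyCount F.coe : ℝ)))
    (L : ℕ) (hL : n ≤ 2 ^ L)
    (K : SimpleGraph V) (A B : Finset V) (hAB : Disjoint A B) (hB : B.Nonempty)
    (hE : 1 ≤ eT K (A ∪ B) B)
    (hii : ∀ S : Finset V, S ⊆ B → S ≠ B → S.Nonempty →
      (n : ℝ) ^ S.card * (2 * q) ^ eT K (A ∪ B) S < 1)
    (ψ : V → W) :
    ((Ext K H A B ψ).card : ℝ)
      ≤ (3 * ((n : ℝ) ^ B.card * q ^ eT K (A ∪ B) B) + (L : ℝ) * ((bdry K A B).card : ℝ) + 1)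
          * (B.card : ℝ) ^ 2 * ((L : ℝ) + 1) ^ (B.card - 1) := by
  classical
  have hq1 : q ≤ 1 := by linarith
  obtain ⟨F, hFT, hFdisj, hFmax⟩ :=
    exists_max_disjoint ((Ext K H A B ψ).image (fun φ => B.image φ))
  have hchoice : ∀ X ∈ F, ∃ φ ∈ Ext K H A B ψ, B.image φ = X := by
    intro X hX
    have h := hFT hX
    rw [Finset.mem_image] at h
    exact h
  obtain ⟨c, hcdef⟩ : ∃ c : Finset W → (V → W), c = fun X =>
      if h : ∃ φ ∈ Ext K H A B ψ, B.image φ = X then h.choose else ψ := ⟨_, rfl⟩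
  have hc : ∀ X ∈ F, c X ∈ Ext K H A B ψ ∧ B.image (c X) = X := by
    intro X hX
    have h := hchoice X hX
    rw [hcdef]
    simp only [dif_pos h]
    exact h.choose_spec
  have hD : F.image c ⊆ Ext K H A B ψ := by
    intro φ hφ
    rw [Finset.mem_image] at hφ
    obtain ⟨X, hX, rfl⟩ := hφ
    exact (hc X hX).1
  have hdisj : ∀ φ ∈ F.image c, ∀ φ' ∈ F.image c, φ ≠ φ' →
      Disjoint (B.image φ) (B.image φ') := by
    intro φ hφ φ' hφ' hne
    rw [Finset.mem_image] at hφ hφ'
    obtain ⟨X, hX, rfl⟩ := hφ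
    obtain ⟨X', hX', rfl⟩ := hφ'
    rw [(hc X hX).2, (hc X' hX').2]
    apply hFdisj X hX X' hX'
    intro h
    exact hne (by rw [h])
  have hsun := sunflower_card_le H n hn q hq0.le hq1 hq L hL K A B hAB ψ (F.image c) hD hdisj hE
  have hcover : Ext K H A B ψ ⊆ ((F.image c) ×ˢ (B ×ˢ B)).biUnion
      (fun t => Ext K H (insert t.2.1 A) (B.erase t.2.1)
        (Function.update ψ t.2.1 (t.1 t.2.2))) := by
    intro φ hφ
    have hmem : B.image φ ∈ (Ext K H A B ψ).image (fun φ => B.image φ) :=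
      Finset.mem_image_of_mem _ hφ
    obtain ⟨X', hX', hnd⟩ := hFmax _ hmem (hB.image φ)
    rw [Finset.not_disjoint_iff] at hnd
    obtain ⟨w, hw1, hw2⟩ := hnd
    rw [Finset.mem_image] at hw1
    obtain ⟨x, hx, hxw⟩ := hw1
    rw [← (hc X' hX').2, Finset.mem_image] at hw2
    obtain ⟨x0, hx0, hx0w⟩ := hw2
    rw [Finset.mem_biUnion]
    refine ⟨(c X', x, x0), ?_, ?_⟩
    · rw [Finset.mem_product, Finset.mem_product]
      exact ⟨Finset.mem_image_of_mem _ hX', hx, hx0⟩
    · have h := ext_pin_mem K H A B ψ φ hφ x hx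
      show φ ∈ Ext K H (insert x A) (B.erase x) (Function.update ψ x (c X' x0))
      rw [hx0w, ← hxw]
      exact h
  have hmember : ∀ t ∈ (F.image c) ×ˢ (B ×ˢ B),
      (Ext K H (insert t.2.1 A) (B.erase t.2.1)
        (Function.update ψ t.2.1 (t.1 t.2.2))).card ≤ (L + 1) ^ (B.card - 1) := by
    intro t ht
    rw [Finset.mem_product, Finset.mem_product] at ht
    obtain ⟨_, hx, _⟩ := ht
    have hdis : Disjoint (insert t.2.1 A) (B.erase t.2.1) := by
      rw [Finset.disjoint_insert_left]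
      exact ⟨Finset.notMem_erase _ _, hAB.mono_right (Finset.erase_subset _ _)⟩
    have hun : insert t.2.1 A ∪ B.erase t.2.1 = A ∪ B := by
      ext v
      simp only [Finset.mem_union, Finset.mem_insert, Finset.mem_erase]
      constructor
      · rintro ((h | h) | ⟨_, h⟩)
        · rw [h]
          exact Or.inr hx
        · exact Or.inl h
        · exact Or.inr h
      · rintro (h | h)
        · exact Or.inl (Or.inr h)
        · by_cases hv : v = t.2.1
          · exact Or.inl (Or.inl hv)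
          · exact Or.inr ⟨hv, h⟩
    have hrig : Rigid K n q (insert t.2.1 A) (B.erase t.2.1) := by
      intro S hS hSne
      rw [hun]
      apply hii S (hS.trans (Finset.erase_subset _ _)) _ hSne
      intro hSB
      have hmem : t.2.1 ∈ S := by
        rw [hSB]
        exact hx
      exact Finset.notMem_erase _ _ (hS hmem)
    have h := rigid_count H n hn q hq0 hq2 hq L hL K _ _ hdis hrig
      (Function.update ψ t.2.1 (t.1 t.2.2))
    rw [Finset.card_erase_of_mem hx] at h
    exact h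
  have hnat : (Ext K H A B ψ).card
      ≤ (F.image c).card * (B.card * B.card) * (L + 1) ^ (B.card - 1) := by
    calc (Ext K H A B ψ).card
        ≤ (((F.image c) ×ˢ (B ×ˢ B)).biUnion
            (fun t => Ext K H (insert t.2.1 A) (B.erase t.2.1)
              (Function.update ψ t.2.1 (t.1 t.2.2)))).card := Finset.card_le_card hcover
      _ ≤ ∑ t ∈ (F.image c) ×ˢ (B ×ˢ B), (Ext K H (insert t.2.1 A) (B.erase t.2.1)
            (Function.update ψ t.2.1 (t.1 t.2.2))).card := Finset.card_biUnion_le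
      _ ≤ ∑ _t ∈ (F.image c) ×ˢ (B ×ˢ B), (L + 1) ^ (B.card - 1) :=
          Finset.sum_le_sum hmember
      _ = (F.image c).card * (B.card * B.card) * (L + 1) ^ (B.card - 1) := by
          rw [Finset.sum_const, smul_eq_mul, Finset.card_product, Finset.card_product]
  have hreal : ((Ext K H A B ψ).card : ℝ)
      ≤ ((F.image c).card : ℝ) * ((B.card : ℝ) * (B.card : ℝ))
          * ((L : ℝ) + 1) ^ (B.card - 1) := by
    exact_mod_cast hnat
  calc ((Ext K H A B ψ).card : ℝ)
      ≤ ((F.image c).card : ℝ) * ((B.card : ℝ) * (B.card : ℝ))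
          * ((L : ℝ) + 1) ^ (B.card - 1) := hreal
    _ = ((F.image c).card : ℝ) * (B.card : ℝ) ^ 2 * ((L : ℝ) + 1) ^ (B.card - 1) := by ring
    _ ≤ (3 * ((n : ℝ) ^ B.card * q ^ eT K (A ∪ B) B) + (L : ℝ) * ((bdry K A B).card : ℝ) + 1)
          * (B.card : ℝ) ^ 2 * ((L : ℝ) + 1) ^ (B.card - 1) := by
        apply mul_le_mul_of_nonneg_right
        · exact mul_le_mul_of_nonneg_right hsun (by positivity)
        · positivity

end Vale.Agent.Lib.P064
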