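import Mathlib

/-!
Arithmetic for the atom bound (P064).
-/

namespace Vale.Agent.Lib.P064

theorem taskAtomArith_n1 (e : ℕ) (he : 1 ≤ e) :
    (3 + (2 : ℝ) ^ e) * ((e : ℝ) + 1) ^ 2 ≤ (20 : ℝ) ^ e := by
  induction e, he using Nat.le_induction with
  | base => norm_num
  | succ k hk ih =>
    have h2 : (0 : ℝ) < 2 ^ k := by positivity
    have hk1 : (1 : ℝ) ≤ (k : ℝ) := by exact_mod_cast hk
    have hA : (3 + (2 : ℝ) ^ (k + 1)) ≤ 2 * (3 + (2 : ℝ) ^ k) := by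
      rw [pow_succ]; nlinarith
    have hB : (((k + 1 : ℕ) : ℝ) + 1) ^ 2 ≤ 4 * ((k : ℝ) + 1) ^ 2 := by
      push_cast; nlinarith
    have hpos : 0 ≤ (3 + (2 : ℝ) ^ k) * ((k : ℝ) + 1) ^ 2 := by positivity
    calc (3 + (2 : ℝ) ^ (k + 1)) * (((k + 1 : ℕ) : ℝ) + 1) ^ 2
        ≤ (2 * (3 + (2 : ℝ) ^ k)) * (4 * ((k : ℝ) + 1) ^ 2) :=
          mul_le_mul hA hB (by positivity) (by positivity)
      _ = 8 * ((3 + (2 : ℝ) ^ k) * ((k : ℝ) + 1) ^ 2) := by ring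
      _ ≤ 20 * ((3 + (2 : ℝ) ^ k) * ((k : ℝ) + 1) ^ 2) := by nlinarith
      _ ≤ 20 * (20 : ℝ) ^ k := by nlinarith
      _ = (20 : ℝ) ^ (k + 1) := by ring

theorem taskAtomArith_n2 (e : ℕ) (he : 1 ≤ e) :
    (3 + (e : ℝ) * (2 : ℝ) ^ e) * (e : ℝ) ^ 2 ≤ (20 : ℝ) ^ e := by
  induction e, he using Nat.le_induction with
  | base => norm_num
  | succ k hk ih =>
    have h2 : (0 : ℝ) < 2 ^ k := by positivity
    have hk1 : (1 : ℝ) ≤ (k : ℝ) := by exact_mod_cast hk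
    have hA : (3 + ((k + 1 : ℕ) : ℝ) * (2 : ℝ) ^ (k + 1)) ≤ 4 * (3 + (k : ℝ) * (2 : ℝ) ^ k) := by
      rw [pow_succ]; push_cast; nlinarith
    have hB : (((k + 1 : ℕ) : ℝ)) ^ 2 ≤ 4 * ((k : ℝ)) ^ 2 := by
      push_cast; nlinarith
    have hpos : 0 ≤ (3 + (k : ℝ) * (2 : ℝ) ^ k) * ((k : ℝ)) ^ 2 := by positivity
    calc (3 + ((k + 1 : ℕ) : ℝ) * (2 : ℝ) ^ (k + 1)) * (((k + 1 : ℕ) : ℝ)) ^ 2
        ≤ (4 * (3 + (k : ℝ) * (2 : ℝ) ^ k)) * (4 * ((k : ℝ)) ^ 2) :=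
          mul_le_mul hA hB (by positivity) (by positivity)
      _ = 16 * ((3 + (k : ℝ) * (2 : ℝ) ^ k) * ((k : ℝ)) ^ 2) := by ring
      _ ≤ 20 * ((3 + (k : ℝ) * (2 : ℝ) ^ k) * ((k : ℝ)) ^ 2) := by nlinarith
      _ ≤ 20 * (20 : ℝ) ^ k := by nlinarith
      _ = (20 : ℝ) ^ (k + 1) := by ring

theorem atom_arith (L b e d : ℕ) (μ : ℝ) (hμ0 : 0 ≤ μ) (hμ : 1 ≤ μ * 2 ^ e) (he : 1 ≤ e)
    (hb1 : 1 ≤ b) (hbe : b ≤ e + 1) (hd : d ≤ e) (hdb : d ≠ 0 → b ≤ e) :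
    (3 * μ + (L : ℝ) * (d : ℝ) + 1) * (b : ℝ) ^ 2 * ((L : ℝ) + 1) ^ (b - 1)
      ≤ μ * (20 * ((L : ℝ) + 1)) ^ e := by
  have hL0 : (0 : ℝ) ≤ (L : ℝ) := Nat.cast_nonneg L
  have hLa : (1 : ℝ) ≤ (L : ℝ) + 1 := by linarith
  have hLa0 : (0 : ℝ) ≤ (L : ℝ) + 1 := by linarith
  have hb0 : (0 : ℝ) ≤ (b : ℝ) := Nat.cast_nonneg b
  have he1 : (1 : ℝ) ≤ (e : ℝ) := by exact_mod_cast he
  have h2e : (0 : ℝ) < (2 : ℝ) ^ e := by positivity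
  have hLae : (0 : ℝ) ≤ ((L : ℝ) + 1) ^ e := by positivity
  rw [mul_pow]
  by_cases hd0 : d = 0
  · subst hd0
    have h1 : 3 * μ + (L : ℝ) * ((0 : ℕ) : ℝ) + 1 ≤ μ * (3 + (2 : ℝ) ^ e) := by
      push_cast; nlinarith
    have h2 : (b : ℝ) ^ 2 ≤ ((e : ℝ) + 1) ^ 2 := by
      have : (b : ℝ) ≤ (e : ℝ) + 1 := by exact_mod_cast hbe
      nlinarith
    have h3 : ((L : ℝ) + 1) ^ (b - 1) ≤ ((L : ℝ) + 1) ^ e :=
      pow_le_pow_right₀ hLa (by omega)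
    have hn1 := taskAtomArith_n1 e he
    have hpow0 : (0 : ℝ) ≤ ((L : ℝ) + 1) ^ (b - 1) := by positivity
    have hlhs0 : (0 : ℝ) ≤ 3 * μ + (L : ℝ) * ((0 : ℕ) : ℝ) + 1 := by
      push_cast; nlinarith
    calc (3 * μ + (L : ℝ) * ((0 : ℕ) : ℝ) + 1) * (b : ℝ) ^ 2 * ((L : ℝ) + 1) ^ (b - 1)
        ≤ (μ * (3 + (2 : ℝ) ^ e)) * ((e : ℝ) + 1) ^ 2 * ((L : ℝ) + 1) ^ e := by
          apply mul_le_mul _ h3 hpow0 (by positivity)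
          exact mul_le_mul h1 h2 (by positivity) (by positivity)
      _ = μ * ((3 + (2 : ℝ) ^ e) * ((e : ℝ) + 1) ^ 2) * ((L : ℝ) + 1) ^ e := by ring
      _ ≤ μ * (20 : ℝ) ^ e * ((L : ℝ) + 1) ^ e := by
          apply mul_le_mul_of_nonneg_right _ hLae
          exact mul_le_mul_of_nonneg_left hn1 hμ0
      _ = μ * ((20 : ℝ) ^ e * ((L : ℝ) + 1) ^ e) := by ring
  · have hbe' : b ≤ e := hdb hd0
    have hdR : (d : ℝ) ≤ (e : ℝ) := by exact_mod_cast hd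
    have hd0R : (0 : ℝ) ≤ (d : ℝ) := Nat.cast_nonneg d
    have hprod : (1 : ℝ) ≤ μ * 2 ^ e := hμ
    have h1 : 3 * μ + (L : ℝ) * (d : ℝ) + 1 ≤ μ * ((L : ℝ) + 1) * (3 + (e : ℝ) * (2 : ℝ) ^ e) := by
      have ha : (L : ℝ) * (d : ℝ) + 1 ≤ ((L : ℝ) + 1) * (e : ℝ) := by nlinarith
      have hb : ((L : ℝ) + 1) * (e : ℝ) ≤ ((L : ℝ) + 1) * (e : ℝ) * (μ * 2 ^ e) := by
        have : (0 : ℝ) ≤ ((L : ℝ) + 1) * (e : ℝ) := by positivity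
        nlinarith
      have hc : 3 * μ ≤ 3 * μ * ((L : ℝ) + 1) := by nlinarith
      nlinarith
    have h2 : (b : ℝ) ^ 2 ≤ (e : ℝ) ^ 2 := by
      have : (b : ℝ) ≤ (e : ℝ) := by exact_mod_cast hbe'
      nlinarith
    have h3 : ((L : ℝ) + 1) ^ (b - 1) ≤ ((L : ℝ) + 1) ^ (e - 1) :=
      pow_le_pow_right₀ hLa (by omega)
    have hn2 := taskAtomArith_n2 e he
    have hpow0 : (0 : ℝ) ≤ ((L : ℝ) + 1) ^ (b - 1) := by positivity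
    have hlhs0 : (0 : ℝ) ≤ 3 * μ + (L : ℝ) * (d : ℝ) + 1 := by positivity
    have hsplit : ((L : ℝ) + 1) * ((L : ℝ) + 1) ^ (e - 1) = ((L : ℝ) + 1) ^ e := by
      rw [← pow_succ']
      congr 1
      omega
    calc (3 * μ + (L : ℝ) * (d : ℝ) + 1) * (b : ℝ) ^ 2 * ((L : ℝ) + 1) ^ (b - 1)
        ≤ (μ * ((L : ℝ) + 1) * (3 + (e : ℝ) * (2 : ℝ) ^ e)) * (e : ℝ) ^ 2
            * ((L : ℝ) + 1) ^ (e - 1) := by
          apply mul_le_mul _ h3 hpow0 (by positivity)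
          exact mul_le_mul h1 h2 (by positivity) (by positivity)
      _ = μ * ((3 + (e : ℝ) * (2 : ℝ) ^ e) * (e : ℝ) ^ 2)
            * (((L : ℝ) + 1) * ((L : ℝ) + 1) ^ (e - 1)) := by ring
      _ = μ * ((3 + (e : ℝ) * (2 : ℝ) ^ e) * (e : ℝ) ^ 2) * ((L : ℝ) + 1) ^ e := by
          rw [hsplit]
      _ ≤ μ * (20 : ℝ) ^ e * ((L : ℝ) + 1) ^ e := by
          apply mul_le_mul_of_nonneg_right _ hLae
          exact mul_le_mul_of_nonneg_left hn2 hμ0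
      _ = μ * ((20 : ℝ) ^ e * ((L : ℝ) + 1) ^ e) := by ring

end Vale.Agent.Lib.P064
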