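import Vale.Agent.Lib.P064.LogRigid

/-!
Sizes in the atom bound (P064): a block all of whose nonempty proper parts are rigid and which
has an extension has at most `E + 1` vertices, and at most `E` vertices when its boundary is
nonempty, where `E` is the number of edges touching the block.
-/

namespace Vale.Agent.Lib.P064

open Finset

variable {V W : Type} [Fintype V] [DecidableEq V] [Fintype W] [DecidableEq W]

theorem atom_sizes (H : SimpleGraph W) (n : ℕ) (hn : 0 < n) (q : ℝ) (hq0 : 0 < q)
    (hq2 : 2 * q ≤ 1)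
    (hq : ∀ F : H.Subgraph, 1 / 2 ≤ gnpExp n q (fun G => (G.copyCount F.coe : ℝ)))
    (K : SimpleGraph V) (A B : Finset V) (hAB : Disjoint A B) (hB : B.Nonempty)
    (hii : ∀ S : Finset V, S ⊆ B → S ≠ B → S.Nonempty →
      (n : ℝ) ^ S.card * (2 * q) ^ eT K (A ∪ B) S < 1)
    (ψ : V → W) (hne : (Ext K H A B ψ).Nonempty) :
    B.card ≤ eT K (A ∪ B) B + 1 ∧ ((bdry K A B).Nonempty → B.card ≤ eT K (A ∪ B) B) := by
  obtain ⟨φ, hφ⟩ := hne
  have key : ∀ x ∈ B, (B.erase x).card ≤ eT K (A ∪ B) (B.erase x) := by
    intro x hx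
    have hmem := ext_pin_mem K H A B ψ φ hφ x hx
    have hdisj : Disjoint (insert x A) (B.erase x) := by
      rw [Finset.disjoint_left]
      intro v hv hv'
      rw [Finset.mem_insert] at hv
      rw [Finset.mem_erase] at hv'
      rcases hv with hvx | hvA
      · exact hv'.1 hvx
      · exact (Finset.disjoint_left.mp hAB hvA) hv'.2
    have hunion : insert x A ∪ B.erase x = A ∪ B := by
      ext v
      simp only [Finset.mem_union, Finset.mem_insert, Finset.mem_erase]
      constructor
      · rintro ((hvx | hvA) | ⟨_, hvB⟩)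
        · exact Or.inr (hvx ▸ hx)
        · exact Or.inl hvA
        · exact Or.inr hvB
      · rintro (hvA | hvB)
        · exact Or.inl (Or.inr hvA)
        · by_cases hvx : v = x
          · exact Or.inl (Or.inl hvx)
          · exact Or.inr ⟨hvx, hvB⟩
    have hR : Rigid K n q (insert x A) (B.erase x) := by
      intro S hS hSne
      rw [hunion]
      refine hii S (hS.trans (Finset.erase_subset x B)) ?_ hSne
      intro hSB
      have hxS : x ∈ B.erase x := hS (hSB ▸ hx)
      exact (Finset.mem_erase.mp hxS).1 rfl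
    have h := rigid_card_le H n hn q hq0 hq2 hq K (insert x A) (B.erase x) hdisj hR _
      ⟨φ, hmem⟩
    rw [hunion] at h
    exact h
  constructor
  · obtain ⟨x, hx⟩ := hB
    have h1 := key x hx
    have h2 := eT_mono K (A ∪ B) (B.erase x) B (Finset.erase_subset x B)
    have h3 := Finset.card_erase_of_mem hx
    omega
  · rintro ⟨w, hw⟩
    obtain ⟨hwA, x, hx, hadj⟩ := (mem_bdry K A B w).mp hw
    have h1 := key x hx
    have h2 := eT_erase_lt K A B hAB x w hx hwA hadj
    have h3 := Finset.card_erase_of_mem hx
    have h4 : 0 < B.card := Finset.card_pos.mpr ⟨x, hx⟩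
    omega

end Vale.Agent.Lib.P064
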