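import Mathlib

/-!
Chains of vertex sets (P064): an induction principle along a chain in which each new set is an
inclusion-minimal minimiser of a weight among the proper supersets of the previous one.
-/

namespace Vale.Agent.Lib.P064

open Finset

variable {V : Type} [Fintype V] [DecidableEq V]

theorem exists_next (ν : Finset V → ℝ) (A : Finset V) (hA : A ≠ Finset.univ) :
    ∃ A' : Finset V, A ⊂ A' ∧ (∀ Z, A ⊂ Z → ν A' ≤ ν Z) ∧
      (∀ Z, A ⊂ Z → Z ⊂ A' → ν A' < ν Z) := by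
  classical
  obtain ⟨Pf, hPf⟩ : ∃ Pf : Finset (Finset V), Pf = Finset.univ.filter (fun Z => A ⊂ Z) :=
    ⟨_, rfl⟩
  have hmemP : ∀ Z, Z ∈ Pf ↔ A ⊂ Z := by
    intro Z
    rw [hPf, Finset.mem_filter]
    exact ⟨fun h => h.2, fun h => ⟨Finset.mem_univ _, h⟩⟩
  have hne : Pf.Nonempty := ⟨Finset.univ, (hmemP _).mpr (Finset.ssubset_univ_iff.mpr hA)⟩
  obtain ⟨Z0, hZ0, hmin⟩ := Finset.exists_min_image Pf ν hne
  obtain ⟨Q, hQ⟩ : ∃ Q : Finset (Finset V), Q = Pf.filter (fun Z => ν Z = ν Z0) := ⟨_, rfl⟩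
  have hmemQ : ∀ Z, Z ∈ Q ↔ A ⊂ Z ∧ ν Z = ν Z0 := by
    intro Z
    rw [hQ, Finset.mem_filter, hmemP]
  have hQne : Q.Nonempty := ⟨Z0, (hmemQ Z0).mpr ⟨(hmemP Z0).mp hZ0, rfl⟩⟩
  obtain ⟨A', hA', hcard⟩ := Finset.exists_min_image Q Finset.card hQne
  obtain ⟨hAA', hνA'⟩ := (hmemQ A').mp hA'
  refine ⟨A', hAA', ?_, ?_⟩
  · intro Z hZ
    rw [hνA']
    exact hmin Z ((hmemP Z).mpr hZ)
  · intro Z hZ hZA'
    have h1 : ν A' ≤ ν Z := by
      rw [hνA']
      exact hmin Z ((hmemP Z).mpr hZ)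
    rcases lt_or_eq_of_le h1 with h | h
    · exact h
    · exfalso
      have hZQ : Z ∈ Q := (hmemQ Z).mpr ⟨hZ, by rw [← h, hνA']⟩
      have h2 := hcard Z hZQ
      have h3 := Finset.card_lt_card hZA'
      omega

theorem chain_induction (ν : Finset V → ℝ) (P : Finset V → Prop) (h0 : P ∅)
    (hν0 : ∀ Z, ν ∅ ≤ ν Z)
    (hstep : ∀ A A' : Finset V, A ⊂ A' → P A → ν A ≤ ν A' →
      (∀ Z, A ⊂ Z → Z ⊂ A' → ν A' < ν Z) → P A') :
    P Finset.univ := by
  classical
  have key : ∀ (m : ℕ) (A : Finset V), (Finset.univ \ A).card = m → P A →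
      (∀ Z, A ⊆ Z → ν A ≤ ν Z) → P Finset.univ := by
    intro m
    induction m using Nat.strong_induction_on with
    | _ m ih =>
      intro A hm hPA hinv
      by_cases hA : A = Finset.univ
      · rw [← hA]; exact hPA
      · obtain ⟨A', hAA', hmin, hstrict⟩ := exists_next ν A hA
        have hPA' : P A' := hstep A A' hAA' hPA (hinv A' hAA'.subset) hstrict
        have hlt : (Finset.univ \ A').card < m := by
          rw [← hm, Finset.card_univ_sdiff, Finset.card_univ_sdiff]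
          have h1 := Finset.card_lt_card hAA'
          have h2 := Finset.card_le_univ A'
          omega
        exact ih _ hlt A' rfl hPA' (fun Z hZ => hmin Z (hAA'.trans_subset hZ))
  exact key _ ∅ rfl h0 (fun Z _ => hν0 Z)

end Vale.Agent.Lib.P064
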