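import Vale.Agent.Lib.P064.LogDefs

/-!
The potential bound (P064): if every subgraph of `H` has expected count at least `1/2` in
`G(n,q)`, then every set `U` of edges of `H` whose endpoints lie in `Z` satisfies
`n^|Z| q^|U| ≥ 1/2`.
-/

namespace Vale.Agent.Lib.P064

open Finset

variable {W : Type} [Fintype W] [DecidableEq W]

omit [Fintype W] [DecidableEq W] in
/-- The image of `U` under a map depends only on the restriction of the map to a set containing
all endpoints of `U`. -/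
theorem taskPot_image_congr (U : Finset (Sym2 W)) (n : ℕ) (Z : Finset W)
    (hZ : ∀ e ∈ U, ∀ v ∈ e, v ∈ Z) (s s' : W → Fin n)
    (h : (fun z : ↥Z => s z) = (fun z : ↥Z => s' z)) :
    U.image (Sym2.map s) = U.image (Sym2.map s') := by
  apply Finset.image_congr
  intro e he
  apply Sym2.map_congr
  intro v hv
  exact congrFun h ⟨v, hZ e he v hv⟩

/-- The number of images of `U` in the complete graph on `Fin n` is at most `n^|Z|` when the
endpoints of `U` lie in `Z`. -/
theorem imgs_card_le_pow (U : Finset (Sym2 W)) (n : ℕ) (Z : Finset W)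
    (hZ : ∀ e ∈ U, ∀ v ∈ e, v ∈ Z) : (imgs U n).card ≤ n ^ Z.card := by
  classical
  let g : (↥Z → Fin n) → Finset (Sym2 (Fin n)) := fun t =>
    if h : ∃ s : W → Fin n, (fun z : ↥Z => s z) = t then U.image (Sym2.map (Classical.choose h))
    else ∅
  have hsurj : Set.SurjOn g (↑(Finset.univ : Finset (↥Z → Fin n))) (↑(imgs U n)) := by
    intro B hB
    have hB' : B ∈ imgs U n := hB
    unfold imgs at hB'
    rw [Finset.mem_image] at hB'
    obtain ⟨ψ, -, rfl⟩ := hB'
    refine ⟨fun z : ↥Z => ψ z, Finset.mem_coe.mpr (Finset.mem_univ _), ?_⟩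
    have hex : ∃ s : W → Fin n, (fun z : ↥Z => s z) = (fun z : ↥Z => ψ z) := ⟨ψ, rfl⟩
    show g (fun z : ↥Z => ψ z) = U.image (Sym2.map ψ)
    simp only [g]
    rw [dif_pos hex]
    exact taskPot_image_congr U n Z hZ _ _ (Classical.choose_spec hex)
  have h1 := Finset.card_le_card_of_surjOn g hsurj
  have h2 : (Finset.univ : Finset (↥Z → Fin n)).card = n ^ Z.card := by
    rw [Finset.card_univ, Fintype.card_fun, Fintype.card_coe, Fintype.card_fin]
  rw [h2] at h1
  exact h1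

theorem pot_half (H : SimpleGraph W) (n : ℕ) (hn : 0 < n) (q : ℝ) (hq0 : 0 ≤ q) (hq1 : q ≤ 1)
    (hq : ∀ F : H.Subgraph, 1 / 2 ≤ gnpExp n q (fun G => (G.copyCount F.coe : ℝ)))
    (U : Finset (Sym2 W)) (hU : ∀ e ∈ U, e ∈ H.edgeSet) (Z : Finset W)
    (hZ : ∀ e ∈ U, ∀ v ∈ e, v ∈ Z) :
    (1 : ℝ) / 2 ≤ (n : ℝ) ^ Z.card * q ^ U.card := by
  have h1 := hq (subOf H U hU)
  have h2 := gnpExp_copyCount_subOf_le H U hU n hn q hq0 hq1
  have h3 : ((imgs U n).card : ℝ) ≤ (n : ℝ) ^ Z.card := by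
    exact_mod_cast imgs_card_le_pow U n Z hZ
  calc (1 : ℝ) / 2 ≤ gnpExp n q (fun G => (G.copyCount (subOf H U hU).coe : ℝ)) := h1
    _ ≤ ((imgs U n).card : ℝ) * q ^ U.card := h2
    _ ≤ (n : ℝ) ^ Z.card * q ^ U.card := mul_le_mul_of_nonneg_right h3 (pow_nonneg hq0 _)

end Vale.Agent.Lib.P064
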