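import Vale.Agent.Lib.P064.LogClusterStep
import Vale.Agent.Lib.P064.LogPot

/-!
The cluster bound (P064): for a rigid pinned structure, the union of the edge images of all
extensions of a pinned map has at most `1 + log_2 (n^|boundary|)` edges.
-/

namespace Vale.Agent.Lib.P064

open Finset

variable {V W : Type} [Fintype V] [DecidableEq V] [Fintype W] [DecidableEq W]

/-- The potential of the union of the edge images of any family of extensions is at most
`n^|boundary|`. -/
theorem taskCluster_pot (H : SimpleGraph W) (n : ℕ) (hn : 0 < n) (q : ℝ) (hq0 : 0 < q)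
    (hq2 : 2 * q ≤ 1) (K : SimpleGraph V) (A T : Finset V) (hAT : Disjoint A T)
    (hR : Rigid K n q A T) (ψ : V → W) (G : Finset (V → W)) (hG : G ⊆ Ext K H A T ψ) :
    (n : ℝ) ^ (clZ K A T ψ G).card * (2 * q) ^ (clU K A T G).card
      ≤ (n : ℝ) ^ (bdry K A T).card := by
  induction G using Finset.induction_on with
  | empty =>
    have h1 : clU K A T (∅ : Finset (V → W)) = ∅ := by
      unfold clU
      exact Finset.biUnion_empty
    have h2 : clZ K A T ψ (∅ : Finset (V → W)) = (bdry K A T).image ψ := by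
      unfold clZ
      rw [Finset.biUnion_empty, Finset.union_empty]
    rw [h1, h2, Finset.card_empty, pow_zero, mul_one]
    have hn1 : (1 : ℝ) ≤ (n : ℝ) := by exact_mod_cast hn
    exact pow_le_pow_right₀ hn1 Finset.card_image_le
  | insert φ G hφG ih =>
    have hφ : φ ∈ Ext K H A T ψ := hG (Finset.mem_insert_self _ _)
    have hG' : G ⊆ Ext K H A T ψ := fun x hx => hG (Finset.mem_insert_of_mem hx)
    exact (cluster_step H n hn q hq0 hq2 K A T hAT hR ψ G hG' φ hφ).trans (ih hG')

theorem cluster_bound (H : SimpleGraph W) (n : ℕ) (hn : 0 < n) (q : ℝ) (hq0 : 0 < q)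
    (hq2 : 2 * q ≤ 1)
    (hq : ∀ F : H.Subgraph, 1 / 2 ≤ gnpExp n q (fun G => (G.copyCount F.coe : ℝ)))
    (K : SimpleGraph V) (A T : Finset V) (hAT : Disjoint A T) (hR : Rigid K n q A T)
    (ψ : V → W) :
    (2 : ℝ) ^ ((Ext K H A T ψ).biUnion (fun φ => petal K A T φ)).card
      ≤ 2 * (n : ℝ) ^ (bdry K A T).card := by
  have h1 := taskCluster_pot H n hn q hq0 hq2 K A T hAT hR ψ (Ext K H A T ψ)
    (Finset.Subset.refl _)
  have hU : ∀ e ∈ clU K A T (Ext K H A T ψ), e ∈ H.edgeSet := by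
    intro e he
    unfold clU at he
    rw [Finset.mem_biUnion] at he
    obtain ⟨φ, hφ, heφ⟩ := he
    exact petal_sub_edgeSet K H A T ψ φ hφ e heφ
  have hZ : ∀ e ∈ clU K A T (Ext K H A T ψ), ∀ v ∈ e,
      v ∈ clZ K A T ψ (Ext K H A T ψ) := by
    intro e he v hv
    unfold clU at he
    rw [Finset.mem_biUnion] at he
    obtain ⟨φ, hφ, heφ⟩ := he
    have h := petal_verts K H A T hAT ψ φ hφ e heφ v hv
    unfold clZ
    rw [Finset.mem_union] at h ⊢
    rcases h with h | h
    · exact Or.inl h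
    · exact Or.inr (Finset.mem_biUnion.mpr ⟨φ, hφ, h⟩)
  have hq1 : q ≤ 1 := by linarith
  have h2 := pot_half H n hn q hq0.le hq1 hq (clU K A T (Ext K H A T ψ)) hU
    (clZ K A T ψ (Ext K H A T ψ)) hZ
  show (2 : ℝ) ^ (clU K A T (Ext K H A T ψ)).card ≤ 2 * (n : ℝ) ^ (bdry K A T).card
  rw [mul_pow] at h1
  have h3 : (0 : ℝ) ≤ (2 : ℝ) ^ (clU K A T (Ext K H A T ψ)).card := by positivity
  have h4 := mul_le_mul_of_nonneg_left h2 h3
  linarith
end Vale.Agent.Lib.P064
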