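import Vale.Agent.Lib.P064.LogDefs

/-!
Basic facts on extensions of pinned maps (P064, general counting theorem).
-/

namespace Vale.Agent.Lib.P064

open Finset

variable {V W : Type} [Fintype V] [DecidableEq V] [Fintype W] [DecidableEq W]

omit [Fintype V] in
private theorem taskExt_union (A B : Finset V) (t : V) (ht : t ∈ B) :
    insert t A ∪ B.erase t = A ∪ B := by
  ext v
  simp only [Finset.mem_union, Finset.mem_insert, Finset.mem_erase]
  constructor
  · rintro ((h | h) | h)
    · right
      rw [h]
      exact ht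
    · left
      exact h
    · right
      exact h.2
  · rintro (h | h)
    · left
      right
      exact h
    · by_cases hvt : v = t
      · left
        left
        exact hvt
      · right
        exact ⟨hvt, h⟩

/-- Pinning one more vertex: an extension is an extension of the map pinned at `t` as well. -/
theorem ext_pin_mem (K : SimpleGraph V) (H : SimpleGraph W) (A B : Finset V) (ψ φ : V → W)
    (hφ : φ ∈ Ext K H A B ψ) (t : V) (ht : t ∈ B) :
    φ ∈ Ext K H (insert t A) (B.erase t) (Function.update ψ t (φ t)) := by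
  rw [mem_Ext] at hφ ⊢
  obtain ⟨h1, h2, h3⟩ := hφ
  have hU : insert t A ∪ B.erase t = A ∪ B := taskExt_union A B t ht
  refine ⟨?_, ?_, ?_⟩
  · intro v hv
    by_cases hvt : v = t
    · subst hvt
      rw [Function.update_self]
    · rw [Function.update_of_ne hvt]
      apply h1
      intro hvB
      exact hv (Finset.mem_erase.2 ⟨hvt, hvB⟩)
  · rw [hU]
    exact h2
  · intro u hu v hv hadj
    rw [hU] at hv
    exact h3 u (Finset.mem_of_mem_erase hu) v hv hadj

/-- Splitting the extensions by the image of `t`. -/
theorem ext_card_le_sum_pin (K : SimpleGraph V) (H : SimpleGraph W) (A B : Finset V)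
    (ψ : V → W) (t : V) (ht : t ∈ B) :
    (Ext K H A B ψ).card ≤ ∑ y ∈ (Ext K H A B ψ).image (fun φ => φ t),
      (Ext K H (insert t A) (B.erase t) (Function.update ψ t y)).card := by
  rw [Finset.card_eq_sum_card_image (fun φ : V → W => φ t) (Ext K H A B ψ)]
  refine Finset.sum_le_sum fun y _ => ?_
  refine Finset.card_le_card ?_
  intro φ hφ
  rw [Finset.mem_filter] at hφ
  obtain ⟨hφ1, hφ2⟩ := hφ
  have h := ext_pin_mem K H A B ψ φ hφ1 t ht
  rw [hφ2] at h
  exact h

/-- Building an embedding of `A ∪ B` in two steps. -/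
theorem ext_card_le_sum_restrict (K : SimpleGraph V) (H : SimpleGraph W) (A B : Finset V)
    (hAB : Disjoint A B) (ψ₀ : V → W) :
    (Ext K H ∅ (A ∪ B) ψ₀).card ≤ ∑ ρ ∈ Ext K H ∅ A ψ₀, (Ext K H A B ρ).card := by
  classical
  have hsub : Ext K H ∅ (A ∪ B) ψ₀ ⊆ (Ext K H ∅ A ψ₀).biUnion (fun ρ => Ext K H A B ρ) := by
    intro φ hφ
    rw [mem_Ext] at hφ
    obtain ⟨h1, h2, h3⟩ := hφ
    rw [Finset.empty_union] at h2
    rw [Finset.mem_biUnion]
    refine ⟨fun v => if v ∈ A then φ v else ψ₀ v, ?_, ?_⟩
    · rw [mem_Ext]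
      refine ⟨?_, ?_, ?_⟩
      · intro v hv
        simp only [hv, if_false]
      · rw [Finset.empty_union]
        intro v hv w hw hvw
        have hv' : v ∈ A := Finset.mem_coe.1 hv
        have hw' : w ∈ A := Finset.mem_coe.1 hw
        simp only [hv', hw', if_true] at hvw
        exact h2 (Finset.mem_coe.2 (Finset.mem_union_left B hv'))
          (Finset.mem_coe.2 (Finset.mem_union_left B hw')) hvw
      · intro u hu v hv hadj
        rw [Finset.empty_union] at hv
        simp only [hu, hv, if_true]
        refine h3 u (Finset.mem_union_left B hu) v ?_ hadj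
        rw [Finset.empty_union]
        exact Finset.mem_union_left B hv
    · rw [mem_Ext]
      refine ⟨?_, h2, ?_⟩
      · intro v hv
        by_cases hvA : v ∈ A
        · simp only [hvA, if_true]
        · simp only [hvA, if_false]
          apply h1
          intro hvAB
          rcases Finset.mem_union.1 hvAB with h | h
          · exact hvA h
          · exact hv h
      · intro u hu v hv hadj
        refine h3 u (Finset.mem_union_right A hu) v ?_ hadj
        rw [Finset.empty_union]
        exact hv
  exact (Finset.card_le_card hsub).trans Finset.card_biUnion_le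

/-- Embeddings of `K` into `H` are extensions of the empty pinned map to all vertices. -/
theorem labelledCopyCount_le_ext_card (K : SimpleGraph V) (H : SimpleGraph W) (ψ₀ : V → W) :
    H.labelledCopyCount K ≤ (Ext K H ∅ Finset.univ ψ₀).card := by
  unfold SimpleGraph.labelledCopyCount
  rw [Fintype.card_eq_nat_card, ← Fintype.card_coe, Fintype.card_eq_nat_card]
  apply Nat.card_le_card_of_injective
    (fun c : SimpleGraph.Copy K H =>
      (⟨(c : V → W), by
        rw [mem_Ext]
        refine ⟨?_, ?_, ?_⟩
        · intro v hv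
          exact absurd (Finset.mem_univ v) hv
        · exact c.injective.injOn
        · intro u _ v _ hadj
          exact c.toHom.map_rel hadj⟩ : {φ // φ ∈ Ext K H ∅ Finset.univ ψ₀}))
  intro c1 c2 h
  apply DFunLike.coe_injective
  exact congrArg (fun f : {φ // φ ∈ Ext K H ∅ Finset.univ ψ₀} => (f : V → W)) h

theorem ext_card_le_pow (K : SimpleGraph V) (H : SimpleGraph W) (A B : Finset V) (ψ : V → W) :
    (Ext K H A B ψ).card ≤ Fintype.card W ^ B.card := by
  have hcard : (Finset.univ : Finset (↥B → W)).card = Fintype.card W ^ B.card := by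
    rw [Finset.card_univ, Fintype.card_fun, Fintype.card_coe]
  rw [← hcard]
  apply Finset.card_le_card_of_injOn (fun φ : V → W => fun b : ↥B => φ b.1)
  · intro φ _
    exact Finset.mem_coe.2 (Finset.mem_univ _)
  · intro φ1 h1 φ2 h2 h
    have h1' := (mem_Ext K H A B ψ φ1).1 (Finset.mem_coe.1 h1)
    have h2' := (mem_Ext K H A B ψ φ2).1 (Finset.mem_coe.1 h2)
    funext v
    by_cases hv : v ∈ B
    · exact congrFun h ⟨v, hv⟩
    · rw [h1'.1 v hv, h2'.1 v hv]

theorem ext_nil_card (K : SimpleGraph V) (H : SimpleGraph W) (A : Finset V) (ψ : V → W) :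
    (Ext K H A ∅ ψ).card ≤ 1 := by
  rw [Finset.card_le_one]
  intro φ1 h1 φ2 h2
  have h1' := (mem_Ext K H A ∅ ψ φ1).1 h1
  have h2' := (mem_Ext K H A ∅ ψ φ2).1 h2
  funext v
  rw [h1'.1 v (Finset.notMem_empty v), h2'.1 v (Finset.notMem_empty v)]

omit [Fintype V] in
theorem rigid_pin (K : SimpleGraph V) (n : ℕ) (q : ℝ) (A T : Finset V) (t : V) (ht : t ∈ T)
    (hR : Rigid K n q A T) : Rigid K n q (insert t A) (T.erase t) := by
  intro S hS hne
  rw [taskExt_union A T t ht]
  exact hR S (hS.trans (Finset.erase_subset t T)) hne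

end Vale.Agent.Lib.P064
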