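import Vale.Agent.Lib.P064.LogPetal
import Vale.Agent.Lib.P064.LogExt

/-!
One step of the cluster bound (P064): adding one more extension to a family of extensions of a
rigid pinned structure does not increase the potential `n^|vertices| (2q)^|edges|` of the union
of their edge images.
-/

namespace Vale.Agent.Lib.P064

open Finset

variable {V W : Type} [Fintype V] [DecidableEq V] [Fintype W] [DecidableEq W]

/-- The vertices spanned by a family `G` of extensions: the image of the boundary together with
the images of `T`. -/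
noncomputable def clZ (K : SimpleGraph V) (A T : Finset V) (ψ : V → W) (G : Finset (V → W)) :
    Finset W :=
  (bdry K A T).image ψ ∪ G.biUnion (fun φ => T.image φ)

/-- The union of the edge images of a family `G` of extensions. -/
noncomputable def clU (K : SimpleGraph V) (A T : Finset V) (G : Finset (V → W)) :
    Finset (Sym2 W) :=
  G.biUnion (fun φ => petal K A T φ)

omit [DecidableEq V] [Fintype W] in
/-- The new vertices are images of the vertices of `T` sent outside the old vertex set. -/
theorem taskClStep_clZ_insert (K : SimpleGraph V) (A T : Finset V) (ψ : V → W)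
    (G : Finset (V → W)) (φ : V → W) :
    clZ K A T ψ (insert φ G) ⊆
      clZ K A T ψ G ∪ (T.filter (fun t => φ t ∉ clZ K A T ψ G)).image φ := by
  intro w hw
  unfold clZ at hw
  rw [Finset.biUnion_insert] at hw
  rcases Finset.mem_union.mp hw with hw | hw
  · exact Finset.mem_union_left _ (Finset.mem_union_left _ hw)
  · rcases Finset.mem_union.mp hw with hw | hw
    · obtain ⟨t, ht, rfl⟩ := Finset.mem_image.mp hw
      by_cases hz : φ t ∈ clZ K A T ψ G
      · exact Finset.mem_union_left _ hz
      · exact Finset.mem_union_right _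
          (Finset.mem_image.mpr ⟨t, Finset.mem_filter.mpr ⟨ht, hz⟩, rfl⟩)
    · exact Finset.mem_union_left _ (Finset.mem_union_right _ hw)

/-- Every old edge has both endpoints in the old vertex set. -/
theorem taskClStep_clU_verts (H : SimpleGraph W) (K : SimpleGraph V) (A T : Finset V)
    (hAT : Disjoint A T) (ψ : V → W) (G : Finset (V → W)) (hG : G ⊆ Ext K H A T ψ) :
    ∀ e ∈ clU K A T G, ∀ v ∈ e, v ∈ clZ K A T ψ G := by
  intro e he v hv
  unfold clU at he
  obtain ⟨φ', hφ'G, he'⟩ := Finset.mem_biUnion.mp he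
  have h := petal_verts K H A T hAT ψ φ' (hG hφ'G) e he' v hv
  unfold clZ
  rcases Finset.mem_union.mp h with h | h
  · exact Finset.mem_union_left _ h
  · exact Finset.mem_union_right _ (Finset.mem_biUnion.mpr ⟨φ', hφ'G, h⟩)

/-- The images of the edges touching the new part are new edges. -/
theorem taskClStep_disjoint (H : SimpleGraph W) (K : SimpleGraph V) (A T : Finset V)
    (hAT : Disjoint A T) (ψ : V → W) (G : Finset (V → W)) (hG : G ⊆ Ext K H A T ψ)
    (φ : V → W) :
    Disjoint (clU K A T G)
      ((eTF K (A ∪ T) (T.filter (fun t => φ t ∉ clZ K A T ψ G))).image (Sym2.map φ)) := by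
  rw [Finset.disjoint_left]
  intro e heU heN
  obtain ⟨e0, he0, rfl⟩ := Finset.mem_image.mp heN
  have hv := taskClStep_clU_verts H K A T hAT ψ G hG _ heU
  induction e0 using Sym2.ind with
  | _ a b =>
    rw [mk_mem_eTF] at he0
    obtain ⟨-, -, -, hab⟩ := he0
    rw [Sym2.map_mk] at hv
    rcases hab with ha | hb
    · exact (Finset.mem_filter.mp ha).2 (hv (φ a) (Sym2.mem_mk_left _ _))
    · exact (Finset.mem_filter.mp hb).2 (hv (φ b) (Sym2.mem_mk_right _ _))

/-- The old edges and the images of the edges touching the new part are edges of the larger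
family. -/
theorem taskClStep_union_subset (K : SimpleGraph V) (A T : Finset V) (ψ : V → W)
    (G : Finset (V → W)) (φ : V → W) :
    clU K A T G ∪
      (eTF K (A ∪ T) (T.filter (fun t => φ t ∉ clZ K A T ψ G))).image (Sym2.map φ)
      ⊆ clU K A T (insert φ G) := by
  intro e he
  unfold clU
  rw [Finset.biUnion_insert]
  rcases Finset.mem_union.mp he with he | he
  · exact Finset.mem_union_right _ he
  · exact Finset.mem_union_left _
      (image_eTF_sub_petal K A T _ (Finset.filter_subset _ _) φ he)

theorem cluster_step (H : SimpleGraph W) (n : ℕ) (hn : 0 < n) (q : ℝ) (hq0 : 0 < q)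
    (hq2 : 2 * q ≤ 1) (K : SimpleGraph V) (A T : Finset V) (hAT : Disjoint A T)
    (hR : Rigid K n q A T) (ψ : V → W) (G : Finset (V → W)) (hG : G ⊆ Ext K H A T ψ)
    (φ : V → W) (hφ : φ ∈ Ext K H A T ψ) :
    (n : ℝ) ^ (clZ K A T ψ (insert φ G)).card * (2 * q) ^ (clU K A T (insert φ G)).card
      ≤ (n : ℝ) ^ (clZ K A T ψ G).card * (2 * q) ^ (clU K A T G).card := by
  have hn1 : (1 : ℝ) ≤ (n : ℝ) := by exact_mod_cast hn
  have hq20 : (0 : ℝ) ≤ 2 * q := by linarith
  -- the vertex count grows by at most the size of the new part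
  have hz : (clZ K A T ψ (insert φ G)).card ≤
      (clZ K A T ψ G).card + (T.filter (fun t => φ t ∉ clZ K A T ψ G)).card := by
    refine le_trans (Finset.card_le_card (taskClStep_clZ_insert K A T ψ G φ)) ?_
    refine le_trans (Finset.card_union_le _ _) ?_
    exact Nat.add_le_add_left Finset.card_image_le _
  -- the edge count grows by at least the number of edges touching the new part
  have hu : (clU K A T G).card + eT K (A ∪ T) (T.filter (fun t => φ t ∉ clZ K A T ψ G)) ≤
      (clU K A T (insert φ G)).card := by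
    have h1 := Finset.card_le_card (taskClStep_union_subset K A T ψ G φ)
    rw [Finset.card_union_of_disjoint (taskClStep_disjoint H K A T hAT ψ G hG φ),
      image_eTF_card K H A T _ ψ φ hφ] at h1
    exact h1
  -- the new part contributes a factor at most one
  have hS : (n : ℝ) ^ (T.filter (fun t => φ t ∉ clZ K A T ψ G)).card *
      (2 * q) ^ eT K (A ∪ T) (T.filter (fun t => φ t ∉ clZ K A T ψ G)) ≤ 1 := by
    rcases Finset.eq_empty_or_nonempty (T.filter (fun t => φ t ∉ clZ K A T ψ G)) with h | h
    · rw [h, Finset.card_empty, pow_zero, one_mul]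
      exact pow_le_one₀ hq20 hq2
    · exact le_of_lt (hR _ (Finset.filter_subset _ _) h)
  have hA : (n : ℝ) ^ (clZ K A T ψ (insert φ G)).card ≤
      (n : ℝ) ^ ((clZ K A T ψ G).card + (T.filter (fun t => φ t ∉ clZ K A T ψ G)).card) :=
    pow_le_pow_right₀ hn1 hz
  have hB : (2 * q) ^ (clU K A T (insert φ G)).card ≤
      (2 * q) ^ ((clU K A T G).card +
        eT K (A ∪ T) (T.filter (fun t => φ t ∉ clZ K A T ψ G))) :=
    pow_le_pow_of_le_one hq20 hq2 hu
  have hn0 : (0 : ℝ) ≤ (n : ℝ) := by linarith
  calc (n : ℝ) ^ (clZ K A T ψ (insert φ G)).card * (2 * q) ^ (clU K A T (insert φ G)).card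
      ≤ (n : ℝ) ^ ((clZ K A T ψ G).card + (T.filter (fun t => φ t ∉ clZ K A T ψ G)).card) *
        (2 * q) ^ ((clU K A T G).card +
          eT K (A ∪ T) (T.filter (fun t => φ t ∉ clZ K A T ψ G))) :=
        mul_le_mul hA hB (pow_nonneg hq20 _) (pow_nonneg hn0 _)
    _ = ((n : ℝ) ^ (clZ K A T ψ G).card * (2 * q) ^ (clU K A T G).card) *
        ((n : ℝ) ^ (T.filter (fun t => φ t ∉ clZ K A T ψ G)).card *
          (2 * q) ^ eT K (A ∪ T) (T.filter (fun t => φ t ∉ clZ K A T ψ G))) := by
        rw [pow_add, pow_add]; ring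
    _ ≤ ((n : ℝ) ^ (clZ K A T ψ G).card * (2 * q) ^ (clU K A T G).card) * 1 :=
        mul_le_mul_of_nonneg_left hS
          (mul_nonneg (pow_nonneg hn0 _) (pow_nonneg hq20 _))
    _ = (n : ℝ) ^ (clZ K A T ψ G).card * (2 * q) ^ (clU K A T G).card := mul_one _

end Vale.Agent.Lib.P064
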