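import Vale.Agent.Lib.P064.DisjFam

/-!
Definitions for the general counting theorem of P064: edge counts of a pattern graph inside a
vertex set, extensions of a pinned map, boundaries, edge images of extensions and rigidity.
-/

namespace Vale.Agent.Lib.P064

open Finset

variable {V W : Type} [Fintype V] [DecidableEq V] [Fintype W] [DecidableEq W]

/-- Edges of `K` with both endpoints in `Z`. -/
def eInS (K : SimpleGraph V) (Z : Finset V) : Set (Sym2 V) :=
  {e | e ∈ K.edgeSet ∧ ∀ v ∈ e, v ∈ Z}

/-- Edges of `K` with both endpoints in `Z` and at least one endpoint in `S`. -/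
def eTS (K : SimpleGraph V) (Z S : Finset V) : Set (Sym2 V) :=
  {e | e ∈ K.edgeSet ∧ (∀ v ∈ e, v ∈ Z) ∧ ∃ v ∈ e, v ∈ S}

/-- Number of edges of `K` inside `Z`. -/
noncomputable def eN (K : SimpleGraph V) (Z : Finset V) : ℕ := (eInS K Z).ncard

/-- Number of edges of `K` inside `Z` that touch `S`. -/
noncomputable def eT (K : SimpleGraph V) (Z S : Finset V) : ℕ := (eTS K Z S).ncard

/-- The finite set of edges of `K` inside `Z` that touch `S`. -/
noncomputable def eTF (K : SimpleGraph V) (Z S : Finset V) : Finset (Sym2 V) :=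
  (Set.toFinite (eTS K Z S)).toFinset

/-- Extensions of the pinned map `ψ`: maps `φ` that agree with `ψ` outside `B`, are injective on
`A ∪ B`, and send every edge of `K` inside `A ∪ B` with an endpoint in `B` to an edge of `H`. -/
noncomputable def Ext (K : SimpleGraph V) (H : SimpleGraph W) (A B : Finset V) (ψ : V → W) :
    Finset (V → W) := by
  classical
  exact Finset.univ.filter (fun φ : V → W => (∀ v, v ∉ B → φ v = ψ v) ∧
    Set.InjOn φ (↑(A ∪ B) : Set V) ∧ ∀ u ∈ B, ∀ v ∈ A ∪ B, K.Adj u v → H.Adj (φ u) (φ v))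

theorem mem_Ext (K : SimpleGraph V) (H : SimpleGraph W) (A B : Finset V) (ψ φ : V → W) :
    φ ∈ Ext K H A B ψ ↔ (∀ v, v ∉ B → φ v = ψ v) ∧
      Set.InjOn φ (↑(A ∪ B) : Set V) ∧ ∀ u ∈ B, ∀ v ∈ A ∪ B, K.Adj u v → H.Adj (φ u) (φ v) := by
  unfold Ext
  simp only [Finset.mem_filter, Finset.mem_univ, true_and]

/-- The boundary of `B` in `A`: the vertices of `A` with a neighbour in `B`. -/
noncomputable def bdry (K : SimpleGraph V) (A B : Finset V) : Finset V := by
  classical
  exact A.filter (fun w => ∃ t ∈ B, K.Adj w t)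

omit [Fintype V] [DecidableEq V] in
theorem mem_bdry (K : SimpleGraph V) (A B : Finset V) (w : V) :
    w ∈ bdry K A B ↔ w ∈ A ∧ ∃ t ∈ B, K.Adj w t := by
  unfold bdry
  simp only [Finset.mem_filter]

/-- The edge image of an extension: the images of the edges of `K` inside `A ∪ B` that touch
`B`. -/
noncomputable def petal (K : SimpleGraph V) (A B : Finset V) (φ : V → W) : Finset (Sym2 W) :=
  (eTF K (A ∪ B) B).image (Sym2.map φ)

/-- `T` is rigid over `A` at density `2 q`: every nonempty part `S` of `T`, added last, has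
fewer than one expected extension. -/
def Rigid (K : SimpleGraph V) (n : ℕ) (q : ℝ) (A T : Finset V) : Prop :=
  ∀ S : Finset V, S ⊆ T → S.Nonempty → (n : ℝ) ^ S.card * (2 * q) ^ eT K (A ∪ T) S < 1

end Vale.Agent.Lib.P064
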