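import Vale.Agent.Lib.P064.LogDefs

/-!
Edge counts of a pattern graph inside vertex sets (P064, general counting theorem).
-/

namespace Vale.Agent.Lib.P064

open Finset

variable {V : Type} [Fintype V] [DecidableEq V]

theorem mem_eTF (K : SimpleGraph V) (Z S : Finset V) (e : Sym2 V) :
    e ∈ eTF K Z S ↔ e ∈ K.edgeSet ∧ (∀ v ∈ e, v ∈ Z) ∧ ∃ v ∈ e, v ∈ S := by
  unfold eTF
  rw [Set.Finite.mem_toFinset]
  rfl

theorem mk_mem_eTF (K : SimpleGraph V) (Z S : Finset V) (a b : V) :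
    s(a, b) ∈ eTF K Z S ↔ K.Adj a b ∧ a ∈ Z ∧ b ∈ Z ∧ (a ∈ S ∨ b ∈ S) := by
  rw [mem_eTF, SimpleGraph.mem_edgeSet]
  constructor
  · rintro ⟨h1, h2, v, hv, hvS⟩
    refine ⟨h1, h2 a (Sym2.mem_mk_left a b), h2 b (Sym2.mem_mk_right a b), ?_⟩
    rcases Sym2.mem_iff.mp hv with rfl | rfl
    · exact Or.inl hvS
    · exact Or.inr hvS
  · rintro ⟨h1, ha, hb, hS⟩
    refine ⟨h1, ?_, ?_⟩
    · intro v hv
      rcases Sym2.mem_iff.mp hv with rfl | rfl
      · exact ha
      · exact hb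
    · rcases hS with hS | hS
      · exact ⟨a, Sym2.mem_mk_left a b, hS⟩
      · exact ⟨b, Sym2.mem_mk_right a b, hS⟩

theorem eTF_card (K : SimpleGraph V) (Z S : Finset V) : (eTF K Z S).card = eT K Z S := by
  unfold eTF eT
  exact (Set.ncard_eq_toFinset_card _ _).symm

theorem eTF_subset (K : SimpleGraph V) (Z S S' : Finset V) (h : S ⊆ S') :
    eTF K Z S ⊆ eTF K Z S' := by
  intro e he
  rw [mem_eTF] at he ⊢
  obtain ⟨h1, h2, v, hv, hvS⟩ := he
  exact ⟨h1, h2, v, hv, h hvS⟩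

theorem eT_mono (K : SimpleGraph V) (Z S S' : Finset V) (h : S ⊆ S') :
    eT K Z S ≤ eT K Z S' := by
  rw [← eTF_card, ← eTF_card]
  exact Finset.card_le_card (eTF_subset K Z S S' h)

/-- The edges inside `Z` are those inside `Z \ S` together with those touching `S`. -/
theorem eN_sdiff (K : SimpleGraph V) (Z S : Finset V) :
    eN K Z = eN K (Z \ S) + eT K Z S := by
  unfold eN eT
  have hU : eInS K Z = eInS K (Z \ S) ∪ eTS K Z S := by
    ext e
    simp only [eInS, eTS, Set.mem_ofPred_eq, Set.mem_union, Finset.mem_sdiff]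
    constructor
    · rintro ⟨h1, h2⟩
      by_cases h3 : ∃ v ∈ e, v ∈ S
      · exact Or.inr ⟨h1, h2, h3⟩
      · exact Or.inl ⟨h1, fun v hv => ⟨h2 v hv, fun hvS => h3 ⟨v, hv, hvS⟩⟩⟩
    · rintro (⟨h1, h2⟩ | ⟨h1, h2, _⟩)
      · exact ⟨h1, fun v hv => (h2 v hv).1⟩
      · exact ⟨h1, h2⟩
  have hD : Disjoint (eInS K (Z \ S)) (eTS K Z S) := by
    rw [Set.disjoint_left]
    rintro e ⟨_, h2⟩ ⟨_, _, v, hv, hvS⟩
    exact (Finset.mem_sdiff.mp (h2 v hv)).2 hvS
  rw [hU, Set.ncard_union_eq hD (Set.toFinite _) (Set.toFinite _)]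

theorem eN_union (K : SimpleGraph V) (A B : Finset V) (hAB : Disjoint A B) :
    eN K (A ∪ B) = eN K A + eT K (A ∪ B) B := by
  have h := eN_sdiff K (A ∪ B) B
  rwa [Finset.union_sdiff_cancel_right hAB] at h

theorem eN_empty (K : SimpleGraph V) : eN K ∅ = 0 := by
  unfold eN
  have h : eInS K ∅ = ∅ := by
    ext e
    simp only [eInS, Set.mem_ofPred_eq, Set.mem_empty_iff_false, iff_false, not_and]
    intro _ h2
    induction e using Sym2.ind with
    | _ a b => exact Finset.notMem_empty a (h2 a (Sym2.mem_mk_left a b))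
  rw [h, Set.ncard_empty]

/-- The edges inside `Z` are the edges inside `Z` touching `Z`. -/
theorem eN_eq_eT (K : SimpleGraph V) (Z : Finset V) : eN K Z = eT K Z Z := by
  unfold eN eT
  have h : eInS K Z = eTS K Z Z := by
    ext e
    simp only [eInS, eTS, Set.mem_ofPred_eq]
    constructor
    · rintro ⟨h1, h2⟩
      refine ⟨h1, h2, ?_⟩
      induction e using Sym2.ind with
      | _ a b => exact ⟨a, Sym2.mem_mk_left a b, h2 a (Sym2.mem_mk_left a b)⟩
    · rintro ⟨h1, h2, _⟩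
      exact ⟨h1, h2⟩
  rw [h]

theorem eN_univ (K : SimpleGraph V) : eN K Finset.univ = K.edgeSet.ncard := by
  unfold eN
  have h : eInS K Finset.univ = K.edgeSet := by
    ext e
    simp only [eInS, Set.mem_ofPred_eq, Finset.mem_univ, implies_true, and_true]
  rw [h]

/-- Every boundary vertex sends an edge into `B`. -/
theorem bdry_card_le (K : SimpleGraph V) (A B : Finset V) (hAB : Disjoint A B) :
    (bdry K A B).card ≤ eT K (A ∪ B) B := by
  rw [← eTF_card]
  have hex : ∀ w ∈ bdry K A B, ∃ t, t ∈ B ∧ K.Adj w t :=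
    fun w hw => ((mem_bdry K A B w).mp hw).2
  choose! t ht using hex
  apply Finset.card_le_card_of_injOn (fun w => s(w, t w))
  · intro w hw
    have hw' : w ∈ bdry K A B := hw
    have hwA := ((mem_bdry K A B w).mp hw').1
    obtain ⟨htB, hadj⟩ := ht w hw'
    rw [Finset.mem_coe, mk_mem_eTF]
    exact ⟨hadj, Finset.mem_union_left B hwA, Finset.mem_union_right A htB, Or.inr htB⟩
  · intro w hw w' hw' heq
    have hwb : w ∈ bdry K A B := hw
    have hwb' : w' ∈ bdry K A B := hw'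
    have hwA := ((mem_bdry K A B w).mp hwb).1
    have heq' : s(w, t w) = s(w', t w') := heq
    rw [Sym2.eq_iff] at heq'
    rcases heq' with ⟨h1, _⟩ | ⟨h1, _⟩
    · exact h1
    · exfalso
      have hwB : w ∈ B := by
        rw [h1]
        exact (ht w' hwb').1
      exact Finset.disjoint_left.mp hAB hwA hwB

/-- Removing from `B` a vertex `x` with a neighbour `w` in `A` loses the edge `w x`. -/
theorem eT_erase_lt (K : SimpleGraph V) (A B : Finset V) (hAB : Disjoint A B) (x w : V)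
    (hx : x ∈ B) (hw : w ∈ A) (hadj : K.Adj w x) :
    eT K (A ∪ B) (B.erase x) + 1 ≤ eT K (A ∪ B) B := by
  rw [← eTF_card, ← eTF_card]
  have hsub := eTF_subset K (A ∪ B) (B.erase x) B (Finset.erase_subset x B)
  have hmem : s(w, x) ∈ eTF K (A ∪ B) B := by
    rw [mk_mem_eTF]
    exact ⟨hadj, Finset.mem_union_left B hw, Finset.mem_union_right A hx, Or.inr hx⟩
  have hnot : s(w, x) ∉ eTF K (A ∪ B) (B.erase x) := by
    rw [mk_mem_eTF]
    rintro ⟨_, _, _, h4 | h4⟩
    · exact Finset.disjoint_left.mp hAB hw (Finset.mem_of_mem_erase h4)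
    · exact (Finset.notMem_erase x B) h4
  exact Nat.succ_le_of_lt (Finset.card_lt_card ⟨hsub, fun h => hnot (h hmem)⟩)

end Vale.Agent.Lib.P064
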