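import Vale.Agent.Lib.P064.LogPetal
import Vale.Agent.Lib.P064.LogExt
import Vale.Agent.Lib.P064.LogPot

/-!
The weight of a vertex set is at least one (P064): if `K` embeds into `H` then
`n^|Z| (2q)^(e(K[Z])) ≥ 1` for every vertex set `Z` of `K`.
-/

namespace Vale.Agent.Lib.P064

open Finset

variable {V W : Type} [Fintype V] [DecidableEq V] [Fintype W] [DecidableEq W]

theorem nu_ge_one (H : SimpleGraph W) (n : ℕ) (hn : 0 < n) (q : ℝ) (hq0 : 0 ≤ q) (hq1 : q ≤ 1)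
    (hq : ∀ F : H.Subgraph, 1 / 2 ≤ gnpExp n q (fun G => (G.copyCount F.coe : ℝ)))
    (K : SimpleGraph V) (ψ₀ c : V → W) (hc : c ∈ Ext K H ∅ Finset.univ ψ₀) (Z : Finset V) :
    1 ≤ (n : ℝ) ^ Z.card * (2 * q) ^ eN K Z := by
  rw [mem_Ext] at hc
  obtain ⟨-, hinj, hadj⟩ := hc
  have hinjZ : Set.InjOn c (↑Z : Set V) := hinj.mono (by intro v _; simp)
  obtain ⟨U, hU⟩ : ∃ U : Finset (Sym2 W), U = (eTF K Z Z).image (Sym2.map c) := ⟨_, rfl⟩
  have hUcard : U.card = eN K Z := by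
    rw [hU, image_eTF_card_of_injOn K Z Z c hinjZ, ← eN_eq_eT]
  have hUH : ∀ e ∈ U, e ∈ H.edgeSet := by
    intro e he
    rw [hU, Finset.mem_image] at he
    obtain ⟨e0, he0, rfl⟩ := he
    induction e0 using Sym2.ind with
    | _ a b =>
      rw [mk_mem_eTF] at he0
      rw [Sym2.map_mk, SimpleGraph.mem_edgeSet]
      exact hadj a (Finset.mem_univ a) b (by simp) he0.1
  have hUZ : ∀ e ∈ U, ∀ v ∈ e, v ∈ Z.image c := by
    intro e he v hv
    rw [hU, Finset.mem_image] at he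
    obtain ⟨e0, he0, rfl⟩ := he
    induction e0 using Sym2.ind with
    | _ a b =>
      rw [mk_mem_eTF] at he0
      rw [Sym2.map_mk, Sym2.mem_iff] at hv
      rcases hv with rfl | rfl
      · exact Finset.mem_image_of_mem c he0.2.1
      · exact Finset.mem_image_of_mem c he0.2.2.1
  have hpot := pot_half H n hn q hq0 hq1 hq U hUH (Z.image c) hUZ
  rw [hUcard] at hpot
  have hn1 : (1 : ℝ) ≤ n := by exact_mod_cast hn
  have hle : (n : ℝ) ^ (Z.image c).card ≤ (n : ℝ) ^ Z.card :=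
    pow_le_pow_right₀ hn1 Finset.card_image_le
  have hqe : 0 ≤ q ^ eN K Z := pow_nonneg hq0 _
  have h2 : (1 : ℝ) / 2 ≤ (n : ℝ) ^ Z.card * q ^ eN K Z :=
    hpot.trans (mul_le_mul_of_nonneg_right hle hqe)
  have hsplit : (n : ℝ) ^ Z.card * (2 * q) ^ eN K Z
      = 2 ^ eN K Z * ((n : ℝ) ^ Z.card * q ^ eN K Z) := by
    rw [mul_pow]
    ring
  rw [hsplit]
  rcases Nat.eq_zero_or_pos (eN K Z) with h0 | hpos
  · rw [h0, pow_zero, pow_zero, one_mul, mul_one]
    exact one_le_pow₀ hn1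
  · have h2e : (2 : ℝ) ≤ 2 ^ eN K Z := by
      calc (2 : ℝ) = 2 ^ 1 := by norm_num
        _ ≤ 2 ^ eN K Z := pow_le_pow_right₀ (by norm_num) hpos
    have hnn : 0 ≤ (n : ℝ) ^ Z.card * q ^ eN K Z := by positivity
    nlinarith

end Vale.Agent.Lib.P064
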