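import Vale.Agent.Lib.P064.LogAtom
import Vale.Agent.Lib.P064.LogAtomSizes
import Vale.Agent.Lib.P064.LogAtomArith
import Vale.Agent.Lib.P064.LogChain
import Vale.Agent.Lib.P064.LogNu

/-!
The general counting theorem of P064.  If every subgraph of `H` has expected count at least `1/2`
in `G(n,q)` and `n ≤ 2^L`, then every graph `K` has at most `n^{v(K)} (20 (L+1) q)^{e(K)}`
embeddings into `H`.

The vertices of `K` are added along a chain of vertex sets, each an inclusion-minimal minimiser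
of the weight `n^|Z| (2q)^{e(K[Z])}` among the proper supersets of the previous one; every block
of the chain has weight ratio at least one and rigid proper parts, so the atom bound applies.
-/

namespace Vale.Agent.Lib.P064

open Finset

variable {V W : Type} [Fintype V] [DecidableEq V] [Fintype W] [DecidableEq W]

/-- One block of the chain: at most `n^|B| (20 (L+1) q)^E` extensions, where `E` is the number of
edges touching `B`. -/
theorem atom_step (H : SimpleGraph W) (n : ℕ) (hn : 0 < n) (hW : Fintype.card W ≤ n) (q : ℝ)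
    (hq0 : 0 < q) (hq2 : 2 * q ≤ 1)
    (hq : ∀ F : H.Subgraph, 1 / 2 ≤ gnpExp n q (fun G => (G.copyCount F.coe : ℝ)))
    (L : ℕ) (hL : n ≤ 2 ^ L)
    (K : SimpleGraph V) (A B : Finset V) (hAB : Disjoint A B) (hB : B.Nonempty)
    (hi : 1 ≤ (n : ℝ) ^ B.card * (2 * q) ^ eT K (A ∪ B) B)
    (hii : ∀ S : Finset V, S ⊆ B → S ≠ B → S.Nonempty →
      (n : ℝ) ^ S.card * (2 * q) ^ eT K (A ∪ B) S < 1)
    (ψ : V → W) :
    ((Ext K H A B ψ).card : ℝ)
      ≤ (n : ℝ) ^ B.card * (20 * ((L : ℝ) + 1) * q) ^ eT K (A ∪ B) B := by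
  obtain ⟨E, hEdef⟩ : ∃ E : ℕ, E = eT K (A ∪ B) B := ⟨_, rfl⟩
  rw [← hEdef] at hi ⊢
  have hL0 : (0 : ℝ) ≤ (L : ℝ) := Nat.cast_nonneg _
  have hn0 : (0 : ℝ) ≤ (n : ℝ) := Nat.cast_nonneg _
  rcases Nat.eq_zero_or_pos E with hE0 | hEpos
  · rw [hE0, pow_zero, mul_one]
    have h1 := ext_card_le_pow K H A B ψ
    have h2 : Fintype.card W ^ B.card ≤ n ^ B.card := Nat.pow_le_pow_left hW _
    exact_mod_cast h1.trans h2
  · by_cases hne : (Ext K H A B ψ).Nonempty
    · have hE1 : 1 ≤ eT K (A ∪ B) B := by rw [← hEdef]; exact hEpos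
      have h1 := atom_card_le H n hn q hq0 hq2 hq L hL K A B hAB hB hE1 hii ψ
      have h2 := atom_sizes H n hn q hq0 hq2 hq K A B hAB hB hii ψ hne
      have h3 := bdry_card_le K A B hAB
      rw [← hEdef] at h1 h2 h3
      obtain ⟨μ, hμdef⟩ : ∃ μ : ℝ, μ = (n : ℝ) ^ B.card * q ^ E := ⟨_, rfl⟩
      have hμ0 : 0 ≤ μ := by rw [hμdef]; positivity
      have hμ : 1 ≤ μ * 2 ^ E := by
        rw [hμdef]
        calc (1 : ℝ) ≤ (n : ℝ) ^ B.card * (2 * q) ^ E := hi
          _ = (n : ℝ) ^ B.card * q ^ E * 2 ^ E := by rw [mul_pow]; ring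
      have hb1 : 1 ≤ B.card := Finset.card_pos.mpr hB
      have h4 := atom_arith L B.card E (bdry K A B).card μ hμ0 hμ hEpos hb1 h2.1 h3
        (fun hd => h2.2 (Finset.card_pos.mp (Nat.pos_of_ne_zero hd)))
      rw [← hμdef] at h1
      calc ((Ext K H A B ψ).card : ℝ) ≤ _ := h1
        _ ≤ μ * (20 * ((L : ℝ) + 1)) ^ E := h4
        _ = (n : ℝ) ^ B.card * (20 * ((L : ℝ) + 1) * q) ^ E := by
            rw [hμdef, mul_pow (20 * ((L : ℝ) + 1)) q]; ring
    · rw [Finset.not_nonempty_iff_eq_empty] at hne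
      rw [hne, Finset.card_empty, Nat.cast_zero]
      positivity

/-- The number of embeddings of `K` into `H`, as extensions of the empty pinned map. -/
theorem ext_univ_card_le (H : SimpleGraph W) (n : ℕ) (hn : 0 < n) (hW : Fintype.card W ≤ n)
    (q : ℝ) (hq0 : 0 < q) (hq2 : 2 * q ≤ 1)
    (hq : ∀ F : H.Subgraph, 1 / 2 ≤ gnpExp n q (fun G => (G.copyCount F.coe : ℝ)))
    (L : ℕ) (hL : n ≤ 2 ^ L) (K : SimpleGraph V) (ψ₀ : V → W) :
    ((Ext K H ∅ Finset.univ ψ₀).card : ℝ)
      ≤ (n : ℝ) ^ Fintype.card V * (20 * ((L : ℝ) + 1) * q) ^ K.edgeSet.ncard := by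
  have hL0 : (0 : ℝ) ≤ (L : ℝ) := Nat.cast_nonneg _
  have hnpos : (0 : ℝ) < (n : ℝ) := by exact_mod_cast hn
  have hq1 : q ≤ 1 := by linarith
  have h2q : (0 : ℝ) < 2 * q := by linarith
  obtain ⟨M, hMdef⟩ : ∃ M : ℝ, M = 20 * ((L : ℝ) + 1) * q := ⟨_, rfl⟩
  have hM0 : 0 ≤ M := by rw [hMdef]; positivity
  rw [← hMdef]
  by_cases hne : (Ext K H ∅ Finset.univ ψ₀).Nonempty
  · obtain ⟨c, hc⟩ := hne
    have key := chain_induction (fun Z : Finset V => (n : ℝ) ^ Z.card * (2 * q) ^ eN K Z)
      (fun A : Finset V => ((Ext K H ∅ A ψ₀).card : ℝ) ≤ (n : ℝ) ^ A.card * M ^ eN K A)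
      ?_ ?_ ?_
    · rw [eN_univ, Finset.card_univ] at key
      exact key
    · -- the empty set
      rw [eN_empty, Finset.card_empty, pow_zero, pow_zero, mul_one]
      exact_mod_cast ext_nil_card K H ∅ ψ₀
    · intro Z
      rw [eN_empty, Finset.card_empty, pow_zero, pow_zero, mul_one]
      exact nu_ge_one H n hn q hq0.le hq1 hq K ψ₀ c hc Z
    · intro A A' hAA' hP hmono hmin
      obtain ⟨B, hBdef⟩ : ∃ B : Finset V, B = A' \ A := ⟨_, rfl⟩
      have hAB : Disjoint A B := by rw [hBdef]; exact Finset.disjoint_sdiff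
      have hA' : A ∪ B = A' := by rw [hBdef]; exact Finset.union_sdiff_of_subset hAA'.subset
      have hB : B.Nonempty := by
        rw [hBdef, Finset.sdiff_nonempty]
        exact hAA'.2
      have hcard : A'.card = A.card + B.card := by
        rw [← hA', Finset.card_union_of_disjoint hAB]
      have heN : eN K A' = eN K A + eT K (A ∪ B) B := by
        rw [← hA']
        exact eN_union K A B hAB
      have hc0 : (0 : ℝ) < (n : ℝ) ^ A.card * (2 * q) ^ eN K A := by positivity
      -- the block has weight ratio at least one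
      have hi : 1 ≤ (n : ℝ) ^ B.card * (2 * q) ^ eT K (A ∪ B) B := by
        have h1 : (n : ℝ) ^ A.card * (2 * q) ^ eN K A
            ≤ ((n : ℝ) ^ A.card * (2 * q) ^ eN K A)
              * ((n : ℝ) ^ B.card * (2 * q) ^ eT K (A ∪ B) B) := by
          calc (n : ℝ) ^ A.card * (2 * q) ^ eN K A
              ≤ (n : ℝ) ^ A'.card * (2 * q) ^ eN K A' := hmono
            _ = _ := by rw [hcard, heN, pow_add, pow_add]; ring
        by_contra hlt
        rw [not_le] at hlt
        nlinarith
      -- proper parts are rigid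
      have hii : ∀ S : Finset V, S ⊆ B → S ≠ B → S.Nonempty →
          (n : ℝ) ^ S.card * (2 * q) ^ eT K (A ∪ B) S < 1 := by
        intro S hSB hSne hSn
        rw [hA']
        have hSA' : S ⊆ A' := by
          intro x hx
          rw [← hA']
          exact Finset.mem_union_right _ (hSB hx)
        have hAZ : A ⊂ A' \ S := by
          rw [Finset.ssubset_iff_of_subset]
          · obtain ⟨x, hxB, hxS⟩ : ∃ x ∈ B, x ∉ S := by
              by_contra hcon
              apply hSne
              apply Finset.Subset.antisymm hSB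
              intro x hx
              by_contra hxS
              exact hcon ⟨x, hx, hxS⟩
            refine ⟨x, ?_, ?_⟩
            · rw [Finset.mem_sdiff]
              refine ⟨?_, hxS⟩
              rw [← hA']
              exact Finset.mem_union_right _ hxB
            · exact fun hxA => Finset.disjoint_left.mp hAB hxA hxB
          · intro a ha
            rw [Finset.mem_sdiff]
            exact ⟨hAA'.subset ha, fun haS => Finset.disjoint_left.mp hAB ha (hSB haS)⟩
        have hZA' : A' \ S ⊂ A' := by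
          rw [Finset.ssubset_iff_of_subset Finset.sdiff_subset]
          obtain ⟨x, hx⟩ := hSn
          exact ⟨x, hSA' hx, fun h => (Finset.mem_sdiff.mp h).2 hx⟩
        have hlt := hmin (A' \ S) hAZ hZA'
        have hcard2 : A'.card = (A' \ S).card + S.card := by
          rw [Finset.card_sdiff_add_card_eq_card hSA']
        have heN2 := eN_sdiff K A' S
        have hc1 : (0 : ℝ) < (n : ℝ) ^ (A' \ S).card * (2 * q) ^ eN K (A' \ S) := by positivity
        have h1 : ((n : ℝ) ^ (A' \ S).card * (2 * q) ^ eN K (A' \ S))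
            * ((n : ℝ) ^ S.card * (2 * q) ^ eT K A' S)
            < (n : ℝ) ^ (A' \ S).card * (2 * q) ^ eN K (A' \ S) := by
          calc _ = (n : ℝ) ^ A'.card * (2 * q) ^ eN K A' := by
                rw [hcard2, heN2, pow_add, pow_add]; ring
            _ < _ := hlt
        by_contra hge
        rw [not_lt] at hge
        nlinarith
      -- count
      have hstep : ∀ ρ ∈ Ext K H ∅ A ψ₀, ((Ext K H A B ρ).card : ℝ)
          ≤ (n : ℝ) ^ B.card * M ^ eT K (A ∪ B) B := by
        intro ρ _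
        rw [hMdef]
        exact atom_step H n hn hW q hq0 hq2 hq L hL K A B hAB hB hi hii ρ
      have hsum := ext_card_le_sum_restrict K H A B hAB ψ₀
      rw [hA'] at hsum
      have hb0 : (0 : ℝ) ≤ (n : ℝ) ^ B.card * M ^ eT K (A ∪ B) B := by positivity
      calc ((Ext K H ∅ A' ψ₀).card : ℝ)
          ≤ ((∑ ρ ∈ Ext K H ∅ A ψ₀, (Ext K H A B ρ).card : ℕ) : ℝ) := by exact_mod_cast hsum
        _ = ∑ ρ ∈ Ext K H ∅ A ψ₀, ((Ext K H A B ρ).card : ℝ) := by push_cast; rfl
        _ ≤ ∑ _ρ ∈ Ext K H ∅ A ψ₀, (n : ℝ) ^ B.card * M ^ eT K (A ∪ B) B :=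
            Finset.sum_le_sum hstep
        _ = ((Ext K H ∅ A ψ₀).card : ℝ) * ((n : ℝ) ^ B.card * M ^ eT K (A ∪ B) B) := by
            rw [Finset.sum_const, nsmul_eq_mul]
        _ ≤ ((n : ℝ) ^ A.card * M ^ eN K A) * ((n : ℝ) ^ B.card * M ^ eT K (A ∪ B) B) :=
            mul_le_mul_of_nonneg_right hP hb0
        _ = (n : ℝ) ^ A'.card * M ^ eN K A' := by
            rw [hcard, heN, pow_add, pow_add]; ring
  · rw [Finset.not_nonempty_iff_eq_empty] at hne
    rw [hne, Finset.card_empty, Nat.cast_zero]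
    positivity

omit [DecidableEq W] in
/-- General counting theorem: every graph `K` has at most `n^{v(K)} (20 (L+1) q)^{e(K)}`
embeddings into `H`. -/
theorem labelledCopyCount_le_log (H : SimpleGraph W) (n : ℕ) (hn : 0 < n)
    (hW : Fintype.card W ≤ n) (q : ℝ) (hq0 : 0 < q)
    (hq : ∀ F : H.Subgraph, 1 / 2 ≤ gnpExp n q (fun G => (G.copyCount F.coe : ℝ)))
    (L : ℕ) (hL : n ≤ 2 ^ L) (U : Type) [Fintype U] (K : SimpleGraph U) :
    (H.labelledCopyCount K : ℝ)
      ≤ (n : ℝ) ^ Fintype.card U * (20 * ((L : ℝ) + 1) * q) ^ K.edgeSet.ncard := by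
  classical
  have hL0 : (0 : ℝ) ≤ (L : ℝ) := Nat.cast_nonneg _
  by_cases hfun : Nonempty (U → W)
  · obtain ⟨ψ₀⟩ := hfun
    have h1 := labelledCopyCount_le_ext_card K H ψ₀
    rcases le_or_gt (2 * q) 1 with hle | hgt
    · have h2 := ext_univ_card_le H n hn hW q hq0 hle hq L hL K ψ₀
      have h1' : (H.labelledCopyCount K : ℝ) ≤ ((Ext K H ∅ Finset.univ ψ₀).card : ℝ) := by
        exact_mod_cast h1
      exact h1'.trans h2
    · have h2 := ext_card_le_pow K H ∅ Finset.univ ψ₀
      rw [Finset.card_univ] at h2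
      have h3 : Fintype.card W ^ Fintype.card U ≤ n ^ Fintype.card U :=
        Nat.pow_le_pow_left hW _
      have h4 : (H.labelledCopyCount K : ℝ) ≤ (n : ℝ) ^ Fintype.card U := by
        exact_mod_cast (h1.trans h2).trans h3
      have h5 : (1 : ℝ) ≤ 20 * ((L : ℝ) + 1) * q := by nlinarith
      have h6 : (1 : ℝ) ≤ (20 * ((L : ℝ) + 1) * q) ^ K.edgeSet.ncard := one_le_pow₀ h5
      have hn0 : (0 : ℝ) ≤ (n : ℝ) ^ Fintype.card U := by positivity
      nlinarith
  · have h0 : H.labelledCopyCount K = 0 := by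
      rw [SimpleGraph.labelledCopyCount_eq_zero]
      rintro ⟨c⟩
      exact hfun ⟨fun u => c u⟩
    rw [h0, Nat.cast_zero]
    positivity

end Vale.Agent.Lib.P064
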