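import Vale.Agent.Lib.P064.LogEdges

/-!
Edge images of extensions (P064, general counting theorem).
-/

namespace Vale.Agent.Lib.P064

open Finset

variable {V W : Type} [Fintype V] [DecidableEq V] [Fintype W] [DecidableEq W]

omit [Fintype W] in
theorem mk_mem_petal (K : SimpleGraph V) (A B : Finset V) (φ : V → W) (x y : W) :
    s(x, y) ∈ petal K A B φ ↔ ∃ a b, K.Adj a b ∧ a ∈ A ∪ B ∧ b ∈ A ∪ B ∧ (a ∈ B ∨ b ∈ B) ∧
      φ a = x ∧ φ b = y := by
  unfold petal
  rw [Finset.mem_image]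
  constructor
  · rintro ⟨e, he, hxy⟩
    induction e using Sym2.ind with
    | _ a b =>
      rw [mk_mem_eTF] at he
      rw [Sym2.map_mk, Sym2.eq_iff] at hxy
      rcases hxy with ⟨h1, h2⟩ | ⟨h1, h2⟩
      · exact ⟨a, b, he.1, he.2.1, he.2.2.1, he.2.2.2, h1, h2⟩
      · exact ⟨b, a, he.1.symm, he.2.2.1, he.2.1, he.2.2.2.symm, h2, h1⟩
  · rintro ⟨a, b, hadj, ha, hb, hB, rfl, rfl⟩
    exact ⟨s(a, b), (mk_mem_eTF K _ _ a b).mpr ⟨hadj, ha, hb, hB⟩, rfl⟩

theorem petal_sub_edgeSet (K : SimpleGraph V) (H : SimpleGraph W) (A B : Finset V)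
    (ψ φ : V → W) (hφ : φ ∈ Ext K H A B ψ) : ∀ e ∈ petal K A B φ, e ∈ H.edgeSet := by
  intro e he
  induction e using Sym2.ind with
  | _ x y =>
    rw [mk_mem_petal] at he
    obtain ⟨a, b, hadj, ha, hb, hB, rfl, rfl⟩ := he
    rw [mem_Ext] at hφ
    rw [SimpleGraph.mem_edgeSet]
    rcases hB with h | h
    · exact hφ.2.2 a h b hb hadj
    · exact (hφ.2.2 b h a ha hadj.symm).symm

omit [Fintype W] in
/-- A map injective on `Z` is injective on the edges inside `Z` (auxiliary form). -/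
theorem taskPetal_card_of_injOn (K : SimpleGraph V) (Z S : Finset V) (φ : V → W)
    (hφ : Set.InjOn φ (↑Z : Set V)) :
    ((eTF K Z S).image (Sym2.map φ)).card = eT K Z S := by
  rw [Finset.card_image_of_injOn, eTF_card]
  intro e he e' he' h
  induction e using Sym2.ind with
  | _ a b =>
    induction e' using Sym2.ind with
    | _ a' b' =>
      rw [Finset.mem_coe, mk_mem_eTF] at he he'
      rw [Sym2.map_mk, Sym2.map_mk, Sym2.eq_iff] at h
      rw [Sym2.eq_iff]
      rcases h with ⟨h1, h2⟩ | ⟨h1, h2⟩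
      · left
        exact ⟨hφ (Finset.mem_coe.mpr he.2.1) (Finset.mem_coe.mpr he'.2.1) h1,
          hφ (Finset.mem_coe.mpr he.2.2.1) (Finset.mem_coe.mpr he'.2.2.1) h2⟩
      · right
        exact ⟨hφ (Finset.mem_coe.mpr he.2.1) (Finset.mem_coe.mpr he'.2.2.1) h1,
          hφ (Finset.mem_coe.mpr he.2.2.1) (Finset.mem_coe.mpr he'.2.1) h2⟩

theorem petal_card (K : SimpleGraph V) (H : SimpleGraph W) (A B : Finset V)
    (ψ φ : V → W) (hφ : φ ∈ Ext K H A B ψ) : (petal K A B φ).card = eT K (A ∪ B) B := by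
  unfold petal
  exact taskPetal_card_of_injOn K (A ∪ B) B φ ((mem_Ext K H A B ψ φ).mp hφ).2.1

/-- The endpoints of the edge image lie in the image of the boundary or of `B`. -/
theorem petal_verts (K : SimpleGraph V) (H : SimpleGraph W) (A B : Finset V)
    (hAB : Disjoint A B) (ψ φ : V → W) (hφ : φ ∈ Ext K H A B ψ) :
    ∀ e ∈ petal K A B φ, ∀ v ∈ e, v ∈ (bdry K A B).image ψ ∪ B.image φ := by
  have _hAB := hAB
  intro e he
  induction e using Sym2.ind with
  | _ x y =>
    rw [mk_mem_petal] at he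
    obtain ⟨a, b, hadj, ha, hb, hB, rfl, rfl⟩ := he
    rw [mem_Ext] at hφ
    have key : ∀ c d, K.Adj c d → c ∈ A ∪ B → d ∈ A ∪ B → (c ∈ B ∨ d ∈ B) →
        φ c ∈ (bdry K A B).image ψ ∪ B.image φ := by
      intro c d hcd hc _ hcdB
      by_cases hcB : c ∈ B
      · exact Finset.mem_union_right _ (Finset.mem_image_of_mem _ hcB)
      · have hdB : d ∈ B := hcdB.resolve_left hcB
        have hcA : c ∈ A := (Finset.mem_union.mp hc).resolve_right hcB
        apply Finset.mem_union_left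
        rw [Finset.mem_image]
        exact ⟨c, (mem_bdry K A B c).mpr ⟨hcA, d, hdB, hcd⟩, (hφ.1 c hcB).symm⟩
    intro v hv
    rw [Sym2.mem_iff] at hv
    rcases hv with rfl | rfl
    · exact key a b hadj ha hb hB
    · exact key b a hadj.symm hb ha hB.symm

/-- Extensions with disjoint images of `B` have disjoint edge images. -/
theorem petal_disjoint (K : SimpleGraph V) (H : SimpleGraph W) (A B : Finset V)
    (hAB : Disjoint A B) (ψ φ φ' : V → W) (hφ : φ ∈ Ext K H A B ψ) (hφ' : φ' ∈ Ext K H A B ψ)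
    (h : Disjoint (B.image φ) (B.image φ')) :
    Disjoint (petal K A B φ) (petal K A B φ') := by
  have _hAB := hAB
  rw [mem_Ext] at hφ hφ'
  have key : ∀ c d, c ∈ B → d ∈ A ∪ B → φ c ≠ φ' d := by
    intro c d hc hd hcd
    by_cases hdB : d ∈ B
    · exact Finset.disjoint_left.mp h (Finset.mem_image_of_mem φ hc)
        (hcd ▸ Finset.mem_image_of_mem φ' hdB)
    · have h1 : φ' d = φ d := by rw [hφ'.1 d hdB, hφ.1 d hdB]
      have h2 : c = d := hφ.2.1 (Finset.mem_coe.mpr (Finset.mem_union_right A hc))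
        (Finset.mem_coe.mpr hd) (hcd.trans h1)
      exact hdB (h2 ▸ hc)
  rw [Finset.disjoint_left]
  intro e he he'
  induction e using Sym2.ind with
  | _ x y =>
    rw [mk_mem_petal] at he he'
    obtain ⟨a, b, _, _, _, hB, rfl, rfl⟩ := he
    obtain ⟨a', b', _, ha', hb', _, h1, h2⟩ := he'
    rcases hB with hB | hB
    · exact key a a' hB ha' h1.symm
    · exact key b b' hB hb' h2.symm

omit [Fintype W] in
/-- The images of the edges touching a part `S` of `B`. -/
theorem image_eTF_sub_petal (K : SimpleGraph V) (A B S : Finset V) (hS : S ⊆ B) (φ : V → W) :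
    (eTF K (A ∪ B) S).image (Sym2.map φ) ⊆ petal K A B φ := by
  unfold petal
  exact Finset.image_subset_image (eTF_subset K (A ∪ B) S B hS)

omit [Fintype W] in
/-- A map injective on `Z` is injective on the edges inside `Z`. -/
theorem image_eTF_card_of_injOn (K : SimpleGraph V) (Z S : Finset V) (φ : V → W)
    (hφ : Set.InjOn φ (↑Z : Set V)) :
    ((eTF K Z S).image (Sym2.map φ)).card = eT K Z S := by
  exact taskPetal_card_of_injOn K Z S φ hφ

theorem image_eTF_card (K : SimpleGraph V) (H : SimpleGraph W) (A B S : Finset V)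
    (ψ φ : V → W) (hφ : φ ∈ Ext K H A B ψ) :
    ((eTF K (A ∪ B) S).image (Sym2.map φ)).card = eT K (A ∪ B) S := by
  exact taskPetal_card_of_injOn K (A ∪ B) S φ ((mem_Ext K H A B ψ φ).mp hφ).2.1

end Vale.Agent.Lib.P064
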