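import Vale.Agent.Lib.P064.LogCluster

/-!
The pivot step (P064): in a rigid pinned structure with at least one extension, the boundary is
nonempty and some vertex of `T` adjacent to `A` has at most `L + 1` images, where `n ≤ 2^L`.
-/

namespace Vale.Agent.Lib.P064

open Finset

variable {V W : Type} [Fintype V] [DecidableEq V] [Fintype W] [DecidableEq W]

theorem rigid_bdry_nonempty (H : SimpleGraph W) (n : ℕ) (hn : 0 < n) (q : ℝ) (hq0 : 0 < q)
    (hq2 : 2 * q ≤ 1)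
    (hq : ∀ F : H.Subgraph, 1 / 2 ≤ gnpExp n q (fun G => (G.copyCount F.coe : ℝ)))
    (K : SimpleGraph V) (A T : Finset V) (hAT : Disjoint A T) (hR : Rigid K n q A T)
    (hT : T.Nonempty) (ψ : V → W) (hne : (Ext K H A T ψ).Nonempty) :
    (bdry K A T).Nonempty := by
  by_contra hb
  rw [Finset.not_nonempty_iff_eq_empty] at hb
  obtain ⟨φ, hφ⟩ := hne
  have hq1 : q ≤ 1 := by linarith
  have hcard := petal_card K H A T ψ φ hφ
  have hUH := petal_sub_edgeSet K H A T ψ φ hφ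
  have hverts : ∀ e ∈ petal K A T φ, ∀ v ∈ e, v ∈ T.image φ := by
    intro e he v hv
    have h1 := petal_verts K H A T hAT ψ φ hφ e he v hv
    rw [hb, Finset.image_empty, Finset.empty_union] at h1
    exact h1
  have hpot := pot_half H n hn q hq0.le hq1 hq (petal K A T φ) hUH (T.image φ) hverts
  rw [hcard] at hpot
  have hn1 : (1 : ℝ) ≤ (n : ℝ) := by exact_mod_cast hn
  have hle : (n : ℝ) ^ (T.image φ).card ≤ (n : ℝ) ^ T.card :=
    pow_le_pow_right₀ hn1 Finset.card_image_le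
  have hqE : 0 ≤ q ^ eT K (A ∪ T) T := pow_nonneg hq0.le _
  have hX : (1 : ℝ) / 2 ≤ (n : ℝ) ^ T.card * q ^ eT K (A ∪ T) T :=
    le_trans hpot (mul_le_mul_of_nonneg_right hle hqE)
  have hrig := hR T (Finset.Subset.refl T) hT
  rw [mul_pow] at hrig
  rcases Nat.eq_zero_or_pos (eT K (A ∪ T) T) with h0 | hpos
  · rw [h0, pow_zero, pow_zero, mul_one, mul_one] at hrig
    have h1 : (1 : ℝ) ≤ (n : ℝ) ^ T.card := one_le_pow₀ hn1
    linarith
  · have h2 : (2 : ℝ) ≤ 2 ^ eT K (A ∪ T) T := by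
      calc (2 : ℝ) = 2 ^ 1 := (pow_one 2).symm
        _ ≤ 2 ^ eT K (A ∪ T) T := pow_le_pow_right₀ (by norm_num) hpos
    have hX0 : 0 ≤ (n : ℝ) ^ T.card * q ^ eT K (A ∪ T) T := by positivity
    nlinarith [mul_le_mul_of_nonneg_right h2 hX0]

theorem rigid_pivot (H : SimpleGraph W) (n : ℕ) (hn : 0 < n) (q : ℝ) (hq0 : 0 < q)
    (hq2 : 2 * q ≤ 1)
    (hq : ∀ F : H.Subgraph, 1 / 2 ≤ gnpExp n q (fun G => (G.copyCount F.coe : ℝ)))
    (L : ℕ) (hL : n ≤ 2 ^ L)
    (K : SimpleGraph V) (A T : Finset V) (hAT : Disjoint A T) (hR : Rigid K n q A T)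
    (hT : T.Nonempty) (ψ : V → W) (hne : (Ext K H A T ψ).Nonempty) :
    ∃ t ∈ T, (∃ w ∈ A, K.Adj w t) ∧
      ((Ext K H A T ψ).image (fun φ => φ t)).card ≤ L + 1 := by
  have hB := rigid_bdry_nonempty H n hn q hq0 hq2 hq K A T hAT hR hT ψ hne
  have hd : 1 ≤ (bdry K A T).card := Finset.card_pos.mpr hB
  obtain ⟨U, hUdef⟩ :
      ∃ U, U = (Ext K H A T ψ).biUnion (fun φ => petal K A T φ) := ⟨_, rfl⟩
  have hcl := cluster_bound H n hn q hq0 hq2 hq K A T hAT hR ψ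
  rw [← hUdef] at hcl
  have hUcard : U.card ≤ 1 + L * (bdry K A T).card := by
    have hnL : (n : ℝ) ≤ (2 : ℝ) ^ L := by exact_mod_cast hL
    have h1 : (n : ℝ) ^ (bdry K A T).card ≤ ((2 : ℝ) ^ L) ^ (bdry K A T).card :=
      pow_le_pow_left₀ (Nat.cast_nonneg n) hnL _
    have h2 : (2 : ℝ) ^ U.card ≤ (2 : ℝ) ^ (1 + L * (bdry K A T).card) := by
      calc (2 : ℝ) ^ U.card ≤ 2 * (n : ℝ) ^ (bdry K A T).card := hcl
        _ ≤ 2 * ((2 : ℝ) ^ L) ^ (bdry K A T).card := by linarith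
        _ = (2 : ℝ) ^ (1 + L * (bdry K A T).card) := by rw [← pow_mul, pow_add, pow_one]
    exact (pow_le_pow_iff_right₀ (by norm_num : (1 : ℝ) < 2)).mp h2
  have hchoice : ∀ w ∈ bdry K A T, ∃ t, t ∈ T ∧ K.Adj w t := by
    intro w hw
    obtain ⟨-, t, ht, hadj⟩ := (mem_bdry K A T w).mp hw
    exact ⟨t, ht, hadj⟩
  have hVne : Nonempty V := ⟨hT.choose⟩
  choose! tw htw using hchoice
  have hdisj : ∀ v, v ∈ A → v ∉ T := fun v hvA hvT => (Finset.disjoint_left.mp hAT hvA) hvT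
  have hagree : ∀ φ ∈ Ext K H A T ψ, ∀ v ∈ A, φ v = ψ v := by
    intro φ hφ v hv
    exact ((mem_Ext K H A T ψ φ).mp hφ).1 v (hdisj v hv)
  have hinj : ∀ φ ∈ Ext K H A T ψ, Set.InjOn φ (↑(A ∪ T) : Set V) :=
    fun φ hφ => ((mem_Ext K H A T ψ φ).mp hφ).2.1
  have hbA : ∀ w ∈ bdry K A T, w ∈ A := fun w hw => ((mem_bdry K A T w).mp hw).1
  obtain ⟨I, hI⟩ : ∃ I : V → Finset W,
      I = fun w => (Ext K H A T ψ).image (fun φ => φ (tw w)) := ⟨_, rfl⟩
  have hImem : ∀ (w : V) (y : W), y ∈ I w → ∃ φ ∈ Ext K H A T ψ, φ (tw w) = y := by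
    intro w y hy
    rw [hI] at hy
    exact Finset.mem_image.mp hy
  have hsum : ∑ w ∈ bdry K A T, (I w).card ≤ U.card := by
    rw [← Finset.card_sigma]
    refine Finset.card_le_card_of_injOn (fun x : (Σ _ : V, W) => s(ψ x.1, x.2)) ?_ ?_
    · intro x hx
      obtain ⟨hw, hy⟩ := Finset.mem_sigma.mp (Finset.mem_coe.mp hx)
      obtain ⟨φ, hφ, hφy⟩ := hImem x.1 x.2 hy
      refine Finset.mem_coe.mpr ?_
      rw [hUdef, Finset.mem_biUnion]
      refine ⟨φ, hφ, ?_⟩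
      show s(ψ x.1, x.2) ∈ petal K A T φ
      rw [mk_mem_petal]
      exact ⟨x.1, tw x.1, (htw x.1 hw).2, Finset.mem_union_left _ (hbA x.1 hw),
        Finset.mem_union_right _ (htw x.1 hw).1, Or.inr (htw x.1 hw).1,
        hagree φ hφ x.1 (hbA x.1 hw), hφy⟩
    · intro x hx x' hx' heq
      obtain ⟨hw, -⟩ := Finset.mem_sigma.mp (Finset.mem_coe.mp hx)
      obtain ⟨hw', hy'⟩ := Finset.mem_sigma.mp (Finset.mem_coe.mp hx')
      obtain ⟨φ₀, hφ₀⟩ := hne
      have hψinj : ∀ a ∈ A, ∀ b ∈ A, ψ a = ψ b → a = b := by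
        intro a ha b hb hab
        rw [← hagree φ₀ hφ₀ a ha, ← hagree φ₀ hφ₀ b hb] at hab
        exact hinj φ₀ hφ₀ (Finset.mem_coe.mpr (Finset.mem_union_left _ ha))
          (Finset.mem_coe.mpr (Finset.mem_union_left _ hb)) hab
      have heq' : s(ψ x.1, x.2) = s(ψ x'.1, x'.2) := heq
      rcases Sym2.eq_iff.mp heq' with ⟨h1, h2⟩ | ⟨h1, h2⟩
      · have hww : x.1 = x'.1 := hψinj _ (hbA _ hw) _ (hbA _ hw') h1
        obtain ⟨a, b⟩ := x
        obtain ⟨a', b'⟩ := x'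
        simp only at hww h2
        subst hww
        subst h2
        rfl
      · exfalso
        obtain ⟨φ', hφ', hφy'⟩ := hImem x'.1 x'.2 hy'
        have h3 : φ' x.1 = φ' (tw x'.1) := by
          rw [hagree φ' hφ' x.1 (hbA _ hw), h1, hφy']
        have h4 : x.1 = tw x'.1 :=
          hinj φ' hφ' (Finset.mem_coe.mpr (Finset.mem_union_left _ (hbA _ hw)))
            (Finset.mem_coe.mpr (Finset.mem_union_right _ (htw _ hw').1)) h3
        have h5 : x.1 ∈ T := by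
          rw [h4]
          exact (htw _ hw').1
        exact hdisj x.1 (hbA _ hw) h5
  by_contra hall
  push Not at hall
  have hbig : ∀ w ∈ bdry K A T, L + 2 ≤ (I w).card := by
    intro w hw
    have h1 := hall (tw w) (htw w hw).1 ⟨w, hbA w hw, (htw w hw).2⟩
    rw [hI]
    exact Nat.succ_le_of_lt h1
  have hsum2 : (bdry K A T).card * (L + 2) ≤ ∑ w ∈ bdry K A T, (I w).card := by
    have h1 := Finset.sum_le_sum hbig
    rw [Finset.sum_const, smul_eq_mul] at h1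
    exact h1
  have hfin : (bdry K A T).card * (L + 2) ≤ 1 + L * (bdry K A T).card :=
    le_trans hsum2 (le_trans hsum hUcard)
  nlinarith

end Vale.Agent.Lib.P064
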