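import Vale.Agent.Lib.P064.LogPivot

/-!
The rigid count (P064): a rigid pinned structure on `T` has at most `(L+1)^|T|` extensions of
any pinned map, where `n ≤ 2^L`; and if it has an extension then `|T|` is at most the number of
edges touching `T`.
-/

namespace Vale.Agent.Lib.P064

open Finset

variable {V W : Type} [Fintype V] [DecidableEq V] [Fintype W] [DecidableEq W]

omit [Fintype V] in
theorem taskRigid_disj (A T : Finset V) (hAT : Disjoint A T) (t : V) :
    Disjoint (insert t A) (T.erase t) := by
  rw [Finset.disjoint_insert_left]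
  exact ⟨Finset.notMem_erase t T, hAT.mono_right (Finset.erase_subset t T)⟩

omit [Fintype V] in
theorem taskRigid_union (A T : Finset V) (t : V) (ht : t ∈ T) :
    insert t A ∪ T.erase t = A ∪ T := by
  ext v
  simp only [Finset.mem_union, Finset.mem_insert, Finset.mem_erase]
  constructor
  · rintro ((rfl | h) | ⟨_, h⟩)
    · exact Or.inr ht
    · exact Or.inl h
    · exact Or.inr h
  · rintro (h | h)
    · exact Or.inl (Or.inr h)
    · by_cases hv : v = t
      · exact Or.inl (Or.inl hv)
      · exact Or.inr ⟨hv, h⟩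

theorem rigid_count (H : SimpleGraph W) (n : ℕ) (hn : 0 < n) (q : ℝ) (hq0 : 0 < q)
    (hq2 : 2 * q ≤ 1)
    (hq : ∀ F : H.Subgraph, 1 / 2 ≤ gnpExp n q (fun G => (G.copyCount F.coe : ℝ)))
    (L : ℕ) (hL : n ≤ 2 ^ L)
    (K : SimpleGraph V) (A T : Finset V) (hAT : Disjoint A T) (hR : Rigid K n q A T)
    (ψ : V → W) :
    (Ext K H A T ψ).card ≤ (L + 1) ^ T.card := by
  induction hk : T.card generalizing A T ψ with
  | zero =>
    have hT : T = ∅ := Finset.card_eq_zero.mp hk
    subst hT
    rw [pow_zero]
    exact ext_nil_card K H A ψ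
  | succ k ih =>
    by_cases hne : (Ext K H A T ψ).Nonempty
    · have hTne : T.Nonempty := Finset.card_pos.mp (by omega)
      obtain ⟨t, ht, -, hI⟩ := rigid_pivot H n hn q hq0 hq2 hq L hL K A T hAT hR hTne ψ hne
      have hsum := ext_card_le_sum_pin K H A T ψ t ht
      have hcard : (T.erase t).card = k := by
        rw [Finset.card_erase_of_mem ht, hk]
        rfl
      have hterm : ∀ y ∈ (Ext K H A T ψ).image (fun φ => φ t),
          (Ext K H (insert t A) (T.erase t) (Function.update ψ t y)).card ≤ (L + 1) ^ k :=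
        fun y _ => ih (insert t A) (T.erase t) (taskRigid_disj A T hAT t)
          (rigid_pin K n q A T t ht hR) (Function.update ψ t y) hcard
      calc (Ext K H A T ψ).card
          ≤ ∑ y ∈ (Ext K H A T ψ).image (fun φ => φ t),
              (Ext K H (insert t A) (T.erase t) (Function.update ψ t y)).card := hsum
        _ ≤ ∑ _y ∈ (Ext K H A T ψ).image (fun φ => φ t), (L + 1) ^ k :=
            Finset.sum_le_sum hterm
        _ = ((Ext K H A T ψ).image (fun φ => φ t)).card * (L + 1) ^ k := by
            rw [Finset.sum_const, smul_eq_mul]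
        _ ≤ (L + 1) * (L + 1) ^ k := Nat.mul_le_mul_right _ hI
        _ = (L + 1) ^ (k + 1) := by rw [pow_succ, mul_comm]
    · rw [Finset.not_nonempty_iff_eq_empty] at hne
      rw [hne, Finset.card_empty]
      exact Nat.zero_le _

theorem rigid_card_le (H : SimpleGraph W) (n : ℕ) (hn : 0 < n) (q : ℝ) (hq0 : 0 < q)
    (hq2 : 2 * q ≤ 1)
    (hq : ∀ F : H.Subgraph, 1 / 2 ≤ gnpExp n q (fun G => (G.copyCount F.coe : ℝ)))
    (K : SimpleGraph V) (A T : Finset V) (hAT : Disjoint A T) (hR : Rigid K n q A T)
    (ψ : V → W) (hne : (Ext K H A T ψ).Nonempty) :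
    T.card ≤ eT K (A ∪ T) T := by
  induction hk : T.card generalizing A T ψ with
  | zero => exact Nat.zero_le _
  | succ k ih =>
    have hTne : T.Nonempty := Finset.card_pos.mp (by omega)
    obtain ⟨t, ht, ⟨w, hw, hadj⟩, -⟩ :=
      rigid_pivot H n hn q hq0 hq2 hq n Nat.lt_two_pow_self.le K A T hAT hR hTne ψ hne
    obtain ⟨φ, hφ⟩ := hne
    have hφ' := ext_pin_mem K H A T ψ φ hφ t ht
    have hcard : (T.erase t).card = k := by
      rw [Finset.card_erase_of_mem ht, hk]
      rfl
    have h1 := ih (insert t A) (T.erase t) (taskRigid_disj A T hAT t)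
      (rigid_pin K n q A T t ht hR) (Function.update ψ t (φ t)) ⟨φ, hφ'⟩ hcard
    rw [taskRigid_union A T t ht] at h1
    have h2 := eT_erase_lt K A T hAT t w ht hw hadj
    omega

end Vale.Agent.Lib.P064
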