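import Vale.Agent.Lib.P064.LogPetal
import Vale.Agent.Lib.P064.LogExt

/-!
Counting the images of a sunflower (P064): the union of the edge images of extensions of one
pinned map with pairwise disjoint images of `B` has at most `n^|boundary| C(n^|B|, t)` images in
the complete graph on `Fin n`, where `t` is the number of extensions.
-/

namespace Vale.Agent.Lib.P064

open Finset

variable {V W : Type} [Fintype V] [DecidableEq V] [Fintype W] [DecidableEq W]

omit [Fintype W] in
/-- The edge image of a composite map is the image of the edge image. -/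
theorem taskSunCount_petal_comp (K : SimpleGraph V) (A B : Finset V) (φ : V → W) {n : ℕ}
    (s : W → Fin n) : (petal K A B φ).image (Sym2.map s) = petal K A B (s ∘ φ) := by
  unfold petal
  rw [Finset.image_image, Sym2.map_comp]

omit [Fintype W] in
/-- The edge image depends only on the values of the map on the boundary and on `B`. -/
theorem taskSunCount_petal_congr (K : SimpleGraph V) (A B : Finset V) (χ χ' : V → W)
    (h : ∀ v ∈ bdry K A B ∪ B, χ v = χ' v) : petal K A B χ = petal K A B χ' := by
  unfold petal
  apply Finset.image_congr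
  intro e he
  induction e using Sym2.ind with
  | _ a b =>
    rw [Finset.mem_coe, mk_mem_eTF] at he
    obtain ⟨hadj, ha, hb, hab⟩ := he
    have ha' : a ∈ bdry K A B ∪ B := by
      by_cases haB : a ∈ B
      · exact Finset.mem_union_right _ haB
      · apply Finset.mem_union_left
        rw [mem_bdry]
        have hbB : b ∈ B := by
          rcases hab with h1 | h1
          · exact absurd h1 haB
          · exact h1
        refine ⟨?_, b, hbB, hadj⟩
        rcases Finset.mem_union.mp ha with h1 | h1
        · exact h1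
        · exact absurd h1 haB
    have hb' : b ∈ bdry K A B ∪ B := by
      by_cases hbB : b ∈ B
      · exact Finset.mem_union_right _ hbB
      · apply Finset.mem_union_left
        rw [mem_bdry]
        have haB : a ∈ B := by
          rcases hab with h1 | h1
          · exact h1
          · exact absurd h1 hbB
        refine ⟨?_, a, haB, hadj.symm⟩
        rcases Finset.mem_union.mp hb with h1 | h1
        · exact h1
        · exact absurd h1 hbB
    rw [Sym2.map_mk, Sym2.map_mk, h a ha', h b hb']

/-- Glue a map on the boundary and a map on `B` to a map on all pattern vertices. -/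
noncomputable def taskSunCount_glue (K : SimpleGraph V) (A B : Finset V) {n : ℕ} (z0 : Fin n)
    (f : ↥(bdry K A B) → Fin n) (g : ↥B → Fin n) : V → Fin n :=
  fun v => if h : v ∈ B then g ⟨v, h⟩ else if h' : v ∈ bdry K A B then f ⟨v, h'⟩ else z0

theorem sunflower_imgs_card_le (K : SimpleGraph V) (H : SimpleGraph W) (A B : Finset V)
    (hAB : Disjoint A B) (ψ : V → W) (D : Finset (V → W)) (hD : D ⊆ Ext K H A B ψ)
    (hdisj : ∀ φ ∈ D, ∀ φ' ∈ D, φ ≠ φ' → Disjoint (B.image φ) (B.image φ'))
    (hE : 1 ≤ eT K (A ∪ B) B) (n : ℕ) (hn : 0 < n) :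
    (imgs (D.biUnion (fun φ => petal K A B φ)) n).card
      ≤ n ^ (bdry K A B).card * (n ^ B.card).choose D.card := by
  classical
  obtain ⟨z0⟩ : Nonempty (Fin n) := ⟨⟨0, hn⟩⟩
  -- an edge touching `B`
  obtain ⟨a0, b0, ha0, hb0, hadj0⟩ : ∃ a0 b0, a0 ∈ B ∧ b0 ∈ A ∪ B ∧ K.Adj a0 b0 := by
    have hcard : 0 < (eTF K (A ∪ B) B).card := by rw [eTF_card]; exact hE
    obtain ⟨e, he⟩ := Finset.card_pos.mp hcard
    induction e using Sym2.ind with
    | _ a b =>
      rw [mk_mem_eTF] at he
      obtain ⟨hadj, ha, hb, hab⟩ := he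
      rcases hab with h1 | h1
      · exact ⟨a, b, h1, hb, hadj⟩
      · exact ⟨b, a, h1, ha, hadj.symm⟩
  obtain ⟨U, hU⟩ : ∃ U : Finset (Sym2 W), U = D.biUnion (fun φ => petal K A B φ) := ⟨_, rfl⟩
  rw [← hU]
  obtain ⟨Phi, hPhi⟩ : ∃ Phi : (↥(bdry K A B) → Fin n) × Finset (↥B → Fin n) →
      Finset (Sym2 (Fin n)), Phi = fun p =>
        p.2.biUnion (fun g => petal K A B (taskSunCount_glue K A B z0 p.1 g)) := ⟨_, rfl⟩
  have hsub : imgs U n ⊆ ((Finset.univ : Finset (↥(bdry K A B) → Fin n)) ×ˢ
      Finset.powersetCard D.card (Finset.univ : Finset (↥B → Fin n))).image Phi := by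
    intro B' hB'
    unfold imgs at hB'
    rw [Finset.mem_image] at hB'
    obtain ⟨s, hs, rfl⟩ := hB'
    rw [Finset.mem_filter] at hs
    have hinj := hs.2
    rw [Finset.mem_image]
    refine ⟨(fun w => s (ψ w), D.image (fun φ => fun b : ↥B => s (φ b))), ?_, ?_⟩
    · rw [Finset.mem_product, Finset.mem_powersetCard]
      refine ⟨Finset.mem_univ _, Finset.subset_univ _, ?_⟩
      apply Finset.card_image_of_injOn
      intro φ hφ φ' hφ' hEq
      by_contra hne
      have hd := hdisj φ hφ φ' hφ' hne
      have h1 : s (φ a0) = s (φ' a0) := congrFun hEq ⟨a0, ha0⟩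
      have hv : ∀ χ ∈ D, ∃ w, s(χ a0, w) ∈ U := by
        intro χ hχ
        refine ⟨χ b0, ?_⟩
        rw [hU, Finset.mem_biUnion]
        refine ⟨χ, hχ, ?_⟩
        rw [mk_mem_petal]
        exact ⟨a0, b0, hadj0, Finset.mem_union_right _ ha0, hb0, Or.inl ha0, rfl, rfl⟩
      have h2 : φ a0 = φ' a0 := hinj (hv φ hφ) (hv φ' hφ') h1
      have h3 : φ a0 ∈ B.image φ := Finset.mem_image_of_mem _ ha0
      have h4 : φ a0 ∈ B.image φ' := by rw [h2]; exact Finset.mem_image_of_mem _ ha0
      exact Finset.disjoint_left.mp hd h3 h4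
    · rw [hPhi]
      show (D.image (fun φ => fun b : ↥B => s (φ b))).biUnion
          (fun g => petal K A B (taskSunCount_glue K A B z0 (fun w => s (ψ w)) g))
        = U.image (Sym2.map s)
      rw [Finset.image_biUnion, hU, Finset.biUnion_image]
      apply Finset.biUnion_congr rfl
      intro φ hφ
      rw [taskSunCount_petal_comp]
      apply taskSunCount_petal_congr
      intro v hv
      unfold taskSunCount_glue
      by_cases hvB : v ∈ B
      · rw [dif_pos hvB]
        rfl
      · have hvb : v ∈ bdry K A B := by
          rcases Finset.mem_union.mp hv with h | h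
          · exact h
          · exact absurd h hvB
        rw [dif_neg hvB, dif_pos hvb]
        have hψ := ((mem_Ext K H A B ψ φ).mp (hD hφ)).1 v hvB
        simp only [Function.comp_apply, hψ]
  calc (imgs U n).card ≤ _ := Finset.card_le_card hsub
    _ ≤ _ := Finset.card_image_le
    _ = n ^ (bdry K A B).card * (n ^ B.card).choose D.card := by
        rw [Finset.card_product, Finset.card_powersetCard, Finset.card_univ, Finset.card_univ,
          Fintype.card_fun, Fintype.card_fun, Fintype.card_coe, Fintype.card_coe,
          Fintype.card_fin]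

end Vale.Agent.Lib.P064
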