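import Vale.Agent.Lib.P064.Gnp

/-!
Random subsets of a finite set as finite weighted sums, and minimum fragments (P064, spread
families).
-/

namespace Vale.Agent.Lib.P064

open Finset

/-- Expectation of `f A` for a `p`-random subset `A` of `E`: every element of `E` is in `A`
independently with probability `p`. -/
noncomputable def rsExp {α : Type*} (E : Finset α) (p : ℝ) (f : Finset α → ℝ) : ℝ :=
  ∑ A ∈ E.powerset, p ^ A.card * (1 - p) ^ (E.card - A.card) * f A

theorem gnpExp_eq_rsExp (n : ℕ) (p : ℝ) (f : SimpleGraph (Fin n) → ℝ) :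
    gnpExp n p f = rsExp (edgesKn n) p (fun A => f (graphOf A)) := rfl

theorem rsExp_const {α : Type*} (E : Finset α) (p : ℝ) (c : ℝ) :
    rsExp E p (fun _ => c) = c := by
  classical
  have h := sum_weight_superset E ∅ (Finset.empty_subset E) p
  simp only [Finset.empty_subset, if_true, Finset.card_empty, pow_zero] at h
  unfold rsExp
  rw [← Finset.sum_mul, h, one_mul]

theorem rsExp_mono {α : Type*} (E : Finset α) (p : ℝ) (hp0 : 0 ≤ p) (hp1 : p ≤ 1)
    (f g : Finset α → ℝ) (h : ∀ A ∈ E.powerset, f A ≤ g A) : rsExp E p f ≤ rsExp E p g := by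
  unfold rsExp
  apply Finset.sum_le_sum
  intro A hA
  have h1 : 0 ≤ 1 - p := by linarith
  exact mul_le_mul_of_nonneg_left (h A hA) (by positivity)

theorem rsExp_add {α : Type*} (E : Finset α) (p : ℝ) (f g : Finset α → ℝ) :
    rsExp E p (fun A => f A + g A) = rsExp E p f + rsExp E p g := by
  unfold rsExp
  rw [← Finset.sum_add_distrib]
  apply Finset.sum_congr rfl
  intro A _
  ring

theorem rsExp_const_mul {α : Type*} (E : Finset α) (p : ℝ) (c : ℝ) (f : Finset α → ℝ) :
    rsExp E p (fun A => c * f A) = c * rsExp E p f := by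
  unfold rsExp
  rw [Finset.mul_sum]
  apply Finset.sum_congr rfl
  intro A _
  ring

theorem rsExp_finset_sum {α κ : Type*} (s : Finset κ) (E : Finset α) (p : ℝ)
    (f : κ → Finset α → ℝ) :
    rsExp E p (fun A => ∑ k ∈ s, f k A) = ∑ k ∈ s, rsExp E p (f k) := by
  unfold rsExp
  rw [Finset.sum_comm]
  apply Finset.sum_congr rfl
  intro A _
  rw [Finset.mul_sum]

/-- Minimum fragments: for every `i ∈ I` and every `W` there is a set `F i W` of the form
`T j \ W` with `j ∈ I` and `T j ⊆ T i ∪ W`, of minimum size among all sets of this form. -/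
theorem exists_frag {α ι : Type*} [DecidableEq α] (I : Finset ι) (T : ι → Finset α) :
    ∃ F : ι → Finset α → Finset α, ∀ i ∈ I, ∀ W : Finset α,
      (∃ j ∈ I, T j ⊆ T i ∪ W ∧ F i W = T j \ W) ∧
      ∀ j ∈ I, T j ⊆ T i ∪ W → (F i W).card ≤ (T j \ W).card := by
  classical
  have key : ∀ (i : ι) (W : Finset α), ∃ X : Finset α, i ∈ I →
      ((∃ j ∈ I, T j ⊆ T i ∪ W ∧ X = T j \ W) ∧
        ∀ j ∈ I, T j ⊆ T i ∪ W → X.card ≤ (T j \ W).card) := by
    intro i W
    by_cases hi : i ∈ I
    · have hne : (I.filter (fun j => T j ⊆ T i ∪ W)).Nonempty :=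
        ⟨i, Finset.mem_filter.mpr ⟨hi, Finset.subset_union_left⟩⟩
      obtain ⟨j, hj, hmin⟩ := Finset.exists_min_image _ (fun j => (T j \ W).card) hne
      rw [Finset.mem_filter] at hj
      refine ⟨T j \ W, fun _ => ⟨⟨j, hj.1, hj.2, rfl⟩, ?_⟩⟩
      intro j' hj' hsub
      exact hmin j' (Finset.mem_filter.mpr ⟨hj', hsub⟩)
    · exact ⟨∅, fun h => absurd h hi⟩
  choose F hF using key
  exact ⟨F, fun i hi W => hF i W hi⟩

end Vale.Agent.Lib.P064
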