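import Vale.Agent.Lib.P064.Spread0

/-!
Two-round exposure for random subsets of a finite set (P064): the union of two independent
random subsets with densities `p₁`, `p₂` is a random subset with density `p₁ + p₂ - p₁ * p₂`.
-/

namespace Vale.Agent.Lib.P064

open Finset

/-- One-element recursion for `rsExp`. -/
theorem rsExp_insert_rec_su {α : Type*} [DecidableEq α] (E : Finset α) (a : α) (ha : a ∉ E)
    (p : ℝ) (g : Finset α → ℝ) :
    rsExp (insert a E) p g
      = p * rsExp E p (fun A => g (insert a A)) + (1 - p) * rsExp E p g := by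
  unfold rsExp
  rw [Finset.sum_powerset_insert ha, Finset.mul_sum, Finset.mul_sum, add_comm]
  congr 1
  · apply Finset.sum_congr rfl
    intro A hA
    have hAE : A ⊆ E := Finset.mem_powerset.1 hA
    have haA : a ∉ A := fun h => ha (hAE h)
    rw [Finset.card_insert_of_notMem haA, Finset.card_insert_of_notMem ha,
      Nat.add_sub_add_right, pow_succ]
    ring
  · apply Finset.sum_congr rfl
    intro A hA
    have hAE : A ⊆ E := Finset.mem_powerset.1 hA
    have hc : A.card ≤ E.card := Finset.card_le_card hAE
    rw [Finset.card_insert_of_notMem ha, Nat.succ_sub hc, pow_succ]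
    ring

/-- The recursion applied to both rounds of the double expectation. -/
theorem rsExp_union_step_su {α : Type*} [DecidableEq α] (E : Finset α) (a : α) (ha : a ∉ E)
    (p₁ p₂ : ℝ) (f : Finset α → ℝ) :
    rsExp (insert a E) p₁ (fun W => rsExp (insert a E) p₂ (fun W' => f (W ∪ W')))
      = p₁ * rsExp E p₁ (fun W => rsExp E p₂ (fun W' => f (insert a (W ∪ W'))))
        + (1 - p₁) * (p₂ * rsExp E p₁ (fun W => rsExp E p₂ (fun W' => f (insert a (W ∪ W'))))
          + (1 - p₂) * rsExp E p₁ (fun W => rsExp E p₂ (fun W' => f (W ∪ W')))) := by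
  have h1 : (fun A : Finset α => rsExp (insert a E) p₂ (fun W' => f (insert a A ∪ W')))
      = fun A => rsExp E p₂ (fun W' => f (insert a (A ∪ W'))) := by
    funext A
    rw [rsExp_insert_rec_su E a ha p₂]
    have e1 : (fun W' : Finset α => f (insert a A ∪ insert a W'))
        = fun W' => f (insert a (A ∪ W')) := by
      funext W'
      rw [Finset.insert_union, Finset.union_insert, Finset.insert_idem]
    have e2 : (fun W' : Finset α => f (insert a A ∪ W'))
        = fun W' => f (insert a (A ∪ W')) := by
      funext W'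
      rw [Finset.insert_union]
    rw [e1, e2]
    ring
  have h2 : (fun W : Finset α => rsExp (insert a E) p₂ (fun W' => f (W ∪ W')))
      = fun W => p₂ * rsExp E p₂ (fun W' => f (insert a (W ∪ W')))
          + (1 - p₂) * rsExp E p₂ (fun W' => f (W ∪ W')) := by
    funext W
    rw [rsExp_insert_rec_su E a ha p₂]
    have e1 : (fun W' : Finset α => f (W ∪ insert a W'))
        = fun W' => f (insert a (W ∪ W')) := by
      funext W'
      rw [Finset.union_insert]
    rw [e1]
  rw [rsExp_insert_rec_su E a ha p₁]
  have h1' : rsExp E p₁ (fun A => (fun W => rsExp (insert a E) p₂ (fun W' => f (W ∪ W')))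
      (insert a A)) = rsExp E p₁ (fun A => rsExp E p₂ (fun W' => f (insert a (A ∪ W')))) :=
    congrArg (rsExp E p₁) h1
  rw [h1', h2, rsExp_add, rsExp_const_mul, rsExp_const_mul]

theorem rsExp_union {α : Type*} [DecidableEq α] (E : Finset α) (p₁ p₂ : ℝ)
    (f : Finset α → ℝ) :
    rsExp E p₁ (fun W => rsExp E p₂ (fun W' => f (W ∪ W')))
      = rsExp E (p₁ + p₂ - p₁ * p₂) f := by
  induction E using Finset.induction_on generalizing f with
  | empty => simp [rsExp]
  | insert a E ha ih =>
    rw [rsExp_union_step_su E a ha p₁ p₂ f, rsExp_insert_rec_su E a ha (p₁ + p₂ - p₁ * p₂) f,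
      ih f, ih (fun Z => f (insert a Z))]
    ring

end Vale.Agent.Lib.P064
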