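import Vale.Agent.Lib.P064.StarsB

/-!
The expected number of pairs (vertex, `k`-set of neighbours) in `G(n,p)` is `n C(n-1,k) p^k`.
-/

namespace Vale.Agent.Lib.P064

open Finset

/-- In the graph with edge set `A`, the number of `k`-sets of neighbours of `v` is the number of
`k`-stars with centre `v` (in the complete graph) all of whose edges lie in `A`. -/
theorem choose_degree_graphOf {n : ℕ} (A : Finset (Sym2 (Fin n))) (v : Fin n) (k : ℕ) :
    ((graphOf A).neighborSet v).ncard.choose k
      = ((Finset.powersetCard k (Finset.univ.erase v)).filter (fun S => starE v S ⊆ A)).card := by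
  classical
  have hN : (graphOf A).neighborSet v
      = ↑((Finset.univ.erase v).filter (fun x => s(v, x) ∈ A)) := by
    ext x
    rw [SimpleGraph.mem_neighborSet, Finset.mem_coe, Finset.mem_filter, Finset.mem_erase]
    unfold graphOf
    rw [SimpleGraph.fromEdgeSet_adj]
    constructor
    · rintro ⟨h1, h2⟩
      exact ⟨⟨fun h => h2 h.symm, Finset.mem_univ _⟩, by exact_mod_cast h1⟩
    · rintro ⟨⟨h1, -⟩, h2⟩
      exact ⟨by exact_mod_cast h2, fun h => h1 h.symm⟩
  rw [hN, Set.ncard_coe_finset, ← Finset.card_powersetCard]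
  congr 1
  ext S
  rw [Finset.mem_powersetCard, Finset.mem_filter, Finset.mem_powersetCard]
  constructor
  · rintro ⟨h1, h2⟩
    refine ⟨⟨fun x hx => (Finset.mem_filter.mp (h1 hx)).1, h2⟩, ?_⟩
    intro e he
    unfold starE at he
    rw [Finset.mem_image] at he
    obtain ⟨x, hx, rfl⟩ := he
    exact (Finset.mem_filter.mp (h1 hx)).2
  · rintro ⟨⟨h1, h2⟩, h3⟩
    refine ⟨fun x hx => ?_, h2⟩
    rw [Finset.mem_filter]
    exact ⟨h1 hx, h3 (Finset.mem_image_of_mem _ hx)⟩

/-- The expected number of pairs (vertex, `k`-set of neighbours) in `G(n,p)`. -/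
theorem gnpExp_stars (n : ℕ) (p : ℝ) (k : ℕ) :
    gnpExp n p (fun G => ∑ v : Fin n, ((G.neighborSet v).ncard.choose k : ℝ))
      = n * (n - 1).choose k * p ^ k := by
  classical
  have key : ∀ A : Finset (Sym2 (Fin n)),
      (∑ v : Fin n, (((graphOf A).neighborSet v).ncard.choose k : ℝ))
        = ∑ x ∈ starsKn n k, (if starE x.1 x.2 ⊆ A then (1 : ℝ) else 0) := by
    intro A
    unfold starsKn
    rw [Finset.sum_sigma]
    apply Finset.sum_congr rfl
    intro v _
    rw [choose_degree_graphOf, Finset.sum_boole]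
  have hsub : ∀ x ∈ starsKn n k, starE x.1 x.2 ⊆ edgesKn n := by
    intro x hx
    unfold starsKn at hx
    rw [Finset.mem_sigma, Finset.mem_powersetCard] at hx
    intro e he
    unfold starE at he
    rw [Finset.mem_image] at he
    obtain ⟨y, hy, rfl⟩ := he
    have hne := (Finset.mem_erase.mp (hx.2.1 hy)).1
    unfold edgesKn
    rw [SimpleGraph.mem_edgeFinset, SimpleGraph.mem_edgeSet, SimpleGraph.top_adj]
    exact fun h => hne h.symm
  have hcard : ∀ x ∈ starsKn n k, (starE x.1 x.2).card = k := by
    intro x hx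
    unfold starsKn at hx
    rw [Finset.mem_sigma, Finset.mem_powersetCard] at hx
    rw [starE_card, hx.2.2]
  unfold gnpExp
  calc ∑ A ∈ (edgesKn n).powerset, p ^ A.card * (1 - p) ^ ((edgesKn n).card - A.card)
          * ∑ v : Fin n, (((graphOf A).neighborSet v).ncard.choose k : ℝ)
      = ∑ A ∈ (edgesKn n).powerset, p ^ A.card * (1 - p) ^ ((edgesKn n).card - A.card)
          * ∑ x ∈ starsKn n k, (if starE x.1 x.2 ⊆ A then (1 : ℝ) else 0) := by
        apply Finset.sum_congr rfl
        intro A _
        rw [key A]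
    _ = ∑ x ∈ starsKn n k, ∑ A ∈ (edgesKn n).powerset,
          (if starE x.1 x.2 ⊆ A then p ^ A.card * (1 - p) ^ ((edgesKn n).card - A.card)
            else 0) := by
        rw [Finset.sum_comm]
        apply Finset.sum_congr rfl
        intro A _
        rw [Finset.mul_sum]
        apply Finset.sum_congr rfl
        intro x _
        split_ifs <;> simp
    _ = ∑ x ∈ starsKn n k, p ^ k := by
        apply Finset.sum_congr rfl
        intro x hx
        rw [sum_weight_superset _ _ (hsub x hx), hcard x hx]
    _ = n * (n - 1).choose k * p ^ k := by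
        rw [Finset.sum_const, nsmul_eq_mul, starsKn_card]
        push_cast
        ring

end Vale.Agent.Lib.P064
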