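import Mathlib

/-!
Summation of degree tail bounds: from `card {v | j ≤ d v} ≤ 5 (j+1) n C(n-1,j) q^j` for all
`j ≥ 1` to `∑ v, C(d v, k) ≤ n C(n-1,k) (26 q)^k`.
-/

namespace Vale.Agent.Lib.P064

open Finset

theorem choose_mul_pow_le (a N k : ℕ) (h : a ≤ N) : a.choose k * N ^ k ≤ N.choose k * a ^ k := by
  induction k with
  | zero => simp
  | succ k ih =>
    have h1 := Nat.choose_succ_right_eq a k
    have h2 := Nat.choose_succ_right_eq N k
    have h3 : (a - k) * N ≤ a * (N - k) := by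
      rcases Nat.lt_or_ge k a with hak | hak
      · obtain ⟨x, hx⟩ : ∃ x, a = x + k := ⟨a - k, by omega⟩
        obtain ⟨y, hy⟩ : ∃ y, N = y + k := ⟨N - k, by omega⟩
        have hxy : x ≤ y := by omega
        rw [hx, hy, Nat.add_sub_cancel, Nat.add_sub_cancel]
        nlinarith
      · rw [Nat.sub_eq_zero_of_le hak]; simp
    apply Nat.le_of_mul_le_mul_right _ (Nat.succ_pos k)
    calc a.choose (k + 1) * N ^ (k + 1) * (k + 1)
        = (a.choose k * N ^ k) * ((a - k) * N) := by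
          rw [pow_succ]
          have : a.choose (k + 1) * (N ^ k * N) * (k + 1)
              = (a.choose (k + 1) * (k + 1)) * (N ^ k * N) := by ring
          rw [this, h1]; ring
      _ ≤ (N.choose k * a ^ k) * (a * (N - k)) := Nat.mul_le_mul ih h3
      _ = N.choose (k + 1) * a ^ (k + 1) * (k + 1) := by
          rw [pow_succ]
          have : N.choose (k + 1) * (a ^ k * a) * (k + 1)
              = (N.choose (k + 1) * (k + 1)) * (a ^ k * a) := by ring
          rw [this, h2]; ring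

theorem pow_sum_le (k : ℕ) (hk : 1 ≤ k) : (6 : ℝ) ^ k + 5 * 4 ^ k ≤ 26 ^ k := by
  obtain ⟨i, rfl⟩ : ∃ i, k = i + 1 := ⟨k - 1, by omega⟩
  have h1 : (4 : ℝ) ^ i ≤ 6 ^ i := pow_le_pow_left₀ (by norm_num) (by norm_num) i
  have h2 : (6 : ℝ) ^ i ≤ 26 ^ i := pow_le_pow_left₀ (by norm_num) (by norm_num) i
  rw [pow_succ, pow_succ, pow_succ]
  nlinarith

theorem two_pow_ge_exp (J : ℕ) (x : ℝ) (hx : 0 ≤ x) (h : 6 * x < J) :
    Real.exp (4 * x) ≤ (2 : ℝ) ^ J := by
  have h2 : (2 : ℝ) ^ J = Real.exp (J * Real.log 2) := by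
    rw [Real.exp_nat_mul, Real.exp_log (by norm_num)]
  rw [h2]
  apply Real.exp_le_exp.mpr
  have hl2 : (0.6931471803 : ℝ) < Real.log 2 := Real.log_two_gt_d9
  nlinarith

/-- Upper tail of the binomial sum. -/
theorem tail_sum_le (m k J' M J : ℕ) (hm : m = M - k) (hJ'k : k ≤ J') (q : ℝ) (hq0 : 0 ≤ q)
    (hJ : Real.exp (4 * (M * q)) ≤ (2 : ℝ) ^ J) :
    ∑ j ∈ Finset.Icc J' M, ((m.choose (j - k) : ℝ) * (4 * q) ^ (j - k)) ≤ (2 : ℝ) ^ J := by
  have h1 : ∑ j ∈ Finset.Icc J' M, ((m.choose (j - k) : ℝ) * (4 * q) ^ (j - k))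
      = ∑ i ∈ (Finset.Icc J' M).image (fun j => j - k), ((m.choose i : ℝ) * (4 * q) ^ i) := by
    rw [Finset.sum_image]
    intro x hx y hy hxy
    rw [Finset.mem_coe, Finset.mem_Icc] at hx hy
    simp only at hxy
    omega
  have h2 : ∑ i ∈ (Finset.Icc J' M).image (fun j => j - k), ((m.choose i : ℝ) * (4 * q) ^ i)
      ≤ ∑ i ∈ Finset.range (m + 1), ((m.choose i : ℝ) * (4 * q) ^ i) := by
    apply Finset.sum_le_sum_of_subset_of_nonneg
    · intro i hi
      rw [Finset.mem_image] at hi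
      obtain ⟨j, hj, rfl⟩ := hi
      rw [Finset.mem_Icc] at hj
      rw [Finset.mem_range]
      omega
    · intro i _ _
      positivity
  have h3 : ∑ i ∈ Finset.range (m + 1), ((m.choose i : ℝ) * (4 * q) ^ i) = (4 * q + 1) ^ m := by
    rw [add_pow]
    apply Finset.sum_congr rfl
    intro i _
    rw [one_pow, mul_one, mul_comm]
  have h4 : (4 * q + 1) ^ m ≤ Real.exp (4 * (M * q)) := by
    have h5 : 4 * q + 1 ≤ Real.exp (4 * q) := Real.add_one_le_exp _
    have hmM : (m : ℝ) ≤ M := by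
      rw [hm]; exact_mod_cast Nat.sub_le M k
    calc (4 * q + 1) ^ m ≤ (Real.exp (4 * q)) ^ m := pow_le_pow_left₀ (by positivity) h5 m
      _ = Real.exp (m * (4 * q)) := by rw [← Real.exp_nat_mul]
      _ ≤ Real.exp (4 * (M * q)) := by
          apply Real.exp_le_exp.mpr
          nlinarith
  rw [h1]
  linarith


variable {W : Type} [Fintype W]

/-- From the degree tail bounds to the bound on the number of `k`-stars. -/
theorem star_sum_le (n : ℕ) (hn : 2 ≤ n) (d : W → ℕ) (hd : ∀ v, d v ≤ n - 1)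
    (hW : Fintype.card W ≤ n) (q : ℝ) (hq0 : 0 < q)
    (htail : ∀ j : ℕ, 1 ≤ j →
      (((Finset.univ : Finset W).filter (fun v => j ≤ d v)).card : ℝ)
        ≤ 5 * (j + 1) * (n * (n - 1).choose j * q ^ j))
    (k : ℕ) (hk : 1 ≤ k) :
    ∑ v : W, ((d v).choose k : ℝ) ≤ n * (n - 1).choose k * (26 * q) ^ k := by
  classical
  obtain ⟨M, hM⟩ : ∃ M : ℕ, M = n - 1 := ⟨_, rfl⟩
  rw [← hM] at hd htail ⊢
  have hM1 : 1 ≤ M := by omega
  have hMpos : (0 : ℝ) < M := by exact_mod_cast hM1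
  have hnpos : (0 : ℝ) < n := by exact_mod_cast (by omega : 0 < n)
  obtain ⟨J, hJ⟩ : ∃ J : ℕ, J = ⌊6 * (M : ℝ) * q⌋₊ + 1 := ⟨_, rfl⟩
  have hx0 : 0 ≤ 6 * (M : ℝ) * q := by positivity
  have hJ1 : 6 * (M : ℝ) * q < J := by
    rw [hJ]; push_cast; exact Nat.lt_floor_add_one _
  have hJ2 : (J : ℝ) - 1 ≤ 6 * (M : ℝ) * q := by
    rw [hJ]; push_cast
    have := Nat.floor_le hx0
    linarith
  have hJpos : 1 ≤ J := by rw [hJ]; omega
  rw [← Finset.sum_filter_add_sum_filter_not Finset.univ (fun v => d v < J)]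
  -- low part
  have hlow : ∑ v ∈ Finset.univ.filter (fun v => d v < J), ((d v).choose k : ℝ)
      ≤ n * M.choose k * (6 * q) ^ k := by
    obtain ⟨a, ha⟩ : ∃ a : ℕ, a = min (J - 1) M := ⟨_, rfl⟩
    have haM : a ≤ M := by rw [ha]; exact min_le_right _ _
    have haJ : (a : ℝ) ≤ 6 * M * q := by
      have h0 : a ≤ J - 1 := by rw [ha]; exact min_le_left _ _
      have h1 : a + 1 ≤ J := by omega
      have h2 : ((a + 1 : ℕ) : ℝ) ≤ J := by exact_mod_cast h1
      push_cast at h2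
      linarith
    have hterm : ∀ v ∈ Finset.univ.filter (fun v => d v < J),
        ((d v).choose k : ℝ) ≤ (a.choose k : ℝ) := by
      intro v hv
      rw [Finset.mem_filter] at hv
      have h0 : d v ≤ a := by
        rw [ha]; exact le_min (by omega) (hd v)
      exact_mod_cast Nat.choose_le_choose k h0
    have hsc : (a.choose k : ℝ) ≤ M.choose k * (6 * q) ^ k := by
      have h1 := choose_mul_pow_le a M k haM
      have h1' : (a.choose k : ℝ) * (M : ℝ) ^ k ≤ (M.choose k : ℝ) * (a : ℝ) ^ k := by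
        exact_mod_cast h1
      have h2 : (a : ℝ) ^ k ≤ (6 * q) ^ k * (M : ℝ) ^ k := by
        rw [← mul_pow]
        apply pow_le_pow_left₀ (by positivity)
        linarith
      have hMk : (0 : ℝ) < (M : ℝ) ^ k := by positivity
      have h3 : (a.choose k : ℝ) * (M : ℝ) ^ k
          ≤ ((M.choose k : ℝ) * (6 * q) ^ k) * (M : ℝ) ^ k := by
        calc (a.choose k : ℝ) * (M : ℝ) ^ k ≤ (M.choose k : ℝ) * (a : ℝ) ^ k := h1'
          _ ≤ (M.choose k : ℝ) * ((6 * q) ^ k * (M : ℝ) ^ k) :=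
              mul_le_mul_of_nonneg_left h2 (by positivity)
          _ = ((M.choose k : ℝ) * (6 * q) ^ k) * (M : ℝ) ^ k := by ring
      exact le_of_mul_le_mul_right h3 hMk
    calc ∑ v ∈ Finset.univ.filter (fun v => d v < J), ((d v).choose k : ℝ)
        ≤ ∑ v ∈ Finset.univ.filter (fun v => d v < J), (a.choose k : ℝ) :=
          Finset.sum_le_sum hterm
      _ = ((Finset.univ.filter (fun v => d v < J)).card : ℝ) * (a.choose k : ℝ) := by
          rw [Finset.sum_const, nsmul_eq_mul]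
      _ ≤ n * (a.choose k : ℝ) := by
          apply mul_le_mul_of_nonneg_right _ (by positivity)
          have h0 : (Finset.univ.filter (fun v => d v < J)).card ≤ n :=
            (Finset.card_filter_le _ _).trans (by rw [Finset.card_univ]; exact hW)
          exact_mod_cast h0
      _ ≤ n * (M.choose k * (6 * q) ^ k) := mul_le_mul_of_nonneg_left hsc (by positivity)
      _ = n * M.choose k * (6 * q) ^ k := by ring
  -- high part
  obtain ⟨J', hJ'⟩ : ∃ J' : ℕ, J' = max J k := ⟨_, rfl⟩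
  have hJ'J : J ≤ J' := by rw [hJ']; exact le_max_left _ _
  have hJ'k : k ≤ J' := by rw [hJ']; exact le_max_right _ _
  have hhigh1 : ∑ v ∈ Finset.univ.filter (fun v => ¬ d v < J), ((d v).choose k : ℝ)
      ≤ ∑ j ∈ Finset.Icc J' M,
          (j.choose k : ℝ) * ((Finset.univ.filter (fun v => j ≤ d v)).card : ℝ) := by
    calc ∑ v ∈ Finset.univ.filter (fun v => ¬ d v < J), ((d v).choose k : ℝ)
        ≤ ∑ v ∈ Finset.univ.filter (fun v => ¬ d v < J),
            ∑ j ∈ Finset.Icc J' M, (if j ≤ d v then (j.choose k : ℝ) else 0) := by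
          apply Finset.sum_le_sum
          intro v hv
          rw [Finset.mem_filter, not_lt] at hv
          rcases Nat.lt_or_ge (d v) k with hlt | hge
          · rw [Nat.choose_eq_zero_of_lt hlt, Nat.cast_zero]
            apply Finset.sum_nonneg
            intro j _
            split_ifs <;> positivity
          · have hmem : d v ∈ Finset.Icc J' M := by
              rw [Finset.mem_Icc, hJ']; exact ⟨max_le hv.2 hge, hd v⟩
            have h0 := Finset.single_le_sum
              (f := fun j => if j ≤ d v then (j.choose k : ℝ) else 0)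
              (s := Finset.Icc J' M) (fun j _ => by split_ifs <;> positivity) hmem
            simpa using h0
      _ ≤ ∑ v : W, ∑ j ∈ Finset.Icc J' M, (if j ≤ d v then (j.choose k : ℝ) else 0) := by
          apply Finset.sum_le_sum_of_subset_of_nonneg (Finset.filter_subset _ _)
          intro v _ _
          apply Finset.sum_nonneg
          intro j _
          split_ifs <;> positivity
      _ = ∑ j ∈ Finset.Icc J' M, ∑ v : W, (if j ≤ d v then (j.choose k : ℝ) else 0) :=
          Finset.sum_comm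
      _ = ∑ j ∈ Finset.Icc J' M,
            (j.choose k : ℝ) * ((Finset.univ.filter (fun v => j ≤ d v)).card : ℝ) := by
          apply Finset.sum_congr rfl
          intro j _
          rw [← Finset.sum_filter, Finset.sum_const, nsmul_eq_mul, mul_comm]
  obtain ⟨m, hm⟩ : ∃ m : ℕ, m = M - k := ⟨_, rfl⟩
  obtain ⟨K, hK⟩ : ∃ K : ℝ, K = 5 * n * M.choose k * q ^ k * ((k : ℝ) + 1) * 2 ^ k / 2 ^ J :=
    ⟨_, rfl⟩
  have hK0 : 0 ≤ K := by rw [hK]; positivity
  have hterm2 : ∀ j ∈ Finset.Icc J' M,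
      (j.choose k : ℝ) * ((Finset.univ.filter (fun v => j ≤ d v)).card : ℝ)
        ≤ K * ((m.choose (j - k) : ℝ) * (4 * q) ^ (j - k)) := by
    intro j hj
    rw [Finset.mem_Icc] at hj
    have hjk : k ≤ j := hJ'k.trans hj.1
    have hj1 : 1 ≤ j := hk.trans hjk
    have ht := htail j hj1
    have hcm : (M.choose j : ℝ) * (j.choose k : ℝ) = (M.choose k : ℝ) * (m.choose (j - k) : ℝ) := by
      rw [hm]; exact_mod_cast Nat.choose_mul (n := M) hjk
    have hq_split : q ^ j = q ^ k * q ^ (j - k) := by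
      rw [← pow_add]; congr 1; omega
    have hj_le : ((j : ℝ) + 1) ≤ ((k : ℝ) + 1) * 2 ^ (j - k) := by
      have h1 : (j - k) + 1 ≤ 2 ^ (j - k) := Nat.lt_two_pow_self
      have h2 : j + 1 ≤ (k + 1) * 2 ^ (j - k) := by
        calc j + 1 = (j - k) + (k + 1) := by omega
          _ ≤ (k + 1) * ((j - k) + 1) := by nlinarith
          _ ≤ (k + 1) * 2 ^ (j - k) := Nat.mul_le_mul_left _ h1
      exact_mod_cast h2
    have h2J : (2 : ℝ) ^ J ≤ 2 ^ k * 2 ^ (j - k) := by
      rw [← pow_add]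
      apply pow_le_pow_right₀ (by norm_num)
      omega
    have h4 : (4 * q) ^ (j - k) = 2 ^ (j - k) * 2 ^ (j - k) * q ^ (j - k) := by
      have h40 : (4 : ℝ) ^ (j - k) = 2 ^ (j - k) * 2 ^ (j - k) := by
        rw [← mul_pow]; norm_num
      rw [mul_pow, h40]
    obtain ⟨X, hX⟩ : ∃ X : ℝ, X = 5 * n * (M.choose k : ℝ) * (m.choose (j - k) : ℝ)
        * q ^ k * q ^ (j - k) := ⟨_, rfl⟩
    have hX0 : 0 ≤ X := by rw [hX]; positivity
    have hL : (j.choose k : ℝ) * ((Finset.univ.filter (fun v => j ≤ d v)).card : ℝ)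
        ≤ ((j : ℝ) + 1) * X := by
      calc (j.choose k : ℝ) * ((Finset.univ.filter (fun v => j ≤ d v)).card : ℝ)
          ≤ (j.choose k : ℝ) * (5 * (j + 1) * (n * M.choose j * q ^ j)) :=
            mul_le_mul_of_nonneg_left ht (by positivity)
        _ = ((j : ℝ) + 1) * (5 * n * ((M.choose j : ℝ) * (j.choose k : ℝ)) * q ^ j) := by ring
        _ = ((j : ℝ) + 1) * X := by rw [hcm, hq_split, hX]; ring
    have hR : K * ((m.choose (j - k) : ℝ) * (4 * q) ^ (j - k))
        = (((k : ℝ) + 1) * 2 ^ (j - k) * (2 ^ k * 2 ^ (j - k)) / 2 ^ J) * X := by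
      rw [hK, h4, hX]; ring
    rw [hR]
    have h2Jpos : (0 : ℝ) < 2 ^ J := by positivity
    have hfac : ((j : ℝ) + 1) ≤ ((k : ℝ) + 1) * 2 ^ (j - k) * (2 ^ k * 2 ^ (j - k)) / 2 ^ J := by
      rw [le_div_iff₀ h2Jpos]
      have h5 : (0 : ℝ) ≤ ((k : ℝ) + 1) * 2 ^ (j - k) := by positivity
      have h6 : (0 : ℝ) ≤ (j : ℝ) + 1 := by positivity
      nlinarith
    calc (j.choose k : ℝ) * ((Finset.univ.filter (fun v => j ≤ d v)).card : ℝ)
        ≤ ((j : ℝ) + 1) * X := hL
      _ ≤ _ := mul_le_mul_of_nonneg_right hfac hX0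
  have hexp : Real.exp (4 * (M * q)) ≤ (2 : ℝ) ^ J :=
    two_pow_ge_exp J (M * q) (by positivity) (by linarith)
  have htailsum := tail_sum_le m k J' M J hm hJ'k q hq0.le hexp
  have hhigh : ∑ v ∈ Finset.univ.filter (fun v => ¬ d v < J), ((d v).choose k : ℝ)
      ≤ 5 * n * M.choose k * q ^ k * ((k : ℝ) + 1) * 2 ^ k := by
    calc ∑ v ∈ Finset.univ.filter (fun v => ¬ d v < J), ((d v).choose k : ℝ)
        ≤ ∑ j ∈ Finset.Icc J' M,
            (j.choose k : ℝ) * ((Finset.univ.filter (fun v => j ≤ d v)).card : ℝ) := hhigh1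
      _ ≤ ∑ j ∈ Finset.Icc J' M, K * ((m.choose (j - k) : ℝ) * (4 * q) ^ (j - k)) :=
          Finset.sum_le_sum hterm2
      _ = K * ∑ j ∈ Finset.Icc J' M, ((m.choose (j - k) : ℝ) * (4 * q) ^ (j - k)) := by
          rw [Finset.mul_sum]
      _ ≤ K * 2 ^ J := mul_le_mul_of_nonneg_left htailsum hK0
      _ = 5 * n * M.choose k * q ^ k * ((k : ℝ) + 1) * 2 ^ k := by
          rw [hK]
          have h2Jpos : (0 : ℝ) < 2 ^ J := by positivity
          field_simp
  -- total
  have hk2 : ((k : ℝ) + 1) ≤ 2 ^ k := by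
    have : k + 1 ≤ 2 ^ k := Nat.lt_two_pow_self
    exact_mod_cast this
  have hpow := pow_sum_le k hk
  have h44 : (4 : ℝ) ^ k = 2 ^ k * 2 ^ k := by rw [← mul_pow]; norm_num
  have hA : (0 : ℝ) ≤ n * M.choose k * q ^ k := by positivity
  calc ∑ v ∈ Finset.univ.filter (fun v => d v < J), ((d v).choose k : ℝ)
        + ∑ v ∈ Finset.univ.filter (fun v => ¬ d v < J), ((d v).choose k : ℝ)
      ≤ n * M.choose k * (6 * q) ^ k + 5 * n * M.choose k * q ^ k * ((k : ℝ) + 1) * 2 ^ k :=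
        add_le_add hlow hhigh
    _ = (n * M.choose k * q ^ k) * (6 ^ k + 5 * (((k : ℝ) + 1) * 2 ^ k)) := by
        rw [mul_pow]; ring
    _ ≤ (n * M.choose k * q ^ k) * (26 ^ k) := by
        apply mul_le_mul_of_nonneg_left _ hA
        have h2k : (0 : ℝ) ≤ 2 ^ k := by positivity
        nlinarith
    _ = n * M.choose k * (26 * q) ^ k := by
        rw [mul_pow]; ring

end Vale.Agent.Lib.P064
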