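import Vale.Agent.Lib.P064.Gnp

/-!
Copies of a subgraph spanned by an edge set.  For a set `U` of edges of `H`, the expected number
of copies in `G(n,q)` of the subgraph of `H` spanned by `U` is at most the number of images of
`U` in the complete graph on `Fin n`, times `q^|U|`.
-/

namespace Vale.Agent.Lib.P064

open Finset

variable {W : Type} [Fintype W] [DecidableEq W]

/-- The subgraph of `H` spanned by a set `U` of edges of `H`: its vertices are the endpoints of
the edges in `U`. -/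
def subOf (H : SimpleGraph W) (U : Finset (Sym2 W)) (hU : ∀ e ∈ U, e ∈ H.edgeSet) :
    H.Subgraph where
  verts := {v | ∃ w, s(v, w) ∈ U}
  Adj a b := s(a, b) ∈ U
  adj_sub := fun {a b} h => by
    have := hU _ h
    rwa [SimpleGraph.mem_edgeSet] at this
  edge_vert := fun {a b} h => ⟨b, h⟩
  symm := ⟨fun a b h => by rwa [Sym2.eq_swap]⟩

/-- Extension of a map defined on the endpoints of `U` to all of `W` by a constant. -/
noncomputable def extMap (U : Finset (Sym2 W)) {n : ℕ} (z : Fin n)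
    (c : {v : W // ∃ w, s(v, w) ∈ U} → Fin n) : W → Fin n :=
  fun w => if h : ∃ x, s(w, x) ∈ U then c ⟨w, h⟩ else z

theorem extMap_apply (U : Finset (Sym2 W)) {n : ℕ} (z : Fin n)
    (c : {v : W // ∃ w, s(v, w) ∈ U} → Fin n) (a : {v : W // ∃ w, s(v, w) ∈ U}) :
    extMap U z c a.1 = c a := by
  unfold extMap
  rw [dif_pos a.2]

theorem extMap_injOn (U : Finset (Sym2 W)) {n : ℕ} (z : Fin n)
    (c : {v : W // ∃ w, s(v, w) ∈ U} → Fin n) (hc : Function.Injective c) :
    Set.InjOn (extMap U z c) {v | ∃ w, s(v, w) ∈ U} := by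
  intro a ha b hb hab
  have h1 := extMap_apply U z c ⟨a, ha⟩
  have h2 := extMap_apply U z c ⟨b, hb⟩
  simp only at h1 h2
  rw [h1, h2] at hab
  exact congrArg Subtype.val (hc hab)

omit [Fintype W] [DecidableEq W] in
theorem mem_image_map_iff (U : Finset (Sym2 W)) {n : ℕ} (ψ : W → Fin n) (x y : Fin n) :
    s(x, y) ∈ U.image (Sym2.map ψ) ↔ ∃ a b, s(a, b) ∈ U ∧ ψ a = x ∧ ψ b = y := by
  rw [Finset.mem_image]
  constructor
  · rintro ⟨e, he, hxy⟩
    induction e using Sym2.ind with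
    | _ a b =>
      rw [Sym2.map_mk, Sym2.eq_iff] at hxy
      rcases hxy with ⟨h1, h2⟩ | ⟨h1, h2⟩
      · exact ⟨a, b, he, h1, h2⟩
      · exact ⟨b, a, by rwa [Sym2.eq_swap], h2, h1⟩
  · rintro ⟨a, b, hab, rfl, rfl⟩
    exact ⟨s(a, b), hab, rfl⟩

/-- The edge image of a copy of `subOf H U`. -/
noncomputable def edgeIm (H : SimpleGraph W) (U : Finset (Sym2 W)) (hU : ∀ e ∈ U, e ∈ H.edgeSet)
    {n : ℕ} (z : Fin n) (G : SimpleGraph (Fin n))
    (c : SimpleGraph.Copy (subOf H U hU).coe G) : Finset (Sym2 (Fin n)) :=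
  U.image (Sym2.map (extMap U z (fun a => c a)))

theorem toSubgraph_adj_iff (H : SimpleGraph W) (U : Finset (Sym2 W))
    (hU : ∀ e ∈ U, e ∈ H.edgeSet) {n : ℕ} (z : Fin n) (G : SimpleGraph (Fin n))
    (c : SimpleGraph.Copy (subOf H U hU).coe G) (x y : Fin n) :
    c.toSubgraph.Adj x y ↔ s(x, y) ∈ edgeIm H U hU z G c := by
  unfold edgeIm
  rw [mem_image_map_iff]
  constructor
  · rintro ⟨a, b, hab, rfl, rfl⟩
    refine ⟨a.1, b.1, hab, ?_, ?_⟩
    · exact extMap_apply U z (fun a => c a) a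
    · exact extMap_apply U z (fun a => c a) b
  · rintro ⟨a, b, hab, rfl, rfl⟩
    have ha : ∃ w, s(a, w) ∈ U := ⟨b, hab⟩
    have hb : ∃ w, s(b, w) ∈ U := ⟨a, by rwa [Sym2.eq_swap]⟩
    refine ⟨⟨a, ha⟩, ⟨b, hb⟩, hab, ?_, ?_⟩
    · exact (extMap_apply U z (fun a => c a) ⟨a, ha⟩).symm
    · exact (extMap_apply U z (fun a => c a) ⟨b, hb⟩).symm

theorem toSubgraph_verts_iff (H : SimpleGraph W) (U : Finset (Sym2 W))
    (hU : ∀ e ∈ U, e ∈ H.edgeSet) {n : ℕ} (z : Fin n) (G : SimpleGraph (Fin n))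
    (c : SimpleGraph.Copy (subOf H U hU).coe G) (x : Fin n) :
    x ∈ c.toSubgraph.verts ↔ ∃ y, s(x, y) ∈ edgeIm H U hU z G c := by
  constructor
  · rintro ⟨a, -, rfl⟩
    obtain ⟨w, hw⟩ := a.2
    have hb : ∃ w', s(w, w') ∈ U := ⟨a.1, by rwa [Sym2.eq_swap]⟩
    refine ⟨c ⟨w, hb⟩, ?_⟩
    rw [← toSubgraph_adj_iff]
    exact ⟨a, ⟨w, hb⟩, hw, rfl, rfl⟩
  · rintro ⟨y, hy⟩
    rw [← toSubgraph_adj_iff] at hy
    exact c.toSubgraph.edge_vert hy

theorem toSubgraph_eq_of_edgeIm_eq (H : SimpleGraph W) (U : Finset (Sym2 W))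
    (hU : ∀ e ∈ U, e ∈ H.edgeSet) {n : ℕ} (z : Fin n) (G : SimpleGraph (Fin n))
    (c c' : SimpleGraph.Copy (subOf H U hU).coe G)
    (h : edgeIm H U hU z G c = edgeIm H U hU z G c') : c.toSubgraph = c'.toSubgraph := by
  apply SimpleGraph.Subgraph.ext
  · ext x
    rw [toSubgraph_verts_iff H U hU z, toSubgraph_verts_iff H U hU z, h]
  · ext x y
    rw [toSubgraph_adj_iff H U hU z, toSubgraph_adj_iff H U hU z, h]

open Classical in
/-- The edge sets in the complete graph on `Fin n` that are images of `U` under a map which is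
injective on the endpoints of `U`. -/
noncomputable def imgs (U : Finset (Sym2 W)) (n : ℕ) : Finset (Finset (Sym2 (Fin n))) :=
  ((Finset.univ : Finset (W → Fin n)).filter
    (fun ψ => Set.InjOn ψ {v | ∃ w, s(v, w) ∈ U})).image (fun ψ => U.image (Sym2.map ψ))

theorem imgs_sub (H : SimpleGraph W) (U : Finset (Sym2 W)) (hU : ∀ e ∈ U, e ∈ H.edgeSet)
    (n : ℕ) (B : Finset (Sym2 (Fin n))) (hB : B ∈ imgs U n) : B ⊆ edgesKn n := by
  classical
  unfold imgs at hB
  rw [Finset.mem_image] at hB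
  obtain ⟨ψ, hψ, rfl⟩ := hB
  rw [Finset.mem_filter] at hψ
  intro e he
  induction e using Sym2.ind with
  | _ x y =>
    rw [mem_image_map_iff] at he
    obtain ⟨a, b, hab, rfl, rfl⟩ := he
    unfold edgesKn
    rw [SimpleGraph.mem_edgeFinset, SimpleGraph.mem_edgeSet, SimpleGraph.top_adj]
    intro hxy
    have hne : a ≠ b := by
      have := hU _ hab
      rw [SimpleGraph.mem_edgeSet] at this
      exact H.ne_of_adj this
    exact hne (hψ.2 ⟨b, hab⟩ ⟨a, by rwa [Sym2.eq_swap]⟩ hxy)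

theorem imgs_card (U : Finset (Sym2 W))
    (n : ℕ) (B : Finset (Sym2 (Fin n))) (hB : B ∈ imgs U n) : B.card = U.card := by
  classical
  unfold imgs at hB
  rw [Finset.mem_image] at hB
  obtain ⟨ψ, hψ, rfl⟩ := hB
  rw [Finset.mem_filter] at hψ
  apply Finset.card_image_of_injOn
  intro e he e' he' hee
  induction e using Sym2.ind with
  | _ a b =>
    induction e' using Sym2.ind with
    | _ a' b' =>
      have ha : ∃ w, s(a, w) ∈ U := ⟨b, he⟩
      have hb : ∃ w, s(b, w) ∈ U := ⟨a, by rw [Sym2.eq_swap]; exact he⟩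
      have ha' : ∃ w, s(a', w) ∈ U := ⟨b', he'⟩
      have hb' : ∃ w, s(b', w) ∈ U := ⟨a', by rw [Sym2.eq_swap]; exact he'⟩
      simp only [Sym2.map_mk] at hee
      rw [Sym2.eq_iff] at hee ⊢
      rcases hee with ⟨h1, h2⟩ | ⟨h1, h2⟩
      · exact Or.inl ⟨hψ.2 ha ha' h1, hψ.2 hb hb' h2⟩
      · exact Or.inr ⟨hψ.2 ha hb' h1, hψ.2 hb ha' h2⟩

/-- Pointwise: the number of copies of `subOf H U` in the graph with edge set `A` is at most
the number of images of `U` contained in `A`. -/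
theorem copyCount_subOf_le (H : SimpleGraph W) (U : Finset (Sym2 W))
    (hU : ∀ e ∈ U, e ∈ H.edgeSet) (n : ℕ) (hn : 0 < n) (A : Finset (Sym2 (Fin n))) :
    (graphOf A).copyCount (subOf H U hU).coe ≤ ((imgs U n).filter (fun B => B ⊆ A)).card := by
  classical
  rw [SimpleGraph.copyCount_eq_card_image_copyToSubgraph]
  obtain ⟨z⟩ : Nonempty (Fin n) := ⟨⟨0, hn⟩⟩
  apply Finset.card_le_card_of_surjOn
    (fun B => if h : ∃ c : SimpleGraph.Copy (subOf H U hU).coe (graphOf A),
        edgeIm H U hU z (graphOf A) c = B then (Classical.choose h).toSubgraph else ⊥)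
  intro S hS
  rw [Finset.mem_coe, Finset.mem_image] at hS
  obtain ⟨c, -, rfl⟩ := hS
  refine ⟨edgeIm H U hU z (graphOf A) c, ?_, ?_⟩
  · rw [Finset.mem_coe, Finset.mem_filter]
    constructor
    · unfold imgs
      rw [Finset.mem_image]
      refine ⟨extMap U z (fun a => c a), ?_, rfl⟩
      rw [Finset.mem_filter]
      exact ⟨Finset.mem_univ _, extMap_injOn U z _ c.injective⟩
    · intro e he
      induction e using Sym2.ind with
      | _ x y =>
        rw [← toSubgraph_adj_iff] at he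
        have hadj := c.toSubgraph.adj_sub he
        unfold graphOf at hadj
        rw [SimpleGraph.fromEdgeSet_adj] at hadj
        exact_mod_cast hadj.1
  · have h : ∃ c' : SimpleGraph.Copy (subOf H U hU).coe (graphOf A),
        edgeIm H U hU z (graphOf A) c' = edgeIm H U hU z (graphOf A) c := ⟨c, rfl⟩
    simp only
    rw [dif_pos h]
    exact toSubgraph_eq_of_edgeIm_eq H U hU z _ _ _ (Classical.choose_spec h)

/-- The expected number of copies of `subOf H U` in `G(n,q)` is at most the number of images of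
`U` in the complete graph times `q^|U|`. -/
theorem gnpExp_copyCount_subOf_le (H : SimpleGraph W) (U : Finset (Sym2 W))
    (hU : ∀ e ∈ U, e ∈ H.edgeSet) (n : ℕ) (hn : 0 < n) (q : ℝ) (hq0 : 0 ≤ q) (hq1 : q ≤ 1) :
    gnpExp n q (fun G => (G.copyCount (subOf H U hU).coe : ℝ))
      ≤ ((imgs U n).card : ℝ) * q ^ U.card := by
  classical
  have key : ∀ A : Finset (Sym2 (Fin n)),
      ((graphOf A).copyCount (subOf H U hU).coe : ℝ)
        ≤ ∑ B ∈ imgs U n, (if B ⊆ A then (1 : ℝ) else 0) := by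
    intro A
    rw [Finset.sum_boole]
    exact_mod_cast copyCount_subOf_le H U hU n hn A
  have hw : ∀ A : Finset (Sym2 (Fin n)),
      0 ≤ q ^ A.card * (1 - q) ^ ((edgesKn n).card - A.card) := by
    intro A
    have : 0 ≤ 1 - q := by linarith
    positivity
  unfold gnpExp
  calc ∑ A ∈ (edgesKn n).powerset,
        q ^ A.card * (1 - q) ^ ((edgesKn n).card - A.card)
          * ((graphOf A).copyCount (subOf H U hU).coe : ℝ)
      ≤ ∑ A ∈ (edgesKn n).powerset,
          q ^ A.card * (1 - q) ^ ((edgesKn n).card - A.card)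
            * ∑ B ∈ imgs U n, (if B ⊆ A then (1 : ℝ) else 0) := by
        apply Finset.sum_le_sum
        intro A _
        exact mul_le_mul_of_nonneg_left (key A) (hw A)
    _ = ∑ B ∈ imgs U n, ∑ A ∈ (edgesKn n).powerset,
          (if B ⊆ A then q ^ A.card * (1 - q) ^ ((edgesKn n).card - A.card) else 0) := by
        rw [Finset.sum_comm]
        apply Finset.sum_congr rfl
        intro A _
        rw [Finset.mul_sum]
        apply Finset.sum_congr rfl
        intro B _
        split_ifs <;> simp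
    _ = ∑ B ∈ imgs U n, q ^ U.card := by
        apply Finset.sum_congr rfl
        intro B hB
        rw [sum_weight_superset _ _ (imgs_sub H U hU n B hB), imgs_card U n B hB]
    _ = ((imgs U n).card : ℝ) * q ^ U.card := by
        rw [Finset.sum_const, nsmul_eq_mul]

end Vale.Agent.Lib.P064
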