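import Vale.Agent.Lib.P064.StarsA

/-!
Families of pairwise edge-disjoint stars in a graph `H`, and the number of images of their edge
set in the complete graph on `Fin n`.
-/

namespace Vale.Agent.Lib.P064

open Finset

variable {W : Type} [Fintype W] [DecidableEq W]

/-- The edges of the star with centre `c` and leaf set `S`. -/
def starE {α : Type*} [DecidableEq α] (c : α) (S : Finset α) : Finset (Sym2 α) :=
  S.image (fun x => s(c, x))

theorem starE_card {α : Type*} [DecidableEq α] (c : α) (S : Finset α) :
    (starE c S).card = S.card := by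
  unfold starE
  apply Finset.card_image_of_injective
  intro x y hxy
  exact Sym2.congr_right.mp hxy

theorem starE_image {α β : Type*} [DecidableEq α] [DecidableEq β] (ψ : α → β) (c : α)
    (S : Finset α) : (starE c S).image (Sym2.map ψ) = starE (ψ c) (S.image ψ) := by
  unfold starE
  rw [Finset.image_image, Finset.image_image]
  rfl

/-- The stars with centres `c ∈ C` and leaf sets `N c` are `j`-stars of `H` with pairwise
disjoint edge sets. -/
def IsStarFam (H : SimpleGraph W) [DecidableRel H.Adj] (j : ℕ) (C : Finset W)
    (N : W → Finset W) : Prop :=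
  (∀ c ∈ C, N c ⊆ H.neighborFinset c ∧ (N c).card = j) ∧
  ∀ c ∈ C, ∀ c' ∈ C, c ≠ c' → Disjoint (starE c (N c)) (starE c' (N c'))

/-- All edges of a family of stars. -/
def famEdges (C : Finset W) (N : W → Finset W) : Finset (Sym2 W) :=
  C.biUnion (fun c => starE c (N c))

theorem famEdges_sub (H : SimpleGraph W) [DecidableRel H.Adj] (j : ℕ) (C : Finset W)
    (N : W → Finset W) (h : IsStarFam H j C N) : ∀ e ∈ famEdges C N, e ∈ H.edgeSet := by
  intro e he
  unfold famEdges at he
  rw [Finset.mem_biUnion] at he
  obtain ⟨c, hc, he⟩ := he
  unfold starE at he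
  rw [Finset.mem_image] at he
  obtain ⟨x, hx, rfl⟩ := he
  rw [SimpleGraph.mem_edgeSet]
  have := (h.1 c hc).1 hx
  rwa [SimpleGraph.mem_neighborFinset] at this

theorem famEdges_card (H : SimpleGraph W) [DecidableRel H.Adj] (j : ℕ) (C : Finset W)
    (N : W → Finset W) (h : IsStarFam H j C N) : (famEdges C N).card = j * C.card := by
  unfold famEdges
  rw [Finset.card_biUnion]
  · rw [Finset.sum_congr rfl (fun c hc => by rw [starE_card, (h.1 c hc).2]), Finset.sum_const,
      smul_eq_mul, mul_comm]
  · intro c hc c' hc' hne
    exact h.2 c hc c' hc' hne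

/-- The pairs (centre, leaf set) of `j`-stars in the complete graph on `Fin n`. -/
def starsKn (n j : ℕ) : Finset ((_ : Fin n) × Finset (Fin n)) :=
  (Finset.univ : Finset (Fin n)).sigma (fun w => Finset.powersetCard j (Finset.univ.erase w))

theorem starsKn_card (n j : ℕ) : (starsKn n j).card = n * (n - 1).choose j := by
  unfold starsKn
  rw [Finset.card_sigma]
  have : ∀ w ∈ (Finset.univ : Finset (Fin n)),
      (Finset.powersetCard j (Finset.univ.erase w)).card = (n - 1).choose j := by
    intro w _
    rw [Finset.card_powersetCard, Finset.card_erase_of_mem (Finset.mem_univ _), Finset.card_univ,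
      Fintype.card_fin]
  rw [Finset.sum_congr rfl this, Finset.sum_const, Finset.card_univ, Fintype.card_fin,
    smul_eq_mul]

/-- The number of images in the complete graph of the edge set of a family of `t` pairwise
edge-disjoint `j`-stars is at most the number of `t`-sets of `j`-stars. -/
theorem imgs_famEdges_card_le (H : SimpleGraph W) [DecidableRel H.Adj] (j : ℕ) (hj : 1 ≤ j)
    (C : Finset W) (N : W → Finset W) (h : IsStarFam H j C N) (n : ℕ) :
    (imgs (famEdges C N) n).card ≤ (n * (n - 1).choose j).choose C.card := by
  classical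
  rw [← starsKn_card, ← Finset.card_powersetCard]
  have hsub : imgs (famEdges C N) n ⊆ (Finset.powersetCard C.card (starsKn n j)).image
      (fun T => T.biUnion (fun p => starE p.1 p.2)) := by
    intro B hB
    unfold imgs at hB
    rw [Finset.mem_image] at hB
    obtain ⟨ψ, hψ, rfl⟩ := hB
    rw [Finset.mem_filter] at hψ
    have hinj := hψ.2
    -- endpoints
    have hcen : ∀ c ∈ C, ∃ w, s(c, w) ∈ famEdges C N := by
      intro c hc
      have hcard := (h.1 c hc).2
      have hne : (N c).Nonempty := by
        rw [← Finset.card_pos]; omega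
      obtain ⟨x, hx⟩ := hne
      refine ⟨x, ?_⟩
      unfold famEdges
      rw [Finset.mem_biUnion]
      exact ⟨c, hc, Finset.mem_image_of_mem _ hx⟩
    have hleaf : ∀ c ∈ C, ∀ x ∈ N c, ∃ w, s(x, w) ∈ famEdges C N := by
      intro c hc x hx
      refine ⟨c, ?_⟩
      unfold famEdges
      rw [Finset.mem_biUnion]
      refine ⟨c, hc, ?_⟩
      rw [Sym2.eq_swap]
      exact Finset.mem_image_of_mem _ hx
    rw [Finset.mem_image]
    refine ⟨C.image (fun c => (⟨ψ c, (N c).image ψ⟩ : (_ : Fin n) × Finset (Fin n))), ?_, ?_⟩
    · rw [Finset.mem_powersetCard]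
      constructor
      · intro p hp
        rw [Finset.mem_image] at hp
        obtain ⟨c, hc, rfl⟩ := hp
        unfold starsKn
        rw [Finset.mem_sigma]
        refine ⟨Finset.mem_univ _, ?_⟩
        rw [Finset.mem_powersetCard]
        constructor
        · intro y hy
          rw [Finset.mem_image] at hy
          obtain ⟨x, hx, rfl⟩ := hy
          rw [Finset.mem_erase]
          refine ⟨?_, Finset.mem_univ _⟩
          intro heq
          have hxc : x = c := hinj (hleaf c hc x hx) (hcen c hc) heq
          have hadj := (h.1 c hc).1 hx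
          rw [SimpleGraph.mem_neighborFinset] at hadj
          exact H.ne_of_adj hadj hxc.symm
        · rw [Finset.card_image_of_injOn, (h.1 c hc).2]
          intro x hx y hy hxy
          exact hinj (hleaf c hc x hx) (hleaf c hc y hy) hxy
      · apply Finset.card_image_of_injOn
        intro c hc c' hc' hcc
        have h1 : ψ c = ψ c' := congrArg Sigma.fst hcc
        exact hinj (hcen c hc) (hcen c' hc') h1
    · rw [Finset.image_biUnion]
      unfold famEdges
      rw [Finset.biUnion_image]
      apply Finset.biUnion_congr rfl
      intro c _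
      exact (starE_image ψ c (N c)).symm
  exact (Finset.card_le_card hsub).trans Finset.card_image_le

end Vale.Agent.Lib.P064
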