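import Vale.Agent.Lib.P064.BddHost

/-!
The modified expectation threshold `p~_E(n,H)` of P064, attainment of the minimum defining
`p_E(n,H)`, and the comparison `p~_E ≤ 74 D p_E` for hosts of maximum degree at most `D`.
-/

namespace Vale.Agent.Lib.P064

open Finset

/-- The modified expectation threshold `p~_E(n,H)`: the least `p` in `[0,1]` such that every
subgraph `F` of `H` has expected count in `G(n,p)` at least half its count in `H`. -/
noncomputable def pEt (n : ℕ) {W : Type} [Fintype W] (H : SimpleGraph W) : ℝ :=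
  sInf {p : ℝ | 0 ≤ p ∧ p ≤ 1 ∧
    ∀ F : H.Subgraph,
      (H.copyCount F.coe : ℝ) / 2 ≤ gnpExp n p (fun G => (G.copyCount F.coe : ℝ))}

/-- The expectation of a fixed function of `G(n,p)` is continuous in `p`. -/
theorem gnpExp_continuous (n : ℕ) (f : SimpleGraph (Fin n) → ℝ) :
    Continuous (fun p : ℝ => gnpExp n p f) := by
  unfold gnpExp
  apply continuous_finsetSum
  intro A _
  exact ((continuous_id.pow _).mul ((continuous_const.sub continuous_id).pow _)).mul
    continuous_const

/-- `p = 1` is admissible in the definition of `p_E(n,H)` when `H` has at most `n` vertices. -/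
theorem one_mem_pE_set (n : ℕ) {W : Type} [Fintype W] (H : SimpleGraph W)
    (hW : Fintype.card W ≤ n) :
    (1 : ℝ) ∈ {p : ℝ | 0 ≤ p ∧ p ≤ 1 ∧
      ∀ F : H.Subgraph, 1 / 2 ≤ gnpExp n p (fun G => (G.copyCount F.coe : ℝ))} := by
  classical
  refine ⟨by norm_num, le_refl _, ?_⟩
  intro F
  rw [gnpExp_one]
  have hcard : Fintype.card F.verts ≤ n := (Fintype.card_subtype_le _).trans hW
  have h : 0 < (⊤ : SimpleGraph (Fin n)).copyCount F.coe :=
    SimpleGraph.copyCount_pos.mpr (contained_top F.coe hcard)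
  have h' : (1 : ℝ) ≤ ((⊤ : SimpleGraph (Fin n)).copyCount F.coe : ℝ) := by exact_mod_cast h
  linarith

/-- The minimum defining `p_E(n,H)` is attained. -/
theorem pE_mem (n : ℕ) {W : Type} [Fintype W] (H : SimpleGraph W) (hW : Fintype.card W ≤ n) :
    pE n H ∈ {p : ℝ | 0 ≤ p ∧ p ≤ 1 ∧
      ∀ F : H.Subgraph, 1 / 2 ≤ gnpExp n p (fun G => (G.copyCount F.coe : ℝ))} := by
  unfold pE
  apply IsClosed.csInf_mem
  · have h1 : IsClosed {p : ℝ | 0 ≤ p} := isClosed_le continuous_const continuous_id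
    have h2 : IsClosed {p : ℝ | p ≤ 1} := isClosed_le continuous_id continuous_const
    have h3 : IsClosed {p : ℝ | ∀ F : H.Subgraph,
        1 / 2 ≤ gnpExp n p (fun G => (G.copyCount F.coe : ℝ))} := by
      rw [Set.ofPred_forall]
      apply isClosed_iInter
      intro F
      exact isClosed_le continuous_const (gnpExp_continuous n _)
    exact h1.inter (h2.inter h3)
  · exact ⟨1, one_mem_pE_set n H hW⟩
  · exact ⟨0, fun p hp => hp.1⟩

/-- For hosts of maximum degree at most `D`: `p~_E(n,H) ≤ 74 D p_E(n,H)`. -/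
theorem pEt_le (n : ℕ) (hn : 0 < n) {W : Type} [Fintype W] (H : SimpleGraph W)
    (hW : Fintype.card W ≤ n) (D : ℕ) (hD1 : 1 ≤ D)
    (hD : ∀ w : W, (H.neighborSet w).ncard ≤ D) :
    pEt n H ≤ 74 * D * pE n H := by
  classical
  obtain ⟨hq0, hq1, hq⟩ := pE_mem n H hW
  have hx : (0 : ℝ) ≤ 74 * D * pE n H := by positivity
  have hmem : min 1 (74 * (D : ℝ) * pE n H) ∈ {p : ℝ | 0 ≤ p ∧ p ≤ 1 ∧
      ∀ F : H.Subgraph,
        (H.copyCount F.coe : ℝ) / 2 ≤ gnpExp n p (fun G => (G.copyCount F.coe : ℝ))} := by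
    refine ⟨le_min zero_le_one hx, min_le_left _ _, ?_⟩
    intro F
    have h := copyCount_le_gnpExp H n hn hW (pE n H) hq0 hq1 hq D hD1 hD F.coe
    have h0 : (0 : ℝ) ≤ (H.copyCount F.coe : ℝ) := Nat.cast_nonneg _
    linarith
  calc pEt n H ≤ min 1 (74 * (D : ℝ) * pE n H) := csInf_le ⟨0, fun p hp => hp.1⟩ hmem
    _ ≤ 74 * D * pE n H := min_le_right _ _

/-- A graph on at most `n` vertices has at most as many copies of `S` as the complete graph on
`Fin n`. -/
theorem copyCount_le_top {V W : Type*} [Fintype V] [Fintype W] (S : SimpleGraph V)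
    (H : SimpleGraph W) (n : ℕ) (hW : Fintype.card W ≤ n) :
    H.copyCount S ≤ (⊤ : SimpleGraph (Fin n)).copyCount S := by
  classical
  have ha := card_aut_pos S
  have h1 : H.labelledCopyCount S ≤ (Fintype.card W).descFactorial (Fintype.card V) := by
    rw [← Fintype.card_embedding_eq]
    unfold SimpleGraph.labelledCopyCount
    rw [Fintype.card_eq_nat_card, Fintype.card_eq_nat_card]
    apply Nat.card_le_card_of_injective (fun c : S.Copy H => c.toEmbedding)
    intro c1 c2 h
    apply DFunLike.coe_injective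
    exact congrArg (fun f : V ↪ W => (f : V → W)) h
  have h2 := Nat.descFactorial_le (Fintype.card V) hW
  have h3 := aut_mul_gnpExp_copyCount S n 1
  rw [gnpExp_one, one_pow, mul_one] at h3
  have h4 : Nat.card (S ≃g S) * (⊤ : SimpleGraph (Fin n)).copyCount S
      = n.descFactorial (Fintype.card V) := by exact_mod_cast h3
  have h5 := labelledCopyCount_eq_card_aut_mul_copyCount S H
  have h6 : Nat.card (S ≃g S) * H.copyCount S
      ≤ Nat.card (S ≃g S) * (⊤ : SimpleGraph (Fin n)).copyCount S := by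
    rw [← h5, h4]
    exact h1.trans h2
  exact Nat.le_of_mul_le_mul_left h6 ha

/-- `p_E(n,H) ≤ p~_E(n,H)`. -/
theorem pE_le_pEt (n : ℕ) {W : Type} [Fintype W] (H : SimpleGraph W)
    (hW : Fintype.card W ≤ n) : pE n H ≤ pEt n H := by
  classical
  unfold pE pEt
  apply csInf_le_csInf
  · exact ⟨0, fun p hp => hp.1⟩
  · refine ⟨1, by norm_num, le_refl _, ?_⟩
    intro F
    rw [gnpExp_one]
    have h : (H.copyCount F.coe : ℝ) ≤ ((⊤ : SimpleGraph (Fin n)).copyCount F.coe : ℝ) := by
      exact_mod_cast copyCount_le_top F.coe H n hW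
    have h0 : (0 : ℝ) ≤ (H.copyCount F.coe : ℝ) := Nat.cast_nonneg _
    linarith
  · rintro p ⟨h0, h1, h⟩
    refine ⟨h0, h1, fun F => ?_⟩
    have hpos : 0 < H.copyCount F.coe := SimpleGraph.copyCount_pos.mpr F.coe_isContained
    have h2 : (1 : ℝ) ≤ (H.copyCount F.coe : ℝ) := by exact_mod_cast hpos
    linarith [h F]

end Vale.Agent.Lib.P064
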